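import Vale.Agent.P096.Defs

/-! The correcting unitary and the adjustment of the vector. -/

namespace Vale.Agent.P096

universe u

section Aux

variable {H : Type u} [NormedAddCommGroup H] [InnerProductSpace ℂ H] [CompleteSpace H]

theorem adj_cor_mul {A : Alg H} {g a b : Op H} (ha : Cor A g a) (hb : Cor A g b) :
    Cor A g (a * b) :=
  ⟨mul_mem ha.mem hb.mem, by rw [← mul_assoc, ha.left], by rw [mul_assoc, hb.right]⟩

theorem adj_cor_sub {A : Alg H} {g a b : Op H} (ha : Cor A g a) (hb : Cor A g b) :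
    Cor A g (a - b) :=
  ⟨sub_mem ha.mem hb.mem, by rw [mul_sub, ha.left, hb.left], by rw [sub_mul, ha.right, hb.right]⟩

theorem adj_cor_self {A : Alg H} {g : Op H} (hg : IsStarProjection g) (h : g ∈ A) : Cor A g g :=
  ⟨h, hg.isIdempotentElem, hg.isIdempotentElem⟩

theorem adj_app {X : Op H} {η : H} {a b : ℝ} (h1 : ‖X‖ ≤ a) (h2 : ‖η‖ ≤ b) : ‖X η‖ ≤ a * b :=
  X.le_of_opNorm_le_of_le h1 h2

theorem adj_one : ‖(1 : Op H)‖ ≤ 1 := (IsStarProjection.one _).norm_le

end Aux

theorem uni (hT : Tools.{u}) : UniStmt.{u} := by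
  refine ⟨15, by norm_num, ?_⟩
  intro H _ _ _ A B ξ g r e f T κ γ θ hAB hTV he heA hf hfB hTs hTκ hκ hγ hSm hθ
  have hκ0 : 0 ≤ κ := (norm_nonneg _).trans hTκ
  have hθ0 : 0 ≤ θ := (norm_nonneg _).trans hθ
  have hG : IsStarProjection (e * f) := he.mul hf ((hAB.left e).1 heA.mem f hfB.mem)
  obtain ⟨c, hc, hc1, hcξ, -⟩ := hTV.2.part f hfB
  have hGξ : ∀ a, Cor A g a → (1 - e * f) (a ξ) = (a - e * (a * c)) ξ := fun a ha => by
    have h1 := congrArg (fun X : Op H => X ξ) ((hAB.left a).1 ha.mem f hfB.mem)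
    simp only [ContinuousLinearMap.mul_apply] at h1
    simp only [ContinuousLinearMap.sub_apply, ContinuousLinearMap.mul_apply,
      ContinuousLinearMap.one_apply, hcξ, h1]
  generalize e * f = G at hG hθ hGξ ⊢
  have hG1 := hG.one_sub.norm_le
  obtain ⟨S, hS⟩ : ∃ S, S = -(T - (1 - G) * T * (1 - G)) := ⟨_, rfl⟩
  have hSs : star S = -S := by
    rw [hS]
    simp only [star_neg, star_sub, star_mul, hTs, hG.isSelfAdjoint.star_eq, star_one]
    noncomm_ring
  have hSκ : ‖S‖ ≤ 2 * κ := by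
    rw [hS, norm_neg]
    have := norm_mul_le_of_le (norm_mul_le_of_le hG1 hTκ) hG1
    linarith [norm_sub_le T ((1 - G) * T * (1 - G))]
  have hSθ : ‖S‖ ≤ 2 * θ := by
    have h1 : S = star (T * G) * (1 - G) - T * G := by
      rw [hS, star_mul, hTs, hG.isSelfAdjoint.star_eq]
      noncomm_ring
    have h2 := norm_mul_le_of_le ((norm_star (T * G)).trans_le hθ) hG1
    rw [h1]
    linarith [norm_sub_le (star (T * G) * (1 - G)) (T * G)]
  have hSm' : Sm A g ξ S (3 * γ) := fun a ha => by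
    have h1 : ‖a - e * (a * c)‖ ≤ 2 * ‖a‖ := by
      have := norm_mul_le_of_le he.norm_le (norm_mul_le_of_le (le_refl ‖a‖) (hc1.trans hf.norm_le))
      linarith [norm_sub_le a (e * (a * c))]
    have h2 := (hSm _ (adj_cor_sub ha (adj_cor_mul heA (adj_cor_mul ha hc)))).trans
      (mul_le_mul_of_nonneg_left h1 hγ)
    rw [← hGξ a ha] at h2
    have h3 := adj_app hG1 h2
    have h4 := hSm a ha
    rw [hS]
    simp only [ContinuousLinearMap.neg_apply, norm_neg, ContinuousLinearMap.mul_apply,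
      ContinuousLinearMap.sub_apply T]
    linarith [norm_sub_le (T (a ξ)) ((1 - G) (T ((1 - G) (a ξ))))]
  obtain ⟨b, k, hb, hbh, -, hk, hbk, hcm⟩ := hT.sqrt (1 - S * S)
    (by rw [star_sub, star_one, star_mul, hSs, neg_mul_neg]) (by
      rw [sub_sub_cancel_left, norm_neg]
      have := norm_mul_le_of_le hSκ hSκ
      nlinarith)
  have hSb := (hcm S (by noncomm_ring)).1
  rw [sub_sub_cancel] at hbk
  have hW : star ((1 + S) * b) = b * (1 - S) := by
    rw [star_mul, hb, star_add, star_one, hSs, sub_eq_add_neg]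
  have hU : (1 + S) * b ∈ unitary (Op H) := by
    rw [Unitary.mem_iff, hW]
    refine ⟨Eq.trans ?_ hbh, Eq.trans ?_ hbh⟩
    · noncomm_ring
    · have h1 : (1 + S) * b = b * (1 + S) := by rw [add_mul, mul_add, hSb, one_mul, mul_one]
      have h2 : b * (1 - S) = (1 - S) * b := by rw [sub_mul, mul_sub, hSb, one_mul, mul_one]
      rw [h1, h2]
      noncomm_ring
  have e1 : (1 + S) * b - 1 - S = (1 + S) * k * S * S := by
    rw [mul_assoc, mul_assoc, ← hbk]
    noncomm_ring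
  have e2 : b * (1 - S) - 1 + S = k * (1 - S) * S * S := by
    have : b = 1 + k * (S * S) := by rw [← hbk, add_sub_cancel]
    rw [this]
    noncomm_ring
  have n1 : ‖(1 + S) * k * S‖ ≤ 5 * κ := by
    have := norm_mul_le_of_le (norm_mul_le_of_le (norm_add_le_of_le adj_one hSκ) hk) hSκ
    nlinarith
  have n2 : ‖k * (1 - S) * S‖ ≤ 5 * κ := by
    have := norm_mul_le_of_le (norm_mul_le_of_le hk (norm_sub_le_of_le adj_one hSκ)) hSκ
    nlinarith
  have n3 : ‖(1 + S) * b - 1‖ ≤ 2 * ‖S‖ := by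
    rw [sub_eq_iff_eq_add] at e1
    have h1 := norm_add_le_of_le (norm_mul_le_of_le n1 (le_refl ‖S‖)) (le_refl ‖S‖)
    rw [e1]
    nlinarith [norm_nonneg S]
  have n4 : ∀ X : Op H, ‖X‖ ≤ 5 * κ → Sm A g ξ (X * S) (15 * (κ * γ)) := fun X hX a ha =>
    (adj_app hX (hSm' a ha)).trans_eq (by ring)
  refine ⟨S, ⟨_, hU⟩, ?_, by linarith, fun a ha => (hSm' a ha).trans ?_, by linarith, by linarith,
    ?_, ?_⟩
  · rw [hS, neg_mul, sub_mul, mul_assoc _ (1 - G), hG.one_sub_mul_self, mul_zero, sub_zero,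
      neg_mul]
  · exact mul_le_mul_of_nonneg_right (by linarith) (norm_nonneg a)
  · exact e1 ▸ n4 _ n1
  · show Sm A g ξ (star ((1 + S) * b) - 1 + S) _
    rw [hW, e2]
    exact n4 _ n2

theorem adj_z (h : TruncStmt.{u}) {H : Type u} [NormedAddCommGroup H] [InnerProductSpace ℂ H]
    [CompleteSpace H] {A B D : Alg H} {ξ : H} {g r p : Op H} {δ γ : ℝ} (hAB : CP A B)
    (hTV : TV A B ξ g r) (hN : Near D B δ) (hδ : 0 < δ) (hγ : 0 < γ) (hp : IsStarProjection p)
    (hpD : p ∈ D) (hC : Cm A D ξ g p γ) :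
    ∃ z ∈ B, z * r = z ∧ ‖z - p * r‖ ≤ 3 * δ ∧ ‖z ξ - p ξ‖ ≤ 6 * γ := by
  obtain ⟨c, hc, hc1⟩ := hN p hpD
  have hc2 : ‖p - c‖ ≤ δ := hc1.trans (mul_le_of_le_one_right hδ.le hp.norm_le)
  have h1 : ∀ e, IsStarProjection e → Cor A g e → ‖e (p ξ) - p (e ξ)‖ ≤ γ := fun e he heA =>
    (hC e p heA (adj_cor_self hp hpD)).trans ((mul_le_of_le_one_right (by positivity)
      hp.norm_le).trans (mul_le_of_le_one_right hγ.le he.norm_le))
  have h2 : ∀ e ∈ A, e (c ξ) = c (e ξ) := fun e he =>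
    congrArg (fun X : Op H => X ξ) ((hAB.left e).1 he c hc)
  obtain ⟨m, hm, hmr, hm1, hm2⟩ := h H A B ξ g r (p ξ - c ξ) δ γ hAB hTV hδ hγ fun e he heA => by
    have h3 : e (p ξ - c ξ) = (p - c) (e ξ) + (e (p ξ) - p (e ξ)) := by
      rw [map_sub, h2 e heA.mem, ContinuousLinearMap.sub_apply]
      abel
    rw [h3]
    exact norm_add_le_of_le (adj_app hc2 le_rfl) (h1 e he heA)
  refine ⟨c * r + m, add_mem (mul_mem hc hTV.2.mem) hm, ?_, ?_, ?_⟩
  · rw [add_mul, hmr, mul_assoc, hTV.2.proj.isIdempotentElem]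
  · have h3 : c * r + m - p * r = m - (p - c) * r := by noncomm_ring
    rw [h3]
    exact (norm_sub_le_of_le hm1 (norm_mul_le_of_le hc2 hTV.2.proj.norm_le)).trans_eq (by ring)
  · have h3 := h1 g hTV.1.proj (adj_cor_self hTV.1.proj hTV.1.mem)
    rw [map_sub, h2 g hTV.1.mem, hTV.1.fix] at hm2
    rw [hTV.1.fix] at h3
    have h4 : (c * r + m) ξ - p ξ = (g (p ξ) - p ξ) - (g (p ξ) - c ξ - m ξ) := by
      rw [ContinuousLinearMap.add_apply, ContinuousLinearMap.mul_apply, hTV.2.fix]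
      abel
    rw [h4]
    exact (norm_sub_le_of_le h3 hm2).trans_eq (by ring)

theorem adj (hT : Tools.{u}) (h : TruncStmt.{u}) : AdjStmt.{u} := by
  refine ⟨100, by norm_num, ?_⟩
  intro H _ _ _ A B D ξ g r p δ κ γ hAB hTV hN hδ hδκ hκ hγ hp hpD hpr hC
  obtain ⟨z, hz, hzr, hz1, hz2⟩ := adj_z h hAB hTV hN hδ hγ hp hpD hC
  have hr := hTV.2.proj
  have hrr : r * r = r := hr.isIdempotentElem
  have hrs : star r = r := hr.isSelfAdjoint.star_eq
  have hpp : p * p = p := hp.isIdempotentElem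
  have hrz : r * star z = star z := by rw [← hrs, ← star_mul, hzr]
  have hz3 : ‖z - r‖ ≤ 4 * κ := by
    have e : z - r = z - p * r + (p - r) * r := by rw [sub_mul, hrr, sub_add_sub_cancel]
    have := norm_add_le_of_le hz1 (norm_mul_le_of_le hpr hr.norm_le)
    rw [e]
    linarith
  have hz4 : ‖z‖ ≤ 2 := by
    have := norm_add_le_of_le hz3 hr.norm_le
    rw [sub_add_cancel] at this
    linarith
  have e1 : star z * z + 1 - r - 1 = star z * (z - r) + star (r * (z - r)) := by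
    rw [star_mul, star_sub, hrs, mul_sub, sub_mul, hrr]
    abel
  have hh : ‖star z * z + 1 - r - 1‖ ≤ 12 * κ := by
    rw [e1]
    exact (norm_add_le_of_le (norm_mul_le_of_le ((norm_star z).trans_le hz4) hz3)
      ((norm_star _).trans_le (norm_mul_le_of_le hr.norm_le hz3))).trans_eq (by ring)
  obtain ⟨b, k, hb, hbh, hb2, hk, hbk, hcm⟩ := hT.sqrt (star z * z + 1 - r)
    (by rw [star_sub, star_add, star_one, star_mul, star_star, hrs]) (by linarith)
  have hbB : b ∈ B := (hAB.right b).2 fun x hx => (hcm x ((hAB.left x).1 hx _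
    (sub_mem (add_mem (mul_mem (star_mem hz) hz) (one_mem B)) hTV.2.mem))).1.symm
  have hrb : r * b = b * r := (hcm r (by
    rw [mul_sub, mul_add, sub_mul, add_mul, ← mul_assoc, hrz, mul_assoc, hzr, mul_one, one_mul])).1
  have hb1 : b * (1 - r) = 1 - r := by
    have e : (1 - (star z * z + 1 - r)) * (1 - r) = r - r * r - star z * (z - z * r) := by
      noncomm_ring
    rw [← sub_eq_zero, ← sub_one_mul, hbk, mul_assoc, e, hrr, hzr, sub_self, sub_self, mul_zero,
      sub_zero, mul_zero]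
  have hss : star (z * b) * (z * b) = r := by
    have e : star (z * b) * (z * b) = b * (star z * z + 1 - r) * b - (b * (1 - r)) * b := by
      rw [star_mul, hb]
      noncomm_ring
    rw [e, hbh, hb1, sub_mul, one_mul, hrb, ← mul_one_sub, hb1, sub_sub_cancel]
  have hsr : z * b * r = z * b := by rw [mul_assoc, ← hrb, ← mul_assoc, hzr]
  have hzs : z * b * ((star z * z + 1 - r) * b) = z := by
    rw [mul_assoc, ← mul_assoc b, hbh, mul_one]
  have e2 : z * b - r = z - r - z * k * (star z * z + 1 - r - 1) := by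
    have : b = 1 + k * (1 - (star z * z + 1 - r)) := by rw [← hbk, add_sub_cancel]
    conv_lhs => rw [this]
    noncomm_ring
  have hzk := norm_mul_le_of_le hz4 hk
  obtain ⟨c, hc, hc1, hcξ, -⟩ := hTV.2.part (b * r) ⟨mul_mem hbB hTV.2.mem,
    by rw [← mul_assoc, hrb, mul_assoc, hrr], by rw [mul_assoc, hrr]⟩
  have hc2 : ‖c‖ ≤ 2 := hc1.trans ((norm_mul_le_of_le hb2 hr.norm_le).trans_eq (mul_one 2))
  have hsξ : (z * b) ξ = c (z ξ) := by
    rw [ContinuousLinearMap.mul_apply, hTV.2.fix] at hcξ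
    rw [ContinuousLinearMap.mul_apply, ← hcξ]
    exact congrArg (fun X : Op H => X ξ) ((hAB.left c).1 hc.mem z hz).symm
  have hs1 : ‖(z * b) ξ - c (p ξ)‖ ≤ 2 * (6 * γ) := by
    rw [hsξ, ← map_sub]
    exact adj_app hc2 hz2
  have hmove : ‖(z * b) ξ - ξ‖ ≤ 100 * (‖p ξ - ξ‖ + γ) := by
    have h1 : ‖(z - r) ξ‖ ≤ 6 * γ + ‖p ξ - ξ‖ := by
      rw [ContinuousLinearMap.sub_apply, hTV.2.fix]
      exact (norm_sub_le_norm_sub_add_norm_sub _ (p ξ) _).trans (add_le_add hz2 le_rfl)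
    have h2 : ‖star (r * (z - r)) ξ‖ ≤ 1 * (6 * γ + ‖p ξ - ξ‖) := by
      rw [hT.trace hAB.symm hTV.symm _ ⟨mul_mem hTV.2.mem (sub_mem hz hTV.2.mem),
        by rw [← mul_assoc, hrr], by rw [mul_assoc, sub_mul, hzr, hrr]⟩]
      exact adj_app (X := r) hr.norm_le h1
    have h3 : ‖(star z * z + 1 - r - 1) ξ‖ ≤
        2 * (6 * γ + ‖p ξ - ξ‖) + 1 * (6 * γ + ‖p ξ - ξ‖) := by
      rw [e1]
      exact norm_add_le_of_le (adj_app (X := star z) ((norm_star z).trans_le hz4) h1) h2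
    have h4 : (z * b) ξ - ξ = (z * b - r) ξ := by rw [ContinuousLinearMap.sub_apply, hTV.2.fix]
    have h5 := norm_sub_le_of_le h1 (adj_app hzk h3)
    rw [h4, e2]
    refine h5.trans ?_
    linarith [norm_nonneg (p ξ - ξ)]
  have hs2 : ‖z * b - r‖ ≤ 100 * κ := by
    rw [e2]
    refine (norm_sub_le_of_le hz3 (norm_mul_le_of_le hzk hh)).trans ?_
    linarith
  have hs3 : ‖(1 - p) * (z * b)‖ ≤ 6 * δ := by
    have e : (1 - p) * (z * b) = (1 - p) * (z - p * r) * b + (p - p * p) * r * b := by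
      noncomm_ring
    rw [e, hpp, sub_self, zero_mul, zero_mul, add_zero]
    exact (norm_mul_le_of_le (norm_mul_le_of_le hp.one_sub.norm_le hz1) hb2).trans_eq (by ring)
  have hsB : z * b ∈ B := mul_mem hz hbB
  generalize (star z * z + 1 - r) * b = w at hzs
  generalize z * b = s at hss hsr hzs hs1 hmove hs2 hs3 hsB
  have hs4 : ‖s‖ ≤ 1 := by
    have h1 := CStarRing.norm_star_mul_self (x := s)
    rw [hss] at h1
    nlinarith [hr.norm_le, norm_nonneg s]
  have hs5 : s * star s * s = s := by rw [mul_assoc, hss, hsr]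
  have hr' : IsStarProjection (s * star s) :=
    ⟨by rw [IsIdempotentElem, ← mul_assoc, hs5], IsSelfAdjoint.mul_star_self s⟩
  have hnear : ‖p - s * star s‖ ≤ 12 * δ := by
    have h1 : (1 - s * star s) * z = 0 := by
      rw [← hzs, ← mul_assoc, sub_mul, one_mul, hs5, sub_self, zero_mul]
    have h2 : ‖(1 - s * star s) * p‖ ≤ 6 * δ := by
      have h3 := hr'.one_sub.norm_le
      generalize 1 - s * star s = q at h1 h3
      have e : q * p = q * p * ((p - r) * p) - q * (z - p * r) * p + q * z * p +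
          q * (p - p * (p * p)) := by noncomm_ring
      rw [h1, hpp, hpp, sub_self, zero_mul, mul_zero, add_zero, add_zero] at e
      have h4 := norm_sub_le_of_le
        (norm_mul_le_of_le (le_refl ‖q * p‖) (norm_mul_le_of_le hpr hp.norm_le))
        (norm_mul_le_of_le (norm_mul_le_of_le h3 hz1) hp.norm_le)
      rw [← e] at h4
      nlinarith [norm_nonneg (q * p)]
    have e : p - s * star s = (1 - s * star s) * p - s * star ((1 - p) * s) := by
      rw [star_mul, hp.one_sub.isSelfAdjoint.star_eq]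
      noncomm_ring
    rw [e]
    exact (norm_sub_le_of_le h2 (norm_mul_le_of_le hs4 ((norm_star _).trans_le hs3))).trans_eq
      (by ring)
  have hpc := adj_cor_self hp hpD
  have hC2 : ∀ y, Cor D p y → ‖(c * y - y * c) ξ‖ ≤ γ * 2 * ‖y‖ := fun y hy =>
    (hC c y hc hy).trans (by gcongr)
  have hcp : ‖(c * p - p * c) ξ‖ ≤ γ * 2 :=
    (hC2 p hpc).trans (mul_le_of_le_one_right (by positivity) hp.norm_le)
  refine ⟨s, hsB, hss, hs2, ⟨hp, hpD, hnear, ?_, fun x y hx hy => ?_⟩, hmove, c, hc, hc2,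
    by linarith⟩
  · have e : p (s ξ) - s ξ = -(1 - p) (s ξ - c (p ξ) + (c * p - p * c) ξ) := by
      have h1 : p (p (c ξ)) = p (c ξ) := congrArg (fun X : Op H => X (c ξ)) hpp
      simp only [ContinuousLinearMap.sub_apply, ContinuousLinearMap.mul_apply,
        ContinuousLinearMap.one_apply, map_add, map_sub, h1]
      abel
    rw [e, norm_neg]
    refine (adj_app hp.one_sub.norm_le (norm_add_le_of_le hs1 hcp)).trans ?_
    linarith
  · have e : (x * y - y * x) * (c * p) = x * y * (c * p - p * c) - x * (c * y - y * c) +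
        (x * c * y - y * (x * c)) - y * (x * c * p - p * (x * c)) +
        (x * (y * p - y) * c - (y * p - y) * x * c) := by noncomm_ring
    rw [hy.right, sub_self, mul_zero, zero_mul, zero_mul, zero_mul, sub_zero, add_zero] at e
    have e3 : (x * y - y * x) (s ξ) = (x * y - y * x) (s ξ - c (p ξ)) +
        ((x * y) ((c * p - p * c) ξ) - x ((c * y - y * c) ξ) + (x * c * y - y * (x * c)) ξ -
          y ((x * c * p - p * (x * c)) ξ)) := by
      rw [map_sub, eq_comm, sub_add_eq_add_sub, sub_eq_iff_eq_add, add_right_inj]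
      exact (congrArg (fun X : Op H => X ξ) e).symm
    have hxc : ‖x * c‖ ≤ ‖x‖ * 2 := norm_mul_le_of_le le_rfl hc2
    have h1 := adj_app (norm_sub_le_of_le (norm_mul_le x y) (norm_mul_le y x)) hs1
    have h2 := adj_app (norm_mul_le x y) hcp
    have h3 := adj_app (le_refl ‖x‖) (hC2 y hy)
    have h4 : ‖(x * c * y - y * (x * c)) ξ‖ ≤ γ * (‖x‖ * 2) * ‖y‖ :=
      (hC _ y (adj_cor_mul hx hc) hy).trans (by gcongr)
    have h5 : ‖(x * c * p - p * (x * c)) ξ‖ ≤ γ * (‖x‖ * 2) * 1 :=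
      (hC _ p (adj_cor_mul hx hc) hpc).trans (by gcongr; exact hp.norm_le)
    rw [e3]
    refine (norm_add_le_of_le h1 (norm_sub_le_of_le (norm_add_le_of_le (norm_sub_le_of_le h2 h3)
      h4) (adj_app (le_refl ‖y‖) h5))).trans ?_
    have h6 : 0 ≤ γ * ‖x‖ * ‖y‖ := by positivity
    linarith

end Vale.Agent.P096
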