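import Vale.Agent.P096.Defs

/-! The linearized problem in the setting of the iteration. -/

namespace Vale.Agent.P096

open Filter Topology MulOpposite

universe u

section

variable {H : Type u} [NormedAddCommGroup H] [InnerProductSpace ℂ H] [CompleteSpace H]

lemma apply_n3 {e f : Op H} (he : IsStarProjection e) (hf : IsStarProjection f) (x : Op H) :
    ‖e * x * f‖ ≤ ‖x‖ := by
  have h1 := norm_mul_le (e * x) f
  have h2 := norm_mul_le e x
  have h3 := he.norm_le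
  have h4 := hf.norm_le
  have h5 := mul_le_of_le_one_right (norm_nonneg (e * x)) h4
  have h6 := mul_le_of_le_one_left (norm_nonneg x) h3
  linarith

lemma apply_cor {A : Alg H} {g x : Op H} (hg : IsStarProjection g) (hgA : g ∈ A) (hx : x ∈ A) :
    Cor A g (g * x * g) :=
  ⟨mul_mem (mul_mem hgA hx) hgA, by rw [← mul_assoc, ← mul_assoc, hg.isIdempotentElem.eq],
    by rw [mul_assoc, hg.isIdempotentElem.eq]⟩

omit [CompleteSpace H] in
lemma apply_fix {g x : Op H} {ξ : H} (hξ : g ξ = ξ) (hx : x * g = g * x) : (g * x * g) ξ = x ξ := by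
  rw [mul_apply_eq_comp, hξ, ← hx, mul_apply_eq_comp, hξ]

lemma apply_star_comm {g x : Op H} (hg : IsStarProjection g) (hx : x * g = g * x) :
    star x * g = g * star x := by
  have := congrArg star hx
  rw [star_mul, star_mul, hg.isSelfAdjoint.star_eq] at this
  exact this.symm

/-- Partners of elements commuting with `g`. -/
lemma apply_partner {A B : Alg H} {ξ : H} {g r x : Op H} (h : Half A B ξ g r) (hx : x ∈ A)
    (hc : x * g = g * x) :
    ∃ c, c ∈ B ∧ c * r = r * c ∧ ‖c‖ ≤ ‖x‖ ∧ x ξ = c ξ ∧ star x ξ = star c ξ := by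
  obtain ⟨c, h1, h2, h3, h4⟩ := h.part _ (apply_cor h.proj h.mem hx)
  refine ⟨c, h1.mem, h1.right.trans h1.left.symm, h2.trans (apply_n3 h.proj h.proj x), ?_, ?_⟩
  · rw [h3, apply_fix h.fix hc]
  · rw [h4, star_mul, star_mul, h.proj.isSelfAdjoint.star_eq, ← mul_assoc,
      apply_fix h.fix (apply_star_comm h.proj hc)]

lemma apply_sm {A B : Alg H} {ξ : H} {g r x Z : Op H} {t s : ℝ} (h : Half A B ξ g r)
    (hZ : Sm A g ξ Z t) (ht : 0 ≤ t) (hx : x ∈ A) (hc : x * g = g * x) (hs : ‖x‖ ≤ s) :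
    ‖Z (x ξ)‖ ≤ t * s := by
  have := hZ _ (apply_cor h.proj h.mem hx)
  rw [apply_fix h.fix hc] at this
  exact this.trans (mul_le_mul_of_nonneg_left ((apply_n3 h.proj h.proj x).trans hs) ht)

lemma apply_one {A N : Alg H} {g q x : Op H} {κ : ℝ} (hq : IsStarProjection q) (hqN : q ∈ N)
    (hn : ‖q - g‖ ≤ κ) (hA : Near A N κ) (hx : x ∈ A) (hc : x * g = g * x) :
    ∃ n ∈ N, q * n = n * q ∧ ‖n - x‖ ≤ 6 * κ * ‖x‖ := by
  obtain ⟨n, h1, h2⟩ := hA x hx
  have hq' := hq.one_sub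
  have e := hq.isIdempotentElem.eq
  have e1 : q * (1 - q) = 0 := by rw [mul_sub, mul_one, e, sub_self]
  have e2 : (1 - q) * q = 0 := by rw [sub_mul, one_mul, e, sub_self]
  have hq1 : 1 - q ∈ N := sub_mem (one_mem _) hqN
  refine ⟨q * n * q + (1 - q) * n * (1 - q), add_mem (mul_mem (mul_mem hqN h1) hqN)
    (mul_mem (mul_mem hq1 h1) hq1), ?_, ?_⟩
  · rw [mul_add, add_mul, ← mul_assoc, ← mul_assoc, e, ← mul_assoc, ← mul_assoc, e1,
      mul_assoc (q * n), e, mul_assoc ((1 - q) * n), e2, zero_mul, zero_mul, mul_zero]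
  · obtain ⟨w, hw⟩ : ∃ w, w = x * (q - g) - (q - g) * x := ⟨_, rfl⟩
    have hw' : w = x * q - q * x := by rw [hw, mul_sub, sub_mul, hc]; abel
    have hwn : ‖w‖ ≤ 2 * κ * ‖x‖ := by
      have a1 := norm_mul_le x (q - g)
      have a2 := norm_mul_le (q - g) x
      have a3 := norm_sub_le (x * (q - g)) ((q - g) * x)
      have a4 := mul_le_mul_of_nonneg_left hn (norm_nonneg x)
      rw [hw]
      linarith
    have e3 : q * n * q + (1 - q) * n * (1 - q) - x = -(q * (x - n) * q) -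
        (1 - q) * (x - n) * (1 - q) + q * w * (1 - q) - (1 - q) * w * q := by
      have b1 : q * w * (1 - q) = -(q * x * (1 - q)) := by
        rw [hw', mul_sub q, sub_mul, ← mul_assoc q q, e, ← mul_assoc, mul_assoc (q * x) q, e1,
          mul_zero, zero_sub]
      have b2 : (1 - q) * w * q = (1 - q) * x * q := by
        rw [hw', mul_sub (1 - q), sub_mul, ← mul_assoc (1 - q) q, e2, zero_mul, zero_mul, sub_zero,
          ← mul_assoc, mul_assoc _ q q, e]
      rw [b1, b2]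
      noncomm_ring
    rw [e3]
    have a1 := apply_n3 hq hq (x - n)
    have a2 := apply_n3 hq' hq' (x - n)
    have a3 := apply_n3 hq hq' w
    have a4 := apply_n3 hq' hq w
    refine (norm_sub_le _ _).trans ?_
    have a5 := norm_add_le (-(q * (x - n) * q) - (1 - q) * (x - n) * (1 - q)) (q * w * (1 - q))
    have a6 := norm_sub_le (-(q * (x - n) * q)) ((1 - q) * (x - n) * (1 - q))
    rw [norm_neg] at a6
    linarith

lemma apply_tail {A B N : Alg H} {ξ : H} {g r q m a Z : Op H} {κ γ s : ℝ} (hAB : CP A B)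
    (h : Half A B ξ g r) (hs : Side B N ξ r g q κ γ) (hγ : 0 ≤ γ) (hm : ‖m‖ ≤ s)
    (hZ : Sm B r ξ Z (γ * s)) : Sm B r ξ (Z + (m * (1 - q) - a * (1 - g))) (3 * γ * s) := by
  intro c hc
  have e := hs.proj.isIdempotentElem.eq
  have h1 : (1 - g) (c ξ) = 0 := by
    rw [sub_apply, one_apply_eq_self, ← mul_apply_eq_comp g,
      (hAB.left g).1 h.mem c hc.mem, mul_apply_eq_comp, h.fix, sub_self]
  have h2 := hs.comm c q hc ⟨hs.mem, e, e⟩
  have h3 : (1 - q) (c ξ) = (c * q - q * c) ξ - c (q ξ - ξ) := by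
    simp only [sub_apply, one_apply_eq_self,
      mul_apply_eq_comp, map_sub]
    abel
  have h4 : ‖(1 - q) (c ξ)‖ ≤ 2 * γ * ‖c‖ := by
    rw [h3]
    have a1 := norm_sub_le ((c * q - q * c) ξ) (c (q ξ - ξ))
    have a2 := c.le_opNorm (q ξ - ξ)
    have a3 := mul_le_mul_of_nonneg_left hs.supp (norm_nonneg c)
    have a4 := mul_le_of_le_one_right (mul_nonneg hγ (norm_nonneg c)) hs.proj.norm_le
    linarith
  have h5 := hZ c hc
  have h6 := m.le_opNorm ((1 - q) (c ξ))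
  have h7 := mul_le_mul hm h4 (norm_nonneg _) ((norm_nonneg m).trans hm)
  rw [add_apply, sub_apply, mul_apply_eq_comp,
    mul_apply_eq_comp, h1, map_zero, sub_zero]
  have h8 := norm_add_le (Z (c ξ)) (m ((1 - q) (c ξ)))
  linarith

lemma apply_two {A B N : Alg H} {ξ : H} {g r q n : Op H} {κ γ : ℝ} (hAB : CP A B)
    (h : Half A B ξ g r) (hs : Side B N ξ r g q κ γ) (hp : Part B A N ξ r g q κ γ)
    (hκ : 0 ≤ κ) (hγ : 0 ≤ γ) (hN : Near N A κ) (hn : n ∈ N) (hc : q * n = n * q) :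
    ∃ x ∈ A, x * g = g * x ∧ ‖n - x‖ ≤ 6 * κ * ‖n‖ ∧ Sm B r ξ (n - x) (3 * γ * ‖n‖) ∧
      Sm B r ξ (star (n - x)) (3 * γ * ‖n‖) := by
  have hq := hs.proj
  have hq' := hq.one_sub
  have hg := h.proj
  have hg' := hg.one_sub
  have e := hq.isIdempotentElem.eq
  have e' := hq'.isIdempotentElem.eq
  have f := hg.isIdempotentElem.eq
  have f1 : g * (1 - g) = 0 := by rw [mul_sub, mul_one, f, sub_self]
  have f2 : (1 - g) * g = 0 := by rw [sub_mul, one_mul, f, sub_self]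
  have hq1 : 1 - q ∈ N := sub_mem (one_mem _) hs.mem
  have hg1 : 1 - g ∈ A := sub_mem (one_mem _) h.mem
  obtain ⟨a, a1, a2, a3, a4⟩ := hp _ (apply_cor hq hs.mem hn)
  obtain ⟨m, hm⟩ : ∃ m, m = (1 - q) * n * (1 - q) := ⟨_, rfl⟩
  obtain ⟨b, b1, b2⟩ := hN m (hm ▸ mul_mem (mul_mem hq1 hn) hq1)
  have n0 := apply_n3 hq hq n
  have n1 : ‖m‖ ≤ ‖n‖ := hm ▸ apply_n3 hq' hq' n
  have m1 : (1 - q) * m = m := by rw [hm, ← mul_assoc, ← mul_assoc, e']
  have m2 : m * (1 - q) = m := by rw [hm, mul_assoc, e']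
  have split : n = q * n * q + m := by
    have k1 : q * n * q = n * q := by rw [hc, mul_assoc, e]
    have k2 : m = n - n * q := by
      rw [hm, sub_mul, one_mul, hc, ← mul_one_sub, mul_assoc, e', mul_one_sub]
    rw [k1, k2]
    abel
  have key : n - (a + (1 - g) * b * (1 - g)) = q * n * q - a + (m - (1 - g) * b * (1 - g)) := by
    conv_lhs => rw [split]
    abel
  have mono : ∀ Z : Op H, Sm B r ξ Z (γ * ‖q * n * q‖) → Sm B r ξ Z (γ * ‖n‖) := fun Z hZ c hc =>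
    (hZ c hc).trans (mul_le_mul_of_nonneg_right (mul_le_mul_of_nonneg_left n0 hγ) (norm_nonneg c))
  refine ⟨a + (1 - g) * b * (1 - g), add_mem a1.mem (mul_mem (mul_mem hg1 b1) hg1), ?_, ?_, ?_, ?_⟩
  · rw [add_mul, mul_add, a1.left, a1.right, mul_assoc _ (1 - g) g, f2, ← mul_assoc, ← mul_assoc,
      f1, zero_mul, zero_mul, mul_zero]
  · have k1 : q * m = 0 := by rw [← m1, ← mul_assoc, mul_sub, mul_one, e, sub_self, zero_mul]
    have k2 : m * q = 0 := by rw [← m2, mul_assoc, sub_mul, one_mul, e, sub_self, mul_zero]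
    have k3 : m - (1 - g) * b * (1 - g) = (1 - g) * (m - b) * (1 - g) - (q - g) * m -
        (1 - g) * (m * (q - g)) * 1 := by
      rw [sub_mul q g, mul_sub m q, k1, k2]
      noncomm_ring
    have c1 := apply_n3 hg' hg' (m - b)
    have c2 := apply_n3 hg' (IsStarProjection.one _) (m * (q - g))
    have c3 := norm_mul_le (q - g) m
    have c4 := norm_mul_le m (q - g)
    have c5 := mul_le_mul hs.near n1 (norm_nonneg _) hκ
    have c6 := mul_le_mul_of_nonneg_left n0 hκ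
    have c7 := mul_le_mul_of_nonneg_left n1 hκ
    have c8 := norm_add_le (q * n * q - a) (m - (1 - g) * b * (1 - g))
    have c9 := norm_sub_le ((1 - g) * (m - b) * (1 - g) - (q - g) * m)
      ((1 - g) * (m * (q - g)) * 1)
    have c10 := norm_sub_le ((1 - g) * (m - b) * (1 - g)) ((q - g) * m)
    have c11 := mul_nonneg hκ (norm_nonneg n)
    rw [← k3] at c9
    rw [key]
    linarith
  · have := apply_tail (a := (1 - g) * b) hAB h hs hγ n1 (mono _ a3)
    rwa [m2, ← key] at this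
  · have k1 : star m * (1 - q) = star m := by
      rw [← hq'.isSelfAdjoint.star_eq, ← star_mul, m1]
    have := apply_tail (a := (1 - g) * star b) (m := star m) hAB h hs hγ
      (by rwa [norm_star]) (mono _ a4)
    rw [key, star_add, star_sub m, star_mul _ (1 - g), star_mul (1 - g) b,
      hg'.isSelfAdjoint.star_eq, ← mul_assoc]
    rwa [k1] at this

/-- The algebra of pairs acting in the same way on `ξ`. -/
def applyAlg (A B : Alg H) (ξ : H) (g r : Op H) (hAB : CP A B) (hg : IsStarProjection g)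
    (hr : IsStarProjection r) : StarSubalgebra ℂ (Op H × (Op H)ᵐᵒᵖ) where
  carrier := {z | z.1 ∈ A ∧ unop z.2 ∈ B ∧ z.1 * g = g * z.1 ∧ unop z.2 * r = r * unop z.2 ∧
    z.1 ξ = unop z.2 ξ ∧ star z.1 ξ = star (unop z.2) ξ}
  mul_mem' := by
    rintro ⟨x, c⟩ ⟨x', c'⟩ ⟨a1, a2, a3, a4, a5, a6⟩ ⟨b1, b2, b3, b4, b5, b6⟩
    simp only [Set.mem_ofPred_eq, Prod.mk_mul_mk, unop_mul] at *
    refine ⟨mul_mem a1 b1, mul_mem b2 a2, by rw [mul_assoc, b3, ← mul_assoc, a3, mul_assoc],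
      by rw [mul_assoc, a4, ← mul_assoc, b4, mul_assoc], ?_, ?_⟩
    · rw [mul_apply_eq_comp, b5, ← mul_apply_eq_comp,
        (hAB.left x).1 a1 _ b2, mul_apply_eq_comp, a5, mul_apply_eq_comp]
    · rw [star_mul, star_mul, mul_apply_eq_comp, a6, ← mul_apply_eq_comp,
        (hAB.left _).1 (star_mem b1) _ (star_mem a2), mul_apply_eq_comp, b6,
        mul_apply_eq_comp]
  add_mem' := by
    rintro ⟨x, c⟩ ⟨x', c'⟩ ⟨a1, a2, a3, a4, a5, a6⟩ ⟨b1, b2, b3, b4, b5, b6⟩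
    simp only [Set.mem_ofPred_eq, Prod.mk_add_mk, unop_add] at *
    refine ⟨add_mem a1 b1, add_mem a2 b2, by rw [add_mul, mul_add, a3, b3],
      by rw [add_mul, mul_add, a4, b4], ?_, ?_⟩
    · rw [add_apply, add_apply, a5, b5]
    · rw [star_add, star_add, add_apply, add_apply, a6, b6]
  algebraMap_mem' := fun c => ⟨A.algebraMap_mem c, B.algebraMap_mem c, Algebra.commutes c g,
    Algebra.commutes c r, rfl, rfl⟩
  star_mem' := by
    rintro ⟨x, c⟩ ⟨a1, a2, a3, a4, a5, a6⟩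
    refine ⟨star_mem a1, star_mem a2, apply_star_comm hg a3, apply_star_comm hr a4, a6, ?_⟩
    change star (star x) ξ = star (star (unop c)) ξ
    rw [star_star, star_star]
    exact a5

lemma apply_closed {A B : Alg H} (ξ : H) {g r : Op H} (hAB : CP A B) (hg : IsStarProjection g)
    (hr : IsStarProjection r) (hA : IsClosed (A : Set (Op H))) (hB : IsClosed (B : Set (Op H))) :
    IsClosed (applyAlg A B ξ g r hAB hg hr : Set (Op H × (Op H)ᵐᵒᵖ)) := by
  have c2 : Continuous fun z : Op H × (Op H)ᵐᵒᵖ => unop z.2 := continuous_unop.comp continuous_snd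
  exact (hA.preimage continuous_fst).inter ((hB.preimage c2).inter
    ((isClosed_eq (continuous_fst.mul continuous_const) (continuous_const.mul continuous_fst)).inter
    ((isClosed_eq (c2.mul continuous_const) (continuous_const.mul c2)).inter
    ((isClosed_eq (continuous_fst.clm_apply continuous_const) (c2.clm_apply continuous_const)).inter
    (isClosed_eq (continuous_fst.star.clm_apply continuous_const)
      (c2.star.clm_apply continuous_const))))))

/-- The bimodule attached to a local trace vector. -/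
lemma apply_bim {A B : Alg H} {ξ : H} {g r : Op H} (hAB : CP A B) (h : TV A B ξ g r)
    (hA : IsClosed (A : Set (Op H))) (hB : IsClosed (B : Set (Op H))) :
    ∃ (X : Type u) (_ : CStarAlgebra X) (b : Bim X H), b.Ω = ξ ∧
      (∀ a, b.l a ∈ A ∧ b.l a * g = g * b.l a ∧ ‖b.l a‖ ≤ ‖a‖) ∧
      (∀ a, b.r a ∈ B ∧ b.r a * r = r * b.r a) ∧
      (∀ x ∈ A, x * g = g * x → ∃ a, b.l a = x ∧ ‖a‖ ≤ ‖x‖) ∧
      ∀ c ∈ B, c * r = r * c → ∃ a, b.r a = c ∧ ‖a‖ ≤ ‖c‖ := by
  have hcl := apply_closed ξ hAB h.1.proj h.2.proj hA hB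
  have mkL : ∀ x ∈ A, x * g = g * x → ∃ a : applyAlg A B ξ g r hAB h.1.proj h.2.proj,
      a.1.1 = x ∧ ‖a‖ ≤ ‖x‖ := by
    intro x hx hc
    obtain ⟨c, c1, c2, c3, c4, c5⟩ := apply_partner h.1 hx hc
    exact ⟨⟨(x, op c), hx, c1, hc, c2, c4, c5⟩, rfl, max_le le_rfl c3⟩
  have mkR : ∀ c ∈ B, c * r = r * c → ∃ a : applyAlg A B ξ g r hAB h.1.proj h.2.proj,
      unop a.1.2 = c ∧ ‖a‖ ≤ ‖c‖ := by
    intro c hc hr
    obtain ⟨x, c1, c2, c3, c4, c5⟩ := apply_partner h.2 hc hr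
    exact ⟨⟨(x, op c), c1, hc, c2, hr, c4.symm, c5.symm⟩, rfl, max_le c3 le_rfl⟩
  refine ⟨applyAlg A B ξ g r hAB h.1.proj h.2.proj, StarSubalgebra.cstarAlgebra _,
    { l := (StarAlgHom.fst ℂ _ _).comp (StarSubalgebra.subtype _)
      r := ⟨⟨fun a => unop a.1.2, fun _ _ => rfl⟩, fun _ _ => rfl⟩
      r_mul := fun _ _ => rfl
      r_one := rfl
      r_star := fun _ => rfl
      r_norm := fun a => le_max_right _ _
      comm := fun a b => (hAB.left _).1 a.2.1 _ b.2.2.1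
      Ω := ξ
      cen := fun a => a.2.2.2.2.2.1
      liftL := fun a => ?_
      liftR := fun a => ?_ }, rfl, fun a => ⟨a.2.1, a.2.2.2.1, le_max_left _ _⟩,
    fun a => ⟨a.2.2.1, a.2.2.2.2.1⟩, mkL, mkR⟩
  · obtain ⟨a', h1, h2⟩ := mkL _ a.2.1 a.2.2.2.1
    exact ⟨a', congrArg (fun x : Op H => x ξ) h1, h2⟩
  · obtain ⟨a', h1, h2⟩ := mkR _ a.2.2.1 a.2.2.2.2.1
    exact ⟨a', a'.2.2.2.2.2.1.trans
      ((congrArg (fun x : Op H => x ξ) h1).trans a.2.2.2.2.2.1.symm), h2⟩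

lemma apply_mem {N : Alg H} {q n : Op H} (hq : IsStarProjection q) :
    n ∈ N ⊓ StarSubalgebra.centralizer ℂ {q} ↔ n ∈ N ∧ q * n = n * q := by
  rw [StarSubalgebra.mem_inf, StarSubalgebra.mem_centralizer_iff]
  simp [hq.isSelfAdjoint.star_eq]

lemma apply_approx {X : Type u} [CStarAlgebra X] (b : Bim X H) (π : X → Op H) {A B N : Alg H}
    {g r q : Op H} {κ γ : ℝ} (hAB : CP A B) (h : Half A B b.Ω g r)
    (hs : Side B N b.Ω r g q κ γ) (hp : Part B A N b.Ω r g q κ γ) (hκ : 0 ≤ κ) (hγ : 0 ≤ γ)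
    (hN : Close A N κ) (h1 : ∀ a, π a ∈ A ∧ π a * g = g * π a ∧ ‖π a‖ ≤ ‖a‖)
    (h2 : ∀ x ∈ A, x * g = g * x → ∃ a, π a = x ∧ ‖a‖ ≤ ‖x‖)
    (h3 : ∀ Z t, 0 ≤ t → Sm B r b.Ω Z t → b.Small Z t) :
    b.Approx π (N ⊓ StarSubalgebra.centralizer ℂ {q}) (6 * κ) (3 * γ) := by
  refine ⟨fun a => ?_, fun n hn => ?_⟩
  · obtain ⟨n, k1, k2, k3⟩ := apply_one hs.proj hs.mem hs.near hN.1 (h1 a).1 (h1 a).2.1
    exact ⟨n, (apply_mem hs.proj).2 ⟨k1, k2⟩,
      k3.trans (mul_le_mul_of_nonneg_left (h1 a).2.2 (by positivity))⟩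
  · rw [apply_mem hs.proj] at hn
    obtain ⟨x, k1, k2, k3, k4, k5⟩ := apply_two hAB h hs hp hκ hγ hN.2 hn.1 hn.2
    obtain ⟨a, rfl, -⟩ := h2 x k1 k2
    exact ⟨a, k3, h3 _ _ (by positivity) k4, h3 _ _ (by positivity) k5⟩

lemma apply_num {v γ η C x x' c c' d : ℝ} (hγ : 0 ≤ γ) (hη : 0 < η) (hC : 1 ≤ C) (hx : x' ≤ x)
    (hx' : 0 ≤ x') (hc : c' ≤ c) (hc' : 0 ≤ c') (hd : 0 ≤ d)
    (h : v ≤ 3 * γ * x' * (η / 3 * c' + C * d)) : v ≤ γ * x * (η * c + 6 * C * d) := by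
  refine h.trans ?_
  calc 3 * γ * x' * (η / 3 * c' + C * d) = γ * x' * (η * c' + 3 * C * d) := by ring
    _ ≤ _ := by
      have : 0 ≤ x := hx'.trans hx
      gcongr
      norm_num

end

theorem apply_of (hT : Tools.{u}) (h : BStmt.{u}) : ApplyStmt.{u} := by
  obtain ⟨C, hC, h⟩ := h
  refine ⟨6 * C, by linarith, fun η hη => ?_⟩
  obtain ⟨κ₀, hκ₀, h⟩ := h (η / 3) (by positivity)
  refine ⟨κ₀ / 6, by positivity, ?_⟩
  intro H _ _ _ A B N D ξ g r q p κ γ hAB hND htv hκ hκ' hγ hAN hBD hsD hsN hpD hpN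
  obtain ⟨X, _, b, rfl, l1, r1, l2, r2⟩ := apply_bim hAB htv (hT.closed hAB) (hT.closed hAB.symm)
  obtain ⟨T, t1, t2, t3, t4, t5⟩ := h X H b (N ⊓ StarSubalgebra.centralizer ℂ {q})
    (D ⊓ StarSubalgebra.centralizer ℂ {p}) (6 * κ) (3 * γ)
    (fun n hn d hd => (hND.left n).1 hn.1 d hd.1) (by positivity) (by linarith) (by positivity)
    (apply_approx b b.l hAB htv.1 hsN hpN hκ hγ hAN l1 l2 fun Z t ht hZ a => by
      rw [b.cen]
      exact apply_sm htv.2 hZ ht (r1 a).1 (r1 a).2 (b.r_norm a))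
    (apply_approx b b.r hAB.symm htv.2 hsD hpD hκ hγ hBD
      (fun a => ⟨(r1 a).1, (r1 a).2, b.r_norm a⟩) r2 fun Z t ht hZ a =>
      apply_sm htv.1 hZ ht (l1 a).1 (l1 a).2.1 (l1 a).2.2)
  refine ⟨T, t1, by linarith, fun x hx => ?_, fun x y c hx hy hc => ?_, fun c n x hc hn hx => ?_⟩
  · obtain ⟨a, rfl, ha⟩ := l2 x hx.mem (hx.right.trans hx.left.symm)
    refine (t3 a).trans (mul_le_mul ?_ ha (norm_nonneg _) (by positivity))
    nlinarith
  · obtain ⟨a, rfl, ha⟩ := l2 x hx.mem (hx.right.trans hx.left.symm)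
    obtain ⟨a', rfl, ha'⟩ := r2 c hc.mem (hc.right.trans hc.left.symm)
    exact apply_num hγ hη hC ha (norm_nonneg _) ha' (norm_nonneg _) (norm_nonneg _)
      (t4 a a' y ((apply_mem hsD.proj).2 ⟨hy.mem, hy.left.trans hy.right.symm⟩))
  · obtain ⟨a, rfl, ha⟩ := l2 x hx.mem (hx.right.trans hx.left.symm)
    obtain ⟨a', rfl, ha'⟩ := r2 c hc.mem (hc.right.trans hc.left.symm)
    exact apply_num hγ hη hC ha' (norm_nonneg _) ha (norm_nonneg _) (norm_nonneg _)
      (t5 a' a n ((apply_mem hsN.proj).2 ⟨hn.mem, hn.left.trans hn.right.symm⟩))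

end Vale.Agent.P096
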