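import Vale.Agent.P096.Defs
import Vale.Agent.P104.Groth
import Vale.Agent.P104.Pietsch
import Vale.Agent.P104.WStar3

/-! Cutting down makes small operators small in norm. -/

set_option linter.unusedSectionVars false

namespace Vale.Agent.P096

open Filter Topology
open scoped InnerProductSpace ComplexOrder

universe u

section Abs

variable {H : Type u} [NormedAddCommGroup H] [InnerProductSpace ℂ H] [CompleteSpace H]
  {M : Type u} [CStarAlgebra M]

theorem cut_flip {p d : M} (hp : IsStarProjection p) (hd : IsStarProjection d) (h : p * d = d) :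
    d * p = d := by
  simpa only [star_mul, hp.isSelfAdjoint.star_eq, hd.isSelfAdjoint.star_eq] using congrArg star h

/-- One greedy step. -/
theorem cut_step (ψ : M →ₗ[ℝ] ℝ) {g p : M} {t : ℝ} (ht : 0 ≤ t) (hp : IsStarProjection p)
    (h1 : 0 ≤ ψ (g - p)) (h2 : ∀ d, IsStarProjection d → p * d = d → ψ d ≤ t) :
    ∃ p', IsStarProjection p' ∧ p * p' = p' ∧ 0 ≤ ψ (g - p') ∧
      ∀ d, IsStarProjection d → p' * d = d → ψ d ≤ t / 2 := by
  by_cases h : ∀ d, IsStarProjection d → p * d = d → ψ d ≤ t / 2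
  · exact ⟨p, hp, hp.isIdempotentElem.eq, h1, h⟩
  push Not at h
  obtain ⟨d, hd, pd, h3⟩ := h
  have dp := cut_flip hp hd pd
  refine ⟨p - d, hd.sub_of_mul_eq_left hp dp, by rw [mul_sub, hp.isIdempotentElem.eq, pd], ?_,
    fun d' hd' h4 => ?_⟩
  · have : g - (p - d) = (g - p) + d := by abel
    rw [this, map_add]
    linarith
  · have a1 : d * d' = 0 := by
      rw [← h4, ← mul_assoc, mul_sub, dp, hd.isIdempotentElem.eq, sub_self, zero_mul]
    have a2 : p * d' = d' := by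
      rw [← h4, ← mul_assoc, mul_sub, hp.isIdempotentElem.eq, pd]
    have a3 := h2 (d + d') (hd.add hd' a1) (by rw [mul_add, pd, a2])
    rw [map_add] at a3
    linarith

/-- The greedy sequence. -/
theorem cut_seq (ψ : M →ₗ[ℝ] ℝ) {g : M} {t : ℝ} (ht : 0 ≤ t) (hg : IsStarProjection g)
    (h2 : ∀ d, IsStarProjection d → ψ d ≤ t) :
    ∃ p : ℕ → M, p 0 = g ∧ (∀ n, IsStarProjection (p n)) ∧ (∀ n, p n * p (n + 1) = p (n + 1)) ∧
      (∀ n, 0 ≤ ψ (g - p n)) ∧
      ∀ n d, IsStarProjection d → p n * d = d → ψ d ≤ t * (1 / 2) ^ n := by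
  let P : ℕ → M → Prop := fun n p => IsStarProjection p ∧ 0 ≤ ψ (g - p) ∧
    ∀ d, IsStarProjection d → p * d = d → ψ d ≤ t * (1 / 2) ^ n
  have step : ∀ n p, P n p → ∃ p', P (n + 1) p' ∧ p * p' = p' := by
    intro n p hp
    obtain ⟨p', a1, a2, a3, a4⟩ := cut_step ψ (g := g) (by positivity) hp.1 hp.2.1 hp.2.2
    refine ⟨p', ⟨a1, a3, fun d hd h => (a4 d hd h).trans (le_of_eq ?_)⟩, a2⟩
    ring
  choose nx h3 h4 using step
  have P0 : P 0 g := ⟨hg, by simp, fun d hd _ => by simpa using h2 d hd⟩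
  let s : ∀ n, {p // P n p} := fun n => Nat.rec ⟨g, P0⟩ (fun n p => ⟨nx n p.1 p.2, h3 n p.1 p.2⟩) n
  exact ⟨fun n => (s n).1, rfl, fun n => (s n).2.1, fun n => h4 n (s n).1 (s n).2,
    fun n => (s n).2.2.1, fun n => (s n).2.2.2⟩

/-- Domination by a state. -/
theorem cut_state [PartialOrder M] [StarOrderedRing M] (F : M →ₗ[ℂ] H) {Γ : ℝ} (hΓ : 0 ≤ Γ)
    (hF : ∀ x, ‖F x‖ ≤ Γ * ‖x‖) : ∃ φ : M →ₗ[ℝ] ℝ, (∀ b, 0 ≤ b → 0 ≤ φ b) ∧ φ 1 ≤ 1 ∧
      ∀ h, star h = h → ‖F h‖ ^ 2 ≤ 4 * Γ ^ 2 * φ (h * h) := by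
  classical
  obtain ⟨f, f1, f2, f3⟩ := P104.pietsch (B := M)
    (fun x => if star x = x then ‖F x‖ ^ 2 else 0) (4 * Γ ^ 2) (by positivity)
    (by
      intro r x
      rcases eq_or_ne r 0 with rfl | hr
      · simp
      have hr' : (r : ℂ) ≠ 0 := by exact_mod_cast hr
      have : star ((r : ℂ) • x) = (r : ℂ) • x ↔ star x = x := by
        rw [star_smul, Complex.star_def, Complex.conj_ofReal]
        exact (smul_right_injective M hr').eq_iff
      simp only [this]
      split_ifs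
      · rw [map_smul, norm_smul, mul_pow, Complex.norm_real, Real.norm_eq_abs, sq_abs]
      · simp)
    (by
      intro ι _ x
      set N := ‖∑ i, star (x i) * x i‖ with hN
      have N0 : 0 ≤ N := norm_nonneg _
      have hS : 0 ≤ ∑ i, star (x i) * x i := Finset.sum_nonneg fun i _ => star_mul_self_nonneg _
      let h : ι → M := fun i => if star (x i) = x i then x i else 0
      have key : ∀ s : ℝ, 0 < s → N ≤ s ^ 2 →
          ∑ i, (if star (x i) = x i then ‖F (x i)‖ ^ 2 else 0) ≤ 4 * Γ ^ 2 * s ^ 2 := by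
        intro s hs hNs
        have a1 : ∀ i, star (h i) = h i := fun i => by
          simp only [h]
          split_ifs with hi
          · exact hi
          · simp
        have a2 : ∑ i, h i * h i ≤ ∑ i, star (x i) * x i := Finset.sum_le_sum fun i _ => by
          simp only [h]
          split_ifs with hi
          · rw [hi]
          · simp
        have a3 := P104.groth F hΓ hF (fun i => s⁻¹ • h i)
          (fun i => by rw [star_smul, star_trivial, a1]) (by
            simp only [smul_mul_smul_comm]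
            rw [← Finset.smul_sum]
            refine (smul_le_smul_of_nonneg_left a2 (by positivity)).trans ?_
            rw [← CStarAlgebra.norm_le_one_iff_of_nonneg _ (smul_nonneg (by positivity) hS),
              norm_smul, Real.norm_of_nonneg (by positivity), ← hN]
            rw [← mul_inv, ← sq, inv_mul_le_iff₀ (by positivity)]
            linarith)
        have a4 : ∀ i, (if star (x i) = x i then ‖F (x i)‖ ^ 2 else 0)
            = ‖F (s⁻¹ • h i)‖ ^ 2 * s ^ 2 := fun i => by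
          rw [LinearMap.map_smul_of_tower, norm_smul, Real.norm_of_nonneg (by positivity)]
          simp only [h]
          split_ifs
          · field_simp
          · simp
        simp only [a4]
        rw [← Finset.sum_mul]
        exact mul_le_mul_of_nonneg_right a3 (by positivity)
      refine le_of_forall_pos_le_add fun ε hε => ?_
      have e0 : 0 < N + ε / (4 * Γ ^ 2 + 1) := by positivity
      have e1 := Real.sq_sqrt e0.le
      have e2 : 0 < ε / (4 * Γ ^ 2 + 1) := by positivity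
      have e3 := key _ (Real.sqrt_pos.2 e0) (by rw [e1]; linarith)
      rw [e1] at e3
      have e4 : 4 * Γ ^ 2 * (ε / (4 * Γ ^ 2 + 1)) ≤ ε := by
        rw [← mul_div_assoc, div_le_iff₀ (by positivity)]
        nlinarith
      linarith)
  refine ⟨Complex.reLm ∘ₗ f.restrictScalars ℝ, fun b hb => ?_, f2, fun h hh => ?_⟩
  · obtain ⟨y, rfl⟩ := CStarAlgebra.nonneg_iff_eq_star_mul_self.1 hb
    exact (Complex.nonneg_iff.1 (f1 y)).1
  · have := f3 h
    rw [if_pos hh, hh] at this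
    exact this

theorem cut_abs (ρ : M →⋆ₐ[ℂ] (H →L[ℂ] H)) (hR : P104.Rickart M) (ξ : H) (F : M →ₗ[ℂ] H)
    {Γ θ : ℝ} (hΓ : 0 ≤ Γ) (hθ : 0 < θ) (hF : ∀ x, ‖F x‖ ≤ Γ * ‖x‖) {g : M}
    (hg : IsStarProjection g)
    (hd : ∀ p : ℕ → M, (∀ n, IsStarProjection (p n)) → (∀ n, p n * p (n + 1) = p (n + 1)) →
      ∃ e, IsStarProjection e ∧ (∀ n, p n * e = e) ∧
        Tendsto (fun n => ρ (p n) ξ) atTop (𝓝 (ρ e ξ))) :
    ∃ e, IsStarProjection e ∧ g * e = e ∧ θ * ‖ρ g ξ - ρ e ξ‖ ≤ 4 * Γ ∧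
      ∀ h, star h = h → e * h = h → ‖F h‖ ≤ θ / 2 * ‖ρ h ξ‖ := by
  let _ := CStarAlgebra.spectralOrder M
  have _ := CStarAlgebra.spectralOrderedRing M
  obtain ⟨φ, f1, f2, f3⟩ := cut_state F hΓ hF
  let ψ : M →ₗ[ℝ] ℝ := (16 * Γ ^ 2) • φ - θ ^ 2 • P104.vf ρ ξ
  have hψ : ∀ b, ψ b = 16 * Γ ^ 2 * φ b - θ ^ 2 * P104.vf ρ ξ b := fun b => rfl
  have f4 : ∀ b, b ≤ 1 → φ b ≤ 1 := fun b hb => by
    have := f1 _ (sub_nonneg.2 hb)
    rw [map_sub] at this
    linarith
  have hC : ∀ b, 0 ≤ b → b ≤ 1 → ψ b ≤ 16 * Γ ^ 2 := fun b h0 h1 => by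
    have a1 := mul_nonneg (sq_nonneg θ) (P104.vf_nonneg (ρ := ρ) ξ h0)
    have a2 := mul_le_mul_of_nonneg_left (f4 b h1) (by positivity : 0 ≤ 16 * Γ ^ 2)
    rw [hψ]
    linarith
  have hle : ∀ d : M, IsStarProjection d → d ≤ 1 := fun d hd => sub_nonneg.1 hd.one_sub.nonneg
  obtain ⟨p, p0, p1, p2, p3, p4⟩ := cut_seq ψ (t := 16 * Γ ^ 2) (by positivity) hg
    fun d hd => hC d hd.nonneg (hle d hd)
  obtain ⟨e, he, e1, e2⟩ := hd p p1 p2
  have gp : ∀ n, g * p n = p n := by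
    intro n
    induction n with
    | zero => rw [p0, hg.isIdempotentElem.eq]
    | succ n ih => rw [← p2 n, ← mul_assoc, ih]
  have e3 : ∀ d, IsStarProjection d → e * d = d → ψ d ≤ 0 := by
    intro d hd ed
    have hl := (tendsto_pow_atTop_nhds_zero_of_lt_one (r := (1 / 2 : ℝ)) (by norm_num)
      (by norm_num)).const_mul (16 * Γ ^ 2)
    rw [mul_zero] at hl
    exact ge_of_tendsto' hl fun n => p4 n d hd (by rw [← ed, ← mul_assoc, e1])
  refine ⟨e, he, by rw [← p0]; exact e1 0, ?_, fun h hh eh => ?_⟩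
  · refine le_of_tendsto' (((tendsto_const_nhds (x := ρ g ξ)).sub e2).norm.const_mul θ) fun n => ?_
    have a1 : IsStarProjection (g - p n) :=
      (p1 n).sub_of_mul_eq_left hg (cut_flip hg (p1 n) (gp n))
    have a2 := P104.vf_star_mul (ρ := ρ) ξ (g - p n)
    rw [a1.isSelfAdjoint.star_eq, a1.isIdempotentElem.eq, map_sub ρ,
      sub_apply] at a2
    have a3 := p3 n
    rw [hψ, a2] at a3
    have a4 := mul_le_mul_of_nonneg_left (f4 _ (hle _ a1)) (by positivity : 0 ≤ 16 * Γ ^ 2)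
    refine (pow_le_pow_iff_left₀ (by positivity) (by positivity) two_ne_zero).1 ?_
    nlinarith
  · have b0 : 0 ≤ h * h := by simpa only [hh] using star_mul_self_nonneg h
    set N := ‖h * h‖ + 1 with hN
    have N0 : 0 < N := by positivity
    have b1 : 0 ≤ N⁻¹ • (h * h) := smul_nonneg (by positivity) b0
    have b2 := hR.halving ψ hC e3 b1 (by
      rw [← CStarAlgebra.norm_le_one_iff_of_nonneg _ b1, norm_smul,
        Real.norm_of_nonneg (by positivity), inv_mul_le_iff₀ N0]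
      linarith) (by rw [mul_smul_comm, ← mul_assoc, eh])
    rw [map_smul, smul_eq_mul] at b2
    have b3 : ψ (h * h) ≤ 0 := by
      by_contra hc
      have := mul_pos (inv_pos.2 N0) (not_le.1 hc)
      linarith
    have b4 := P104.vf_star_mul (ρ := ρ) ξ h
    rw [hh] at b4
    rw [hψ, b4] at b3
    have b5 := f3 h hh
    refine (pow_le_pow_iff_left₀ (by positivity) (by positivity) two_ne_zero).1 ?_
    nlinarith

end Abs

section Conc

variable {H : Type u} [NormedAddCommGroup H] [InnerProductSpace ℂ H] [CompleteSpace H]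

theorem cut_rickart (hT : Tools.{u}) {A B : Alg H} (hAB : CP A B)
    [IsClosed (A : Set (Op H))] : P104.Rickart A := by
  intro a
  obtain ⟨e, he, e1, e2, e3⟩ := hT.supp (Set.range (a : Op H))
  have hc : ∀ c ∈ B, ∀ η ∈ Set.range (a : Op H), c η ∈ Set.range (a : Op H) := by
    rintro c hc _ ⟨η, rfl⟩
    refine ⟨c η, ?_⟩
    rw [← mul_apply_eq_comp, (hAB.left _).1 a.2 c hc, mul_apply_eq_comp]
  have eA : e ∈ A := (hAB.left e).2 fun c h => (e3 c (hc c h) (hc _ (star_mem h))).symm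
  refine ⟨⟨e, eA⟩, ⟨Subtype.ext he.isIdempotentElem.eq, Subtype.ext he.isSelfAdjoint.star_eq⟩,
    Subtype.ext ?_, fun b hb => Subtype.ext ?_⟩
  · ext η
    exact e1 _ ⟨η, rfl⟩
  · ext η
    have h0 : (b : Op H) * a = 0 := congrArg Subtype.val hb
    have h1 : Submodule.span ℂ (Set.range (a : Op H)) ≤ LinearMap.ker (b : Op H).toLinearMap := by
      rw [Submodule.span_le]
      rintro _ ⟨ζ, rfl⟩
      exact congrArg (fun x : Op H => x ζ) h0
    exact closure_minimal (s := (Submodule.span ℂ (Set.range (a : Op H)) : Set H))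
      (t := {ζ | (b : Op H) ζ = 0}) h1 (isClosed_eq (b : Op H).continuous continuous_const) (e2 η)

theorem cut_sa (hT : Tools.{u}) {A B : Alg H} (hAB : CP A B) {ξ : H} {g T : Op H} {Γ θ : ℝ}
    (hg : IsStarProjection g) (gA : g ∈ A) (gξ : g ξ = ξ) (hΓ : 0 ≤ Γ) (hθ : 0 < θ)
    (hS : Sm A g ξ T Γ) : ∃ e, IsStarProjection e ∧ Cor A g e ∧ θ * ‖ξ - e ξ‖ ≤ 4 * Γ ∧
      ∀ h, star h = h → Cor A e h → ‖T (h ξ)‖ ≤ θ / 2 * ‖h ξ‖ := by
  have := hT.closed hAB
  have gg := hg.isIdempotentElem.eq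
  let F : A →ₗ[ℂ] H :=
    { toFun := fun x => T (g ((x : Op H) ξ))
      map_add' := fun x y => by simp
      map_smul' := fun c x => by simp }
  have hF : ∀ x, ‖F x‖ ≤ Γ * ‖x‖ := fun x => by
    have a1 := hS (g * x * g) ⟨mul_mem (mul_mem gA x.2) gA, by
      rw [← mul_assoc, ← mul_assoc, gg], by rw [mul_assoc, gg]⟩
    rw [mul_apply_eq_comp, mul_apply_eq_comp, gξ] at a1
    refine a1.trans (mul_le_mul_of_nonneg_left ?_ hΓ)
    have a2 := hg.norm_le
    calc ‖g * x * g‖ ≤ ‖g‖ * ‖(x : Op H)‖ * ‖g‖ :=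
          (norm_mul_le _ _).trans (by gcongr; exact norm_mul_le _ _)
      _ ≤ 1 * ‖(x : Op H)‖ * 1 := by gcongr
      _ = ‖x‖ := by rw [one_mul, mul_one]; rfl
  obtain ⟨e, he, e1, e2, e3⟩ := cut_abs A.subtype (cut_rickart hT hAB) ξ F hΓ hθ hF
    (g := ⟨g, gA⟩) ⟨Subtype.ext gg, Subtype.ext hg.isSelfAdjoint.star_eq⟩ (by
      intro p p1 p2
      obtain ⟨e, eA, he, e1, e2⟩ := hT.decr hAB (fun n => (p n : Op H))
        (fun n => (p1 n).map A.subtype) (fun n => (p n).2) fun n => congrArg Subtype.val (p2 n)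
      exact ⟨⟨e, eA⟩, ⟨Subtype.ext he.isIdempotentElem.eq, Subtype.ext he.isSelfAdjoint.star_eq⟩,
        fun n => Subtype.ext (e1 n), e2 ξ⟩)
  have he' : IsStarProjection (e : Op H) := he.map A.subtype
  have ge : g * e = e := congrArg Subtype.val e1
  refine ⟨e, he', ⟨e.2, ge, cut_flip hg he' ge⟩, ?_, fun h hh hc => ?_⟩
  · change θ * ‖g ξ - (e : Op H) ξ‖ ≤ _ at e2
    rwa [gξ] at e2
  · have a1 := e3 ⟨h, hc.mem⟩ (Subtype.ext hh) (Subtype.ext hc.left)
    change ‖T (g (h ξ))‖ ≤ θ / 2 * ‖h ξ‖ at a1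
    rwa [← mul_apply_eq_comp g h, ← hc.left, ← mul_assoc, ge, hc.left] at a1

end Conc

theorem cut (hT : Tools.{u}) : CutStmt.{u} := by
  refine ⟨4, by norm_num, fun H _ _ _ A B ξ g r T Γ θ hAB hV hΓ hθ hS => ?_⟩
  obtain ⟨e, he, ce, e1, e2⟩ := cut_sa hT hAB hV.1.proj hV.1.mem hV.1.fix hΓ hθ hS
  obtain ⟨f, hf, cf, fe⟩ := hT.partP hAB hV e he ce
  have hV' := hT.tvCut hAB hV e f he ce hf cf fe.symm
  refine ⟨e, f, he, ce, hf, cf, fe.symm, ?_, ?_⟩
  · rw [le_div_iff₀ hθ]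
    linarith
  have ee := he.isIdempotentElem.eq
  have es := he.isSelfAdjoint.star_eq
  have key : ∀ a, Cor A e a → ‖T (a ξ)‖ ≤ θ * ‖a ξ‖ := by
    intro a ha
    have l1 : e * star a = star a := by simpa only [star_mul, es] using congrArg star ha.right
    have l2 : star a * e = star a := by simpa only [star_mul, es] using congrArg star ha.left
    have tr := hT.trace hAB hV a ⟨ha.mem, by rw [← ha.left, ← mul_assoc, ce.left],
      by rw [← ha.right, mul_assoc, ce.right]⟩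
    have b1 := e2 (a + star a) (by rw [star_add, star_star, add_comm])
      ⟨add_mem ha.mem (star_mem ha.mem), by rw [mul_add, ha.left, l1],
        by rw [add_mul, ha.right, l2]⟩
    have b2 := e2 (Complex.I • (a - star a)) (by
        rw [star_smul, star_sub, star_star, Complex.star_def, Complex.conj_I, neg_smul, ← smul_neg,
          neg_sub])
      ⟨SMulMemClass.smul_mem _ (sub_mem ha.mem (star_mem ha.mem)),
        by rw [mul_smul_comm, mul_sub, ha.left, l1], by rw [smul_mul_assoc, sub_mul, ha.right, l2]⟩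
    rw [smul_apply, map_smul, norm_smul, norm_smul, Complex.norm_I, one_mul,
      one_mul, sub_apply, map_sub] at b2
    rw [add_apply, map_add] at b1
    have c1 := norm_add_le (a ξ) (star a ξ)
    have c2 := norm_sub_le (a ξ) (star a ξ)
    rw [tr] at c1 c2
    have c3 := norm_add_le (T (a ξ) + T (star a ξ)) (T (a ξ) - T (star a ξ))
    rw [add_add_sub_cancel, ← two_smul ℝ, norm_smul, Real.norm_two] at c3
    have c4 := mul_le_mul_of_nonneg_left c1 (by positivity : 0 ≤ θ / 2)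
    have c5 := mul_le_mul_of_nonneg_left c2 (by positivity : 0 ≤ θ / 2)
    linarith
  refine ContinuousLinearMap.opNorm_le_bound _ hθ.le fun η => ?_
  have cl : ‖T (e (f η))‖ ≤ θ * ‖e (f η)‖ := by
    refine closure_minimal (t := {ζ | ‖T (e ζ)‖ ≤ θ * ‖e ζ‖}) ?_
      (isClosed_le (by fun_prop) (by fun_prop)) (hV'.2.cyc η)
    rintro _ ⟨c, hc, rfl⟩
    exact key (e * c * e) ⟨mul_mem (mul_mem ce.mem hc) ce.mem,
      by rw [← mul_assoc, ← mul_assoc, ee], by rw [mul_assoc, ee]⟩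
  refine cl.trans (mul_le_mul_of_nonneg_left ?_ hθ.le)
  calc ‖e (f η)‖ ≤ ‖e‖ * (‖f‖ * ‖η‖) := (e.le_opNorm _).trans (by gcongr; exact f.le_opNorm _)
    _ ≤ 1 * (1 * ‖η‖) := by gcongr; exacts [he.norm_le, hf.norm_le]
    _ = ‖η‖ := by ring

end Vale.Agent.P096
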