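import Vale.Agent.P096.Defs

/-! Gluing the local unitaries along a maximal orthogonal family of isometries. -/

namespace Vale.Agent.P096

open Filter Topology ContinuousLinearMap
open scoped InnerProductSpace

universe u

variable {H : Type u} [NormedAddCommGroup H] [InnerProductSpace ℂ H] [CompleteSpace H]

theorem glue_diag (ι : Type u) :
    ∃ π : Op H →⋆ₐ[ℂ] Op (lp (fun _ : ι => H) 2), ∀ x f i, π x f i = x (f i) :=
  ⟨{ toFun := fun x => lp.mapCLM 2 (fun _ => x) (norm_nonneg x) fun _ => le_rfl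
     map_one' := by ext; rfl
     map_mul' := fun _ _ => by ext; rfl
     map_zero' := by ext; rfl
     map_add' := fun _ _ => by ext; rfl
     commutes' := fun _ => by ext; rfl
     map_star' := fun x => (eq_adjoint_iff _ _).2 fun f g =>
       tsum_congr fun i => adjoint_inner_left x (g i) (f i) }, fun _ _ _ => rfl⟩

theorem glue_col {ι : Type u} {w : ι → Op H} (h1 : ∀ i, w i * star (w i) * w i = w i)
    (h2 : ∀ i j, i ≠ j → w i * star (w j) = 0) :
    ∃ W : H →L[ℂ] lp (fun _ : ι => H) 2, (∀ η i, W η i = w i η) ∧ ‖W‖ ≤ 1 := by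
  have key : ∀ η (s : Finset ι), ∑ i ∈ s, ‖w i η‖ ^ (2 : ENNReal).toReal ≤
      ‖η‖ ^ (2 : ENNReal).toReal := fun η s => by
    have hp : IsStarProjection (∑ i ∈ s, star (w i) * w i) := by
      refine ⟨?_, by simp only [IsSelfAdjoint, star_sum, star_mul, star_star]⟩
      rw [IsIdempotentElem, Finset.sum_mul_sum]
      refine Finset.sum_congr rfl fun i hi => ?_
      rw [Finset.sum_eq_single_of_mem i hi fun j _ hj => ?_]
      · rw [mul_assoc, ← mul_assoc (w i), h1]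
      · rw [mul_assoc, ← mul_assoc (w i), h2 i j hj.symm, zero_mul, mul_zero]
    have e : ∑ i ∈ s, ‖w i η‖ ^ 2 = RCLike.re ⟪η, (∑ i ∈ s, star (w i) * w i) η⟫_ℂ := by
      simp only [sum_apply, inner_sum, map_sum, mul_apply_eq_comp, star_eq_adjoint,
        adjoint_inner_right, inner_self_eq_norm_sq]
    rw [ENNReal.toReal_ofNat]
    simp only [Real.rpow_ofNat]
    rw [e, sq]
    refine (re_inner_le_norm _ _).trans (mul_le_mul_of_nonneg_left ?_ (norm_nonneg _))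
    exact (le_of_opNorm_le _ hp.norm_le η).trans_eq (one_mul _)
  refine ⟨LinearMap.mkContinuous
    { toFun := fun η => ⟨fun i => w i η, memℓp_gen' (key η)⟩
      map_add' := fun _ _ => lp.ext (funext fun i => map_add (w i) _ _)
      map_smul' := fun _ _ => lp.ext (funext fun i => map_smul (w i) _ _) } 1 fun η => ?_,
    fun _ _ => rfl, LinearMap.mkContinuous_norm_le _ zero_le_one _⟩
  rw [one_mul]
  exact lp.norm_le_of_forall_sum_le (by norm_num) (norm_nonneg η) (key η)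

theorem glue_single {ι : Type u} [DecidableEq ι] {x : ι → Op H}
    {V : H →L[ℂ] lp (fun _ : ι => H) 2} (h : ∀ η i, V η i = x i η) (j : ι) (η : H) :
    adjoint V (lp.single 2 j η) = star (x j) η :=
  ext_inner_left ℂ fun ζ => by
    rw [adjoint_inner_right, lp.inner_single_right, h, star_eq_adjoint, adjoint_inner_right]

theorem glue_op (hT : Tools.{u}) (h : HyperStmt.{u}) : ∃ K : ℝ, 0 < K ∧
    ∀ (H : Type u) [NormedAddCommGroup H] [InnerProductSpace ℂ H] [CompleteSpace H]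
      (A B N D : Alg H) (δ : ℝ) (ι : Type u) (w v : ι → Op H), CP A B → CP N D → Near D B δ →
      0 ≤ δ → δ ≤ 1 → (∀ i, w i * star (w i) * w i = w i) →
      (∀ i j, i ≠ j → w i * star (w j) = 0) → (∀ i, w i ∈ A) → (∀ i, ‖v i - 1‖ ≤ δ) →
      (∀ i j, ∀ a ∈ A, v i * w i * a * star (v j * w j) ∈ N) →
      (∀ T : Op H, (∀ i η, T (star (w i) η) = 0) → T = 0) →
      ∃ X : Op H, ‖X - 1‖ ≤ K * δ ∧ ∀ a ∈ A, X * a * star X ∈ N := by
  obtain ⟨K, hK, h⟩ := h
  refine ⟨5 * K, by positivity, ?_⟩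
  intro H _ _ _ A B N D δ ι w v hAB hND hDB hδ hδ1 h1 h2 hA hv hN hd
  classical
  obtain ⟨π, hπ⟩ := glue_diag (H := H) ι
  obtain ⟨W, hW, hW1⟩ := glue_col h1 h2
  obtain ⟨E, hE, hE1⟩ : ∃ E : Op (lp (fun _ : ι => H) 2), (∀ f i, E f i = (v i - 1) (f i)) ∧
      ‖E‖ ≤ δ := ⟨lp.mapCLM 2 _ hδ hv, fun _ _ => rfl, lp.norm_mapCLM_le 2 _ hδ hv⟩
  have hEW : ‖E ∘L W‖ ≤ δ := (opNorm_comp_le _ _).trans
    ((mul_le_mul hE1 hW1 (opNorm_nonneg _) hδ).trans_eq (mul_one _))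
  have hV : ∀ η i, (W + E ∘L W) η i = (v i * w i) η := fun η i => by
    rw [add_apply, lp.coeFn_add, Pi.add_apply, comp_apply, hE, hW, sub_apply, one_apply_eq_self,
      add_sub_cancel, mul_apply_eq_comp]
  have hc : IsClosed (D : Set (Op H)) := hT.closed hND.symm
  obtain ⟨W', w1, w2⟩ := h D _ H (π.comp D.subtype) D.subtype W (2 * δ) (by positivity) fun d => by
    obtain ⟨b, hb, hdb⟩ := hDB d d.2
    have e : π b ∘L W = W ∘L b := by
      ext η i
      rw [comp_apply, comp_apply, hπ, hW, hW, ← mul_apply_eq_comp, ← mul_apply_eq_comp,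
        (hAB.left _).1 (hA i) b hb]
    have e' : π d ∘L W - W ∘L (d : Op H) = π (d - b) ∘L W - W ∘L (d - b : Op H) := by
      rw [map_sub, sub_comp, comp_sub, e, sub_sub_sub_cancel_right]
    have a1 := (opNorm_comp_le _ W).trans (mul_le_mul
      ((NonUnitalStarAlgHom.norm_apply_le π _).trans hdb) hW1 (norm_nonneg _) (by positivity))
    have a2 := (opNorm_comp_le W _).trans (mul_le_mul hW1 hdb (norm_nonneg _) zero_le_one)
    refine (congrArg norm e').trans_le ((norm_sub_le _ _).trans ?_)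
    change _ ≤ 2 * δ * ‖(d : Op H)‖
    linarith
  have w3 : ∀ d ∈ D, ∀ η, W' (d η) = π d (W' η) := fun d hd η =>
    (DFunLike.congr_fun (w1 ⟨d, hd⟩) η).symm
  have w4 : ∀ d ∈ D, ∀ f, adjoint W' (π d f) = d (adjoint W' f) := fun d hd f =>
    ext_inner_left ℂ fun ζ => by
      rw [adjoint_inner_right, ← adjoint_inner_left, ← star_eq_adjoint, ← map_star,
        ← w3 _ (star_mem hd), ← adjoint_inner_right, star_eq_adjoint, adjoint_inner_left]
  have w5 : adjoint W ∘L W = 1 := sub_eq_zero.1 (hd _ fun i η => by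
    have e : W (star (w i) η) = lp.single 2 i (w i (star (w i) η)) := by
      ext j
      rw [hW, lp.single_apply, Pi.single_apply]
      split_ifs with hj
      · rw [hj]
      · rw [← mul_apply_eq_comp, h2 j i hj, zero_apply]
    have e' := congrArg star (h1 i)
    rw [star_mul, star_mul, star_star] at e'
    rw [sub_apply, comp_apply, e, glue_single hW, ← mul_apply_eq_comp (w i), ← mul_apply_eq_comp, e',
      one_apply_eq_self, sub_self])
  generalize hVV : W + E ∘L W = V at hV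
  refine ⟨adjoint W' ∘L V, ?_, fun a ha => (hND.left _).2 fun d hd => ?_⟩
  · have e : adjoint W' ∘L V - 1 = adjoint W ∘L E ∘L W - adjoint (W - W') ∘L V := by
      rw [← w5, ← hVV, map_sub, sub_comp, comp_add (adjoint W)]
      abel
    have a1 : ‖V‖ ≤ 2 := by
      rw [← hVV]
      exact (norm_add_le W _).trans ((add_le_add hW1 hEW).trans (by linarith))
    have a2 := (opNorm_comp_le (adjoint W) _).trans (mul_le_mul
      ((LinearIsometryEquiv.norm_map _ _).trans_le hW1) hEW (norm_nonneg _) zero_le_one)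
    have a3 := (opNorm_comp_le (adjoint (W - W')) V).trans (mul_le_mul
      ((LinearIsometryEquiv.norm_map _ _).trans_le w2) a1 (norm_nonneg _) (by positivity))
    rw [e]
    refine (norm_sub_le _ _).trans ?_
    nlinarith
  · have e : (V ∘L a ∘L adjoint V) ∘L π d = π d ∘L V ∘L a ∘L adjoint V :=
      lp.ext_continuousLinearMap (by norm_num) fun j => by
        ext η i
        have e1 : π d (lp.single 2 j η) = lp.single 2 j (d η) := by
          ext k
          rw [hπ, lp.single_apply, lp.single_apply, Pi.single_apply, Pi.single_apply]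
          split_ifs
          · rfl
          · exact map_zero d
        simp only [comp_apply, lp.singleContinuousLinearMap_apply, e1, glue_single hV, hπ, hV]
        exact DFunLike.congr_fun ((hND.left _).1 (hN i j a ha) d hd) η
    ext η
    have e1 := DFunLike.congr_fun e (W' η)
    simp only [comp_apply] at e1
    simp only [mul_apply_eq_comp, star_eq_adjoint, adjoint_comp, adjoint_adjoint, comp_apply]
    rw [w3 d hd, e1, w4 d hd]

theorem glue_zorn {α : Type u} (p : α → Prop) (r : α → α → Prop) : ∃ Z : Set α, (∀ x ∈ Z, p x) ∧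
    Z.Pairwise r ∧ ∀ x, p x → (∀ y ∈ Z, r x y ∧ r y x) → x ∈ Z := by
  obtain ⟨Z, hZ⟩ := zorn_subset {Z : Set α | (∀ x ∈ Z, p x) ∧ Z.Pairwise r} fun c hc hch =>
    ⟨⋃₀ c, ⟨fun x ⟨s, hs, hx⟩ => (hc hs).1 x hx,
      (Set.pairwise_sUnion hch.directedOn).2 fun s hs => (hc hs).2⟩,
      fun s hs => Set.subset_sUnion_of_mem hs⟩
  refine ⟨Z, hZ.1.1, hZ.1.2, fun x hx h => hZ.2 (y := insert x Z) ⟨?_, ?_⟩
    (Set.subset_insert x Z) (Set.mem_insert x Z)⟩
  · exact Set.forall_mem_insert.2 ⟨hx, hZ.1.1⟩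
  · exact hZ.1.2.insert fun y hy _ => h y hy

omit [CompleteSpace H] in
theorem glue_van {T e : Op H} {X : Set H} (he : ∀ η, e η ∈ closure (Submodule.span ℂ X : Set H))
    (h : ∀ η ∈ X, T η = 0) : T * e = 0 :=
  ContinuousLinearMap.ext fun η => closure_minimal
    (Submodule.span_le.2 h : Submodule.span ℂ X ≤ T.ker) T.isClosed_ker (he η)

theorem glue_fam (hT : Tools.{u}) {A B : Alg H} (hAB : CP A B) (p : Op H × Op H → Prop)
    (hp : ∀ x, p x → star x.1 = x.1 ∧ x.1 * x.1 = x.1 ∧ x.1 ∈ A ∧ x.1 ≠ 0)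
    (h : ∀ z ∈ A, z ∈ B → IsStarProjection z → z ≠ 0 → ∃ x, p x ∧ ‖x.1 * (1 - z)‖ ≤ 1 / 2) :
    ∃ Z : Set (Op H × Op H × Op H),
      (∀ x ∈ Z, x.1 ∈ A ∧ x.1 ≠ 0 ∧ x.1 * star x.1 * x.1 = x.1 ∧ x.2.1 * x.1 = x.1 ∧ p x.2) ∧
      Z.Pairwise (fun x y => x.1 * star y.1 = 0 ∧ (x.2 = y.2 ∨ ∀ a ∈ A, x.2.1 * a * y.2.1 = 0)) ∧
      ∀ T : Op H, (∀ x ∈ Z, ∀ η, T (star x.1 η) = 0) → T = 0 := by
  obtain ⟨Z, z1, z2, z3⟩ := glue_zorn (fun x : Op H × Op H × Op H =>
    x.1 ∈ A ∧ x.1 ≠ 0 ∧ x.1 * star x.1 * x.1 = x.1 ∧ x.2.1 * x.1 = x.1 ∧ p x.2)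
    fun x y => x.1 * star y.1 = 0 ∧ (x.2 = y.2 ∨ ∀ a ∈ A, x.2.1 * a * y.2.1 = 0)
  refine ⟨Z, z1, z2, fun T hT0 => ?_⟩
  obtain ⟨P, -, p2, p3, p4⟩ := hT.supp {η | ∃ x ∈ Z, ∃ ζ, η = star x.1 ζ}
  have c1 : ∀ c ∈ B, ∀ η ∈ {η | ∃ x ∈ Z, ∃ ζ, η = star x.1 ζ},
      c η ∈ {η | ∃ x ∈ Z, ∃ ζ, η = star x.1 ζ} := by
    rintro c hc _ ⟨x, hx, ζ, rfl⟩
    exact ⟨x, hx, c ζ, (DFunLike.congr_fun ((hAB.left _).1 (star_mem (z1 x hx).1) c hc) ζ).symm⟩
  have hq : 1 - P ∈ A := sub_mem (one_mem A)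
    ((hAB.left P).2 fun c hc => (p4 c (c1 c hc) (c1 _ (star_mem hc))).symm)
  have q1 : ∀ x ∈ Z, (1 - P) * star x.1 = 0 := fun x hx => ContinuousLinearMap.ext fun ζ => by
    rw [mul_apply_eq_comp, sub_apply, p2 _ ⟨x, hx, ζ, rfl⟩, one_apply_eq_self, sub_self, zero_apply]
  have q2 : T * P = 0 := glue_van p3 (by rintro _ ⟨x, hx, ζ, rfl⟩; exact hT0 x hx ζ)
  suffices q3 : 1 - P = 0 by rwa [← sub_eq_zero.1 q3, mul_one] at q2
  generalize 1 - P = q at hq q1
  have add : ∀ x, p x → (∀ y ∈ Z, x = y.2 ∨ ∀ a ∈ A, x.1 * a * y.2.1 = 0) →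
      ∀ a ∈ A, x.1 * a * q = 0 := fun x hx hy a ha => by
    by_contra h0
    obtain ⟨e1, e2, e3, -⟩ := hp x hx
    obtain ⟨w, w1, w2, w3, ⟨b, w4⟩, c, w5⟩ := hT.pi hAB _ (mul_mem (mul_mem e3 ha) hq) h0
    have w6 : ∀ y ∈ Z, w * star y.1 = 0 := fun y hy => by
      rw [w5, mul_assoc, mul_assoc, q1 y hy, mul_zero, mul_zero]
    have w7 := w6 _ (z3 (w, x) ⟨w1, w2, w3, by
      simp only [w4, ← mul_assoc, e2], hx⟩ fun y hy' => ⟨⟨w6 y hy', hy y hy'⟩, ?_, ?_⟩)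
    · exact w2 (by rw [← w3, w7, zero_mul])
    · simpa only [star_mul, star_star, star_zero] using congrArg star (w6 y hy')
    · refine (hy y hy').imp Eq.symm fun h1 a ha => ?_
      simpa only [star_mul, star_star, star_zero, e1, (hp _ (z1 y hy').2.2.2.2).1,
        mul_assoc] using congrArg star (h1 _ (star_mem ha))
  have q4 : ∀ x ∈ Z, ∀ a ∈ A, x.2.1 * a * q = 0 := fun x hx => add _ (z1 x hx).2.2.2.2 fun y hy =>
    (eq_or_ne x y).elim (fun e => .inl (e ▸ rfl)) fun e => (z2 hx hy e).2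
  by_contra q0
  obtain ⟨z, s1, s2, s3, s4⟩ := hT.supp {η | ∃ a ∈ A, ∃ ζ, η = a (q ζ)}
  have c2 : ∀ c ∈ A, ∀ η ∈ {η | ∃ a ∈ A, ∃ ζ, η = a (q ζ)},
      c η ∈ {η | ∃ a ∈ A, ∃ ζ, η = a (q ζ)} := by
    rintro c hc _ ⟨a, ha, ζ, rfl⟩
    exact ⟨c * a, mul_mem hc ha, ζ, rfl⟩
  have c3 : ∀ c ∈ B, ∀ η ∈ {η | ∃ a ∈ A, ∃ ζ, η = a (q ζ)},
      c η ∈ {η | ∃ a ∈ A, ∃ ζ, η = a (q ζ)} := by
    rintro c hc _ ⟨a, ha, ζ, rfl⟩
    exact ⟨a, ha, c ζ, (DFunLike.congr_fun ((hAB.left _).1 (mul_mem ha hq) c hc) ζ).symm⟩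
  have zA : ∀ c ∈ A, c * z = z * c := fun c hc => s4 c (c2 c hc) (c2 _ (star_mem hc))
  have van : ∀ g : Op H, (∀ a ∈ A, g * a * q = 0) → g * z = 0 := fun g hg =>
    glue_van s3 (by rintro _ ⟨a, ha, ζ, rfl⟩; exact DFunLike.congr_fun (hg a ha) ζ)
  obtain ⟨x, hx, hn⟩ := h z ((hAB.left z).2 fun c hc => (s4 c (c3 c hc) (c3 _ (star_mem hc))).symm)
    ((hAB.right z).2 fun c hc => (zA c hc).symm) s1 fun z0 => q0 (ContinuousLinearMap.ext fun ζ => by
      rw [← s2 (q ζ) ⟨1, one_mem A, ζ, rfl⟩, z0, zero_apply, zero_apply])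
  obtain ⟨-, e2, e3, e4⟩ := hp x hx
  have half : ∀ y : Op H, x.1 * y * z = 0 → y ∈ A → x.1 * y = 0 := fun y h1 h2 => by
    have h3 : x.1 * (1 - z) * (x.1 * y) = x.1 * y := by
      rw [mul_assoc, sub_mul, one_mul, ← zA _ (mul_mem e3 h2), h1, sub_zero, ← mul_assoc, e2]
    have h4 := (norm_mul_le _ (x.1 * y)).trans (mul_le_mul_of_nonneg_right hn (norm_nonneg _))
    rw [h3] at h4
    exact norm_le_zero_iff.1 (by linarith)
  refine e4 ((mul_one _).symm.trans (half 1 ?_ (one_mem A)))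
  rw [mul_one]
  refine van _ (add x hx fun y hy => .inr fun a ha => ?_)
  rw [mul_assoc]
  refine half _ ?_ (mul_mem ha (hp _ (z1 y hy).2.2.2.2).2.2.1)
  rw [mul_assoc, mul_assoc, van _ (q4 y hy), mul_zero, mul_zero]

theorem glue (hT : Tools.{u}) (h : HyperStmt.{u}) : GlueStmt.{u} := by
  obtain ⟨K, hK, h⟩ := glue_op hT h
  intro ε hε
  refine ⟨min (1 / 4) (min (1 / 100) (ε / 8) / K), by positivity, ?_⟩
  intro H _ _ _ A B N D δ hAB hND hNA hDB hδ hδ1 hz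
  obtain ⟨d1, d2⟩ := le_min_iff.1 hδ1
  rw [le_div_iff₀' hK] at d2
  obtain ⟨d2, d3⟩ := le_min_iff.1 d2
  obtain ⟨Z, z1, z2, z3⟩ := glue_fam hT hAB (fun x => Good A N δ x.1 x.2)
    (fun x hx => ⟨hx.1.isSelfAdjoint, hx.1.isIdempotentElem, hx.2.1, hx.2.2.1⟩)
    fun z h1 h2 h3 h4 => by
      obtain ⟨g, v, h5, h6⟩ := hz z h1 h2 h3 h4
      exact ⟨(g, v), h5, h6⟩
  obtain ⟨X, x1, x2⟩ := h H A B N D δ Z (fun x => x.1.1) (fun x => x.1.2.2) hAB hND hDB hδ
    (by linarith) (fun x => (z1 x x.2).2.2.1) (fun x y e => (z2 x.2 y.2 (Subtype.coe_ne_coe.2 e)).1)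
    (fun x => (z1 x x.2).1) (fun x => (z1 x x.2).2.2.2.2.2.2.2.2.1)
    (fun ⟨x, hx⟩ ⟨y, hy⟩ a ha => by
      obtain ⟨a1, -, -, a2, a3⟩ := z1 x hx
      obtain ⟨b1, -, -, b2, b3⟩ := z1 y hy
      have b4 : star y.1 * y.2.1 = star y.1 := by
        rw [← b3.1.isSelfAdjoint.star_eq, ← star_mul, b2]
      have hm := mul_mem (mul_mem a1 ha) (star_mem b1)
      have e : x.2.2 * x.1 * a * star (y.2.2 * y.1) =
          x.2.2 * (x.1 * a * star y.1) * star y.2.2 := by simp only [star_mul, mul_assoc]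
      have e1 : x.2.1 * (x.1 * a * star y.1) = x.1 * a * star y.1 := by
        rw [← mul_assoc, ← mul_assoc, a2]
      have e2 : x.1 * a * star y.1 * y.2.1 = x.1 * a * star y.1 := by rw [mul_assoc, b4]
      change x.2.2 * x.1 * a * star (y.2.2 * y.1) ∈ N
      rw [e]
      rcases (eq_or_ne x y).elim (fun e => Or.inl (congrArg Prod.snd e)) fun e => (z2 hx hy e).2
        with h1 | h1
      · rw [← h1] at e2 ⊢
        exact a3.2.2.2.2.2 _ ⟨hm, e1, e2⟩
      · have h2 := h1 _ hm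
        rw [e1, e2] at h2
        rw [h2, mul_zero, zero_mul]
        exact zero_mem N)
    fun T hT0 => z3 T fun x hx => hT0 ⟨x, hx⟩
  obtain ⟨b, b1, b2, b3, b4⟩ := hT.polar X _ x1 (by linarith)
  have hb : b ∈ N := (hND.left b).2 fun d hd =>
    (b4 d ((hND.left _).1 (by simpa only [mul_one] using x2 1 (one_mem A)) d hd).symm).symm
  have f1 : ∀ a ∈ A, b * X * a * star (b * X) ∈ N := fun a ha => by
    simpa only [star_mul, b2, mul_assoc] using mul_mem (mul_mem hb (x2 a ha)) hb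
  refine ⟨b * X, b1, by linarith, fun x => ⟨f1 x, fun hx => ?_⟩⟩
  refine hT.eqc A.toSubalgebra.toSubmodule (cj ⟨_, b1⟩ N).toSubalgebra.toSubmodule (1 / 2)
    (hT.closed hAB) f1 (by norm_num) (fun y hy => ?_) hx
  generalize b * X = U at b1 b3 hy
  obtain ⟨a, ha, h1⟩ := hNA (U * y * star U) hy
  have h2 : ‖U * y‖ = ‖y‖ := CStarRing.norm_mem_unitary_mul y b1
  rw [CStarRing.norm_mul_mem_unitary _ (Unitary.star_mem b1), h2] at h1
  have e : y - a = U * y * star U - a - ((U - 1) * y + U * y * star (U - 1)) := by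
    rw [star_sub, star_one]
    noncomm_ring
  have h3 := (norm_mul_le _ y).trans (mul_le_mul_of_nonneg_right b3 (norm_nonneg y))
  have h4 := (norm_mul_le (U * y) _).trans
    (mul_le_mul_of_nonneg_left ((norm_star _).trans_le b3) (norm_nonneg _))
  rw [h2] at h4
  refine ⟨a, ha, e ▸ (norm_sub_le _ _).trans ((add_le_add h1 (norm_add_le _ _)).trans ?_)⟩
  nlinarith [norm_nonneg y]

end Vale.Agent.P096
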