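import Vale.Agent.P096.Defs

/-! P096: from the limiting relation to a unitary. -/

set_option linter.unusedSectionVars false

namespace Vale.Agent.P096

open Filter Topology

universe u

section
variable {H : Type u} [NormedAddCommGroup H] [InnerProductSpace ℂ H] [CompleteSpace H]
  {A N : Alg H} {g q : Op H} {ζ : H}

theorem good_cor_zero : Cor A g 0 := ⟨zero_mem _, mul_zero _, zero_mul _⟩

theorem good_cor_add {a b : Op H} (h : Cor A g a) (h' : Cor A g b) : Cor A g (a + b) :=
  ⟨add_mem h.mem h'.mem, by rw [mul_add, h.left, h'.left], by rw [add_mul, h.right, h'.right]⟩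

theorem good_cor_smul (s : ℂ) {a : Op H} (h : Cor A g a) : Cor A g (s • a) :=
  ⟨SMulMemClass.smul_mem s h.mem, by rw [mul_smul_comm, h.left], by rw [smul_mul_assoc, h.right]⟩

theorem good_cor_mul {a b : Op H} (h : Cor A g a) (h' : Cor A g b) : Cor A g (a * b) :=
  ⟨mul_mem h.mem h'.mem, by rw [← mul_assoc, h.left], by rw [mul_assoc, h'.right]⟩

theorem good_cor_star (hg : IsStarProjection g) {a : Op H} (h : Cor A g a) : Cor A g (star a) :=
  ⟨star_mem h.mem, by rw [← hg.isSelfAdjoint.star_eq, ← star_mul, h.right],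
    by rw [← hg.isSelfAdjoint.star_eq, ← star_mul, h.left]⟩

theorem good_cor_self (hg : IsStarProjection g) (h : g ∈ A) : Cor A g g :=
  ⟨h, hg.isIdempotentElem.eq, hg.isIdempotentElem.eq⟩

/-- The relation between the two corners. -/
structure GoodRel (A N : Alg H) (g q : Op H) (ζ : H) (a n : Op H) : Prop where
  ca : Cor A g a
  cn : Cor N q n
  eq : ∀ b ∈ A, g * b = b → n (b ζ) = a (b ζ) ∧ star n (b ζ) = star a (b ζ)

namespace GoodRel
variable {a n a' n' : Op H}

theorem zero : GoodRel A N g q ζ 0 0 := ⟨good_cor_zero, good_cor_zero, fun _ _ _ => ⟨rfl, rfl⟩⟩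

theorem add (h : GoodRel A N g q ζ a n) (h' : GoodRel A N g q ζ a' n') :
    GoodRel A N g q ζ (a + a') (n + n') :=
  ⟨good_cor_add h.ca h'.ca, good_cor_add h.cn h'.cn, fun b hb e => by
    simp only [star_add, add_apply, h.eq b hb e, h'.eq b hb e, and_self]⟩

theorem smul (s : ℂ) (h : GoodRel A N g q ζ a n) : GoodRel A N g q ζ (s • a) (s • n) :=
  ⟨good_cor_smul s h.ca, good_cor_smul s h.cn, fun b hb e => by
    simp only [star_smul, smul_apply, h.eq b hb e, and_self]⟩

theorem star' (hg : IsStarProjection g) (hq : IsStarProjection q) (h : GoodRel A N g q ζ a n) :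
    GoodRel A N g q ζ (star a) (star n) :=
  ⟨good_cor_star hg h.ca, good_cor_star hq h.cn, fun b hb e => by
    simp only [star_star, h.eq b hb e, and_self]⟩

theorem mul (hg : IsStarProjection g) (h : GoodRel A N g q ζ a n)
    (h' : GoodRel A N g q ζ a' n') : GoodRel A N g q ζ (a * a') (n * n') :=
  ⟨good_cor_mul h.ca h'.ca, good_cor_mul h.cn h'.cn, fun b hb e => by
    have e1 := (h.eq (a' * b) (mul_mem h'.ca.mem hb) (by rw [← mul_assoc, h'.ca.left])).1
    have e2 := (h'.eq (star a * b) (mul_mem (star_mem h.ca.mem) hb)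
      (by rw [← mul_assoc, (good_cor_star hg h.ca).left])).2
    simp only [star_mul, mul_apply_eq_comp] at e1 e2 ⊢
    rw [(h'.eq b hb e).1, (h.eq b hb e).2]
    exact ⟨e1, e2⟩⟩

theorem unique (hg : IsStarProjection g) (hgA : g ∈ A) (hζ : g ζ = ζ)
    (sep : ∀ a, Cor A g a → a ζ = 0 → a = 0) (h : GoodRel A N g q ζ a n)
    (h' : GoodRel A N g q ζ a' n) : a = a' := by
  have e1 := (h.eq g hgA hg.isIdempotentElem.eq).1
  have e2 := (h'.eq g hgA hg.isIdempotentElem.eq).1
  rw [hζ] at e1 e2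
  have := sep _ (good_cor_add h.ca (good_cor_smul (-1) h'.ca)) (by
    simp only [add_apply, smul_apply, ← e1, ← e2]
    simp)
  rwa [neg_one_smul, ← sub_eq_add_neg, sub_eq_zero] at this
end GoodRel

/-- The unitization of the graph of the relation. -/
def goodAlg (A N : Alg H) {g q : Op H} (hg : IsStarProjection g) (hq : IsStarProjection q)
    (ζ : H) : StarSubalgebra ℂ (Op H × Op H) where
  carrier := {z | ∃ (s : ℂ) (a n : Op H), GoodRel A N g q ζ a n ∧ z = (a + s • 1, n + s • 1)}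
  mul_mem' := by
    rintro _ _ ⟨s, a, n, h, rfl⟩ ⟨s', a', n', h', rfl⟩
    refine ⟨s * s', _, _, ((h.mul hg h').add (h'.smul s)).add (h.smul s'), ?_⟩
    simp only [Prod.mk_mul_mk, add_mul, mul_add, smul_mul_assoc, mul_smul_comm, mul_one, one_mul,
      smul_add, smul_smul, mul_comm s' s, add_assoc]
  add_mem' := by
    rintro _ _ ⟨s, a, n, h, rfl⟩ ⟨s', a', n', h', rfl⟩
    refine ⟨s + s', _, _, h.add h', ?_⟩
    simp only [Prod.mk_add_mk, add_smul, add_add_add_comm]
  algebraMap_mem' c := ⟨c, 0, 0, GoodRel.zero, by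
    simp only [zero_add, Algebra.algebraMap_eq_smul_one]; rfl⟩
  star_mem' := by
    rintro _ ⟨s, a, n, h, rfl⟩
    refine ⟨star s, _, _, h.star' hg hq, ?_⟩
    simp only [Prod.star_def, star_add, star_smul, star_one]

theorem good_scalar {p a : Op H} (hp : p ≠ 1) (h : p * a = a) (s : ℂ) :
    ‖s‖ ≤ ‖a + s • (1 : Op H)‖ := by
  have h1 : 0 < ‖1 - p‖ := norm_pos_iff.2 (sub_ne_zero.2 hp.symm)
  have h2 : (1 - p) * (a + s • (1 : Op H)) = s • (1 - p) := by
    rw [mul_add, sub_mul, one_mul, h, sub_self, zero_add, mul_smul_comm, mul_one]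
  have h3 := norm_mul_le (1 - p) (a + s • (1 : Op H))
  rw [h2, norm_smul, mul_comm] at h3
  exact le_of_mul_le_mul_left h3 h1

theorem good_idem {e : Op H} (h : e * e = e) (h' : ‖e‖ < 1) : e = 0 := by
  have h1 := norm_mul_le e e
  rw [h] at h1
  exact norm_le_zero_iff.1 (by nlinarith [norm_nonneg e])
end

theorem good (hT : Tools.{u}) (h : HyperStmt.{u}) : GoodStmt.{u} := by
  obtain ⟨K, hK, hyp⟩ := h
  intro ε hε
  refine ⟨min (1 / (20 * K)) (ε / (16 * K)), by positivity, ?_⟩
  intro H _ _ _ A B N D g q ζ δ hAB hND hN hδ hδ0 hg hgA hg0 hq hqN hqg hζ sep hrel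
  have d1 : 2 * δ * K ≤ 1 / 10 := by
    have := (le_div_iff₀ (by positivity)).1 (hδ0.trans (min_le_left _ _))
    linarith
  have d2 : 16 * δ * K ≤ ε := by
    have := (le_div_iff₀ (by positivity)).1 (hδ0.trans (min_le_right _ _))
    linarith
  have d3 : δ ≤ 1 / 20 := by nlinarith
  have ng := hg.norm_le
  have nq := hq.norm_le
  have part : ∀ n, Cor N q n → ∃ a, GoodRel A N g q ζ a n := fun n hn => by
    obtain ⟨a, h1, -, h3⟩ := hrel n hn
    exact ⟨a, h1, hn, h3⟩
  have near : ∀ a n, GoodRel A N g q ζ a n → ‖n - a‖ ≤ δ * ‖n‖ := fun a n h => by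
    obtain ⟨a', h1, h2, h3⟩ := hrel n h.cn
    rwa [h.unique hg hgA hζ sep ⟨h1, h.cn, h3⟩]
  have rgq : GoodRel A N g q ζ g q := by
    obtain ⟨a, ha⟩ := part q (good_cor_self hq hqN)
    have h1 := ha.mul hg ha
    rw [hq.isIdempotentElem.eq] at h1
    have h2 : a * a = a := h1.unique hg hgA hζ sep ha
    have h3 : g - a = 0 := by
      refine good_idem ?_ ?_
      · rw [sub_mul, mul_sub, mul_sub, hg.isIdempotentElem.eq, ha.ca.left, ha.ca.right, h2,
          sub_self, sub_zero]
      · have h4 := near a q ha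
        have h5 := norm_sub_le_norm_sub_add_norm_sub g q a
        rw [norm_sub_rev g q] at h5
        nlinarith
    rw [sub_eq_zero] at h3
    exact h3 ▸ ha
  have est : ∀ z ∈ goodAlg A N hg hq ζ, ‖z.2 - z.1‖ ≤ 2 * δ * ‖z‖ := by
    rintro _ ⟨s, a, n, h, rfl⟩
    set z : Op H × Op H := (a + s • 1, n + s • 1) with hz
    have n1 : ‖a + s • (1 : Op H)‖ ≤ ‖z‖ := norm_fst_le z
    have n2 : ‖n + s • (1 : Op H)‖ ≤ ‖z‖ := norm_snd_le z
    have e1 : z.2 - z.1 = (n + s • q - (a + s • g)) - s • (q - g) := by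
      simp only [hz, smul_sub]; abel
    have e2 : n + s • q = q * (n + s • (1 : Op H)) := by
      rw [mul_add, h.cn.left, mul_smul_comm, mul_one]
    have n3 : ‖n + s • q‖ ≤ ‖z‖ := by
      rw [e2]
      exact (norm_mul_le _ _).trans ((mul_le_of_le_one_left (norm_nonneg _) nq).trans n2)
    have n4 := (near _ _ (h.add (rgq.smul s))).trans (mul_le_mul_of_nonneg_left n3 hδ)
    have n5 : ‖s • (q - g)‖ ≤ δ * ‖z‖ := by
      by_cases h1 : q = g
      · rw [h1, sub_self, smul_zero, norm_zero]; positivity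
      have h2 : ‖s‖ ≤ ‖z‖ := by
        by_cases h3 : q = 1
        · exact (good_scalar (fun h4 => h1 (h3.trans h4.symm)) h.ca.left s).trans n1
        · exact (good_scalar h3 h.cn.left s).trans n2
      rw [norm_smul, mul_comm]
      exact mul_le_mul hqg h2 (norm_nonneg _) hδ
    rw [e1]
    linarith [norm_sub_le (n + s • q - (a + s • g)) (s • (q - g))]
  set 𝔊 := (goodAlg A N hg hq ζ).topologicalClosure with h𝔊
  have hcl : IsClosed (𝔊 : Set (Op H × Op H)) := StarSubalgebra.isClosed_topologicalClosure _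
  have est' : ∀ z ∈ 𝔊, ‖z.2 - z.1‖ ≤ 2 * δ * ‖z‖ := fun z hz =>
    closure_minimal (s := (goodAlg A N hg hq ζ : Set (Op H × Op H)))
      (t := {z | ‖z.2 - z.1‖ ≤ 2 * δ * ‖z‖}) est (isClosed_le (by fun_prop) (by fun_prop)) hz
  let _ : CStarAlgebra 𝔊 := StarSubalgebra.cstarAlgebra _
  obtain ⟨T, hT1, hT2⟩ := hyp 𝔊 H H ((StarAlgHom.snd ℂ (Op H) (Op H)).comp 𝔊.subtype)
    ((StarAlgHom.fst ℂ (Op H) (Op H)).comp 𝔊.subtype) (ContinuousLinearMap.id ℂ H) (2 * δ)
    (by positivity) fun z => by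
      rw [ContinuousLinearMap.comp_id, ContinuousLinearMap.id_comp]
      exact est' z z.2
  have int : ∀ a n, GoodRel A N g q ζ a n → n * T = T * a := fun a n h =>
    hT1 ⟨(a, n), StarSubalgebra.le_topologicalClosure _ ⟨0, a, n, h, by simp⟩⟩
  obtain ⟨b, b1, -, b3, b4⟩ := hT.polar T (K * (2 * δ)) (by rw [norm_sub_rev]; exact hT2)
    (by linarith)
  have conj : ∀ a n, GoodRel A N g q ζ a n → b * T * a * star (b * T) = n := fun a n h => by
    have e1 := int a n h
    have e2 := congrArg star (int _ _ (h.star' hg hq))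
    rw [star_mul, star_mul, star_star, star_star] at e2
    have e3 := b4 n (by rw [← mul_assoc, e1, mul_assoc, ← e2, mul_assoc])
    rw [mul_assoc b, ← e1, ← mul_assoc, ← e3, mul_assoc n, mul_assoc,
      Unitary.mul_star_self_of_mem b1, mul_one]
  refine ⟨b * T, hg, hgA, hg0, b1, by linarith, fun a ha => ?_⟩
  let S₂ : Submodule ℂ (Op H) :=
    { carrier := {a | Cor A g a}
      add_mem' := good_cor_add
      zero_mem' := good_cor_zero
      smul_mem' := fun s _ h => good_cor_smul s h }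
  let S₁ : Submodule ℂ (Op H) :=
    { carrier := {a | a ∈ A ∧ g * a = a ∧ a * g = a ∧ b * T * a * star (b * T) ∈ N}
      add_mem' := fun {x y} hx hy => by
        have := good_cor_add ⟨hx.1, hx.2.1, hx.2.2.1⟩ ⟨hy.1, hy.2.1, hy.2.2.1⟩
        refine ⟨this.mem, this.left, this.right, ?_⟩
        rw [mul_add, add_mul]
        exact add_mem hx.2.2.2 hy.2.2.2
      zero_mem' := ⟨zero_mem _, mul_zero _, zero_mul _, by
        rw [mul_zero, zero_mul]; exact zero_mem _⟩
      smul_mem' := fun s x hx => by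
        have := good_cor_smul s ⟨hx.1, hx.2.1, hx.2.2.1⟩
        refine ⟨this.mem, this.left, this.right, ?_⟩
        rw [mul_smul_comm, smul_mul_assoc]
        exact SMulMemClass.smul_mem s hx.2.2.2 }
  have hcl1 : IsClosed (S₁ : Set (Op H)) :=
    (hT.closed hAB).inter ((isClosed_eq (by fun_prop) (by fun_prop)).inter
      ((isClosed_eq (by fun_prop) (by fun_prop)).inter
        ((hT.closed hND).preimage (f := fun a => b * T * a * star (b * T)) (by fun_prop))))
  refine (hT.eqc S₁ S₂ (1 / 2) hcl1 (fun x hx => ⟨hx.1, hx.2.1, hx.2.2.1⟩) (by norm_num)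
    (fun x hx => ?_) ha).2.2.2
  have hx : Cor A g x := hx
  obtain ⟨y, hy, hxy⟩ := hN x hx.mem
  have cn : Cor N q (q * y * q) := ⟨mul_mem (mul_mem hqN hy) hqN,
    by rw [← mul_assoc, ← mul_assoc, hq.isIdempotentElem.eq],
    by rw [mul_assoc, hq.isIdempotentElem.eq]⟩
  obtain ⟨a', ha'⟩ := part _ cn
  refine ⟨a', ⟨ha'.ca.mem, ha'.ca.left, ha'.ca.right, (conj _ _ ha').symm ▸ cn.mem⟩, ?_⟩
  have cp : ∀ w : Op H, ‖q * w * q‖ ≤ ‖w‖ := fun w =>
    (norm_mul_le _ _).trans ((mul_le_of_le_one_right (norm_nonneg _) nq).trans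
      ((norm_mul_le _ _).trans (mul_le_of_le_one_left (norm_nonneg _) nq)))
  have e1 : x - a' = q * (x - y) * q - (q - g) * x - q * (x * (q - g)) + (q * y * q - a') := by
    simp only [mul_sub, sub_mul, hx.left, hx.right, mul_assoc]
    abel
  have n0 := norm_nonneg x
  have n1 : ‖(q - g) * x‖ ≤ δ * ‖x‖ :=
    (norm_mul_le _ _).trans (mul_le_mul_of_nonneg_right hqg n0)
  have n2 : ‖q * (x * (q - g))‖ ≤ δ * ‖x‖ := by
    refine (norm_mul_le _ _).trans ((mul_le_of_le_one_left (norm_nonneg _) nq).trans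
      ((norm_mul_le _ _).trans ?_))
    rw [mul_comm]
    exact mul_le_mul_of_nonneg_right hqg n0
  have n3 : ‖y‖ ≤ 2 * ‖x‖ := by
    have := norm_sub_norm_le y x
    rw [norm_sub_rev] at this
    nlinarith
  have n4 := (near _ _ ha').trans (mul_le_mul_of_nonneg_left ((cp y).trans n3) hδ)
  have n5 := (cp (x - y)).trans hxy
  have n6 := norm_add_le (q * (x - y) * q - (q - g) * x - q * (x * (q - g))) (q * y * q - a')
  have n7 := norm_sub_le (q * (x - y) * q - (q - g) * x) (q * (x * (q - g)))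
  have n8 := norm_sub_le (q * (x - y) * q) ((q - g) * x)
  rw [e1]
  nlinarith

end Vale.Agent.P096
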