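import Vale.Agent.P096.Defs
import Vale.Agent.P104.Main

/-! Almost intertwiners are close to intertwiners. -/

namespace Vale.Agent.P096

open Filter Topology Vale.Agent.P104
open scoped InnerProductSpace

universe u

variable {H : Type u} [NormedAddCommGroup H] [InnerProductSpace ℂ H] [CompleteSpace H]

omit [CompleteSpace H] in
theorem hyper_le {Q S : Op H} {q s : H → ℝ} (hQ : ∀ ξ, ⟪Q ξ, ξ⟫_ℂ = q ξ)
    (hS : ∀ ξ, ⟪S ξ, ξ⟫_ℂ = s ξ) (h : ∀ ξ, q ξ ≤ s ξ) : Q ≤ S := by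
  rw [ContinuousLinearMap.le_def, ContinuousLinearMap.isPositive_iff_complex]
  intro ξ
  rw [sub_apply, inner_sub_left, hQ, hS, ← Complex.ofReal_sub]
  exact ⟨rfl, sub_nonneg.mpr (h ξ)⟩

omit [CompleteSpace H] in
theorem hyper_one (ξ : H) : ⟪(1 : Op H) ξ, ξ⟫_ℂ = (‖ξ‖ ^ 2 : ℝ) := by
  rw [one_apply_eq_self, inner_self_eq_norm_sq_to_K]
  push_cast
  rfl

theorem hyper_Q {A : Type u} [CStarAlgebra A] (π : A →ₐ[ℂ] Op H) (hc : ∀ a, ‖π a‖ ≤ 3 * ‖a‖) :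
    ∃ (Q : Op H) (q : H → ℝ), (∀ ξ, ⟪Q ξ, ξ⟫_ℂ = q ξ) ∧ (∀ ξ, ‖ξ‖ ^ 2 ≤ q ξ) ∧
      ‖Q‖ ≤ (2 ^ 59 * 3 ^ 32) ^ 2 ∧ ∀ a, star (π a) * Q = Q * π (star a) := by
  let _ := CStarAlgebra.spectralOrder A
  have _ := CStarAlgebra.spectralOrderedRing A
  obtain ⟨l, l1, l2, l3⟩ := exists_functional (π := π) (C := (2 ^ 59 * 3 ^ 32) ^ 2) (by
    intro I _ _ U h1 h2 x
    obtain hI | ⟨⟨o⟩⟩ := isEmpty_or_nonempty I
    · simp
    have hU : CStarMatrix.ofMatrix U ∈ unitary (CStarMatrix I I A) := ⟨h1, h2⟩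
    have h3 := (mainAmp_rep π (by norm_num) hc o).bound hU (WithLp.toLp 2 x)
    have h4 := pow_le_pow_left₀ (norm_nonneg _) h3 2
    rw [mul_pow, PiLp.norm_sq_eq_of_L2, PiLp.norm_sq_eq_of_L2] at h4
    simpa only [mainAmp_apply, CStarMatrix.ofMatrix_apply] using h4)
  obtain ⟨Q, hQ⟩ := exists_operator l _ (fun ξ => le_trans (by positivity) (l1 ξ)) l2
  refine ⟨Q, _, hQ, l1, ?_, fun a => ?_⟩
  · rw [CStarAlgebra.norm_le_iff_le_algebraMap _ (by positivity)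
      (zero_le_one.trans (hyper_le hyper_one hQ l1)), Algebra.algebraMap_eq_smul_one]
    refine hyper_le hQ (fun ξ => ?_) l2
    rw [← Complex.coe_smul, smul_apply, inner_smul_left, hyper_one, Complex.conj_ofReal,
      Complex.ofReal_mul]
  have q2 : ∀ u : unitary A, star (π u) * Q * π u = Q := fun u => by
    have e1 : ∀ ξ, (l fun ζ => ‖⟪π u ξ, ζ⟫_ℂ‖ ^ 2) = l fun ζ => ‖⟪ξ, ζ⟫_ℂ‖ ^ 2 := fun ξ => by
      refine le_antisymm (l3 u ξ) ?_
      have := l3 (star u) (π u ξ)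
      rwa [← mul_apply_eq_comp, ← map_mul, Unitary.coe_star,
        Unitary.coe_star_mul_self, map_one, one_apply_eq_self] at this
    apply ContinuousLinearMap.coe_injective
    rw [← ext_inner_map]
    intro ξ
    change ⟪(star (π u)) (Q (π u ξ)), ξ⟫_ℂ = ⟪Q ξ, ξ⟫_ℂ
    rw [ContinuousLinearMap.star_eq_adjoint, ContinuousLinearMap.adjoint_inner_left, hQ, hQ, e1]
  have ha : a ∈ Submodule.span ℂ (unitary A : Set A) := by
    rw [CStarAlgebra.span_unitary]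
    trivial
  induction ha using Submodule.span_induction with
  | mem x hx =>
    have := congrArg (· * π (star x)) (q2 ⟨x, hx⟩)
    simp only at this
    rwa [mul_assoc, ← map_mul, Unitary.mul_star_self_of_mem hx, map_one, mul_one] at this
  | zero => simp
  | add x y _ _ hx hy => simp [add_mul, mul_add, hx, hy]
  | smul c x _ hx => simp [hx]

section

variable {A : Type u} [CStarAlgebra A]
  {H₁ : Type u} [NormedAddCommGroup H₁] [InnerProductSpace ℂ H₁] [CompleteSpace H₁]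
  {H₂ : Type u} [NormedAddCommGroup H₂] [InnerProductSpace ℂ H₂] [CompleteSpace H₂]

theorem hyper_tri (π₁ : A →⋆ₐ[ℂ] Op H₁) (π₂ : A →⋆ₐ[ℂ] Op H₂) (T : H₂ →L[ℂ] H₁) :
    ∃ P : A →ₐ[ℂ] Op (WithLp 2 (H₁ × H₂)), ∀ a x,
      (P a x).fst = π₁ a x.fst + (π₁ a ∘L T - T ∘L π₂ a) x.snd ∧ (P a x).snd = π₂ a x.snd := by
  let f : A → Op (WithLp 2 (H₁ × H₂)) := fun a =>
    (WithLp.prodContinuousLinearEquiv 2 ℂ H₁ H₂).symm.toContinuousLinearMap ∘L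
      (π₁ a ∘L WithLp.fstL 2 ℂ H₁ H₂ + (π₁ a ∘L T - T ∘L π₂ a) ∘L WithLp.sndL 2 ℂ H₁ H₂).prod
        (π₂ a ∘L WithLp.sndL 2 ℂ H₁ H₂)
  have h1 : ∀ a x, (f a x).fst = π₁ a x.fst + (π₁ a (T x.snd) - T (π₂ a x.snd)) := fun _ _ => rfl
  have h2 : ∀ a x, (f a x).snd = π₂ a x.snd := fun _ _ => rfl
  have ext : ∀ S S' : Op (WithLp 2 (H₁ × H₂)),
      (∀ x, (S x).fst = (S' x).fst) → (∀ x, (S x).snd = (S' x).snd) → S = S' := fun S S' k k' =>
    ContinuousLinearMap.ext fun x => WithLp.ofLp_injective 2 (Prod.ext (k x) (k' x))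
  refine ⟨AlgHom.ofLinearMap ⟨⟨f, fun a b => ext _ _ (fun x => ?_) fun x => ?_⟩,
    fun c a => ext _ _ (fun x => ?_) fun x => ?_⟩ (ext _ _ (fun x => ?_) fun x => ?_)
    fun a b => ext _ _ (fun x => ?_) fun x => ?_, fun a x => ⟨rfl, rfl⟩⟩
  · simp only [h1, map_add, add_apply, WithLp.add_fst]
    abel
  · simp only [h2, map_add, add_apply, WithLp.add_snd]
  · simp only [h1, map_smul, smul_apply, WithLp.smul_fst, RingHom.id_apply, smul_add, smul_sub]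
  · simp only [h2, map_smul, smul_apply, WithLp.smul_snd, RingHom.id_apply]
  · simp [h1]
  · simp [h2]
  · simp only [LinearMap.coe_mk, AddHom.coe_mk, h1, h2, map_mul, mul_apply_eq_comp, map_add,
      map_sub]
    abel
  · simp only [LinearMap.coe_mk, AddHom.coe_mk, h2, map_mul, mul_apply_eq_comp]

theorem hyper_one_case (π₁ : A →⋆ₐ[ℂ] Op H₁) (π₂ : A →⋆ₐ[ℂ] Op H₂) (T : H₂ →L[ℂ] H₁)
    (h : ∀ a, ‖π₁ a ∘L T - T ∘L π₂ a‖ ≤ ‖a‖) :
    ∃ R : H₂ →L[ℂ] H₁, ‖R‖ ≤ (2 ^ 59 * 3 ^ 32) ^ 2 ∧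
      ∀ a, π₁ a ∘L T - T ∘L π₂ a = π₁ a ∘L R - R ∘L π₂ a := by
  obtain ⟨P, hP⟩ := hyper_tri π₁ π₂ T
  obtain ⟨Q, q, q1, q2, q3, q4⟩ := hyper_Q P fun a => by
    refine ContinuousLinearMap.opNorm_le_bound _ (by positivity) fun x => ?_
    have k1 : ‖(P a x).fst‖ ≤ ‖a‖ * ‖x‖ + ‖a‖ * ‖x‖ := (hP a x).1 ▸ (norm_add_le _ _).trans
      (add_le_add ((π₁ a).le_of_opNorm_le_of_le (NonUnitalStarAlgHom.norm_apply_le π₁ a)
        (WithLp.norm_fst_le _ x)) (ContinuousLinearMap.le_of_opNorm_le_of_le _ (h a)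
          (WithLp.norm_snd_le _ x)))
    have k2 : ‖(P a x).snd‖ ≤ ‖a‖ * ‖x‖ := (hP a x).2 ▸ (π₂ a).le_of_opNorm_le_of_le
      (NonUnitalStarAlgHom.norm_apply_le π₂ a) (WithLp.norm_snd_le _ x)
    refine (sq_le_sq₀ (norm_nonneg _) (by positivity)).1 ?_
    rw [WithLp.prod_norm_sq_eq_of_L2]
    nlinarith [pow_le_pow_left₀ (norm_nonneg _) k1 2, pow_le_pow_left₀ (norm_nonneg _) k2 2,
      sq_nonneg (‖a‖ * ‖x‖)]
  let e := (WithLp.prodContinuousLinearEquiv 2 ℂ H₁ H₂).symm.toContinuousLinearMap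
  let i₁ := e ∘L ContinuousLinearMap.inl ℂ H₁ H₂
  let i₂ := e ∘L ContinuousLinearMap.inr ℂ H₁ H₂
  let S := WithLp.fstL 2 ℂ H₁ H₂ ∘L Q
  have hi : ∀ u z, ⟪i₁ u, z⟫_ℂ = ⟪u, z.fst⟫_ℂ := fun u z => by simp [i₁, e]
  have hP1 : ∀ a u, P a (i₁ u) = i₁ (π₁ a u) := fun a u =>
    WithLp.ofLp_injective 2 (Prod.ext ((hP a _).1.trans (by simp [i₁, e]))
      ((hP a _).2.trans (by simp [i₁, e])))
  have hP2 : ∀ a v, P a (i₂ v) = i₁ ((π₁ a ∘L T - T ∘L π₂ a) v) + i₂ (π₂ a v) := fun a v =>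
    WithLp.ofLp_injective 2 (Prod.ext ((hP a _).1.trans (by simp [i₁, i₂, e]))
      ((hP a _).2.trans (by simp [i₁, i₂, e])))
  have hS : ∀ b y, S (P b y) = π₁ b (S y) := fun b y => by
    refine ext_inner_left ℂ fun u => ?_
    have k := q4 (star b)
    rw [star_star] at k
    change ⟪u, ((Q * P b) y).fst⟫_ℂ = ⟪u, π₁ b (Q y).fst⟫_ℂ
    rw [← hi, ← k, mul_apply_eq_comp, ContinuousLinearMap.star_eq_adjoint,
      ContinuousLinearMap.adjoint_inner_right, hP1, hi, map_star,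
      ContinuousLinearMap.star_eq_adjoint, ContinuousLinearMap.adjoint_inner_left]
  have h11 : ∀ u, ⟪(S ∘L i₁) u, u⟫_ℂ = q (i₁ u) := fun u => by
    rw [← q1, ← inner_conj_symm (Q _), hi, inner_conj_symm]
    rfl
  have hn : ∀ u, ‖u‖ ^ 2 ≤ q (i₁ u) := fun u =>
    le_trans (le_of_eq (by simp [i₁, e])) (q2 _)
  have hlow : ∀ u, ‖u‖ ≤ ‖S (i₁ u)‖ := fun u => by
    have k := re_inner_le_norm (𝕜 := ℂ) ((S ∘L i₁) u) u
    rw [h11] at k
    have k' : ‖u‖ ^ 2 ≤ ‖S (i₁ u)‖ * ‖u‖ := (hn u).trans k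
    nlinarith [norm_nonneg u, norm_nonneg (S (i₁ u))]
  obtain ⟨w, hw⟩ : IsUnit (S ∘L i₁) := CStarAlgebra.isUnit_of_le 1 (hyper_le hyper_one h11 hn)
  have hw1 : ∀ u, S (i₁ ((w⁻¹ : _ˣ).1 u)) = u := fun u =>
    congrArg (fun X : Op H₁ => X u) (hw ▸ w.mul_inv : S ∘L i₁ * (w⁻¹ : _ˣ).1 = 1)
  refine ⟨(w⁻¹ : _ˣ).1 ∘L S ∘L i₂, ContinuousLinearMap.opNorm_le_bound _ (by positivity)
    fun v => (hlow _).trans ?_, fun a => ContinuousLinearMap.ext fun v => ?_⟩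
  · exact (congrArg norm (hw1 _)).trans_le ((WithLp.norm_fst_le _ _).trans
      (Q.le_of_opNorm_le_of_le q3 (le_of_eq (by simp [i₂, e]))))
  · refine sub_eq_zero.1 (norm_le_zero_iff.1 ((hlow _).trans_eq ?_))
    have k := hS a (i₂ v)
    rw [hP2, map_add] at k
    rw [map_sub, map_sub, eq_sub_of_add_eq k, sub_apply, map_sub, map_sub,
      ContinuousLinearMap.comp_apply (π₁ a), ← hP1, hS]
    clear_value S
    simp only [ContinuousLinearMap.comp_apply, hw1, sub_self, norm_zero]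

end

theorem hyper : HyperStmt.{u} := by
  refine ⟨(2 ^ 59 * 3 ^ 32) ^ 2, by norm_num, fun A _ H₁ _ _ _ H₂ _ _ _ π₁ π₂ T ε hε h => ?_⟩
  rcases hε.eq_or_lt with rfl | hε
  · exact ⟨T, fun a => sub_eq_zero.1 (norm_le_zero_iff.1 ((h a).trans_eq (zero_mul _))), by simp⟩
  have h0 : (ε : ℂ) ≠ 0 := by exact_mod_cast hε.ne'
  have e : ∀ a, π₁ a ∘L ((ε : ℂ)⁻¹ • T) - ((ε : ℂ)⁻¹ • T) ∘L π₂ a =
      (ε : ℂ)⁻¹ • (π₁ a ∘L T - T ∘L π₂ a) := fun a => by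
    rw [smul_sub, ContinuousLinearMap.comp_smul, ContinuousLinearMap.smul_comp]
  obtain ⟨R, h1, h2⟩ := hyper_one_case π₁ π₂ ((ε : ℂ)⁻¹ • T) fun a => by
    rw [e, norm_smul, norm_inv, Complex.norm_real, Real.norm_of_nonneg hε.le,
      inv_mul_le_iff₀ hε]
    exact h a
  refine ⟨T - (ε : ℂ) • R, fun a => ?_, ?_⟩
  · have k := h2 a
    rw [e, inv_smul_eq_iff₀ h0, smul_sub, sub_eq_sub_iff_sub_eq_sub] at k
    rw [ContinuousLinearMap.comp_sub, ContinuousLinearMap.sub_comp, ContinuousLinearMap.comp_smul,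
      ContinuousLinearMap.smul_comp, k]
  · rw [sub_sub_cancel, norm_smul, Complex.norm_real, Real.norm_of_nonneg hε.le, mul_comm]
    exact mul_le_mul_of_nonneg_right h1 hε.le

theorem comm_of (hT : Tools.{u}) (h : HyperStmt.{u}) : CommStmt.{u} := by
  obtain ⟨K, hK, h⟩ := h
  have key : ∀ (H : Type u) [NormedAddCommGroup H] [InnerProductSpace ℂ H] [CompleteSpace H]
      (A B N D : Alg H) (δ : ℝ), CP A B → CP N D → 0 ≤ δ → Near N A δ → Near B D (2 * K * δ) := by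
    intro H _ _ _ A B N D δ hAB hND hδ hN c hc
    have := hT.closed hND
    obtain ⟨y, h1, h2⟩ := h N H H N.subtype N.subtype c (2 * δ * ‖c‖) (by positivity) fun n => by
      obtain ⟨a, ha, k⟩ := hN n n.2
      have e : (n : Op H) * c - c * n = (n - a) * c - c * (n - a) := by
        rw [sub_mul, mul_sub, (hAB.left a).1 ha c hc, sub_sub_sub_cancel_right]
      refine (congrArg norm e).trans_le ((norm_sub_le _ _).trans ((add_le_add
        ((norm_mul_le _ _).trans (mul_le_mul_of_nonneg_right k (norm_nonneg _)))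
        ((norm_mul_le _ _).trans (mul_le_mul_of_nonneg_left k (norm_nonneg _)))).trans_eq ?_))
      change _ = _ * ‖(n : Op H)‖
      ring
    exact ⟨y, (hND.right y).2 fun n hn => (h1 ⟨n, hn⟩).symm, h2.trans_eq (by ring)⟩
  exact ⟨2 * K, by linarith, fun H _ _ _ A B N D δ hAB hND hδ hc =>
    ⟨key H A B N D δ hAB hND hδ hc.2, key H N D A B δ hND hAB hδ hc.1⟩⟩

end Vale.Agent.P096
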