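import Vale.Agent.P096.Defs

/-! A faithful trace vector of a corner gives the initial data of the iteration. -/

namespace Vale.Agent.P096

open Filter Topology
open scoped InnerProductSpace

universe u

namespace Ini

variable {H : Type u} [NormedAddCommGroup H] [InnerProductSpace ℂ H] [CompleteSpace H]
  {A B : Alg H} {Ω : H} {g : Op H}

theorem adj (a : Op H) (ξ η : H) : ⟪a ξ, η⟫_ℂ = ⟪ξ, star a η⟫_ℂ := by
  rw [ContinuousLinearMap.star_eq_adjoint, ContinuousLinearMap.adjoint_inner_right]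

theorem adj' (a : Op H) (ξ η : H) : ⟪ξ, a η⟫_ℂ = ⟪star a ξ, η⟫_ℂ := by
  rw [adj, star_star]

theorem app (h : CP A B) {a c : Op H} (ha : a ∈ A) (hc : c ∈ B) (η : H) : a (c η) = c (a η) :=
  congrArg (fun T : Op H => T η) ((h.left a).1 ha c hc)

theorem corStar {a : Op H} (hg : IsStarProjection g) (h : Cor A g a) : Cor A g (star a) :=
  ⟨star_mem h.mem, by rw [← hg.isSelfAdjoint.star_eq, ← star_mul, h.right],
    by rw [← hg.isSelfAdjoint.star_eq, ← star_mul, h.left]⟩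

theorem corMul {a b : Op H} (h : Cor A g a) (h' : Cor A g b) : Cor A g (a * b) :=
  ⟨mul_mem h.mem h'.mem, by rw [← mul_assoc, h.left], by rw [mul_assoc, h'.right]⟩

theorem corCut {x : Op H} (hg : IsStarProjection g) (hm : g ∈ A) (hx : x ∈ A) :
    Cor A g (g * x * g) :=
  ⟨mul_mem (mul_mem hm hx) hm, by rw [← mul_assoc, ← mul_assoc, hg.isIdempotentElem.eq],
    by rw [mul_assoc, hg.isIdempotentElem.eq]⟩

theorem norm_proj (hg : IsStarProjection g) (η : H) : ‖g η‖ ≤ ‖η‖ :=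
  (g.le_opNorm η).trans (mul_le_of_le_one_left (norm_nonneg _) hg.norm_le)

theorem norm_eq_of_sq {a b : Op H} (h : star a * a = star b * b) (η : H) : ‖a η‖ = ‖b η‖ := by
  have h1 : ⟪a η, a η⟫_ℂ = ⟪b η, b η⟫_ℂ := by
    rw [adj, adj]
    exact congrArg (fun T : Op H => ⟪η, T η⟫_ℂ) h
  rw [norm_eq_sqrt_re_inner (𝕜 := ℂ), h1, ← norm_eq_sqrt_re_inner (𝕜 := ℂ)]

/-- The absolute value of `x g` lies in the corner. -/
theorem exists_abs (h : CP A B) (hg : IsStarProjection g) (hm : g ∈ A) {x : Op H} (hx : x ∈ A) :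
    ∃ k, Cor A g k ∧ star k = k ∧ ∀ η, ‖k η‖ = ‖x (g η)‖ := by
  let k : Op H := CFC.sqrt (star (x * g) * (x * g))
  have hs : star k = k := (CFC.sqrt_nonneg _).isSelfAdjoint.star_eq
  have hn : ∀ η, ‖k η‖ = ‖x (g η)‖ := norm_eq_of_sq (a := k) (b := x * g) (by
    rw [hs]; exact CFC.sqrt_mul_sqrt_self _ (star_mul_self_nonneg _))
  have hr : k * g = k := by
    ext η
    have h1 := hn (g η - η)
    have h2 : g (g η) = g η := congrArg (fun T : Op H => T η) hg.isIdempotentElem.eq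
    rw [map_sub g, h2, sub_self, map_zero, norm_zero, norm_eq_zero, map_sub, sub_eq_zero] at h1
    exact h1
  refine ⟨k, ⟨(h.left k).2 fun y hy => ?_, ?_, hr⟩, hs, hn⟩
  · have h1 : star (x * g) * (x * g) ∈ A := mul_mem (star_mem (mul_mem hx hm)) (mul_mem hx hm)
    exact (Commute.cfcₙ_nnreal ((h.left _).1 h1 y hy) _).eq
  · rw [← hg.isSelfAdjoint.star_eq, ← hs, ← star_mul, hr]

/-- The trace property bounds right multiplication. -/
theorem bound (h : CP A B) (hg : IsStarProjection g) (hm : g ∈ A) (hΩ : g Ω = Ω)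
    (tr : ∀ a, Cor A g a → ‖star a Ω‖ = ‖a Ω‖) {a x : Op H} (ha : Cor A g a) (hx : x ∈ A) :
    ‖x (a Ω)‖ ≤ ‖a‖ * ‖x Ω‖ := by
  obtain ⟨k, hk, hs, hn⟩ := exists_abs h hg hm hx
  have h1 : g (a Ω) = a Ω := congrArg (fun T : Op H => T Ω) ha.left
  have h2 := tr _ (corMul hk ha)
  rw [star_mul, hs] at h2
  calc ‖x (a Ω)‖ = ‖k (a Ω)‖ := by rw [hn, h1]
    _ = ‖star a (k Ω)‖ := h2.symm
    _ ≤ ‖star a‖ * ‖k Ω‖ := (star a).le_opNorm _
    _ = ‖a‖ * ‖x Ω‖ := by rw [norm_star, hn, hΩ]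

theorem pol_re (tr : ∀ a, Cor A g a → ‖star a Ω‖ = ‖a Ω‖) {a b : Op H} (ha : Cor A g a)
    (hb : Cor A g b) : (⟪star a Ω, star b Ω⟫_ℂ).re = (⟪a Ω, b Ω⟫_ℂ).re := by
  have h1 := tr (a + b) ⟨add_mem ha.mem hb.mem, by rw [mul_add, ha.left, hb.left],
    by rw [add_mul, ha.right, hb.right]⟩
  rw [star_add, add_apply, add_apply] at h1
  have h2 := norm_add_sq (𝕜 := ℂ) (star a Ω) (star b Ω)
  have h3 := norm_add_sq (𝕜 := ℂ) (a Ω) (b Ω)
  rw [h1, tr a ha, tr b hb, h3] at h2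
  simp only [RCLike.re_to_complex] at h2
  linarith

theorem pol (tr : ∀ a, Cor A g a → ‖star a Ω‖ = ‖a Ω‖) {a b : Op H} (ha : Cor A g a)
    (hb : Cor A g b) : ⟪a Ω, b Ω⟫_ℂ = ⟪star b Ω, star a Ω⟫_ℂ := by
  have h1 := pol_re tr ha hb
  have h2 := pol_re tr ha (b := Complex.I • b) ⟨SMulMemClass.smul_mem _ hb.mem,
    by rw [mul_smul_comm, hb.left], by rw [smul_mul_assoc, hb.right]⟩
  rw [star_smul, smul_apply, smul_apply,
    inner_smul_right, inner_smul_right] at h2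
  rw [← inner_conj_symm (star b Ω)]
  refine Complex.ext ?_ ?_
  · rw [Complex.conj_re, h1]
  · rw [Complex.conj_im]
    simp only [Complex.star_def, Complex.conj_I, Complex.mul_re, Complex.neg_re, Complex.I_re,
      Complex.neg_im, Complex.I_im] at h2
    linarith

/-- The trace identity. -/
theorem swap (hg : IsStarProjection g) (hm : g ∈ A) (hΩ : g Ω = Ω)
    (tr : ∀ a, Cor A g a → ‖star a Ω‖ = ‖a Ω‖) {a x : Op H} (ha : Cor A g a) (hx : x ∈ A) :
    ⟪x (a Ω), Ω⟫_ℂ = ⟪x Ω, star a Ω⟫_ℂ := by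
  have hs := hg.isSelfAdjoint.star_eq
  have h1 := pol tr ha (corStar hg (corCut hg hm hx))
  have h2 : g (a Ω) = a Ω := congrArg (fun T : Op H => T Ω) ha.left
  have h3 : g (star a Ω) = star a Ω := congrArg (fun T : Op H => T Ω) (corStar hg ha).left
  rw [star_star, ← adj] at h1
  simp only [mul_apply_eq_comp] at h1
  rwa [h2, hΩ, adj g, adj g, hs, hΩ, h3] at h1

/-- The orbit of a vector. -/
def orb (A : Alg H) (Ω : H) : Set H := {ζ | ∃ c ∈ A, ζ = c Ω}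

theorem span_orb : (Submodule.span ℂ (orb A Ω) : Set H) = orb A Ω := by
  refine Set.Subset.antisymm (fun ζ hζ => ?_) Submodule.subset_span
  induction hζ using Submodule.span_induction with
  | mem x hx => exact hx
  | zero => exact ⟨0, zero_mem _, rfl⟩
  | add x y _ _ hx hy =>
    obtain ⟨c, hc, rfl⟩ := hx
    obtain ⟨c', hc', rfl⟩ := hy
    exact ⟨c + c', add_mem hc hc', rfl⟩
  | smul t x _ hx =>
    obtain ⟨c, hc, rfl⟩ := hx
    exact ⟨t • c, SMulMemClass.smul_mem _ hc, rfl⟩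

theorem exists_supp (hT : Tools.{u}) (h : CP A B) (Ω : H) : ∃ f, IsStarProjection f ∧ f ∈ B ∧
    (∀ x ∈ A, f (x Ω) = x Ω) ∧ ∀ η, f η ∈ closure (orb A Ω) := by
  obtain ⟨f, h1, h2, h3, h4⟩ := hT.supp (orb A Ω)
  refine ⟨f, h1, (h.right f).2 fun x hx => (h4 x ?_ ?_).symm, fun x hx => h2 _ ⟨x, hx, rfl⟩,
    fun η => span_orb (A := A) (Ω := Ω) ▸ h3 η⟩
  · rintro _ ⟨c, hc, rfl⟩
    exact ⟨x * c, mul_mem hx hc, rfl⟩
  · rintro _ ⟨c, hc, rfl⟩
    exact ⟨star x * c, mul_mem (star_mem hx) hc, rfl⟩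

/-- Two operators that agree on the orbit agree on its closure. -/
theorem eq_on {S T : Op H} (h : ∀ x ∈ A, S (x Ω) = T (x Ω)) {η : H}
    (hη : η ∈ closure (orb A Ω)) : S η = T η :=
  (isClosed_eq S.continuous T.continuous).closure_subset_iff.2
    (by rintro _ ⟨c, hc, rfl⟩; exact h c hc) hη

theorem eq_of_inner {f : Op H} (hf : ∀ η, f η ∈ closure (orb A Ω)) {v w : H} (hv : f v = v)
    (hw : f w = w) (h : ∀ x ∈ A, ⟪x Ω, v⟫_ℂ = ⟪x Ω, w⟫_ℂ) : v = w := by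
  have h1 : ⟪f (v - w), v⟫_ℂ = ⟪f (v - w), w⟫_ℂ :=
    (isClosed_eq (f := fun ζ => ⟪ζ, v⟫_ℂ) (g := fun ζ => ⟪ζ, w⟫_ℂ) (by fun_prop)
      (by fun_prop)).closure_subset_iff.2 (by rintro _ ⟨c, hc, rfl⟩; exact h c hc) (hf _)
  rw [map_sub, hv, hw, ← sub_eq_zero, ← inner_sub_right, inner_self_eq_zero, sub_eq_zero] at h1
  exact h1

/-- Right multiplication extends to a bounded operator. -/
theorem exists_ext {f : Op H} (hf : IsStarProjection f) (h1 : ∀ x ∈ A, f (x Ω) = x Ω)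
    (h2 : ∀ η, f η ∈ closure (orb A Ω)) (v : H) {C : ℝ} (hC : 0 ≤ C)
    (hb : ∀ x ∈ A, ‖x v‖ ≤ C * ‖x Ω‖) :
    ∃ c : Op H, ‖c‖ ≤ C ∧ c * f = c ∧ ∀ x ∈ A, c (x Ω) = x v := by
  have hff : ∀ η, f (f η) = f η := fun η =>
    congrArg (fun T : Op H => T η) hf.isIdempotentElem.eq
  let φ : A × H →ₗ[ℂ] H :=
    { toFun := fun z => (z.1 : Op H) v
      map_add' := fun z w => rfl
      map_smul' := fun t z => rfl }
  let ι : A × H →ₗ[ℂ] H :=
    { toFun := fun z => (z.1 : Op H) Ω + (z.2 - f z.2)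
      map_add' := fun z w => by
        change ((z.1 : Op H) Ω + (w.1 : Op H) Ω) + ((z.2 + w.2) - f (z.2 + w.2)) = _
        rw [map_add]; abel
      map_smul' := fun t z => by
        change t • (z.1 : Op H) Ω + (t • z.2 - f (t • z.2)) = t • _
        rw [map_smul, smul_add, smul_sub] }
  have hd : DenseRange ι := fun η => by
    have h3 := map_mem_closure (f := fun ζ : H => ζ + (η - f η)) (t := Set.range ι)
      (by fun_prop) (h2 η) (by rintro _ ⟨c, hc, rfl⟩; exact ⟨(⟨c, hc⟩, η), rfl⟩)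
    rwa [add_sub_cancel] at h3
  have hn : ∀ z, ‖φ z‖ ≤ C * ‖ι z‖ := fun z => by
    refine (hb _ z.1.2).trans (mul_le_mul_of_nonneg_left ?_ hC)
    have h3 : f (ι z) = (z.1 : Op H) Ω := by
      change f ((z.1 : Op H) Ω + (z.2 - f z.2)) = _
      rw [map_add, map_sub, hff, sub_self, add_zero, h1 _ z.1.2]
    exact h3 ▸ norm_proj hf _
  refine ⟨φ.extendOfNorm ι, LinearMap.opNorm_extendOfNorm_le hd hC hn, ?_, fun x hx => ?_⟩
  · ext η
    have h3 := LinearMap.extendOfNorm_eq hd ⟨C, hn⟩ (0, η)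
    change φ.extendOfNorm ι (0 + (η - f η)) = 0 at h3
    rw [zero_add, map_sub, sub_eq_zero] at h3
    exact h3.symm
  · have h3 := LinearMap.extendOfNorm_eq hd ⟨C, hn⟩ (⟨x, hx⟩, 0)
    change φ.extendOfNorm ι (x Ω + (0 - f 0)) = x v at h3
    rwa [map_zero, sub_zero, add_zero] at h3

/-- Partners of the elements of the tracial corner. -/
theorem part_left (h : CP A B) (hg : IsStarProjection g) (hm : g ∈ A) (hΩ : g Ω = Ω)
    (tr : ∀ a, Cor A g a → ‖star a Ω‖ = ‖a Ω‖) {f : Op H} (hf : IsStarProjection f)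
    (hfB : f ∈ B) (h1 : ∀ x ∈ A, f (x Ω) = x Ω) (h2 : ∀ η, f η ∈ closure (orb A Ω))
    {a : Op H} (ha : Cor A g a) :
    ∃ c, Cor B f c ∧ ‖c‖ ≤ ‖a‖ ∧ c Ω = a Ω ∧ star c Ω = star a Ω := by
  obtain ⟨c, hc1, hc2, hc3⟩ := exists_ext hf h1 h2 (a Ω) (norm_nonneg a)
    fun x hx => bound h hg hm hΩ tr ha hx
  have hcf : ∀ η, c (f η) = c η := fun η => congrArg (fun T : Op H => T η) hc2
  have hc : Cor B f c := by
    refine ⟨(h.right c).2 fun z hz => ?_, ?_, hc2⟩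
    · ext η
      have h3 := eq_on (S := c * z) (T := z * c) (fun x hx => by
        change c ((z * x) Ω) = z (c (x Ω))
        rw [hc3 _ (mul_mem hz hx), hc3 x hx]; rfl) (h2 η)
      change c (z (f η)) = z (c (f η)) at h3
      rwa [app h hz hfB, hcf, hcf] at h3
    · ext η
      have h3 := eq_on (S := f * c) (T := c) (fun x hx => by
        change f (c (x Ω)) = _
        rw [hc3 x hx]
        exact h1 _ (mul_mem hx ha.mem)) (h2 η)
      change f (c (f η)) = c (f η) at h3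
      rwa [hcf] at h3
  refine ⟨c, hc, hc1, hc3 1 (one_mem _), eq_of_inner h2
    (congrArg (fun T : Op H => T Ω) (corStar hf hc).left) (h1 _ (star_mem ha.mem))
    fun x hx => ?_⟩
  rw [← adj, hc3 x hx, swap hg hm hΩ tr ha hx]

/-- Bounded approximation of the vectors `y Ω`. -/
theorem approx (hT : Tools.{u}) (h : CP A B) (hg : IsStarProjection g) (hm : g ∈ A)
    (hΩ : g Ω = Ω) (tr : ∀ a, Cor A g a → ‖star a Ω‖ = ‖a Ω‖) {y : Op H} (hy : y ∈ B)
    (hc : y Ω ∈ closure (orb A Ω)) {ε : ℝ} (hε : 0 < ε) :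
    ∃ a, Cor A g a ∧ ‖a‖ ≤ 2 * ‖y‖ + 1 ∧ ‖a Ω - y Ω‖ ≤ 3 * ε := by
  obtain ⟨_, ⟨x, hx, rfl⟩, hd⟩ := Metric.mem_closure_iff.1 hc ε hε
  have ha := corCut hg hm hx
  have hd' : ‖(g * x * g) Ω - y Ω‖ ≤ ε := by
    have e : (g * x * g) Ω - y Ω = g (x Ω - y Ω) := by
      rw [map_sub, app h hm hy, hΩ]
      change g (x (g Ω)) - _ = _
      rw [hΩ]
    rw [e]
    rw [dist_comm, dist_eq_norm] at hd
    exact (norm_proj hg _).trans hd.le
  generalize g * x * g = a at ha hd'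
  obtain ⟨e, e1, e2, e3, e4, e5⟩ := hT.spec (star a) (2 * ‖y‖ + 1) (by positivity)
  have heA : e ∈ A := (h.left e).2 fun c hc => (e2 c ((h.right c).1 hc _
    (mul_mem (star_mem (star_mem ha.mem)) (star_mem ha.mem)))).symm
  have heg : e * g = e := by
    have h1 := e3 (1 - g) (by rw [mul_sub, mul_one, (corStar hg ha).right, sub_self])
    rw [mul_sub, mul_one, sub_eq_zero] at h1
    exact h1.symm
  have he : Cor A g e := ⟨heA, by
    rw [← hg.isSelfAdjoint.star_eq, ← e1.isSelfAdjoint.star_eq, ← star_mul, heg], heg⟩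
  have hea := corMul he ha
  refine ⟨a - e * a, ⟨sub_mem ha.mem hea.mem, by rw [mul_sub, ha.left, hea.left],
    by rw [sub_mul, ha.right, hea.right]⟩, ?_, ?_⟩
  · rwa [← norm_star, star_sub, star_mul, e1.isSelfAdjoint.star_eq, ← mul_one_sub]
  · have h1 := tr _ hea
    rw [star_mul, e1.isSelfAdjoint.star_eq] at h1
    have h2 : (2 * ‖y‖ + 1) * ‖e Ω‖ ≤ ‖e (a Ω)‖ := (e4 Ω).trans h1.le
    have h3 : ‖e (a Ω)‖ ≤ ε + ‖y‖ * ‖e Ω‖ := by
      have e0 : e (a Ω) = e (a Ω - y Ω) + y (e Ω) := by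
        rw [map_sub, app h heA hy, sub_add_cancel]
      rw [e0]
      exact (norm_add_le _ _).trans (add_le_add ((norm_proj e1 _).trans hd') (y.le_opNorm _))
    have h4 : ‖(a - e * a) Ω - y Ω‖ ≤ ε + ‖e (a Ω)‖ := by
      have e0 : (a - e * a) Ω - y Ω = (a Ω - y Ω) - e (a Ω) := by
        change a Ω - e (a Ω) - y Ω = _
        abel
      rw [e0]
      exact (norm_sub_le _ _).trans (add_le_add hd' le_rfl)
    nlinarith [norm_nonneg (e Ω), norm_nonneg y]

theorem exists_vec (hT : Tools.{u}) (h : CP A B) (hg : IsStarProjection g) (hm : g ∈ A)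
    (hΩ : g Ω = Ω) (tr : ∀ a, Cor A g a → ‖star a Ω‖ = ‖a Ω‖) {y : Op H} (hy : y ∈ B)
    (hc : y Ω ∈ closure (orb A Ω)) : ∃ a, Cor A g a ∧ a Ω = y Ω := by
  choose a ha hb hd using fun n : ℕ =>
    approx hT h hg hm hΩ tr hy hc (Nat.one_div_pos_of_nat (α := ℝ) (n := n))
  obtain ⟨S, hS⟩ := hT.ulimN (hyperfilter ℕ) a _ hb
  have hl : (hyperfilter ℕ : Filter ℕ) ≤ atTop := Nat.hyperfilter_le_atTop
  have key : ∀ (P Q P' Q' : Op H), (∀ n, P * a n * Q = P' * a n * Q') →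
      P * S * Q = P' * S * Q' := fun P Q P' Q' hh => by
    ext ξ
    refine ext_inner_left ℂ fun η => ?_
    have h1 := hS (Q ξ) (star P η)
    have h2 := hS (Q' ξ) (star P' η)
    simp only [← adj'] at h1 h2
    exact tendsto_nhds_unique h1 (h2.congr fun n =>
      congrArg (fun T : Op H => ⟪η, T ξ⟫_ℂ) (hh n).symm)
  refine ⟨S, ⟨(h.left S).2 fun c hc => ?_, ?_, ?_⟩, ?_⟩
  · simpa using key 1 c c 1 fun n => by simpa using (h.left _).1 (ha n).mem c hc
  · simpa using key g 1 1 1 fun n => by simpa using (ha n).left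
  · simpa using key 1 g 1 1 fun n => by simpa using (ha n).right
  · have h1 : Tendsto (fun n => a n Ω) atTop (𝓝 (y Ω)) := by
      rw [tendsto_iff_norm_sub_tendsto_zero]
      refine squeeze_zero (fun n => norm_nonneg _) hd ?_
      simpa using (tendsto_one_div_add_atTop_nhds_zero_nat (𝕜 := ℝ)).const_mul 3
    refine ext_inner_left ℂ fun η => tendsto_nhds_unique (hS Ω η) ?_
    exact (tendsto_const_nhds.inner h1).mono_left hl

end Ini

open Ini in
theorem init (hT : Tools.{u}) : InitStmt.{u} := by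
  intro H _ _ _ A B Ω e h he heA hΩ tr hfa
  obtain ⟨f, hf, hfB, h1, h2⟩ := exists_supp hT h Ω
  obtain ⟨e', he', heA', h1', h2'⟩ := exists_supp hT h.symm Ω
  have hfΩ : f Ω = Ω := h1 1 (one_mem _)
  have hee : e * e' = e' := by
    ext η
    exact eq_on (A := B) (S := e) (T := 1) (fun c hc => by
      rw [app h heA hc, hΩ]; rfl) (h2' η)
  have hee' : e' * e = e' := by
    rw [← he.isSelfAdjoint.star_eq, ← he'.isSelfAdjoint.star_eq, ← star_mul, hee]
  have hcyc : ∀ η, e η ∈ closure (orb B Ω) := by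
    have h3 := hfa (e - e') ⟨sub_mem heA heA', by rw [mul_sub, he.isIdempotentElem.eq, hee],
      by rw [sub_mul, he.isIdempotentElem.eq, hee']⟩ (by
        have h4 : e' Ω = Ω := h1' 1 (one_mem _)
        change e Ω - e' Ω = 0
        rw [hΩ, h4, sub_self])
    rw [sub_eq_zero.1 h3]
    exact h2'
  have hvec : ∀ y, Cor B f y → ∃ a, Cor A e a ∧ a Ω = y Ω ∧ star a Ω = star y Ω := by
    intro y hy
    have hy1 : f (y Ω) = y Ω := congrArg (fun T : Op H => T Ω) hy.left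
    obtain ⟨a, ha, haΩ⟩ := exists_vec hT h he heA hΩ tr hy.mem (hy1 ▸ h2 _)
    refine ⟨a, ha, haΩ, eq_of_inner h2 (h1 _ (star_mem ha.mem))
      (congrArg (fun T : Op H => T Ω) (corStar hf hy).left) fun x hx => ?_⟩
    rw [← swap he heA hΩ tr ha hx, ← adj, haΩ, app h hx hy.mem]
  have tr' : ∀ y, Cor B f y → ‖star y Ω‖ = ‖y Ω‖ := fun y hy => by
    obtain ⟨a, ha, a1, a2⟩ := hvec y hy
    rw [← a1, ← a2, tr a ha]
  refine ⟨f, ⟨he, heA, hΩ, hcyc, fun a ha => part_left h he heA hΩ tr hf hfB h1 h2 ha⟩,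
    ⟨hf, hfB, hfΩ, h2, fun y hy => ?_⟩⟩
  obtain ⟨a, ha, a1, a2⟩ := hvec y hy
  refine ⟨a, ha, a.opNorm_le_bound (norm_nonneg _) fun η => ?_, a1, a2⟩
  have h3 : ‖a (e η)‖ ≤ ‖y‖ * ‖e η‖ :=
    (isClosed_le (f := fun ζ => ‖a ζ‖) (g := fun ζ => ‖y‖ * ‖ζ‖) (by fun_prop)
      (by fun_prop)).closure_subset_iff.2 (by
        rintro _ ⟨c, hc, rfl⟩
        change ‖a (c Ω)‖ ≤ _
        rw [app h ha.mem hc, a1]
        exact bound h.symm hf hfB hfΩ tr' hy hc) (hcyc η)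
  have h4 : a (e η) = a η := congrArg (fun T : Op H => T η) ha.right
  rw [h4] at h3
  exact h3.trans (mul_le_mul_of_nonneg_left (norm_proj he η) (norm_nonneg _))

end Vale.Agent.P096
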