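import Vale.Agent.P096.Defs

/-! The adjoint lemma. -/

namespace Vale.Agent.P096

open Filter Topology
open scoped InnerProductSpace

universe u

section

variable {H : Type u} [NormedAddCommGroup H] [InnerProductSpace ℂ H] [CompleteSpace H]

theorem klem_orth {X Y : Op H} (h : star X * Y = 0) (η η' : H) : ⟪X η, Y η'⟫_ℂ = 0 := by
  rw [← ContinuousLinearMap.adjoint_inner_right, ← ContinuousLinearMap.star_eq_adjoint,
    ← mul_apply_eq_comp, h, zero_apply, inner_zero_right]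

omit [CompleteSpace H] in
theorem klem_pyth {u v : H} (h : ⟪u, v⟫_ℂ = 0) (s : ℝ) :
    ‖u + (s : ℂ) • v‖ ^ 2 = ‖u‖ ^ 2 + s ^ 2 * ‖v‖ ^ 2 := by
  rw [@norm_add_sq ℂ, inner_smul_right, h, norm_smul, Complex.norm_real, Real.norm_eq_abs, mul_pow,
    sq_abs]
  simp

theorem klem_add {X Y : Op H} (h : star X * Y = 0) (s : ℝ) (η : H) :
    ‖(X + (s : ℂ) • Y) η‖ ^ 2 = ‖X η‖ ^ 2 + s ^ 2 * ‖Y η‖ ^ 2 :=
  klem_pyth (klem_orth h η η) s

theorem klem_cor_add {B : Alg H} {r a e : Op H} (ha : Cor B r a) (he : Cor B r e) (s : ℂ) :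
    Cor B r (a + s • e) :=
  ⟨add_mem ha.mem (B.smul_mem he.mem s), by rw [mul_add, mul_smul_comm, ha.left, he.left],
    by rw [add_mul, smul_mul_assoc, ha.right, he.right]⟩

theorem klem_star_zero {x y : Op H} (hy : star y = y) (h : y * x = 0) : star x * y = 0 := by
  rw [← hy, ← star_mul, h, star_zero]

/-- The state of the induction. -/
structure KInv (B : Alg H) (ξ : H) (r k Z₁ Z₂ : Op H) (t : ℝ) (f a A b : Op H) : Prop where
  proj : IsStarProjection f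
  cf : Cor B r f
  comm : f * (star k * k) = star k * k * f
  nf : ‖k * f‖ ≤ t
  ca : Cor B r a
  cA : Cor B r A
  cb : Cor B r b
  fa : f * a = 0
  fA : f * A = 0
  fb : f * (star k * b) = 0
  na : ∀ η, ‖a η‖ ^ 2 ≤ ‖η‖ ^ 2 - ‖f η‖ ^ 2
  nb : ∀ η, ‖b η‖ ^ 2 ≤ ‖η‖ ^ 2 - ‖f η‖ ^ 2
  ka : ‖(k * a) ξ‖ ^ 2 ≤ ‖k ξ‖ ^ 2 - ‖(k * f) ξ‖ ^ 2
  nA : ‖A ξ‖ ^ 2 ≤ 4 * (‖k ξ‖ ^ 2 - ‖(k * f) ξ‖ ^ 2)
  main : ‖k ξ‖ ^ 2 - ‖(k * f) ξ‖ ^ 2 ≤
    (⟪Z₁ (b ξ), A ξ⟫_ℂ).re + (⟪(k * a) ξ, Z₂ (a ξ)⟫_ℂ).re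

theorem klem_step (hT : Tools.{u}) {A' B : Alg H} (hAB : CP A' B) {ξ : H} {r k Z₁ Z₂ : Op H}
    (hk : Cor B r k) (hZ : ∀ c c', Cor B r c → Cor B r c' →
      ⟪c ξ, k (c' ξ)⟫_ℂ = ⟪Z₁ (c ξ), c' ξ⟫_ℂ + ⟪c ξ, Z₂ (c' ξ)⟫_ℂ) {t : ℝ} (ht : 0 < t)
    {f a A b : Op H} (h : KInv B ξ r k Z₁ Z₂ t f a A b) :
    ∃ f a A b, KInv B ξ r k Z₁ Z₂ (t / 2) f a A b := by
  obtain ⟨e, he, hc, h0, hlow, hup⟩ := hT.spec (k * f) (t / 2) (half_pos ht)
  have sf : star f = f := h.proj.isSelfAdjoint.star_eq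
  have se : star e = e := he.isSelfAdjoint.star_eq
  have ff : f * f = f := h.proj.isIdempotentElem.eq
  have ee : e * e = e := he.isIdempotentElem.eq
  have zz : star (k * f) * (k * f) = star k * k * f := by
    rw [star_mul, sf, mul_assoc, ← mul_assoc (star k), ← mul_assoc, h.comm, mul_assoc _ f f, ff]
  have ef : e * f = e := by
    have := h0 (1 - f) (by rw [mul_sub, mul_one, mul_assoc, ff, sub_self])
    rw [mul_sub, mul_one, sub_eq_zero] at this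
    exact this.symm
  have fe : f * e = e := by rw [← sf, ← se, ← star_mul, ef]
  have eB : e ∈ B := (hAB.right e).2 fun x hx => (hc x (by
    rw [zz]
    exact (hAB.left x).1 hx _ (mul_mem (mul_mem (star_mem hk.mem) hk.mem) h.cf.mem))).symm
  have ce : Cor B r e := ⟨eB, by rw [← fe, ← mul_assoc, h.cf.left],
    by rw [← ef, mul_assoc, h.cf.right]⟩
  have ek : e * (star k * k) = star k * k * e := (hc _ (by
    rw [zz, mul_assoc (star k * k) f, h.comm])).symm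
  have cke : Cor B r (k * e) := ⟨mul_mem hk.mem eB, by rw [← mul_assoc, hk.left],
    by rw [mul_assoc, ce.right]⟩
  have ea : e * a = 0 := by rw [← ef, mul_assoc, h.fa, mul_zero]
  have eA : e * A = 0 := by rw [← ef, mul_assoc, h.fA, mul_zero]
  have eb : e * (star k * b) = 0 := by rw [← ef, mul_assoc, h.fb, mul_zero]
  have de : (f - e) * e = 0 := by rw [sub_mul, fe, ee, sub_self]
  have sd : star (f - e) = f - e := by rw [star_sub, sf, se]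
  have dk : (f - e) * (star k * k) = star k * k * (f - e) := by
    rw [sub_mul, mul_sub, h.comm, ek]
  have nf' : ∀ η, ‖f η‖ ^ 2 = ‖(f - e) η‖ ^ 2 + ‖e η‖ ^ 2 := fun η => by
    have := klem_add (X := f - e) (Y := e) (by rw [sd, de]) 1 η
    simpa using this
  have nk' : ‖(k * f) ξ‖ ^ 2 = ‖(k * (f - e)) ξ‖ ^ 2 + ‖(k * e) ξ‖ ^ 2 := by
    have := klem_add (X := k * (f - e)) (Y := k * e) (by
      rw [star_mul, sd, mul_assoc, ← mul_assoc (star k), ← mul_assoc, dk, mul_assoc, de,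
        mul_zero]) 1 ξ
    rw [Complex.ofReal_one, one_smul, ← mul_add, sub_add_cancel, one_pow, one_mul] at this
    exact this
  have kfe : ∀ η, (k * f) (e η) = (k * e) η := fun η => by
    rw [← mul_apply_eq_comp, mul_assoc, fe]
  have ke_le : ∀ η, ‖(k * e) η‖ ≤ t * ‖e η‖ := fun η => by
    rw [← kfe]
    exact ((k * f).le_opNorm _).trans (mul_le_mul_of_nonneg_right h.nf (norm_nonneg _))
  have ke_ge : t / 2 * ‖e ξ‖ ≤ ‖(k * e) ξ‖ := kfe ξ ▸ hlow ξ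
  have hz := congrArg Complex.re (hZ (k * e) e cke ce)
  rw [show k (e ξ) = (k * e) ξ from rfl, inner_self_eq_norm_sq_to_K, Complex.add_re] at hz
  have hz' : ‖(k * e) ξ‖ ^ 2 = (⟪Z₁ ((k * e) ξ), e ξ⟫_ℂ).re + (⟪(k * e) ξ, Z₂ (e ξ)⟫_ℂ).re := by
    rw [← hz]; norm_cast
  obtain ⟨s, hs, hs'⟩ : ∃ s : ℝ, s ^ 2 = 1 ∧ 0 ≤ s * (t * (⟪Z₁ (b ξ), e ξ⟫_ℂ).re +
      t⁻¹ * (⟪Z₁ ((k * e) ξ), A ξ⟫_ℂ).re + (⟪(k * a) ξ, Z₂ (e ξ)⟫_ℂ).re +
      (⟪(k * e) ξ, Z₂ (a ξ)⟫_ℂ).re) := by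
    rcases le_total 0 (t * (⟪Z₁ (b ξ), e ξ⟫_ℂ).re +
      t⁻¹ * (⟪Z₁ ((k * e) ξ), A ξ⟫_ℂ).re + (⟪(k * a) ξ, Z₂ (e ξ)⟫_ℂ).re +
      (⟪(k * e) ξ, Z₂ (a ξ)⟫_ℂ).re) with h1 | h1
    · exact ⟨1, by norm_num, by linarith⟩
    · exact ⟨-1, by norm_num, by linarith⟩
  have tt : t * t⁻¹ = 1 := mul_inv_cancel₀ ht.ne'
  refine ⟨f - e, a + (s : ℂ) • e, A + ((s * t : ℝ) : ℂ) • e, b + ((s * t⁻¹ : ℝ) : ℂ) • (k * e),
    ⟨?_, sd⟩, ⟨sub_mem h.cf.mem eB, by rw [mul_sub, h.cf.left, ce.left],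
      by rw [sub_mul, h.cf.right, ce.right]⟩, dk, ?_, klem_cor_add h.ca ce _,
    klem_cor_add h.cA ce _, klem_cor_add h.cb cke _, ?_, ?_, ?_, fun η => ?_, fun η => ?_, ?_, ?_,
    ?_⟩
  · rw [IsIdempotentElem, mul_sub, de, sub_zero, sub_mul, ff, ef]
  · rwa [mul_assoc, mul_sub, mul_one, fe] at hup
  · rw [mul_add, mul_smul_comm, de, smul_zero, add_zero, sub_mul, h.fa, ea, sub_zero]
  · rw [mul_add, mul_smul_comm, de, smul_zero, add_zero, sub_mul, h.fA, eA, sub_zero]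
  · rw [mul_add, mul_add, mul_smul_comm, mul_smul_comm, ← mul_assoc (star k), ← mul_assoc _ _ e,
      dk, mul_assoc _ _ e, de, mul_zero, smul_zero, add_zero, sub_mul, h.fb, eb, sub_zero]
  · rw [klem_add (klem_star_zero se ea), hs]
    linarith [h.na η, nf' η]
  · have o : star b * (k * e) = 0 := by
      have := klem_star_zero se eb
      rwa [star_mul, star_star, mul_assoc] at this
    rw [klem_add o, mul_pow, hs, one_mul]
    have h1 : t⁻¹ ^ 2 * ‖(k * e) η‖ ^ 2 ≤ ‖e η‖ ^ 2 := by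
      rw [← mul_pow]
      refine pow_le_pow_left₀ (by positivity) ?_ 2
      rw [inv_mul_le_iff₀ ht]
      exact ke_le η
    linarith [h.nb η, nf' η]
  · have o : star (k * a) * (k * e) = 0 := by
      rw [star_mul, mul_assoc, ← mul_assoc (star k), ← ek, ← mul_assoc, klem_star_zero se ea,
        zero_mul]
    rw [mul_add, mul_smul_comm, klem_add o, hs]
    linarith [h.ka]
  · rw [klem_add (klem_star_zero se eA), mul_pow, hs, one_mul]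
    have h1 := pow_le_pow_left₀ (by positivity) ke_ge 2
    rw [mul_pow] at h1
    nlinarith [h.nA]
  · rw [mul_add, mul_smul_comm]
    simp only [add_apply, smul_apply, map_add, map_smul,
      inner_add_left, inner_add_right, inner_smul_left, inner_smul_right, Complex.conj_ofReal,
      Complex.add_re, Complex.re_ofReal_mul]
    have h1 := h.main
    have e1 : s * t * (s * t⁻¹ * (⟪Z₁ ((k * e) ξ), e ξ⟫_ℂ).re) = (⟪Z₁ ((k * e) ξ), e ξ⟫_ℂ).re := by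
      calc _ = s ^ 2 * (t * t⁻¹) * (⟪Z₁ ((k * e) ξ), e ξ⟫_ℂ).re := by ring
        _ = _ := by rw [hs, tt, one_mul, one_mul]
    have e2 : s * (s * (⟪(k * e) ξ, Z₂ (e ξ)⟫_ℂ).re) = (⟪(k * e) ξ, Z₂ (e ξ)⟫_ℂ).re := by
      rw [← mul_assoc, ← sq, hs, one_mul]
    nlinarith

theorem klem_end {B : Alg H} {ξ : H} {r k Z₁ Z₂ : Op H} {γ t : ℝ} (hγ : 0 ≤ γ)
    (h1 : Sm B r ξ Z₁ γ) (h2 : Sm B r ξ Z₂ γ) {f a A b : Op H}
    (h : KInv B ξ r k Z₁ Z₂ t f a A b) : ‖k ξ‖ ^ 2 ≤ (3 * γ) ^ 2 + (t * ‖ξ‖) ^ 2 := by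
  have nn : ∀ x : Op H, (∀ η, ‖x η‖ ^ 2 ≤ ‖η‖ ^ 2 - ‖f η‖ ^ 2) → ‖x‖ ≤ 1 := fun x hx =>
    x.opNorm_le_bound zero_le_one fun η => by
      rw [one_mul]
      exact (abs_le_of_sq_le_sq' (by nlinarith [hx η, sq_nonneg ‖f η‖]) (norm_nonneg _)).2
  set S := ‖k ξ‖ ^ 2 - ‖(k * f) ξ‖ ^ 2 with hS
  have S0 : 0 ≤ S := (sq_nonneg _).trans h.ka
  have a1 : ‖(k * a) ξ‖ ≤ √S := Real.le_sqrt_of_sq_le h.ka
  have a2 : ‖A ξ‖ ≤ 2 * √S := by
    refine abs_le_of_sq_le_sq' ?_ (by positivity) |>.2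
    rw [mul_pow, Real.sq_sqrt S0]
    linarith [h.nA]
  have b1 : ‖Z₁ (b ξ)‖ ≤ γ := (h1 b h.cb).trans (mul_le_of_le_one_right hγ (nn b h.nb))
  have b2 : ‖Z₂ (a ξ)‖ ≤ γ := (h2 a h.ca).trans (mul_le_of_le_one_right hγ (nn a h.na))
  have c1 : (⟪Z₁ (b ξ), A ξ⟫_ℂ).re ≤ γ * (2 * √S) :=
    ((Complex.re_le_norm _).trans (norm_inner_le_norm _ _)).trans
      (mul_le_mul b1 a2 (norm_nonneg _) hγ)
  have c2 : (⟪(k * a) ξ, Z₂ (a ξ)⟫_ℂ).re ≤ √S * γ :=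
    ((Complex.re_le_norm _).trans (norm_inner_le_norm _ _)).trans
      (mul_le_mul a1 b2 (norm_nonneg _) (by positivity))
  have d : S ≤ (3 * γ) ^ 2 := by
    have := h.main
    have e := Real.sq_sqrt S0
    nlinarith [sq_nonneg (√S - 3 * γ), Real.sqrt_nonneg S]
  have g : ‖(k * f) ξ‖ ≤ t * ‖ξ‖ :=
    ((k * f).le_opNorm _).trans (mul_le_mul_of_nonneg_right h.nf (norm_nonneg _))
  have := pow_le_pow_left₀ (norm_nonneg _) g 2
  linarith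

end

theorem klemma (hT : Tools.{u}) : KStmt.{u} := by
  intro H _ _ _ A B ξ r k Z₁ Z₂ γ hAB hγ hr hrB hξ hk h1 h2 hZ
  have rr : r * r = r := hr.isIdempotentElem.eq
  have c0 : Cor B r 0 := ⟨zero_mem _, mul_zero _, zero_mul _⟩
  have hn : ∀ η, ‖(0 : Op H) η‖ ^ 2 ≤ ‖η‖ ^ 2 - ‖r η‖ ^ 2 := fun η => by
    have := (r.le_opNorm η).trans (mul_le_of_le_one_left (norm_nonneg _) hr.norm_le)
    have := pow_le_pow_left₀ (norm_nonneg _) this 2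
    simpa using this
  have key : ∀ n : ℕ, ∃ f a A b, KInv B ξ r k Z₁ Z₂ ((‖k‖ + 1) * (1 / 2) ^ n) f a A b := by
    intro n
    induction n with
    | zero =>
      refine ⟨r, 0, 0, 0, hr, ⟨hrB, rr, rr⟩, ?_, by simp [hk.right], c0, c0, c0, mul_zero _,
        mul_zero _, by simp, hn, hn, by simp [hk.right], by simp [hk.right], by simp [hk.right]⟩
      have : r * star k = star k := by
        rw [← hr.isSelfAdjoint.star_eq, ← star_mul, hk.right]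
      rw [← mul_assoc, this, mul_assoc, hk.right]
    | succ n ih =>
      obtain ⟨f, a, A', b, h⟩ := ih
      have := klem_step hT hAB hk hZ (by positivity) h
      rwa [show (‖k‖ + 1) * (1 / 2 : ℝ) ^ n / 2 = (‖k‖ + 1) * (1 / 2) ^ (n + 1) by ring] at this
  have lim : Tendsto (fun n : ℕ => (3 * γ) ^ 2 + ((‖k‖ + 1) * (1 / 2 : ℝ) ^ n * ‖ξ‖) ^ 2) atTop
      (𝓝 ((3 * γ) ^ 2 + ((‖k‖ + 1) * 0 * ‖ξ‖) ^ 2)) :=
    (((((tendsto_pow_atTop_nhds_zero_of_lt_one (by norm_num) (by norm_num)).const_mul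
      _).mul_const _).pow 2).const_add _)
  have := ge_of_tendsto' lim fun n => by
    obtain ⟨f, a, A', b, h⟩ := key n
    exact klem_end hγ h1 h2 h
  refine (abs_le_of_sq_le_sq' ?_ (by positivity)).2
  simpa using this

end Vale.Agent.P096
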