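import Vale.Agent.P096.Norm

/-! The cocycle properties and the approximate solution of the linearized problem. -/

namespace Vale.Agent.P096

open Filter Topology Finset NormAux
open scoped InnerProductSpace

universe u

namespace LemB

section Ring

variable {R : Type*} [CStarAlgebra R] {σ : Seminorm ℝ R} {L M : Set R}
  {N D : StarSubalgebra ℂ R} {κ γ : ℝ}

theorem g2a (h : Sd σ L M D κ γ) {y c Z : R} {μ ν ζ t : ℝ} (hy : y ∈ D) (hc : c ∈ M)
    (h1 : ‖y‖ ≤ μ) (h2 : ‖y - c‖ ≤ ν) (hζ : ‖Z‖ ≤ ζ) (ht : σ Z ≤ t) :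
    σ (Z * (y - c)) ≤ ζ * (γ * μ) + t * (ν + κ * μ) := by
  obtain ⟨c', hc', h3, h4, -⟩ := h.two' hy h1
  have h5 : c' - c = y - c - (y - c') := by abel
  have h6 : Z * (y - c) = Z * (y - c') + Z * (c' - c) := by noncomm_ring
  rw [h6]
  exact s_add (h.ml hζ h4) (h.mM (h.sub _ hc' _ hc) ht (h5 ▸ norm_sub_le_of_le h2 h3))

theorem g4 (h : Sd σ L M D κ γ) {u u' y y' y'' a : R} {α β β' : ℝ} (hu : u ∈ M) (hu1 : ‖u‖ ≤ β)
    (hu' : u' ∈ M) (hu1' : ‖u'‖ ≤ β') (hy : y ∈ D) (hy' : y' ∈ D) (hy'' : y'' ∈ D)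
    (h1 : ‖y - u‖ ≤ κ * β) (h2 : ‖y' - u'‖ ≤ κ * β') (h3 : ‖y'' - u * u'‖ ≤ κ * (β' * β))
    (hL : a ∈ L) (ha : ‖a‖ ≤ α) :
    σ (cm y'' a - u * cm y' a - cm y a * u') ≤ 28 * (κ * γ) * α * β' * β := by
  have y2 := n2 h.k1 hu1 h1
  have y2' := n2 h.k1 hu1' h2
  have e1 : cm y'' a - u * cm y' a - cm y a * u' =
      cm (y'' - y * y') a + (y - u) * cm y' a + cm y a * (y' - u') := by
    simp only [cm]
    noncomm_ring
  have e2 : ‖y'' - y * y'‖ ≤ 4 * κ * β * β' := by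
    have h4 : y'' - y * y' = y'' - u * u' - (y - u) * y' - u * (y' - u') := by noncomm_ring
    rw [h4]
    exact (norm_sub_le_of_le (norm_sub_le_of_le h3 (norm_mul_le_of_le h1 y2'))
      (norm_mul_le_of_le hu1 h2)).trans_eq (by ring)
  rw [e1]
  exact (s_add (s_add (h.f1 hL (sub_mem hy'' (mul_mem hy hy')) ha e2) (h.ml h1 (h.f1 hL hy' ha y2')))
    (g2a h hy' hu' y2' h2 (h.f1n hL hu ha h1) (h.f1 hL hy ha y2))).trans_eq (by ring)

theorem g2 (h : Sd σ L M D κ γ) (h' : Sd σ M L N κ γ) {c y a n : R} {β μ ν : ℝ} (hc : c ∈ M)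
    (hy : y ∈ D) (hβ : ‖c‖ ≤ β) (h1 : ‖y - c‖ ≤ κ * β) (ha : a ∈ L) (hn : n ∈ N) (hμ : ‖n‖ ≤ μ)
    (h2 : ‖n - a‖ ≤ ν) : σ (cm (y - c) (n - a)) ≤ γ * β * (4 * ν + 10 * κ * μ) := by
  obtain ⟨c', hc', h3, h4, -⟩ := h.two' hy (n2 h.k1 hβ h1)
  obtain ⟨a', ha', -, h6, -⟩ := h'.two' hn hμ
  have h5 : c' - c = y - c - (y - c') := by abel
  have h7 : ‖c' - c‖ ≤ κ * β + κ * (2 * β) := h5 ▸ norm_sub_le_of_le h1 h3
  have e1 : cm (y - c) (n - a) =
      (y - c') * (n - a) - (n - a) * (y - c') - cm (n - a') (c' - c) := by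
    rw [h'.cm_sub (h.sub _ hc' _ hc) ha', ← h'.cm_sub (h.sub _ hc' _ hc) ha]
    simp only [cm]
    noncomm_ring
  rw [e1]
  exact (s_sub (s_sub (g2a h' hn ha hμ h2 h3 h4) (h.ml h2 h4))
    (h.cM (h.sub _ hc' _ hc) h6 h7)).trans_eq (by ring)

end Ring

theorem minimax {E ι : Type*} [NormedAddCommGroup E] [NormedSpace ℝ E] [Fintype ι] [Nonempty ι]
    {K : Set E} (hK : Convex ℝ K) (f : ι → E → ℝ) (hc : ∀ i, Continuous (f i))
    (hv : ∀ i, ConvexOn ℝ K (f i)) (s : ℝ)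
    (h : ∀ w ∈ stdSimplex ℝ ι, ∃ T ∈ K, ∑ i, w i * f i T < s) : ∃ T ∈ K, ∀ i, f i T < s := by
  classical
  have hw : ∀ T, Continuous fun w : ι → ℝ => -∑ i, w i * f i T := fun T => by fun_prop
  obtain ⟨t, ht⟩ := (isCompact_stdSimplex ℝ ι).elim_finite_subcover
    (fun T : K => {w : ι → ℝ | -s < -∑ i, w i * f i T}) (fun T => isOpen_lt continuous_const (hw T))
    fun w hw => by
      obtain ⟨T, h1, h2⟩ := h w hw
      exact Set.mem_iUnion.2 ⟨⟨T, h1⟩, neg_lt_neg h2⟩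
  obtain ⟨T, h1, h2⟩ := Sion.exists_lt_iInf_of_lt_iInf_of_finite (X := stdSimplex ℝ ι) (Y := K)
    (f := fun w T => -∑ i, w i * f i T) ⟨_, single_mem_stdSimplex ℝ (Classical.arbitrary ι)⟩
    (isCompact_stdSimplex ℝ ι) (fun T _ => (hw T).lowerSemicontinuous.lowerSemicontinuousOn _)
    (fun T _ => ConvexOn.quasiconvexOn ⟨convex_stdSimplex ℝ ι, fun x _ y _ a b _ _ _ => by
      simp only [Pi.add_apply, Pi.smul_apply, smul_eq_mul, add_mul, sum_add_distrib, mul_assoc,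
        ← mul_sum]
      exact le_of_eq (by ring)⟩) hK
    (fun w _ => (show Continuous _ by fun_prop).upperSemicontinuous.upperSemicontinuousOn _)
    (fun w hw => ConcaveOn.quasiconcaveOn ⟨hK, fun x hx y hy a b ha hb hab => by
      simp only [smul_eq_mul, mul_neg, ← neg_add, neg_le_neg_iff, mul_sum, ← sum_add_distrib]
      exact sum_le_sum fun i _ => (mul_le_mul_of_nonneg_left ((hv i).2 hx hy ha hb hab)
        (hw.1 i)).trans_eq (by simp only [smul_eq_mul]; ring)⟩) (convex_stdSimplex ℝ ι)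
    (t.finite_toSet.image Subtype.val) (by rintro _ ⟨T, -, rfl⟩; exact T.2) (t := -s)
    fun w hw => by
      obtain ⟨T, h1, h2⟩ := Set.mem_iUnion₂.1 (ht hw)
      exact ⟨T, ⟨T, h1, rfl⟩, h2⟩
  refine ⟨T, h1, fun i => ?_⟩
  simpa [Pi.single_apply] using h2 _ (single_mem_stdSimplex ℝ i)

variable {A : Type u} [CStarAlgebra A] {H : Type u} [NormedAddCommGroup H]
  [InnerProductSpace ℂ H] [CompleteSpace H] (b : Bim A H) {N D : Alg H} {κ γ : ℝ}

theorem c1 : ∀ a ∈ Set.range b.l, ∀ c ∈ Set.range b.r, a * c = c * a := by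
  rintro _ ⟨a, rfl⟩ _ ⟨c, rfl⟩
  exact b.comm a c

theorem sdR (k0 : 0 ≤ κ) (k1 : κ ≤ 1) (g0 : 0 ≤ γ) (hD : b.Approx b.r D κ γ) :
    Sd (sg b) (Set.range b.l) (Set.range b.r) D κ γ :=
  ⟨sg_left b, tame_l b, tame_r b, c1 b, by
    rintro _ ⟨a, rfl⟩ _ ⟨c, rfl⟩
    exact ⟨a - c, map_sub _ _ _⟩, by
    rintro _ ⟨a, rfl⟩
    exact ⟨star a, b.r_star a⟩, two_of b g0 hD, k0, k1, g0⟩

theorem sdL (k0 : 0 ≤ κ) (k1 : κ ≤ 1) (g0 : 0 ≤ γ) (hN : b.Approx b.l N κ γ) :
    Sd (sg b) (Set.range b.r) (Set.range b.l) N κ γ :=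
  ⟨sg_left b, tame_r b, tame_l b, fun a ha c hc => (c1 b c hc a ha).symm, by
    rintro _ ⟨a, rfl⟩ _ ⟨c, rfl⟩
    exact ⟨a - c, map_sub _ _ _⟩, by
    rintro _ ⟨a, rfl⟩
    exact ⟨star a, map_star _ a⟩, two_of b g0 hN, k0, k1, g0⟩

theorem nl (x : A) : ‖b.l x‖ ≤ ‖x‖ := NonUnitalStarAlgHom.norm_apply_le b.l x

theorem le_of {v : H} {Z : Op H} {t : ℝ} (e : v = -(Z b.Ω)) (h : sg b Z ≤ t) : ‖v‖ ≤ t := by
  rw [e, norm_neg]
  exact apply_le b h

theorem acoc_mono {ψ : A → A → H} {Γ ε ε' : ℝ} (h : b.ACoc ψ Γ ε) (e : ε ≤ ε') : b.ACoc ψ Γ ε' :=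
  ⟨h.lin, h.bd, fun x c c' => (h.add x c c').trans (by gcongr),
    fun x α c => (h.smul x α c).trans (by gcongr), fun x y z => (h.coc x y z).trans (by gcongr),
    h.one_left, fun x => (h.one_right x).trans (by gcongr)⟩

theorem nrm_mono {ψ : A → A → H} {ι : Type u} [Fintype ι] {q : ι → ℝ} {v : ι → unitary A}
    {ε ε' : ℝ} (h : b.Nrm ψ q v ε) (e : ε ≤ ε') : b.Nrm ψ q v ε' :=
  ⟨fun c => (h.left c).trans (by gcongr), fun c => (h.right c).trans (by gcongr)⟩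

theorem psi_conv (y : A → Op H) (x c : A) (K : Set (Op H)) (hK : Convex ℝ K) :
    ConvexOn ℝ K fun T => ‖b.psi y T x c‖ ^ 2 := by
  refine ConvexOn.pow (f := fun T => ‖b.psi y T x c‖) ⟨hK, fun T _ S _ s t hs ht hst => ?_⟩
    (fun _ _ => norm_nonneg _) 2
  have e : b.psi y (s • T + t • S) x c = s • b.psi y T x c + t • b.psi y S x c := by
    simp only [Bim.psi, dd, ← smul_apply, ← add_apply]
    refine congrArg (fun Z : Op H => Z b.Ω) ?_
    obtain rfl : t = 1 - s := by linarith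
    simp only [add_mul, mul_add, smul_mul_assoc, mul_smul_comm, sub_mul, mul_sub]
    module
  simp only [e]
  exact (norm_add_le _ _).trans_eq (by simp only [norm_smul, Real.norm_of_nonneg, hs, ht, smul_eq_mul])

/-- Weak convergence. -/
def Wk {α : Type u} (l : Filter α) (v : α → H) (w : H) : Prop :=
  ∀ η, Tendsto (fun a => ⟪η, v a⟫_ℂ) l (𝓝 ⟪η, w⟫_ℂ)

section Wk

variable {α : Type u} {l : Filter α} {v v' : α → H} {w w' : H}

omit [CompleteSpace H] in
theorem Wk.sub (h : Wk l v w) (h' : Wk l v' w') : Wk l (fun a => v a - v' a) (w - w') := fun η => by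
  simpa only [inner_sub_right] using (h η).sub (h' η)

theorem Wk.app (h : Wk l v w) (P : Op H) : Wk l (fun a => P (v a)) (P w) := fun η => by
  simpa only [ContinuousLinearMap.adjoint_inner_left] using h (ContinuousLinearMap.adjoint P η)

omit [CompleteSpace H] in
theorem Wk.le [l.NeBot] (h : Wk l v w) {t : ℝ} (ht : ∀ᶠ a in l, ‖v a‖ ≤ t) : ‖w‖ ≤ t := by
  have h1 := le_of_tendsto (h w).norm (ht.mono fun a ha => (norm_inner_le_norm _ _).trans
    (mul_le_mul_of_nonneg_left ha (norm_nonneg w)))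
  obtain ⟨a, ha⟩ := ht.exists
  rw [inner_self_eq_norm_sq_to_K, norm_pow, RCLike.norm_ofReal, abs_norm, sq] at h1
  rcases (norm_nonneg w).eq_or_lt with h0 | h0
  · exact h0 ▸ (norm_nonneg _).trans ha
  · exact le_of_mul_le_mul_left h1 h0

end Wk

theorem limit (hT : Tools.{u}) (y : A → Op H) {s t δ : ℝ}
    (h : ∀ F : Finset (unitary A × unitary A), ∃ T : Op H, (star T = -T ∧ ‖T‖ ≤ s ∧ sg b T ≤ t) ∧
      ∀ p ∈ F, ‖b.psi y T p.1 p.2‖ ≤ δ) :
    ∃ T : Op H, star T = -T ∧ ‖T‖ ≤ s ∧ b.Small T t ∧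
      ∀ x z : unitary A, ‖b.psi y T x z‖ ≤ δ := by
  classical
  choose T h1 h2 using h
  obtain ⟨S, hS⟩ := hT.ulim (Ultrafilter.of atTop) T s fun F => (h1 F).2.1
  have hW : ∀ ξ, Wk (Ultrafilter.of atTop).toFilter (fun F => T F ξ) (S ξ) := hS
  refine ⟨S, ?_, S.opNorm_le_bound (n0 (h1 ∅).2.1) fun ξ => (hW ξ).le (.of_forall fun F =>
    (T F).le_of_opNorm_le (h1 F).2.1 ξ), fun a => (hW _).le (.of_forall fun F =>
    small_of b (h1 F).2.2 a), fun x z => ?_⟩
  · ext ξ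
    refine ext_inner_left ℂ fun η => ?_
    have k := (Complex.continuous_conj.tendsto _).comp (hS η ξ)
    rw [ContinuousLinearMap.star_eq_adjoint, ContinuousLinearMap.adjoint_inner_right, neg_apply,
      inner_neg_right, ← inner_conj_symm]
    refine tendsto_nhds_unique k ((hS ξ η).neg.congr fun F => ?_)
    rw [Function.comp_apply, inner_conj_symm, ← ContinuousLinearMap.adjoint_inner_right,
      ← ContinuousLinearMap.star_eq_adjoint, (h1 F).1, neg_apply, inner_neg_right]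
  · refine Wk.le (l := (Ultrafilter.of atTop).toFilter) (v := fun F => b.psi y (T F) x z) ?_
      (((eventually_ge_atTop {(x, z)}).filter_mono (Ultrafilter.of_le _)).mono fun F hF =>
        h2 F (x, z) (hF (mem_singleton_self _)))
    simp only [Bim.psi, dd, sub_apply, mul_apply_eq_comp]
    exact Wk.sub (fun _ => tendsto_const_nhds) (((hW _).sub ((hW _).app _)).sub
      (((hW _).sub ((hW _).app _)).app _))

theorem sum4 {f : Fin 4 → ℂ} {g : Fin 4 → ℝ} {s t : ℝ} (hf : ∀ i, ‖f i‖ ≤ s / 2) (ht : 0 ≤ t)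
    (hg : ∀ i, g i ≤ t) : ∑ i, ‖f i‖ * g i ≤ 2 * s * t :=
  (sum_le_sum fun i _ => (mul_le_mul_of_nonneg_left (hg i) (norm_nonneg _)).trans
    (mul_le_mul_of_nonneg_right (hf i) ht)).trans_eq (by simp; ring)

theorem extend (h : Sd (sg b) (Set.range b.l) (Set.range b.r) D κ γ) {y : A → Op H} {T : Op H}
    (yD : ∀ c, y c ∈ D) (yr : ∀ c, ‖y c - b.r c‖ ≤ κ * ‖c‖) {δ : ℝ} (hδ : 0 ≤ δ)
    (hψ : ∀ x z : unitary A, ‖b.psi y T x z‖ ≤ δ * γ) (x c : A) {d : Op H} (hd : d ∈ D) :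
    ‖(b.l x * d - d * b.l x - dd T (b.l x) (b.r c)) b.Ω‖ ≤
      γ * ‖x‖ * ((4 * δ + 4 * κ) * ‖c‖ + 2 * ‖d - b.r c‖) := by
  obtain ⟨u, α, e1, hα⟩ := CStarAlgebra.exists_sum_four_unitary x
  obtain ⟨v, β, e2, hβ⟩ := CStarAlgebra.exists_sum_four_unitary c
  have g0 := h.g0
  have k1 : ‖d - ∑ j, β j • y (v j)‖ ≤ ‖d - b.r c‖ + 2 * ‖c‖ * κ := by
    have e : d - ∑ j, β j • y (v j) = d - b.r c - ∑ j, β j • (y (v j) - b.r (v j)) := by
      rw [e2]
      simp only [map_sum, map_smul, smul_sub, sum_sub_distrib]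
      abel
    rw [e]
    refine norm_sub_le_of_le le_rfl ((norm_sum_le_of_le _ fun j _ => norm_smul_le _ _).trans
      (sum4 hβ h.k0 fun j => (yr _).trans (mul_le_of_le_one_right h.k0 (unorm _))))
  have k2 := apply_le b (h.f1 ⟨x, rfl⟩ (sub_mem hd (sum_mem fun j _ =>
    SMulMemClass.smul_mem (β j) (yD (v j)))) (nl b x) k1)
  have e : (b.l x * d - d * b.l x - dd T (b.l x) (b.r c)) b.Ω =
      ∑ j, β j • ∑ i, α i • b.psi y T (u i) (v j) -
        cm (d - ∑ j, β j • y (v j)) (b.l x) b.Ω := by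
    have e3 : ∀ z, ∑ i, α i • b.psi y T (u i) z = b.psi y T x z := fun z => by
      rw [e1]
      simp only [Bim.psi, dd, map_add, map_smul, Fin.sum_univ_four, ← smul_apply, ← add_apply]
      refine congrArg (fun Z : Op H => Z b.Ω) ?_
      simp only [add_mul, mul_add, smul_mul_assoc, mul_smul_comm, sub_mul, mul_sub]
      module
    rw [e2]
    simp only [e3]
    simp only [Bim.psi, dd, cm, map_add, map_smul, Fin.sum_univ_four, ← smul_apply,
      ← add_apply, ← sub_apply]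
    refine congrArg (fun Z : Op H => Z b.Ω) ?_
    simp only [add_mul, mul_add, smul_mul_assoc, mul_smul_comm, sub_mul, mul_sub]
    module
  rw [e]
  refine (norm_sub_le_of_le ((norm_sum_le_of_le _ fun j _ => norm_smul_le _ _).trans
    (sum4 hβ (by positivity) fun j => (norm_sum_le_of_le _ fun j _ => norm_smul_le _ _).trans
      (sum4 hα (by positivity) fun i => hψ _ _))) k2).trans_eq (by ring)

end LemB

open LemB

theorem coc : CocStmt.{u} := by
  refine ⟨28, by norm_num, fun A _ H _ _ _ b D κ γ t y T k0 k1 g0 t0 hD yD yr hT => ?_⟩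
  have h := sdR b k0 k1 g0 hD
  have hT := of_small b t0 hT
  have a0 : 0 ≤ κ * γ := by positivity
  refine ⟨fun c => ⟨fun x x' => ?_, fun α x => ?_⟩, fun x c => ?_, fun x c c' => ?_,
    fun x α c => ?_, fun x z w => ?_, fun c => ?_, fun x => ?_⟩
  · simp only [Bim.psi, dd, map_add, ← add_apply]
    refine congrArg (fun Z : Op H => Z b.Ω) ?_
    noncomm_ring
  · simp only [Bim.psi, dd, map_smul, ← smul_apply, smul_sub, mul_smul_comm, smul_mul_assoc,
      sub_mul, mul_sub]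
  · refine (le_of b (psi_eq b y T x c) (s_add (h.f1 ⟨x, rfl⟩ (yD c) (nl b x)
      (n2 k1 (b.r_norm c) (yr c))) (h.cM ⟨c, rfl⟩ (h.cL ⟨x, rfl⟩ hT (nl b x)) (b.r_norm c)))).trans ?_
    have := mul_nonneg (mul_nonneg (add_nonneg g0 t0) (norm_nonneg x)) (norm_nonneg c)
    linarith
  · have e : y (c + c') - y c - y c' =
        y (c + c') - b.r (c + c') - (y c - b.r c) - (y c' - b.r c') := by
      rw [map_add]
      abel
    refine (le_of b (Z := cm (y (c + c') - y c - y c') (b.l x)) ?_ (h.f1 ⟨x, rfl⟩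
      (sub_mem (sub_mem (yD _) (yD _)) (yD _)) (nl b x) (e ▸ norm_sub_le_of_le (norm_sub_le_of_le
      ((yr _).trans (mul_le_mul_of_nonneg_left (norm_add_le c c') k0)) (yr c)) (yr c')))).trans ?_
    · simp only [Bim.psi, dd, map_add, ← sub_apply, ← neg_apply, cm]
      refine congrArg (fun Z : Op H => Z b.Ω) ?_
      noncomm_ring
    · have := mul_nonneg (mul_nonneg a0 (norm_nonneg x)) (add_nonneg (norm_nonneg c) (norm_nonneg c'))
      linarith
  · have e : y (α • c) - α • y c = y (α • c) - b.r (α • c) - α • (y c - b.r c) := by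
      rw [map_smul, smul_sub]
      abel
    refine (le_of b (Z := cm (y (α • c) - α • y c) (b.l x)) ?_ (h.f1 ⟨x, rfl⟩
      (sub_mem (yD _) (SMulMemClass.smul_mem α (yD _))) (nl b x) (e ▸ norm_sub_le_of_le
      ((yr _).trans_eq (by rw [norm_smul])) ((norm_smul _ _).trans_le
        (mul_le_mul_of_nonneg_left (yr c) (norm_nonneg α)))))).trans ?_
    · simp only [Bim.psi, dd, map_smul, ← smul_apply, ← sub_apply, ← neg_apply, cm]
      refine congrArg (fun Z : Op H => Z b.Ω) ?_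
      simp only [smul_sub, mul_smul_comm, smul_mul_assoc, sub_mul, mul_sub]
      abel
    · have := mul_nonneg (mul_nonneg a0 (norm_nonneg x)) (mul_nonneg (norm_nonneg α) (norm_nonneg c))
      linarith
  · rw [norm_neg _ |>.symm]
    refine le_of b (Z := cm (y (z * w)) (b.l x) - b.r w * cm (y z) (b.l x) - cm (y w) (b.l x) * b.r z)
      ?_ (g4 h ⟨w, rfl⟩ (b.r_norm w) ⟨z, rfl⟩ (b.r_norm z) (yD w) (yD z) (yD _) (yr w) (yr z)
      (b.r_mul z w ▸ (yr _).trans (mul_le_mul_of_nonneg_left (norm_mul_le z w) k0)) ⟨x, rfl⟩ (nl b x))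
    simp only [psi_eq, map_mul, Ph_mul (b.comm x w) (b.comm z w), add_apply, mul_apply_eq_comp,
      b.cen z, map_neg]
    simp only [← mul_apply_eq_comp, ← add_apply, ← sub_apply, ← neg_apply]
    refine congrArg (fun Z : Op H => Z b.Ω) ?_
    simp only [Ph, cm, b.r_mul]
    noncomm_ring
  · simp [Bim.psi, dd]
  · refine (le_of b (Z := cm (y 1 - 1) (b.l x)) ?_ (h.f1 ⟨x, rfl⟩ (sub_mem (yD _) (one_mem D))
      (nl b x) (b.r_one ▸ (yr 1).trans (mul_le_of_le_one_right k0 one_le)))).trans ?_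
    · simp only [Bim.psi, dd, b.r_one, ← neg_apply, cm]
      refine congrArg (fun Z : Op H => Z b.Ω) ?_
      noncomm_ring
    · linarith [mul_nonneg a0 (norm_nonneg x)]

theorem lemB (hT : Tools.{u}) (h1 : Q3Stmt.{u}) (h2 : NormStmt.{u}) (h3 : CocStmt.{u}) :
    BStmt.{u} := by
  classical
  obtain ⟨C, hC, h2⟩ := h2
  obtain ⟨E, hE, h3⟩ := h3
  refine ⟨C + 14, by linarith, fun η hη => ?_⟩
  obtain ⟨δ, δ0, rfl⟩ : ∃ δ, 0 < δ ∧ η = 20 * δ := ⟨η / 20, by positivity, by ring⟩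
  obtain ⟨c, hc, h1⟩ := h1 (δ ^ 2 / (4 * (E * (1 + C)) ^ 2)) (by positivity)
  obtain ⟨k, k0, k1, k2, k3⟩ : ∃ k, 0 < k ∧ k ≤ 1 ∧ k ≤ δ ∧ c * (2 * (C + E) * k) ^ 2 ≤ δ ^ 2 / 4 := by
    obtain ⟨k, k0, k1⟩ : ∃ k, 0 < k ∧ 4 * (C + E) * (c + 1) * k = δ :=
      ⟨δ / (4 * (C + E) * (c + 1)), by positivity, mul_div_cancel₀ _ (by positivity)⟩
    refine ⟨min (min 1 δ) k, by positivity, (min_le_left _ _).trans (min_le_left _ _),
      (min_le_left _ _).trans (min_le_right _ _), ?_⟩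
    calc _ ≤ (c + 1) ^ 2 * (2 * (C + E) * k) ^ 2 := by
          gcongr
          · nlinarith
          · exact min_le_right _ _
      _ = _ := by rw [← k1]; ring
  obtain ⟨K, hK⟩ := exists_nat_one_div_lt k0
  refine ⟨k, k0, fun A _ H _ _ _ b N D κ γ hND κ0 κk g0 hN hD => ?_⟩
  have κ1 := κk.trans k1
  choose y yD yr using hD.one
  obtain ⟨T, t1, t2, t3, t4⟩ := limit b hT y (s := C * κ) (t := C * γ) (δ := δ * γ) fun F => by
    have h0 : star (0 : Op H) = -0 ∧ ‖(0 : Op H)‖ ≤ C * κ ∧ sg b 0 ≤ C * γ :=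
      ⟨by simp, norm_zero.trans_le (by positivity), (map_zero _).trans_le (by positivity)⟩
    rcases g0.eq_or_lt with rfl | g1
    · exact ⟨0, h0, fun p _ => ((h3 A H b D κ 0 0 y 0 κ0 κ1 le_rfl le_rfl hD yD yr
        (small_of b (map_zero _).le)).bd _ _).trans_eq (by ring)⟩
    rcases isEmpty_or_nonempty F with hF | hF
    · exact ⟨0, h0, fun p hp => (hF.false ⟨p, hp⟩).elim⟩
    have hV : Convex ℝ {T : Op H | star T = -T ∧ ‖T‖ ≤ C * κ ∧ sg b T ≤ C * γ} :=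
      fun T hT S hS s t hs ht hst => ⟨by
        rw [star_add, star_smul, star_smul, hT.1, hS.1, star_trivial, star_trivial, smul_neg,
          smul_neg, neg_add], convexOn_univ_norm.convex_le _ ⟨trivial, hT.2.1⟩ ⟨trivial, hS.2.1⟩
          hs ht hst |>.2, (sg b).convexOn.convex_le _ ⟨trivial, hT.2.2⟩ ⟨trivial, hS.2.2⟩
          hs ht hst |>.2⟩
    obtain ⟨T, m1, m2⟩ := minimax hV (fun (i : F) T => ‖b.psi y T i.1.1 i.1.2‖ ^ 2)
      (fun i => by simp only [Bim.psi, dd]; fun_prop) (fun i => psi_conv b y _ _ _ hV) ((δ * γ) ^ 2)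
      fun w hw => by
        obtain ⟨T, t1, t2, t3, t4⟩ := h2 A H b N D κ γ y _ (lawW w)
          (lawU (fun i : F => i.1.1) fun i => i.1.2) (K + 1) hND κ0 κ1 g0 hN hD yD yr
          (fun t => by
            rw [lawW]
            split_ifs
            · exact le_rfl
            · linarith [hw.1 t.1])
          (by
            simp only [lawW, Fintype.sum_prod_type, Fin.sum_univ_three, ← hw.2]
            refine sum_congr rfl fun a _ => ?_
            simp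
            ring) K.succ_pos
        have a1 : κ * γ ≤ k * γ := mul_le_mul_of_nonneg_right κk g0
        have a2 : γ / (K + 1 : ℕ) ≤ k * γ := by
          rw [div_eq_mul_one_div, mul_comm, Nat.cast_succ]
          exact mul_le_mul_of_nonneg_right hK.le g0
        have a3 : 0 ≤ k * γ := by positivity
        refine ⟨T, ⟨t1, t2, of_small b (by positivity) t3⟩, (h1 A H b _ _ (2 * (C + E) * k * γ) F w
          _ _ (by positivity) (by positivity) (acoc_mono b (h3 A H b D κ γ _ y T κ0 κ1 g0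
          (by positivity) hD yD yr t3) (by nlinarith)) hw.1 hw.2 (nrm_mono b t4
          (by nlinarith))).trans_lt ?_⟩
        have a4 : δ ^ 2 / (4 * (E * (1 + C)) ^ 2) * (E * (γ + C * γ)) ^ 2 = δ ^ 2 / 4 * γ ^ 2 := by
          field_simp
        have a5 := mul_le_mul_of_nonneg_right k3 (sq_nonneg γ)
        have a6 : 0 < δ ^ 2 * γ ^ 2 := by positivity
        rw [a4]
        linarith
    exact ⟨T, m1, fun p hp => (lt_of_pow_lt_pow_left₀ 2 (by positivity) (m2 ⟨p, hp⟩)).le⟩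
  have h := sdR b κ0 κ1 g0 hD
  have κδ := κk.trans k2
  refine ⟨T, t1, t2.trans (by nlinarith), fun a => (t3 a).trans (by gcongr; linarith),
    fun x c d hd => (extend b h yD yr δ0.le t4 x c hd).trans (by gcongr <;> linarith),
    fun c x n hn => ?_⟩
  have e : (b.r c * n - n * b.r c - dd T (b.r c) (b.l x)) b.Ω =
      (b.l x * y c - y c * b.l x - dd T (b.l x) (b.r c)) b.Ω -
        cm (y c - b.r c) (n - b.l x) b.Ω := by
    rw [← sub_apply]
    refine congrArg (fun Z : Op H => Z b.Ω) ?_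
    have j : dd T (b.l x) (b.r c) = dd T (b.r c) (b.l x) := jac (b.comm x c) T
    simp only [j, cm, sub_mul, mul_sub, hND n hn _ (yD c), b.comm]
    abel
  have k4 : ‖n‖ ≤ ‖n - b.l x‖ + ‖x‖ :=
    (norm_le_norm_sub_add _ _).trans (add_le_add le_rfl (nl b x))
  rw [e]
  refine (norm_sub_le_of_le ((extend b h yD yr δ0.le t4 x c (yD c)).trans
    (mul_le_mul_of_nonneg_left (add_le_add le_rfl (mul_le_mul_of_nonneg_left (yr c) zero_le_two))
    (by positivity))) (apply_le b (g2 h (sdL b κ0 κ1 g0 hN) ⟨c, rfl⟩ (yD c) (b.r_norm c) (yr c)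
      ⟨x, rfl⟩ hn k4 le_rfl))).trans ?_
  have a1 := mul_le_mul_of_nonneg_right κδ (norm_nonneg x)
  have a2 := mul_le_of_le_one_left (norm_nonneg (n - b.l x)) κ1
  have a3 : 0 ≤ C * ‖n - b.l x‖ := by positivity
  refine le_trans (le_of_eq ?_) (mul_le_mul_of_nonneg_left (show (4 * δ + 16 * κ) * ‖x‖ +
    (4 + 10 * κ) * ‖n - b.l x‖ ≤ _ by linarith) (by positivity))
  ring

end Vale.Agent.P096
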