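import Vale.Agent.P096.Defs

/-! Normalized bounded cocycles are alternating. -/

namespace Vale.Agent.P096

open Finset
open scoped InnerProductSpace

universe u

section Avg

variable {V : Type u} [NormedAddCommGroup V] [InnerProductSpace ℂ V] {κ : Type u} [Fintype κ]
  {q : κ → ℝ}

theorem lemQ_tri (q0 : ∀ k, 0 ≤ q k) (y : κ → V) : ‖∑ k, (q k : ℂ) • y k‖ ≤ ∑ k, q k * ‖y k‖ :=
  norm_sum_le_of_le _ fun k _ => by
    rw [norm_smul, Complex.norm_real, Real.norm_of_nonneg (q0 k)]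

theorem lemQ_avg (q0 : ∀ k, 0 ≤ q k) (q1 : ∑ k, q k = 1) {y : κ → V} {M : ℝ}
    (h : ∀ k, ‖y k‖ ≤ M) : ‖∑ k, (q k : ℂ) • y k‖ ≤ M :=
  (lemQ_tri q0 y).trans ((sum_le_sum fun k _ => mul_le_mul_of_nonneg_left (h k) (q0 k)).trans_eq
    (by rw [← sum_mul, q1, one_mul]))

theorem lemQ_jensen (q0 : ∀ k, 0 ≤ q k) (q1 : ∑ k, q k = 1) (y : κ → V) :
    ‖∑ k, (q k : ℂ) • y k‖ ^ 2 ≤ ∑ k, q k * ‖y k‖ ^ 2 :=
  (pow_le_pow_left₀ (norm_nonneg _) (lemQ_tri q0 y) 2).trans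
    (Real.pow_arith_mean_le_arith_mean_pow _ _ _ (fun k _ => q0 k) q1 (fun _ _ => norm_nonneg _) 2)

theorem lemQ_const (q1 : ∑ k, q k = 1) (v : V) : ∑ k, (q k : ℂ) • v = v := by
  rw [← sum_smul, ← Complex.ofReal_sum, q1, Complex.ofReal_one, one_smul]

theorem lemQ_var (q1 : ∑ k, q k = 1) (X : V) (Y : κ → V) :
    ‖X‖ ^ 2 - 2 * (‖X‖ * ‖∑ k, (q k : ℂ) • Y k‖) + ∑ k, q k * ‖Y k‖ ^ 2 ≤
      ∑ k, q k * ‖X + Y k‖ ^ 2 := by
  have h1 := re_inner_le_norm (𝕜 := ℂ) (-X) (∑ k, (q k : ℂ) • Y k)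
  have h2 : ∑ k, q k * ‖X + Y k‖ ^ 2 = ‖X‖ ^ 2 + 2 * RCLike.re ⟪X, ∑ k, (q k : ℂ) • Y k⟫_ℂ +
      ∑ k, q k * ‖Y k‖ ^ 2 := by
    simp only [norm_add_sq (𝕜 := ℂ), mul_add, sum_add_distrib, ← sum_mul, q1, one_mul, inner_sum,
      inner_smul_right, map_sum, RCLike.re_to_complex, Complex.re_ofReal_mul, mul_sum]
    congr 2
    exact sum_congr rfl fun k _ => by ring
  rw [inner_neg_left, map_neg, norm_neg] at h1
  linarith

omit [InnerProductSpace ℂ V] in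
theorem lemQ_half {v w : V} {t : ℝ} (h : ‖w - v‖ ≤ t) : ‖v‖ ^ 2 / 2 - t ^ 2 ≤ ‖w‖ ^ 2 := by
  have h1 : ‖v‖ ≤ ‖w‖ + t := by
    linarith [norm_sub_norm_le v w, norm_sub_rev v w]
  nlinarith [pow_le_pow_left₀ (norm_nonneg _) h1 2, sq_nonneg (‖w‖ - t)]

end Avg

/-- The hypotheses. -/
structure LemQH {G : Type u} [Group G] {V : Type u} [NormedAddCommGroup V] [InnerProductSpace ℂ V]
    (L R : G → V →L[ℂ] V) (ψ : G → G → V) (Γ ε : ℝ) {ι : Type u} [Fintype ι] (p : ι → ℝ)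
    (s : ι → G) : Prop where
  L1 : ∀ v, L 1 v = v
  R1 : ∀ v, R 1 v = v
  LL : ∀ x y v, L x (L y v) = L (x * y) v
  RR : ∀ x y v, R x (R y v) = R (y * x) v
  LR : ∀ x y v, R y (L x v) = L x (R y v)
  nL : ∀ x v, ‖L x v‖ = ‖v‖
  nR : ∀ x v, ‖R x v‖ = ‖v‖
  hΓ : 0 ≤ Γ
  hε : 0 ≤ ε
  bd : ∀ x y, ‖ψ x y‖ ≤ Γ
  coc : ∀ x y z, ‖ψ (x * y) z - L x (ψ y z) - ψ x (y * z) + R z (ψ x y)‖ ≤ ε
  one1 : ∀ x, ‖ψ 1 x‖ ≤ ε
  one2 : ∀ x, ‖ψ x 1‖ ≤ ε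
  p0 : ∀ i, 0 ≤ p i
  p1 : ∑ i, p i = 1
  ss : ∀ i, s i * s i = 1
  n1 : ∀ z, ‖∑ i, (p i : ℂ) • L (s i) (ψ (s i) z)‖ ≤ ε
  n2 : ∀ x, ‖∑ i, (p i : ℂ) • R (s i) (ψ x (s i))‖ ≤ ε

namespace LemQH

variable {G : Type u} [Group G] {V : Type u} [NormedAddCommGroup V] [InnerProductSpace ℂ V]
  {L R : G → V →L[ℂ] V} {ψ : G → G → V} {Γ ε : ℝ} {ι : Type u} [Fintype ι] {p : ι → ℝ}
  {s : ι → G} (h : LemQH L R ψ Γ ε p s) {κ : Type u} [Fintype κ] {q : κ → ℝ} {B : κ → G}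

include h

theorem inv (i : ι) (b : G) : (s i * b)⁻¹ = b⁻¹ * s i := by
  rw [mul_inv_rev, inv_eq_of_mul_eq_one_left (h.ss i)]

theorem ss' (i : ι) (b : G) : s i * (s i * b) = b := by rw [← mul_assoc, h.ss, one_mul]

theorem err (i : ι) (b : G) (l l' : V) : ∃ r, ‖r‖ ≤ 3 * ε ∧
    ψ (s i * b)⁻¹ (s i * b) + L (s i * b)⁻¹ (R (s i * b) l) - (ψ b⁻¹ b + L b⁻¹ (R b l')) =
      L b⁻¹ (R b (ψ (s i) (s i) + L (s i) (R (s i) l) - l')) - L b⁻¹ (L (s i) (ψ (s i) b)) -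
        R b (R (s i) (ψ b⁻¹ (s i))) + r := by
  refine ⟨_, (norm_add_le _ _).trans ((add_le_add ((norm_sub_le _ _).trans (add_le_add
    (h.coc b⁻¹ (s i) (s i * b)) ((h.nL b⁻¹ _).trans_le (h.coc (s i) (s i) b))))
    ((h.nL b⁻¹ _).trans_le (h.one1 b))).trans_eq (by ring)), ?_⟩
  simp only [h.inv, h.ss, h.ss', map_add, map_sub, h.LL, h.RR, h.LR]
  abel

theorem stepR (q0 : ∀ k, 0 ≤ q k) (q1 : ∑ k, q k = 1) {e : ℝ}
    (he : ∀ x, ‖∑ k, (q k : ℂ) • R (B k)⁻¹ (ψ x (B k))‖ ≤ e) (x : G) :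
    ‖∑ t : ι × κ, ((p t.1 * q t.2 : ℝ) : ℂ) • R (s t.1 * B t.2)⁻¹ (ψ x (s t.1 * B t.2))‖ ≤
      2 * e + 2 * ε := by
  have e1 : ∀ i, ∑ k, ((p i * q k : ℝ) : ℂ) • R (s i * B k)⁻¹ (ψ x (s i * B k)) =
      (p i : ℂ) • (R (s i) (∑ k, (q k : ℂ) • R (B k)⁻¹ (ψ (x * s i) (B k))) -
        L x (R (s i) (∑ k, (q k : ℂ) • R (B k)⁻¹ (ψ (s i) (B k)))) -
        ∑ k, (q k : ℂ) • R (s i * B k)⁻¹ (ψ (x * s i) (B k) - L x (ψ (s i) (B k)) -
          ψ x (s i * B k) + R (B k) (ψ x (s i)))) + (p i : ℂ) • R (s i) (ψ x (s i)) := by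
    intro i
    rw [← smul_add, ← lemQ_const q1 (R (s i) (ψ x (s i)))]
    simp only [map_sum, map_smul, ← sum_sub_distrib, ← sum_add_distrib, ← smul_sub, ← smul_add,
      smul_sum, smul_smul, Complex.ofReal_mul]
    refine sum_congr rfl fun k _ => congrArg _ ?_
    simp only [h.inv, map_add, map_sub, h.RR, h.LR, mul_inv_cancel_left]
    abel
  rw [Fintype.sum_prod_type, sum_congr rfl fun i _ => e1 i, sum_add_distrib]
  refine (norm_add_le _ _).trans ((add_le_add (lemQ_avg h.p0 h.p1 (M := e + e + ε) fun i =>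
    (norm_sub_le _ _).trans (add_le_add ((norm_sub_le _ _).trans (add_le_add ?_ ?_))
      (lemQ_avg q0 q1 fun k => (h.nR _ _).trans_le (h.coc _ _ _)))) (h.n2 x)).trans_eq (by ring))
  · exact (h.nR _ _).trans_le (he _)
  · exact (h.nL _ _).trans_le ((h.nR _ _).trans_le (he _))

theorem stepL (q0 : ∀ k, 0 ≤ q k) (q1 : ∑ k, q k = 1) {e : ℝ}
    (he : ∀ z, ‖∑ k, (q k : ℂ) • L (B k) (ψ (B k)⁻¹ z)‖ ≤ e) (z : G) :
    ‖∑ t : ι × κ, ((p t.1 * q t.2 : ℝ) : ℂ) • L (s t.1 * B t.2) (ψ (s t.1 * B t.2)⁻¹ z)‖ ≤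
      2 * e + 2 * ε := by
  have e1 : ∀ i, ∑ k, ((p i * q k : ℝ) : ℂ) • L (s i * B k) (ψ (s i * B k)⁻¹ z) =
      (p i : ℂ) • (L (s i) (∑ k, (q k : ℂ) • L (B k) (ψ (B k)⁻¹ (s i * z))) -
        L (s i) (R z (∑ k, (q k : ℂ) • L (B k) (ψ (B k)⁻¹ (s i)))) +
        ∑ k, (q k : ℂ) • L (s i * B k) (ψ ((B k)⁻¹ * s i) z - L (B k)⁻¹ (ψ (s i) z) -
          ψ (B k)⁻¹ (s i * z) + R z (ψ (B k)⁻¹ (s i)))) + (p i : ℂ) • L (s i) (ψ (s i) z) := by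
    intro i
    rw [← smul_add, ← lemQ_const q1 (L (s i) (ψ (s i) z))]
    simp only [map_sum, map_smul, ← sum_sub_distrib, ← sum_add_distrib, ← smul_sub, ← smul_add,
      smul_sum, smul_smul, Complex.ofReal_mul]
    refine sum_congr rfl fun k _ => congrArg _ ?_
    simp only [h.inv, map_add, map_sub, h.LL, h.LR, mul_inv_cancel_right]
    abel
  rw [Fintype.sum_prod_type, sum_congr rfl fun i _ => e1 i, sum_add_distrib]
  refine (norm_add_le _ _).trans ((add_le_add (lemQ_avg h.p0 h.p1 (M := e + e + ε) fun i =>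
    (norm_add_le _ _).trans (add_le_add ((norm_sub_le _ _).trans (add_le_add ?_ ?_))
      (lemQ_avg q0 q1 fun k => (h.nL _ _).trans_le (h.coc _ _ _)))) (h.n1 z)).trans_eq (by ring))
  · exact (h.nL _ _).trans_le (he _)
  · exact (h.nL _ _).trans_le ((h.nR _ _).trans_le (he _))

theorem stepF (q0 : ∀ k, 0 ≤ q k) (q1 : ∑ k, q k = 1) {e : ℝ}
    (hR : ∀ x, ‖∑ k, (q k : ℂ) • R (B k)⁻¹ (ψ x (B k))‖ ≤ e)
    (hL : ∀ z, ‖∑ k, (q k : ℂ) • L (B k) (ψ (B k)⁻¹ z)‖ ≤ e) {l l' : V}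
    (hl : l' = ∑ i, (p i : ℂ) • (ψ (s i) (s i) + L (s i) (R (s i) l))) :
    ∑ k, q k * ‖ψ (B k)⁻¹ (B k) + L (B k)⁻¹ (R (B k) l')‖ ^ 2 +
      (∑ i, p i * ‖ψ (s i) (s i) + L (s i) (R (s i) l) - l'‖ ^ 2) / 2 - (2 * e + 3 * ε) ^ 2 -
      10 * ε * (Γ + ‖l'‖) ≤ ∑ t : ι × κ, p t.1 * q t.2 *
        ‖ψ (s t.1 * B t.2)⁻¹ (s t.1 * B t.2) + L (s t.1 * B t.2)⁻¹ (R (s t.1 * B t.2) l)‖ ^ 2 := by
  choose r hr hr' using fun i k => h.err i (B k) l l'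
  set X := fun k => ψ (B k)⁻¹ (B k) + L (B k)⁻¹ (R (B k) l') with hX
  set v := fun i => ψ (s i) (s i) + L (s i) (R (s i) l) - l' with hv
  set Y := fun i k => ψ (s i * B k)⁻¹ (s i * B k) + L (s i * B k)⁻¹ (R (s i * B k) l) - X k with hY
  replace hr' : ∀ i k, Y i k = L (B k)⁻¹ (R (B k) (v i)) - L (B k)⁻¹ (L (s i) (ψ (s i) (B k))) -
      R (B k) (R (s i) (ψ (B k)⁻¹ (s i))) + r i k := hr'
  have hv0 : ∑ i, (p i : ℂ) • v i = 0 := by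
    simp only [hv, smul_sub, sum_sub_distrib, lemQ_const h.p1, ← hl, sub_self]
  have ha : ∀ k, ‖∑ i, (p i : ℂ) • Y i k‖ ≤ 5 * ε := fun k => by
    have e1 : ∑ i, (p i : ℂ) • Y i k = L (B k)⁻¹ (R (B k) (∑ i, (p i : ℂ) • v i)) -
        L (B k)⁻¹ (∑ i, (p i : ℂ) • L (s i) (ψ (s i) (B k))) -
        R (B k) (∑ i, (p i : ℂ) • R (s i) (ψ (B k)⁻¹ (s i))) + ∑ i, (p i : ℂ) • r i k := by
      simp only [hr', map_sum, map_smul, smul_add, smul_sub, sum_add_distrib, sum_sub_distrib]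
    rw [e1, hv0, map_zero, map_zero, zero_sub]
    exact (norm_add_le _ _).trans ((add_le_add ((norm_sub_le _ _).trans (add_le_add
      ((norm_neg _).trans_le ((h.nL _ _).trans_le (h.n1 _))) ((h.nR _ _).trans_le (h.n2 _))))
      (lemQ_avg h.p0 h.p1 fun i => hr i k)).trans_eq (by ring))
  have hb : ∀ i, ‖v i‖ ^ 2 / 2 - (2 * e + 3 * ε) ^ 2 ≤ ∑ k, q k * ‖Y i k‖ ^ 2 := fun i => by
    have e1 : ∑ k, (q k : ℂ) • L (B k) (R (B k)⁻¹ (Y i k)) - v i =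
        ∑ k, (q k : ℂ) • L (B k) (R (B k)⁻¹ (r i k)) -
          L (s i) (∑ k, (q k : ℂ) • R (B k)⁻¹ (ψ (s i) (B k))) -
          R (s i) (∑ k, (q k : ℂ) • L (B k) (ψ (B k)⁻¹ (s i))) := by
      rw [← lemQ_const q1 (v i)]
      simp only [map_sum, map_smul, ← sum_sub_distrib, ← smul_sub]
      refine sum_congr rfl fun k _ => congrArg _ ?_
      simp only [hr', map_add, map_sub, h.LL, h.RR, h.LR, mul_inv_cancel, h.L1, h.R1,
        mul_inv_cancel_left, mul_inv_cancel_right]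
      abel
    refine (lemQ_half (e1 ▸ ?_)).trans ((lemQ_jensen q0 q1
      fun k => L (B k) (R (B k)⁻¹ (Y i k))).trans_eq (by simp only [h.nL, h.nR]))
    exact (norm_sub_le _ _).trans ((add_le_add ((norm_sub_le _ _).trans (add_le_add
      (lemQ_avg q0 q1 fun k => (h.nL _ _).trans_le ((h.nR _ _).trans_le (hr i k)))
      ((h.nL _ _).trans_le (hR _)))) ((h.nR _ _).trans_le (hL _))).trans_eq (by ring))
  have hc : ∀ k, ‖X k‖ ^ 2 - 10 * ε * (Γ + ‖l'‖) + ∑ i, p i * ‖Y i k‖ ^ 2 ≤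
      ∑ i, p i * ‖X k + Y i k‖ ^ 2 := fun k => by
    have k1 : ‖X k‖ ≤ Γ + ‖l'‖ :=
      (norm_add_le _ _).trans (add_le_add (h.bd _ _) ((h.nL _ _).trans (h.nR _ _)).le)
    linarith [lemQ_var h.p1 (X k) fun i => Y i k,
      mul_le_mul k1 (ha k) (norm_nonneg _) ((norm_nonneg _).trans k1)]
  have s1 := sum_le_sum fun k (_ : k ∈ univ) => mul_le_mul_of_nonneg_left (hc k) (q0 k)
  have s2 := sum_le_sum fun i (_ : i ∈ univ) => mul_le_mul_of_nonneg_left (hb i) (h.p0 i)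
  have s3 : ∑ i, p i * ∑ k, q k * ‖Y i k‖ ^ 2 = ∑ k, q k * ∑ i, p i * ‖Y i k‖ ^ 2 := by
    simp only [mul_sum]
    exact sum_comm.trans (sum_congr rfl fun k _ => sum_congr rfl fun i _ => mul_left_comm _ _ _)
  have s4 : ∑ k, q k * ∑ i, p i * ‖X k + Y i k‖ ^ 2 = ∑ t : ι × κ, p t.1 * q t.2 *
      ‖ψ (s t.1 * B t.2)⁻¹ (s t.1 * B t.2) + L (s t.1 * B t.2)⁻¹ (R (s t.1 * B t.2) l)‖ ^ 2 := by
    simp only [mul_sum, Fintype.sum_prod_type_right, hY, add_sub_cancel]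
    exact sum_congr rfl fun k _ => sum_congr rfl fun i _ => by ring
  simp only [mul_add, mul_sub, sum_add_distrib, sum_sub_distrib, ← sum_mul, q1, h.p1, one_mul,
    ← mul_div_assoc, ← sum_div] at s1 s2
  linarith

theorem law {l : ℕ → V} (hl : ∀ j, l (j + 1) =
      ∑ i, (p i : ℂ) • (ψ (s i) (s i) + L (s i) (R (s i) (l j)))) (hn : ∀ j, ‖l j‖ ≤ j * Γ)
    (n : ℕ) : ∃ (κ : Type u) (_ : Fintype κ) (q : κ → ℝ) (B : κ → G), (∀ k, 0 ≤ q k) ∧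
      ∑ k, q k = 1 ∧ (∀ x, ‖∑ k, (q k : ℂ) • R (B k)⁻¹ (ψ x (B k))‖ ≤ 4 ^ n * ε) ∧
      (∀ z, ‖∑ k, (q k : ℂ) • L (B k) (ψ (B k)⁻¹ z)‖ ≤ 4 ^ n * ε) ∧ ∀ j,
      ‖l (j + n)‖ ^ 2 / 2 - ε ^ 2 + (∑ t ∈ range n, ∑ i, p i *
        ‖ψ (s i) (s i) + L (s i) (R (s i) (l (j + t))) - l (j + t + 1)‖ ^ 2) / 2 -
        n * ((5 * 4 ^ n * ε) ^ 2 + 10 * ε * ((j + n + 1) * Γ)) ≤
      ∑ k, q k * ‖ψ (B k)⁻¹ (B k) + L (B k)⁻¹ (R (B k) (l j))‖ ^ 2 := by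
  have hε := h.hε
  have hΓ := h.hΓ
  induction n with
  | zero =>
    refine ⟨PUnit, inferInstance, fun _ => 1, fun _ => 1, fun _ => zero_le_one, by simp,
      fun x => by simpa [h.R1] using h.one2 x, fun x => by simpa [h.L1] using h.one1 x,
      fun j => ?_⟩
    simpa [h.L1, h.R1] using lemQ_half (v := l j) (w := ψ 1 1 + l j) (by simpa using h.one1 1)
  | succ n ih =>
    obtain ⟨κ, _, q, B, q0, q1, hR, hL, hF⟩ := ih
    have h4 : ε ≤ 4 ^ n * ε := le_mul_of_one_le_left hε (one_le_pow₀ (by norm_num))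
    refine ⟨ι × κ, inferInstance, fun t => p t.1 * q t.2, fun t => s t.1 * B t.2,
      fun t => mul_nonneg (h.p0 _) (q0 _), ?_,
      fun x => (h.stepR q0 q1 hR x).trans (by rw [pow_succ]; linarith),
      fun x => (h.stepL q0 q1 hL x).trans (by rw [pow_succ]; linarith), fun j => ?_⟩
    · simp only [Fintype.sum_prod_type, ← mul_sum, q1, mul_one, h.p1]
    refine le_trans ?_ (h.stepF q0 q1 hR hL (hl j))
    have k1 := hF (j + 1)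
    have k2 := hn (j + 1)
    have k3 : (2 * (4 ^ n * ε) + 3 * ε) ^ 2 ≤ (5 * 4 ^ (n + 1) * ε) ^ 2 :=
      pow_le_pow_left₀ (by positivity) (by rw [pow_succ]; linarith) 2
    have k4 : (5 * 4 ^ n * ε) ^ 2 ≤ (5 * 4 ^ (n + 1) * ε) ^ 2 :=
      pow_le_pow_left₀ (by positivity) (by rw [pow_succ]; linarith) 2
    rw [sum_range_succ']
    simp only [add_assoc j, add_comm 1] at k1
    simp only [add_assoc j, add_zero]
    push_cast at k1 k2 ⊢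
    nlinarith [mul_le_mul_of_nonneg_left k4 (Nat.cast_nonneg (α := ℝ) n),
      mul_le_mul_of_nonneg_left k2 hε, mul_nonneg (mul_nonneg hε hΓ) (Nat.cast_nonneg (α := ℝ) n)]

theorem main {N : ℕ} (hN : 0 < N) : ∑ i, p i * ‖ψ (s i) (s i)‖ ^ 2 ≤ 16 / N * Γ ^ 2 +
    (8 * (1 + N * (5 * 4 ^ N) ^ 2 + (5 * N * (N + 1)) ^ 2) + 5) * ε ^ 2 := by
  have hε := h.hε
  have hN' : (1 : ℝ) ≤ N := by exact_mod_cast hN
  obtain ⟨l, l0, hl⟩ : ∃ l : ℕ → V, l 0 = 0 ∧ ∀ j, l (j + 1) =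
      ∑ i, (p i : ℂ) • (ψ (s i) (s i) + L (s i) (R (s i) (l j))) :=
    ⟨fun j => Nat.rec 0 (fun _ v => ∑ i, (p i : ℂ) • (ψ (s i) (s i) + L (s i) (R (s i) v))) j,
      rfl, fun _ => rfl⟩
  have hn : ∀ j, ‖l j‖ ≤ j * Γ := fun j => by
    induction j with
    | zero => simp [l0]
    | succ j ih =>
      rw [hl]
      refine lemQ_avg h.p0 h.p1 fun i => (norm_add_le _ _).trans ?_
      rw [h.nL, h.nR]
      push_cast
      linarith [h.bd (s i) (s i)]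
  obtain ⟨κ, _, q, B, q0, q1, -, -, hF⟩ := h.law hl hn N
  have k1 := (hF 0).trans (sum_le_sum (g := fun k => q k * Γ ^ 2) fun k _ =>
    mul_le_mul_of_nonneg_left (pow_le_pow_left₀ (norm_nonneg _)
      (by simpa [l0] using h.bd _ _) 2) (q0 k))
  simp only [zero_add, ← sum_mul, q1, one_mul, Nat.cast_zero] at k1
  set v := fun t i => ψ (s i) (s i) + L (s i) (R (s i) (l t)) - l (t + 1) with hv
  have k2 : ∀ i, N * ‖ψ (s i) (s i)‖ ^ 2 ≤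
      4 * (∑ t ∈ range N, ‖v t i‖ ^ 2 + ‖l N‖ ^ 2) + N * (5 * ε ^ 2) := fun i => by
    have e1 : ∑ t ∈ range N, v t i + l N = (N : ℂ) • ψ (s i) (s i) +
        L (s i) (R (s i) (∑ t ∈ range N, l t)) - ∑ t ∈ range N, l t := by
      have := sum_range_succ' l N
      rw [sum_range_succ, l0, add_zero] at this
      simp only [hv, sum_sub_distrib, sum_add_distrib, map_sum, sum_const, card_range,
        Nat.cast_smul_eq_nsmul, ← this]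
      abel
    have e2 : (2 * N : ℂ) • ψ (s i) (s i) = (∑ t ∈ range N, v t i + l N) +
        L (s i) (R (s i) (∑ t ∈ range N, v t i + l N)) + (N : ℂ) • R (s i)
          (ψ (s i * s i) (s i) - L (s i) (ψ (s i) (s i)) - ψ (s i) (s i * s i) +
            R (s i) (ψ (s i) (s i)) - ψ 1 (s i) + ψ (s i) 1) := by
      rw [e1]
      generalize ∑ t ∈ range N, l t = m
      simp only [map_add, map_sub, map_smul, h.LL, h.RR, h.LR, h.ss, h.L1, h.R1]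
      module
    have k3 := (congrArg norm e2).trans_le ((norm_add_le _ _).trans
      (add_le_add (norm_add_le _ _) (norm_smul_le _ _)))
    have k4 := mul_le_mul_of_nonneg_left ((norm_add_le _ _).trans (add_le_add
      ((norm_sub_le _ _).trans (add_le_add (h.coc (s i) (s i) (s i)) (h.one1 (s i))))
      (h.one2 (s i)))) (Nat.cast_nonneg (α := ℝ) N)
    rw [h.nL, h.nR, h.nR, norm_smul, norm_mul, Complex.norm_natCast, Complex.norm_ofNat] at k3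
    have k5 : ‖∑ t ∈ range N, v t i‖ ^ 2 ≤ N * ∑ t ∈ range N, ‖v t i‖ ^ 2 :=
      (pow_le_pow_left₀ (norm_nonneg _) (norm_sum_le _ _) 2).trans
        (sq_sum_le_card_mul_sum_sq.trans_eq (by rw [card_range]))
    have k6 : N * ‖ψ (s i) (s i)‖ ≤ ‖∑ t ∈ range N, v t i‖ + ‖l N‖ + N * (3 / 2 * ε) := by
      linarith [norm_add_le (∑ t ∈ range N, v t i) (l N)]
    have k7 := pow_le_pow_left₀ (by positivity) k6 2
    refine le_of_mul_le_mul_left ?_ (zero_lt_one.trans_le hN')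
    nlinarith [sq_nonneg (‖∑ t ∈ range N, v t i‖ - ‖l N‖), sq_nonneg (N * ε),
      sq_nonneg (‖∑ t ∈ range N, v t i‖ + ‖l N‖ - N * (3 / 2 * ε)),
      mul_le_mul_of_nonneg_right hN' (sq_nonneg ‖l N‖)]
  have k3 := sum_le_sum fun i (_ : i ∈ univ) => mul_le_mul_of_nonneg_left (k2 i) (h.p0 i)
  have k4 : ∑ i, p i * (4 * (∑ t ∈ range N, ‖v t i‖ ^ 2 + ‖l N‖ ^ 2) + N * (5 * ε ^ 2)) =
      4 * (∑ t ∈ range N, ∑ i, p i * ‖v t i‖ ^ 2 + ‖l N‖ ^ 2) + N * (5 * ε ^ 2) := by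
    rw [sum_comm]
    simp only [mul_add, sum_add_distrib, mul_left_comm (p _) 4, ← mul_sum, ← sum_mul, h.p1, one_mul]
  simp only [mul_left_comm (p _) (N : ℝ), ← mul_sum] at k3
  refine le_of_mul_le_mul_left ((k3.trans_eq k4).trans ?_) (zero_lt_one.trans_le hN')
  rw [mul_add (N : ℝ), ← mul_assoc (N : ℝ) (16 / N), mul_div_cancel₀ _ (by positivity)]
  have k5 := mul_le_mul_of_nonneg_right hN' (show
    0 ≤ 8 * (1 + N * (5 * 4 ^ N) ^ 2 + (5 * N * (N + 1)) ^ 2) * ε ^ 2 by positivity)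
  nlinarith [sq_nonneg (Γ - 5 * N * (N + 1) * ε)]

end LemQH

theorem lemQ : QStmt.{u} := by
  intro η hη
  obtain ⟨N, hN⟩ := exists_nat_gt (16 / η)
  have h0 : (0 : ℝ) < N := lt_trans (by positivity) hN
  refine ⟨8 * (1 + N * (5 * 4 ^ N) ^ 2 + (5 * N * (N + 1)) ^ 2) + 5, by positivity,
    fun G _ V _ _ L R ψ Γ ε ι _ p s l1 r1 ll rr lr nl nr hΓ hε bd coc o1 o2 p0 p1 ss n1 n2 => ?_⟩
  refine (LemQH.main ⟨fun v => by rw [l1, one_apply_eq_self], fun v => by rw [r1, one_apply_eq_self],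
    fun x y v => by rw [ll, mul_apply_eq_comp], fun x y v => by rw [rr, mul_apply_eq_comp],
    fun x y v => by rw [← mul_apply_eq_comp, ← lr, mul_apply_eq_comp], nl, nr, hΓ, hε, bd, coc,
    o1, o2, p0, p1, ss, n1, n2⟩ (by exact_mod_cast h0)).trans (add_le_add ?_ le_rfl)
  refine mul_le_mul_of_nonneg_right ?_ (sq_nonneg _)
  rw [div_lt_iff₀ hη] at hN
  rw [div_le_iff₀ h0]
  linarith

end Vale.Agent.P096
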