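import Vale.Agent.P096.Defs

/-! Normalized bilinear cocycles are small: the three by three matrix trick. -/

namespace Vale.Agent.P096

open Finset
open scoped InnerProductSpace

universe u

namespace LemQ3

variable {A : Type u} [CStarAlgebra A] {H : Type u} [NormedAddCommGroup H]
  [InnerProductSpace ℂ H] [CompleteSpace H]

abbrev M3 (A : Type u) : Type u := Matrix (Fin 3) (Fin 3) A

abbrev V3 (H : Type u) : Type u := PiLp 2 (fun _ : Fin 3 × Fin 3 => H)

/-- Operators on matrices of vectors. -/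
noncomputable def mk (f : Fin 3 × Fin 3 → Fin 3 → Op H) (g : Fin 3 × Fin 3 → Fin 3 → Fin 3 × Fin 3) :
    V3 H →L[ℂ] V3 H :=
  (PiLp.continuousLinearEquiv 2 ℂ (fun _ : Fin 3 × Fin 3 => H)).symm.toContinuousLinearMap ∘L
    ContinuousLinearMap.pi fun p => ∑ j, f p j ∘L PiLp.proj 2 (fun _ : Fin 3 × Fin 3 => H) (g p j)

noncomputable def LM (b : Bim A H) (X : M3 A) : V3 H →L[ℂ] V3 H :=
  mk (fun p j => b.l (X p.1 j)) fun p j => (j, p.2)

noncomputable def RM (b : Bim A H) (X : M3 A) : V3 H →L[ℂ] V3 H :=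
  mk (fun p j => b.r (X j p.2)) fun p j => (p.1, j)

noncomputable def ps (ψ : A → A → H) (X Z : M3 A) : V3 H :=
  WithLp.toLp 2 fun p => ∑ j, ψ (X p.1 j) (Z j p.2)

variable {b : Bim A H} {ψ : A → A → H} {Γ ε : ℝ}

theorem LM_apply (X : M3 A) (v : V3 H) (i k : Fin 3) :
    LM b X v (i, k) = ∑ j, b.l (X i j) (v (j, k)) := by simp [LM, mk]

theorem RM_apply (X : M3 A) (v : V3 H) (i k : Fin 3) :
    RM b X v (i, k) = ∑ j, b.r (X j k) (v (i, j)) := by simp [RM, mk]

omit [CStarAlgebra A] [InnerProductSpace ℂ H] [CompleteSpace H] in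
theorem ps_apply (X Z : M3 A) (i k : Fin 3) : ps ψ X Z (i, k) = ∑ j, ψ (X i j) (Z j k) := rfl

theorem LM_one : LM b 1 = 1 := by
  ext v ⟨i, k⟩
  simp [LM_apply, Matrix.one_apply, apply_ite b.l, DFunLike.ite_apply]

theorem RM_one : RM b 1 = 1 := by
  ext v ⟨i, k⟩
  simp [RM_apply, Matrix.one_apply, apply_ite b.r, DFunLike.ite_apply, b.r_one]

theorem LM_mul (X Y : M3 A) : LM b (X * Y) = LM b X * LM b Y := by
  ext v ⟨i, k⟩
  simp only [LM_apply, mul_apply_eq_comp, Matrix.mul_apply, map_sum, map_mul, _root_.sum_apply]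
  exact sum_comm

theorem RM_mul (X Y : M3 A) : RM b (X * Y) = RM b Y * RM b X := by
  ext v ⟨i, k⟩
  simp only [RM_apply, mul_apply_eq_comp, Matrix.mul_apply, map_sum, b.r_mul, _root_.sum_apply]
  exact sum_comm

theorem LM_RM (X Y : M3 A) : LM b X * RM b Y = RM b Y * LM b X := by
  ext v ⟨i, k⟩
  simp only [LM_apply, RM_apply, mul_apply_eq_comp, map_sum]
  rw [sum_comm]
  refine sum_congr rfl fun j _ => sum_congr rfl fun m _ => ?_
  rw [← mul_apply_eq_comp, b.comm, mul_apply_eq_comp]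

omit [CompleteSpace H] in
theorem norm_of_adj {T S : V3 H →L[ℂ] V3 H} (h : ∀ v w, ⟪T v, w⟫_ℂ = ⟪v, S w⟫_ℂ) (h1 : S * T = 1)
    (v : V3 H) : ‖T v‖ = ‖v‖ := by
  rw [← sq_eq_sq₀ (norm_nonneg _) (norm_nonneg _), ← inner_self_eq_norm_sq (𝕜 := ℂ), h,
    ← mul_apply_eq_comp, h1, one_apply_eq_self, inner_self_eq_norm_sq]

theorem norm_LM (X : unitary (M3 A)) (v : V3 H) : ‖LM b X v‖ = ‖v‖ := by
  refine norm_of_adj (S := LM b (star X.1)) (fun v w => ?_) (by rw [← LM_mul, X.2.1, LM_one]) v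
  simp only [PiLp.inner_apply, Fintype.sum_prod_type_right, LM_apply, sum_inner, inner_sum,
    Matrix.star_apply, map_star, ContinuousLinearMap.star_eq_adjoint,
    ContinuousLinearMap.adjoint_inner_right]
  exact sum_congr rfl fun _ _ => sum_comm

theorem norm_RM (X : unitary (M3 A)) (v : V3 H) : ‖RM b X v‖ = ‖v‖ := by
  refine norm_of_adj (S := RM b (star X.1)) (fun v w => ?_) (by rw [← RM_mul, X.2.2, RM_one]) v
  simp only [PiLp.inner_apply, Fintype.sum_prod_type, RM_apply, sum_inner, inner_sum,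
    Matrix.star_apply, b.r_star, ContinuousLinearMap.star_eq_adjoint,
    ContinuousLinearMap.adjoint_inner_right]
  exact sum_congr rfl fun _ _ => sum_comm

theorem entry (X : unitary (M3 A)) (i j : Fin 3) : ‖X.1 i j‖ ≤ 1 := by
  let _ := CStarAlgebra.spectralOrder A
  have _ := CStarAlgebra.spectralOrderedRing A
  have h := congrFun (congrFun X.2.1 j) j
  rw [Matrix.mul_apply, Matrix.one_apply_eq] at h
  refine (sq_le_one_iff₀ (norm_nonneg _)).1 ?_
  rw [sq, ← CStarRing.norm_star_mul_self,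
    CStarAlgebra.norm_le_one_iff_of_nonneg _ (star_mul_self_nonneg _), ← h]
  exact single_le_sum (f := fun k => star (X.1 k j) * X.1 k j) (fun _ _ => star_mul_self_nonneg _)
    (mem_univ i)

omit [InnerProductSpace ℂ H] [CompleteSpace H] in
theorem norm_V3 {v : V3 H} {t : ℝ} (ht : 0 ≤ t) (h : ∀ i k, ‖v (i, k)‖ ≤ t) : ‖v‖ ≤ 3 * t := by
  refine (sq_le_sq₀ (norm_nonneg _) (by positivity)).1 ?_
  rw [PiLp.norm_sq_eq_of_L2]
  refine (sum_le_card_nsmul _ _ (t ^ 2) fun p _ =>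
    pow_le_pow_left₀ (norm_nonneg _) (h p.1 p.2) 2).trans_eq ?_
  simp
  ring

omit [InnerProductSpace ℂ H] [CompleteSpace H] in
theorem norm_sum3 {f : Fin 3 → H} {t : ℝ} (h : ∀ j, ‖f j‖ ≤ t) : ‖∑ j, f j‖ ≤ 3 * t :=
  (norm_sum_le_of_le _ fun j _ => h j).trans_eq (by simp)

omit [CStarAlgebra A] [InnerProductSpace ℂ H] [CompleteSpace H] in
theorem norm_ps {X Z : M3 A} {t : ℝ} (ht : 0 ≤ t) (h : ∀ i j k, ‖ψ (X i j) (Z j k)‖ ≤ t) :
    ‖ps ψ X Z‖ ≤ 3 * (3 * t) :=
  norm_V3 (by positivity) fun i k => norm_sum3 fun j => h i j k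

theorem le3 {e x y z : ℝ} (he : 0 ≤ e) (hx : |x| ≤ 1) (hy : |y| ≤ 1) (hz : |z| ≤ 1) :
    e * x * y * z ≤ e :=
  (le_abs_self _).trans (by
    rw [abs_mul, abs_mul, abs_mul, abs_of_nonneg he]
    exact (mul_le_of_le_one_right (by positivity) hz).trans
      ((mul_le_of_le_one_right (by positivity) hy).trans (mul_le_of_le_one_right he hx)))

theorem coc3 (h : b.ACoc ψ Γ ε) (hε : 0 ≤ ε) (X Y Z : unitary (M3 A)) :
    ‖ps ψ (X.1 * Y.1) Z - LM b X (ps ψ Y Z) - ps ψ X (Y.1 * Z.1) + RM b Z (ps ψ X Y)‖ ≤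
      3 * (3 * (3 * ε + 5 * ε)) := by
  refine norm_V3 (by positivity) fun i k => ?_
  have e : (ps ψ (X.1 * Y.1) Z - LM b X (ps ψ Y Z) - ps ψ X (Y.1 * Z.1) + RM b Z (ps ψ X Y)) (i, k)
      = ∑ m, (∑ j, (ψ (X.1 i m * Y.1 m j) (Z.1 j k) - b.l (X.1 i m) (ψ (Y.1 m j) (Z.1 j k)) -
          ψ (X.1 i m) (Y.1 m j * Z.1 j k) + b.r (Z.1 j k) (ψ (X.1 i m) (Y.1 m j))) -
        (ψ (X.1 i m) (∑ j, Y.1 m j * Z.1 j k) - ∑ j, ψ (X.1 i m) (Y.1 m j * Z.1 j k))) := by
    simp only [PiLp.add_apply, PiLp.sub_apply, LM_apply, RM_apply, ps_apply, Matrix.mul_apply,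
      Fin.sum_univ_three, map_add, fun c => (h.lin c).map_add]
    abel
  rw [e]
  have he : ∀ (U : unitary (M3 A)) i j, |‖U.1 i j‖| ≤ 1 := fun U i j => (abs_norm _).trans_le
    (entry U i j)
  refine norm_sum3 fun m => (norm_sub_le _ _).trans (add_le_add (norm_sum3 fun j =>
    (h.coc _ _ _).trans (le3 hε (he _ _ _) (he _ _ _) (he _ _ _))) ?_)
  have hp : ∀ j, ‖Y.1 m j * Z.1 j k‖ ≤ 1 := fun j =>
    (norm_mul_le _ _).trans (mul_le_one₀ (entry _ _ _) (norm_nonneg _) (entry _ _ _))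
  have hx : ε * ‖X.1 i m‖ ≤ ε := mul_le_of_le_one_right hε (entry _ _ _)
  simp only [Fin.sum_univ_three]
  have k1 := (h.add (X.1 i m) (Y.1 m 0 * Z.1 0 k + Y.1 m 1 * Z.1 1 k) (Y.1 m 2 * Z.1 2 k)).trans
    (mul_le_mul hx (add_le_add ((norm_add_le _ _).trans (add_le_add (hp 0) (hp 1))) (hp 2))
      (by positivity) hε)
  have k2 := (h.add (X.1 i m) (Y.1 m 0 * Z.1 0 k) (Y.1 m 1 * Z.1 1 k)).trans
    (mul_le_mul hx (add_le_add (hp 0) (hp 1)) (by positivity) hε)
  refine le_trans (le_of_eq (congrArg norm ?_)) ((norm_add_le _ _).trans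
    ((add_le_add k1 k2).trans_eq (by ring)))
  abel

/-- Signs. -/
def sg : Fin 4 → Fin 3 → ℤ := ![![1, 1, 1], ![1, -1, 1], ![1, 1, -1], ![1, -1, -1]]

theorem sg_sq (r : Fin 4) (i : Fin 3) : (sg r i : ℂ) * sg r i = 1 := by
  have : ∀ r i, sg r i * sg r i = 1 := by decide
  exact_mod_cast this r i

theorem sg_sum (i m : Fin 3) : ∑ r, (sg r i : ℂ) * sg r m = if i = m then 4 else 0 := by
  have : ∀ i m, ∑ r, sg r i * sg r m = if i = m then 4 else 0 := by decide
  exact_mod_cast this i m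

theorem sg_norm (r : Fin 4) (i : Fin 3) : ‖(sg r i : ℂ)‖ = 1 := by
  have := congrArg norm (sg_sq r i)
  rw [norm_mul, norm_one] at this
  nlinarith [norm_nonneg (sg r i : ℂ)]

/-- The symmetry attached to three unitaries. -/
noncomputable def sM (u : Fin 3 → unitary A) (r : Fin 4) : M3 A :=
  Matrix.of fun i j => (2 / 3 * (sg r i * sg r j) : ℂ) • (star (u i : A) * u j) - (1 : M3 A) i j

theorem sM_sq (u : Fin 3 → unitary A) (r : Fin 4) : sM u r * sM u r = 1 := by
  let P : M3 A := Matrix.of fun i j => (sg r i * sg r j : ℂ) • (star (u i : A) * u j)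
  have e : sM u r = (2 / 3 : ℂ) • P - 1 := by
    ext i j
    simp [sM, P, smul_smul]
  have hP : P * P = (3 : ℂ) • P := by
    ext i k
    have : ∀ j, P i j * P j k = P i k := fun j => by
      simp only [P, Matrix.of_apply, smul_mul_smul_comm]
      rw [mul_assoc (star _), ← mul_assoc (u j : A), Unitary.mul_star_self_of_mem (u j).2, one_mul,
        mul_assoc, ← mul_assoc (sg r j : ℂ), sg_sq, one_mul]
    simp only [Matrix.mul_apply, this, Fin.sum_univ_three, Matrix.smul_apply]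
    module
  rw [e]
  simp only [sub_mul, mul_sub, smul_mul_smul_comm, hP, mul_one, one_mul]
  module

theorem sM_star (u : Fin 3 → unitary A) (r : Fin 4) : star (sM u r) = sM u r := by
  ext i j
  simp [sM, Matrix.star_apply, Matrix.one_apply, apply_ite star, eq_comm, mul_comm]

noncomputable def sU (u : Fin 3 → unitary A) (r : Fin 4) : unitary (M3 A) :=
  ⟨sM u r, by rw [sM_star, sM_sq], by rw [sM_star, sM_sq]⟩

omit [CompleteSpace H] in
theorem avg {α : Type u} [Fintype α] (w : α → ℝ) (i : Fin 3) (g : α → Fin 3 → Fin 3 → Fin 3 → H)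
    (f : α → Fin 3 → Fin 3 → H)
    (hg : ∀ a τ j, g a τ i j = if j = i then 0 else (4 / 9 : ℂ) • f a (j + τ) (i + τ)) :
    ∑ t : α × Fin 3 × Fin 4, ((w t.1 / 12 : ℝ) : ℂ) •
      ∑ m, ∑ j, (sg t.2.2 i * sg t.2.2 m : ℂ) • g t.1 t.2.1 m j =
    (8 / 9 : ℂ) • ∑ a, ∑ j, ∑ k, ((if j = k then 0 else w a / 6 : ℝ) : ℂ) • f a j k := by
  rw [Fintype.sum_prod_type, smul_sum]
  refine sum_congr rfl fun a _ => ?_
  have h1 : ∀ τ, ∑ r, ∑ m, ∑ j, (sg r i * sg r m : ℂ) • g a τ m j =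
      ∑ j, if j = i + τ then 0 else (16 / 9 : ℂ) • f a j (i + τ) := fun τ => by
    rw [sum_comm, ← Equiv.sum_comp (Equiv.addRight τ) fun j =>
      if j = i + τ then 0 else (16 / 9 : ℂ) • f a j (i + τ)]
    simp only [← smul_sum, ← sum_smul, sg_sum, ite_smul, zero_smul, sum_ite_eq, mem_univ, if_true,
      hg, Equiv.coe_addRight, add_left_inj]
    rw [smul_sum]
    refine sum_congr rfl fun j _ => ?_
    split_ifs
    · exact smul_zero _
    · module
  rw [Fintype.sum_prod_type]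
  refine (sum_congr rfl fun τ _ => ((smul_sum (r := ((w a / 12 : ℝ) : ℂ))).symm.trans
    (congrArg _ (h1 τ)))).trans ?_
  rw [← smul_sum]
  refine (congrArg _ ((Equiv.sum_comp (Equiv.addLeft i) fun k =>
    ∑ j, if j = k then 0 else (16 / 9 : ℂ) • f a j k).trans sum_comm)).trans ?_
  simp only [smul_sum]
  refine sum_congr rfl fun j _ => sum_congr rfl fun k _ => ?_
  split_ifs
  · simp
  · push_cast
    module

theorem psi_s (h : b.ACoc ψ Γ ε) (u : Fin 3 → unitary A) (r : Fin 4) (j m : Fin 3) (c : A) :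
    ψ (sM u r j m) c = (2 / 3 * (sg r j * sg r m) : ℂ) • ψ (star (u j : A) * u m) c := by
  rw [sM, Matrix.of_apply, (h.lin c).map_sub, (h.lin c).map_smul, Matrix.one_apply]
  split_ifs
  · rw [h.one_left, sub_zero]
  · rw [(h.lin c).map_zero, sub_zero]

theorem psi_s' (h : b.ACoc ψ Γ ε) (hε : 0 ≤ ε) (u : Fin 3 → unitary A) (r : Fin 4) (m j : Fin 3)
    {x : A} (hx : ‖x‖ ≤ 1) : ‖ψ x (sM u r m j) - (if j = m then 0 else
      (2 / 3 * (sg r m * sg r j) : ℂ) • ψ x (star (u m : A) * u j))‖ ≤ ε := by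
  have h0 : ε * ‖x‖ ≤ ε := mul_le_of_le_one_right hε hx
  have h1 : ‖(1 : A)‖ ≤ 1 := IsStarProjection.norm_le _ (IsStarProjection.one A)
  split_ifs with hj
  · have e : sM u r m j = (-1 / 3 : ℂ) • 1 := by
      rw [hj, sM, Matrix.of_apply, sg_sq, Unitary.coe_star_mul_self, Matrix.one_apply_eq]
      module
    have k1 := h.smul x (-1 / 3) 1
    have k2 := norm_le_norm_sub_add (ψ x ((-1 / 3 : ℂ) • 1)) ((-1 / 3 : ℂ) • ψ x 1)
    rw [norm_smul] at k2
    rw [e, sub_zero]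
    norm_num at k1 k2 ⊢
    nlinarith [h.one_right x, mul_le_mul h0 h1 (norm_nonneg _) hε]
  · rw [sM, Matrix.of_apply, Matrix.one_apply_ne (Ne.symm hj), sub_zero]
    refine (h.smul _ _ _).trans ((mul_le_mul h0 (mul_le_one₀ ?_ (norm_nonneg _) ?_)
      (by positivity) hε).trans_eq (mul_one _))
    · simp only [norm_mul, sg_norm]
      norm_num
    · exact (CStarRing.norm_mul_coe_unitary _ _).trans_le ((norm_star _).trans_le
        (((congrArg norm (one_mul _)).symm.trans (CStarRing.norm_mul_coe_unitary _ _)).trans_le h1))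

variable {α : Type u} [Fintype α] {w : α → ℝ} {x z : α → unitary A}

/-- The family of symmetries. -/
noncomputable def sF (x z : α → unitary A) (t : α × Fin 3 × Fin 4) : unitary (M3 A) :=
  sU (fun i => tri (x t.1) (z t.1) (i + t.2.1)) t.2.2

theorem n1 (h : b.ACoc ψ Γ ε) (hε : 0 ≤ ε) (hn : b.Nrm ψ (lawW w) (lawU x z) ε)
    (Z : unitary (M3 A)) :
    ‖∑ t : α × Fin 3 × Fin 4, ((w t.1 / 12 : ℝ) : ℂ) • LM b (sF x z t) (ps ψ (sF x z t) Z)‖ ≤
      3 * ε := by
  refine norm_V3 hε fun i k => ?_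
  let W : α → Fin 3 → Fin 3 → A := fun a j m => star (tri (x a) (z a) j : A) * tri (x a) (z a) m
  have e := avg w i (fun a τ m j => (4 / 9 : ℂ) • b.l (W a (i + τ) (j + τ))
      (ψ (W a (j + τ) (m + τ)) (Z.1 m k)) -
      if i = j then (2 / 3 : ℂ) • ψ (W a (j + τ) (m + τ)) (Z.1 m k) else 0)
    (fun a j m => b.l (star (W a j m)) (ψ (W a j m) (Z.1 i k))) fun a τ j => by
      by_cases hj : j = i
      · simp [hj, W, h.one_left]
      · simp [hj, Ne.symm hj, W]
  have k1 := hn.left (Z.1 i k)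
  simp only [Fintype.sum_prod_type, lawW, lawU, Submonoid.coe_mul, Unitary.coe_star] at k1
  rw [WithLp.ofLp_sum, Finset.sum_apply]
  refine (congrArg norm ((sum_congr rfl fun t _ => ?_).trans e)).trans_le ?_
  · rw [PiLp.smul_apply, LM_apply, sum_comm]
    refine congrArg _ (sum_congr rfl fun j _ => ?_)
    rw [ps_apply, map_sum]
    refine sum_congr rfl fun m _ => ?_
    have := sg_sq t.2.2 j
    simp only [sF, sU, psi_s h]
    simp only [sM, Matrix.of_apply, map_sub, map_smul, sub_apply, smul_apply, Matrix.one_apply, W]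
    split_ifs with hj
    · subst hj
      simp only [map_one, one_apply_eq_self]
      match_scalars <;> grind
    · simp only [map_zero, zero_apply]
      match_scalars
      grind
  · rw [norm_smul]
    refine (mul_le_of_le_one_left (norm_nonneg _) (by norm_num)).trans
      (k1.trans (mul_le_of_le_one_right hε (entry _ _ _)))

theorem n2 (h : b.ACoc ψ Γ ε) (hε : 0 ≤ ε) (hw : ∀ a, 0 ≤ w a) (hw1 : ∑ a, w a = 1)
    (hn : b.Nrm ψ (lawW w) (lawU x z) ε) (X : unitary (M3 A)) :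
    ‖∑ t : α × Fin 3 × Fin 4, ((w t.1 / 12 : ℝ) : ℂ) • RM b (sF x z t) (ps ψ X (sF x z t))‖ ≤
      3 * (ε + 3 * (3 * ε)) := by
  refine norm_V3 (by positivity) fun i k => ?_
  let W : α → Fin 3 → Fin 3 → A := fun a j m => star (tri (x a) (z a) j : A) * tri (x a) (z a) m
  have e := avg w k (fun a τ m j => if j = m then 0 else (4 / 9 : ℂ) • b.r (W a (j + τ) (k + τ))
      (ψ (X.1 i m) (W a (m + τ) (j + τ))) -
      if j = k then (2 / 3 : ℂ) • ψ (X.1 i m) (W a (m + τ) (j + τ)) else 0)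
    (fun a j m => b.r (star (W a m j)) (ψ (X.1 i k) (W a m j))) fun a τ j => by
      by_cases hj : j = k <;> simp [hj, W]
  have k1 := hn.right (X.1 i k)
  simp only [Fintype.sum_prod_type, lawW, lawU, Submonoid.coe_mul, Unitary.coe_star] at k1
  rw [sum_congr rfl fun a _ => sum_comm] at k1
  simp only [@eq_comm (Fin 3)] at k1 e
  rw [WithLp.ofLp_sum, Finset.sum_apply]
  refine (norm_le_norm_add_norm_sub' _ _).trans (add_le_add ((congrArg norm e).trans_le ?_) ?_)
  · rw [norm_smul]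
    refine (mul_le_of_le_one_left (norm_nonneg _) (by norm_num)).trans
      (k1.trans (mul_le_of_le_one_right hε (entry _ _ _)))
  rw [← sum_sub_distrib]
  refine (norm_sum_le_of_le _ (n := fun t => w t.1 / 12 * (3 * (3 * ε))) fun t _ => ?_).trans_eq ?_
  · rw [PiLp.smul_apply, ← smul_sub, norm_smul, Complex.norm_real,
      Real.norm_of_nonneg (by linarith [hw t.1]), RM_apply, sum_comm, ← sum_sub_distrib]
    refine mul_le_mul_of_nonneg_left (norm_sum3 fun j => ?_) (by linarith [hw t.1])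
    rw [ps_apply, map_sum, ← sum_sub_distrib]
    refine norm_sum3 fun m => le_trans (le_of_eq (congrArg norm ?_))
      (((b.r _).le_of_opNorm_le_of_le ((b.r_norm _).trans (entry (sF x z t) j k))
        (psi_s' h hε (fun i => tri (x t.1) (z t.1) (i + t.2.1)) t.2.2 m j (entry X i m))).trans_eq
        (one_mul _))
    rw [map_sub]
    refine congrArg _ ?_
    have := sg_sq t.2.2 j
    by_cases hm : j = m
    · simp [hm]
    simp only [sF, sU, sM, Matrix.of_apply, map_sub, map_smul, sub_apply, smul_apply,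
      Matrix.one_apply, W, if_neg hm, if_neg (Ne.symm hm)]
    by_cases hj : j = k
    · subst hj
      simp only [if_true, b.r_one, one_apply_eq_self]
      match_scalars <;> grind
    · simp only [if_neg hj, if_neg (Ne.symm hj), map_zero, zero_apply]
      match_scalars
      grind
  · simp only [Fintype.sum_prod_type, sum_const, card_univ, Fintype.card_fin, nsmul_eq_mul,
      ← mul_sum, ← sum_mul, ← sum_div, hw1, Fintype.card_prod]
    push_cast
    ring

omit [Fintype α] in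
theorem corner (h : b.ACoc ψ Γ ε) (hε : 0 ≤ ε) (a : α) : ‖ψ (x a) (z a)‖ ^ 2 ≤
    11 * ‖ps ψ (sF x z (a, 0, 0)) (sF x z (a, 0, 0))‖ ^ 2 + 44 * ε ^ 2 := by
  have k0 := PiLp.norm_apply_le (ps ψ (sF x z (a, 0, 0)) (sF x z (a, 0, 0))) (0, 2)
  have k1 := psi_s' h hε (fun i => tri (x a) (z a) (i + 0)) 0 1 2 (entry (sF x z (a, 0, 0)) 0 1)
  have k2 := psi_s' h hε (fun i => tri (x a) (z a) (i + 0)) 0 2 2 (entry (sF x z (a, 0, 0)) 0 2)
  rw [ps_apply, Fin.sum_univ_three] at k0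
  simp only [sF, sU] at k0 k1 k2 ⊢
  generalize ‖ps ψ _ _‖ = N at k0 ⊢
  rw [psi_s h, Unitary.coe_star_mul_self, h.one_left, smul_zero, zero_add] at k0
  rw [if_neg (by decide), psi_s h _ _ _ _ (_ * _)] at k1
  simp only [if_true, sub_zero] at k2
  have e : ‖(2 / 3 * (sg 0 1 * sg 0 2) : ℂ) • (2 / 3 * (sg 0 0 * sg 0 1) : ℂ) •
      ψ (star (tri (x a) (z a) (0 + 0) : A) * tri (x a) (z a) (1 + 0))
        (star (tri (x a) (z a) (1 + 0) : A) * tri (x a) (z a) (2 + 0))‖ =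
      4 / 9 * ‖ψ (x a) (z a)‖ := by
    simp only [norm_smul, norm_mul, sg_norm]
    simp [tri]
    ring
  have k3 := (norm_sub_norm_le _ _).trans ((norm_sub_rev _ _).trans_le k1)
  have k4 := (norm_le_add_norm_add _ _).trans (add_le_add k0 k2)
  rw [e] at k3
  have k5 := pow_le_pow_left₀ (norm_nonneg _)
    (show ‖ψ (x a) (z a)‖ ≤ 9 / 4 * (N + 2 * ε) by linarith) 2
  nlinarith [sq_nonneg (N - 2 * ε)]

end LemQ3

open LemQ3

theorem lemQ3 (h : QStmt.{u}) : Q3Stmt.{u} := by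
  intro η hη
  obtain ⟨c, hc, hQ⟩ := h (η / (132 * 81)) (by positivity)
  refine ⟨132 * c * 100 ^ 2 + 44, by positivity,
    fun A _ H _ _ _ b ψ Γ ε α _ w x z hΓ hε ha hw hw1 hn => ?_⟩
  have h0 : ∀ y, ψ y 0 = 0 := fun y => by simpa using ha.smul y 0 0
  have k := hQ (unitary (M3 A)) (V3 H) (fun X => LM b X) (fun X => RM b X) (fun X Z => ps ψ X Z)
    (3 * (3 * Γ)) (100 * ε) (α × Fin 3 × Fin 4) (fun t => w t.1 / 12) (sF x z) LM_one RM_one
    (fun X Y => LM_mul _ _) (fun X Y => RM_mul _ _) (fun X Y => LM_RM _ _) norm_LM norm_RM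
    (by positivity) (by positivity)
    (fun X Y => norm_ps hΓ fun i j k => (ha.bd _ _).trans
      ((mul_le_of_le_one_right (by positivity) (entry _ _ _)).trans
        (mul_le_of_le_one_right hΓ (entry _ _ _))))
    (fun X Y Z => (coc3 ha hε X Y Z).trans (by linarith))
    (fun X => (norm_ps hε fun i j k => by
      by_cases hj : i = j <;> simp [hj, ha.one_left, (ha.lin _).map_zero, hε]).trans
      (by linarith))
    (fun X => (norm_ps hε fun i j k => by
      by_cases hj : j = k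
      · simpa [hj] using (ha.one_right _).trans (mul_le_of_le_one_right hε (entry X i k))
      · simp [hj, h0, hε]).trans (by linarith))
    (fun t => by linarith [hw t.1])
    (by
      simp only [Fintype.sum_prod_type, sum_const, card_univ, nsmul_eq_mul, ← mul_sum, ← sum_div,
        hw1]
      norm_num)
    (fun t => Subtype.ext (sM_sq _ _))
    (fun Z => (n1 ha hε hn Z).trans (by linarith))
    (fun X => (n2 ha hε hw hw1 hn X).trans (by linarith))
  have k1 : ∑ a, w a / 12 * ‖ps ψ (sF x z (a, 0, 0)) (sF x z (a, 0, 0))‖ ^ 2 ≤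
      ∑ t : α × Fin 3 × Fin 4, w t.1 / 12 * ‖ps ψ (sF x z t) (sF x z t)‖ ^ 2 := by
    rw [Fintype.sum_prod_type]
    exact sum_le_sum fun a _ => single_le_sum
      (f := fun s : Fin 3 × Fin 4 => w a / 12 * ‖ps ψ (sF x z (a, s)) (sF x z (a, s))‖ ^ 2)
      (fun s _ => mul_nonneg (by linarith [hw a]) (sq_nonneg _)) (mem_univ (0, 0))
  have k2 : ∑ a, w a * ‖ψ (x a) (z a)‖ ^ 2 ≤ ∑ a, (132 * (w a / 12 *
      ‖ps ψ (sF x z (a, 0, 0)) (sF x z (a, 0, 0))‖ ^ 2) + w a * (44 * ε ^ 2)) :=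
    sum_le_sum fun a _ => (mul_le_mul_of_nonneg_left (corner ha hε a) (hw a)).trans_eq (by ring)
  rw [sum_add_distrib, ← mul_sum, ← sum_mul, hw1] at k2
  linarith

end Vale.Agent.P096
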