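import Vale.Agent.P096.Norm2

/-! Normalization by averaging. -/

namespace Vale.Agent.P096

universe u

namespace NormAux

variable {A : Type u} [CStarAlgebra A] {H : Type u} [NormedAddCommGroup H]
  [InnerProductSpace ℂ H] [CompleteSpace H] (b : Bim A H)

/-- The map `a ↦ l a Ω`. -/
noncomputable def jj : A →L[ℂ] H :=
  LinearMap.mkContinuous
    { toFun := fun a => b.l a b.Ω
      map_add' := fun x y => by rw [map_add, add_apply]
      map_smul' := fun c x => by rw [map_smul, smul_apply, RingHom.id_apply] } ‖b.Ω‖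
    fun a => ((b.l a).le_of_opNorm_le (NonUnitalStarAlgHom.norm_apply_le b.l a) _).trans_eq
      (mul_comm _ _)

/-- The seminorm measuring smallness. -/
noncomputable def sg : Seminorm ℝ (Op H) :=
  Seminorm.of (fun Z => ‖Z ∘L jj b‖)
    (fun x y => by rw [ContinuousLinearMap.add_comp]; exact norm_add_le _ _)
    fun c x => by rw [ContinuousLinearMap.smul_comp, norm_smul]

theorem small_of {Z : Op H} {t : ℝ} (h : sg b Z ≤ t) : b.Small Z t :=
  fun a => (Z ∘L jj b).le_of_opNorm_le h a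

theorem of_small {Z : Op H} {t : ℝ} (ht : 0 ≤ t) (h : b.Small Z t) : sg b Z ≤ t :=
  ContinuousLinearMap.opNorm_le_bound _ ht h

theorem one_le : ‖(1 : A)‖ ≤ 1 := (IsStarProjection.one A).norm_le

theorem apply_le {Z : Op H} {t : ℝ} (h : sg b Z ≤ t) : ‖Z b.Ω‖ ≤ t := by
  have h1 := small_of b h 1
  rw [map_one, one_apply_eq_self] at h1
  exact h1.trans (mul_le_of_le_one_right ((apply_nonneg _ _).trans h) one_le)

theorem sg_left (a z : Op H) : sg b (a * z) ≤ ‖a‖ * sg b z :=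
  ContinuousLinearMap.opNorm_comp_le a (z ∘L jj b)

theorem lr (a w : A) : b.l a (b.l w b.Ω) = b.r w (b.l a b.Ω) := by
  rw [b.cen w, ← mul_apply_eq_comp, b.comm, mul_apply_eq_comp]

theorem tame_l (a : Op H) (ha : a ∈ Set.range b.l) (z : Op H) : sg b (z * a) ≤ sg b z * ‖a‖ := by
  obtain ⟨a, rfl⟩ := ha
  obtain ⟨a', h1, h2⟩ := b.liftL a
  refine of_small b (by positivity) fun w => ?_
  rw [mul_apply_eq_comp, lr, ← h1, ← lr, ← mul_apply_eq_comp (b.l a'), ← map_mul, mul_assoc]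
  exact (small_of b le_rfl _).trans
    (mul_le_mul_of_nonneg_left (norm_mul_le_of_le h2 le_rfl) (apply_nonneg _ _))

theorem tame_r (a : Op H) (ha : a ∈ Set.range b.r) (z : Op H) : sg b (z * a) ≤ sg b z * ‖a‖ := by
  obtain ⟨a, rfl⟩ := ha
  obtain ⟨a', h1, h2⟩ := b.liftR a
  refine of_small b (by positivity) fun w => ?_
  rw [mul_apply_eq_comp, ← lr, ← h1, ← mul_apply_eq_comp (b.l w), ← map_mul, mul_assoc,
    mul_comm _ ‖w‖]
  exact (small_of b le_rfl _).trans
    (mul_le_mul_of_nonneg_left (norm_mul_le_of_le le_rfl h2) (apply_nonneg _ _))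

theorem two_of {π : A → Op H} {D : Alg H} {κ γ : ℝ} (hγ : 0 ≤ γ) (h : b.Approx π D κ γ) (y : Op H)
    (hy : y ∈ D) : ∃ c ∈ Set.range π, ‖y - c‖ ≤ κ * ‖y‖ ∧ sg b (y - c) ≤ γ * ‖y‖ ∧
      sg b (star (y - c)) ≤ γ * ‖y‖ := by
  obtain ⟨c, h1, h2, h3⟩ := h.two y hy
  exact ⟨_, ⟨c, rfl⟩, h1, of_small b (by positivity) h2, of_small b (by positivity) h3⟩

theorem unorm (g : unitary A) : ‖(g : A)‖ ≤ 1 := by
  have h := CStarRing.norm_star_mul_self (x := (g : A))
  rw [g.2.1] at h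
  nlinarith [one_le (A := A), norm_nonneg (g : A)]

theorem psi_eq (y : A → Op H) (T : Op H) (x c : A) :
    b.psi y T x c = -(Ph T (y c) (b.l x) (b.r c) b.Ω) := by
  rw [Bim.psi, ← neg_apply]
  refine congrArg (fun Z : Op H => Z b.Ω) ?_
  simp only [Ph, cm, dd]
  abel

theorem sum_le {ι : Type u} [Fintype ι] (q : ι → ℝ) (s Z : ι → Op H) {t : ℝ}
    (h : sg b (av q fun i => s i * Z i) ≤ t) : ‖∑ i, (q i : ℂ) • s i (-(Z i b.Ω))‖ ≤ t := by
  have h1 := apply_le b h
  simp only [av, sum_apply, smul_apply, mul_apply_eq_comp] at h1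
  simpa only [map_neg, smul_neg, Finset.sum_neg_distrib, norm_neg, Complex.coe_smul] using h1

end NormAux

open NormAux in
theorem normalize : NormStmt.{u} := by
  refine ⟨200, by norm_num, fun A _ H _ _ _ b N D κ γ y ι _ q v K hND k0 k1 g0 hN hD yD yr q0 q1
    hK => ?_⟩
  have c1 : ∀ a ∈ Set.range b.l, ∀ c ∈ Set.range b.r, a * c = c * a := by
    rintro _ ⟨a, rfl⟩ _ ⟨c, rfl⟩
    exact b.comm a c
  have h : Sd (sg b) (Set.range b.l) (Set.range b.r) D κ γ :=
    ⟨sg_left b, tame_l b, tame_r b, c1, by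
      rintro _ ⟨a, rfl⟩ _ ⟨c, rfl⟩
      exact ⟨a - c, map_sub _ _ _⟩, by
      rintro _ ⟨a, rfl⟩
      exact ⟨star a, b.r_star a⟩, two_of b g0 hD, k0, k1, g0⟩
  have h' : Sd (sg b) (Set.range b.r) (Set.range b.l) N κ γ :=
    ⟨sg_left b, tame_r b, tame_l b, fun a ha c hc => (c1 c hc a ha).symm, by
      rintro _ ⟨a, rfl⟩ _ ⟨c, rfl⟩
      exact ⟨a - c, map_sub _ _ _⟩, by
      rintro _ ⟨a, rfl⟩
      exact ⟨star a, map_star _ a⟩, two_of b g0 hN, k0, k1, g0⟩
  choose n n1 n2 using hN.one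
  have kk : ∀ g : unitary A, κ * ‖(g : A)‖ ≤ κ := fun g => mul_le_of_le_one_right k0 (unorm g)
  have hl : Fam (Set.range b.l) N κ (fun g : unitary A => b.l g) fun g => n g :=
    ⟨fun g => ⟨g, rfl⟩, fun g => (NonUnitalStarAlgHom.norm_apply_le b.l _).trans (unorm g),
      fun g => by rw [← map_star, ← map_mul, g.2.1, map_one],
      fun g => by rw [← map_star, ← map_mul, g.2.2, map_one], fun g => n1 g,
      fun g => (n2 g).trans (kk g)⟩
  have hr : Fam (Set.range b.r) D κ (fun g : unitary A => b.r g) fun g => y g :=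
    ⟨fun g => ⟨g, rfl⟩, fun g => (b.r_norm _).trans (unorm g),
      fun g => by rw [← b.r_star, ← b.r_mul, g.2.2, b.r_one],
      fun g => by rw [← b.r_star, ← b.r_mul, g.2.1, b.r_one], fun g => yD g,
      fun g => (yr g).trans (kk g)⟩
  obtain ⟨s, w, hw, inv⟩ := cesaro (V := Op H) ⟨q0, q1⟩ v hK
  obtain ⟨s', w', hw', inv'⟩ := cesaro (V := Op H) ⟨q0, q1⟩ (fun i => MulOpposite.op (v i)) hK
  obtain ⟨T, t1, t2, t3, t4, t5⟩ := core (θ := 2 / K) h h' hl hr (by
      rintro _ ⟨a, rfl⟩ _ ⟨c, rfl⟩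
      exact ⟨a * c, map_mul _ _ _⟩) hND (fun g g' => map_mul b.l (g : A) g')
    (fun g g' => b.r_mul g g') ⟨q0, q1⟩ v hw (fun j => j)
    (fun f t hf => (inv _ f t hf).trans_eq (by ring)) hw' (fun j => j.1.unop)
    (fun f t hf => (inv' _ (fun g => f g.unop) t fun g => hf _).trans_eq (by ring))
  have a1 : 0 ≤ κ * γ := by positivity
  have a2 : 0 ≤ γ / K := by positivity
  have a3 : 2 / (K : ℝ) * γ = 2 * (γ / K) := by ring
  refine ⟨T, t1, by linarith, small_of b (by linarith), fun c => ?_, fun x => ?_⟩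
  · simp only [psi_eq, map_star]
    refine (sum_le b q _ _ (t4 _ ⟨c, rfl⟩ _ (yD c) _ (b.r_norm c) (yr c))).trans ?_
    exact mul_le_mul_of_nonneg_right (by linarith) (norm_nonneg c)
  · simp only [psi_eq, b.r_star]
    refine (sum_le b q _ _ (t5 _ ⟨x, rfl⟩ _ (NonUnitalStarAlgHom.norm_apply_le b.l x))).trans ?_
    exact mul_le_mul_of_nonneg_right (by linarith) (norm_nonneg x)

end Vale.Agent.P096
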