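import Vale.Agent.P096.Defs

/-! Truncation, existence of partners, transfer of the other side. -/

set_option linter.unusedSectionVars false

namespace Vale.Agent.P096

open Filter Topology
open scoped InnerProductSpace

universe u

section Aux

variable {H : Type u} [NormedAddCommGroup H] [InnerProductSpace ℂ H] [CompleteSpace H]

theorem pt_ap {x y z : Op H} (h : x * y = z) (η : H) : x (y η) = z η :=
  DFunLike.congr_fun h η

theorem pt_comm {A B : Alg H} (h : CP A B) {x c : Op H} (hx : x ∈ A) (hc : c ∈ B) (η : H) :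
    x (c η) = c (x η) :=
  DFunLike.congr_fun ((h.left x).1 hx c hc) η

theorem pt_le {x : Op H} {t : ℝ} (hx : ‖x‖ ≤ t) (η : H) : ‖x η‖ ≤ t * ‖η‖ := x.le_of_opNorm_le hx η

theorem pt_le1 {x : Op H} (hx : ‖x‖ ≤ 1) (η : H) : ‖x η‖ ≤ ‖η‖ := by
  simpa using pt_le hx η

theorem pt_nl {e : Op H} (h : ‖e‖ ≤ 1) (y : Op H) : ‖e * y‖ ≤ ‖y‖ :=
  (norm_mul_le _ _).trans (mul_le_of_le_one_left (norm_nonneg _) h)

theorem pt_nr {e : Op H} (h : ‖e‖ ≤ 1) (y : Op H) : ‖y * e‖ ≤ ‖y‖ :=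
  (norm_mul_le _ _).trans (mul_le_of_le_one_right (norm_nonneg _) h)

theorem pt_self {A : Alg H} {g : Op H} (hg : IsStarProjection g) (h : g ∈ A) : Cor A g g :=
  ⟨h, hg.isIdempotentElem.eq, hg.isIdempotentElem.eq⟩

theorem pt_star {A : Alg H} {g a : Op H} (hg : IsStarProjection g) (h : Cor A g a) :
    Cor A g (star a) :=
  ⟨star_mem h.mem, by simpa [hg.isSelfAdjoint.star_eq] using congrArg star h.right,
    by simpa [hg.isSelfAdjoint.star_eq] using congrArg star h.left⟩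

theorem pt_sub {A : Alg H} {g a b : Op H} (h : Cor A g a) (h' : Cor A g b) : Cor A g (a - b) :=
  ⟨sub_mem h.mem h'.mem, by rw [mul_sub, h.left, h'.left], by rw [sub_mul, h.right, h'.right]⟩

end Aux

theorem trunc (hT : Tools.{u}) : TruncStmt.{u} := by
  intro H _ _ _ A B ξ g r η δ γ hAB hTV hδ hγ hη
  obtain ⟨_, ⟨a, ha, rfl⟩, h1⟩ := Metric.mem_closure_iff.1 (hTV.1.cyc η) γ hγ
  rw [dist_eq_norm] at h1
  have hr := hTV.2.proj
  have hz : a * r ∈ B := mul_mem ha hTV.2.mem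
  have hz1 : a * r * r = a * r := by rw [mul_assoc, hr.isIdempotentElem.eq]
  have hz2 : (a * r) ξ = a ξ := congrArg a hTV.2.fix
  rw [← hz2] at h1
  generalize a * r = z at hz hz1 h1
  obtain ⟨e', k1, k2, k3, k4, k5⟩ := hT.spec z (2 * δ) (by positivity)
  have m1 : e' ∈ B := (hAB.right e').2 fun x hx =>
    (k2 x ((hAB.left x).1 hx _ (mul_mem (star_mem hz) hz))).symm
  have m2 : e' * r = e' := by
    have := k3 (1 - r) (by rw [mul_sub, mul_one, hz1, sub_self])
    rw [mul_sub, mul_one, sub_eq_zero] at this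
    exact this.symm
  have m3 : r * e' = e' := by
    simpa [hr.isSelfAdjoint.star_eq, k1.isSelfAdjoint.star_eq] using congrArg star m2
  obtain ⟨e, l1, l2, l3⟩ := hT.partP hAB.symm hTV.symm e' k1 ⟨m1, m3, m2⟩
  refine ⟨z * (1 - e'), mul_mem hz (sub_mem (one_mem _) m1), ?_, k5, ?_⟩
  · rw [mul_assoc, sub_mul, one_mul, m2, mul_sub, hz1, mul_sub, mul_one]
  · have n1 : z (e' ξ) = e η - e (g η - z ξ) := by
      rw [← l3, map_sub, pt_ap l2.right, pt_comm hAB l2.mem hz, sub_sub_cancel]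
    have n2 : ‖z (e' ξ)‖ ≤ ‖e η‖ + ‖e (g η - z ξ)‖ := n1 ▸ norm_sub_le _ _
    have n3 := pt_le1 (l1.norm_le _) (g η - z ξ)
    have n4 := hη e l1 l2
    have n5 := k4 ξ
    rw [l3] at n4
    have n6 : g η - (z * (1 - e')) ξ = g η - z ξ + z (e' ξ) := by
      simp only [mul_apply_eq_comp, sub_apply,
        one_apply_eq_self, map_sub]
      abel
    rw [n6]
    refine (norm_add_le _ _).trans ?_
    linarith

theorem pt_half (h1 : TruncStmt.{u}) {H : Type u} [NormedAddCommGroup H] [InnerProductSpace ℂ H]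
    [CompleteSpace H] {A B D : Alg H} {ξ : H} {g r p : Op H} {δ κ γ : ℝ} (hAB : CP A B)
    (hTV : TV A B ξ g r) (hN : Near D B δ) (hδ : 0 < δ) (hκ : δ ≤ κ) (hκ1 : κ ≤ 1 / 10)
    (hγ : 0 < γ) (hS : Side A D ξ g r p κ γ) {y : Op H} (hy : Cor D p y) :
    ∃ c, Cor B r c ∧ ‖y - c‖ ≤ 9 * κ * ‖y‖ ∧ Sm A g ξ (y - c) (19 * γ * ‖y‖) := by
  have hr := hTV.2.proj
  have hg := hTV.1.proj
  have hr1 := hr.norm_le _
  have hrr := hr.isIdempotentElem.eq
  rcases eq_or_ne y 0 with rfl | hy0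
  · exact ⟨0, ⟨zero_mem _, mul_zero _, zero_mul _⟩, by simp, fun a _ => by simp⟩
  have ht : 0 < ‖y‖ := norm_pos_iff.2 hy0
  have hκ0 : 0 < κ := hδ.trans_le hκ
  obtain ⟨c₀, k1, k2⟩ := hN y hy.mem
  have k3 : ‖y - r * c₀ * r‖ ≤ 3 * κ * ‖y‖ := by
    have e : y - r * c₀ * r = (p - r) * y + r * (y * (p - r)) + r * ((y - c₀) * r) := by
      simp only [sub_mul, mul_sub, hy.left, hy.right, mul_assoc]
      abel
    have e1 := (norm_mul_le (p - r) y).trans (mul_le_mul_of_nonneg_right hS.near ht.le)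
    have e2 := (norm_mul_le y (p - r)).trans (mul_le_mul_of_nonneg_left hS.near ht.le)
    have e3 := mul_le_mul_of_nonneg_right hκ ht.le
    rw [e]
    refine (norm_add_le _ _).trans ((add_le_add_left (norm_add_le _ _) _).trans ?_)
    linarith [pt_nl hr1 (y * (p - r)), pt_nl hr1 ((y - c₀) * r), pt_nr hr1 (y - c₀)]
  have k4 : Cor B r (r * c₀ * r) := ⟨mul_mem (mul_mem hTV.2.mem k1) hTV.2.mem,
    by rw [← mul_assoc, ← mul_assoc, hrr], by rw [mul_assoc, hrr]⟩
  generalize r * c₀ * r = c₁ at k3 k4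
  have hcm : ∀ x, Cor A g x → ‖x‖ ≤ 1 → ‖(x * y - y * x) ξ‖ ≤ γ * ‖y‖ := fun x hx hx1 =>
    (hS.comm x y hx hy).trans
      (mul_le_mul_of_nonneg_right (mul_le_of_le_one_right hγ.le hx1) ht.le)
  obtain ⟨m, l1, l2, l3, l4⟩ := h1 H A B ξ g r ((y - c₁) ξ) (3 * κ * ‖y‖) (γ * ‖y‖) hAB hTV
    (by positivity) (by positivity) fun e he he' => by
      have e1 : e ((y - c₁) ξ) = (y - c₁) (e ξ) + (e * y - y * e) ξ := by
        simp only [mul_apply_eq_comp, sub_apply, map_sub,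
          pt_comm hAB he'.mem k4.mem]
        abel
      rw [e1]
      exact (norm_add_le _ _).trans (add_le_add (pt_le k3 _) (hcm e he' (he.norm_le _)))
  have hn : c₁ + m ∈ B := add_mem k4.mem l1
  have hnr : (c₁ + m) * r = c₁ + m := by rw [add_mul, k4.right, l2]
  have m1 : ‖y ξ - (c₁ + m) ξ‖ ≤ 6 * (γ * ‖y‖) := by
    have e1 : y ξ - (c₁ + m) ξ = (g ((y - c₁) ξ) - m ξ) - (g * y - y * g) ξ := by
      simp only [mul_apply_eq_comp, sub_apply,
        add_apply, map_sub, pt_comm hAB hTV.1.mem k4.mem, hTV.1.fix]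
      abel
    rw [e1]
    refine (norm_sub_le _ _).trans ?_
    linarith [hcm g (pt_self hg hTV.1.mem) (hg.norm_le _)]
  have hc : Cor B r (r * (c₁ + m)) := ⟨mul_mem hTV.2.mem hn, by rw [← mul_assoc, hrr],
    by rw [mul_assoc, hnr]⟩
  have m2 : ‖y - r * (c₁ + m)‖ ≤ 9 * κ * ‖y‖ := by
    rw [mul_add, k4.left, ← sub_sub]
    refine (norm_sub_le _ _).trans ?_
    linarith [pt_nl hr1 m]
  have m3 : ‖r * (c₁ + m)‖ ≤ 2 * ‖y‖ := by
    have := norm_le_norm_add_norm_sub y (r * (c₁ + m))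
    nlinarith
  have hrn : ∀ η, r ((r * (c₁ + m)) η) = r ((c₁ + m) η) := pt_ap hc.left
  have hrn' : (r * (c₁ + m)) ξ = r ((c₁ + m) ξ) := rfl
  generalize r * (c₁ + m) = c at hc m2 m3 hrn hrn'
  generalize (c₁ + m) ξ = ν at m1 hrn'
  obtain ⟨a, n1, n2, n3, -⟩ := hTV.2.part c hc
  have hp1 := hS.proj.norm_le _
  have n4 : ‖c ξ - p (c ξ)‖ ≤ 4 * (γ * ‖y‖) := by
    have e1 : c ξ - p (c ξ) = (a * p - p * a) ξ - a (p ξ - ξ) := by
      simp only [mul_apply_eq_comp, sub_apply, map_sub, n3]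
      abel
    have e2 := (hS.comm a p n1 (pt_self hS.proj hS.mem)).trans
      (mul_le_of_le_one_right (by positivity) hp1)
    have e3 := (a.le_opNorm (p ξ - ξ)).trans (mul_le_mul_of_nonneg_left hS.supp (norm_nonneg _))
    have e4 := mul_le_mul_of_nonneg_left (n2.trans m3) hγ.le
    rw [e1]
    refine (norm_sub_le _ _).trans ?_
    linarith
  have n5 : ‖ν - c ξ‖ ≤ 12 * (γ * ‖y‖) := by
    have e1 : ν - c ξ = (p - r) (ν - c ξ) - (1 - p) (y ξ - ν) - (c ξ - p (c ξ)) := by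
      simp only [one_apply_eq_self, sub_apply, map_sub,
        pt_ap hy.left, pt_ap hc.left, ← hrn']
      abel
    have e2 := pt_le (hS.near.trans hκ1) (ν - c ξ)
    have e3 := pt_le1 (hS.proj.one_sub.norm_le _) (y ξ - ν)
    have e4 : ‖ν - c ξ‖ ≤ ‖(p - r) (ν - c ξ)‖ + ‖(1 - p) (y ξ - ν)‖ + ‖c ξ - p (c ξ)‖ := by
      conv_lhs => rw [e1]
      exact (norm_sub_le _ _).trans (add_le_add_left (norm_sub_le _ _) _)
    have := mul_pos hγ ht
    linarith
  refine ⟨c, hc, m2, fun x hx => ?_⟩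
  have e1 : (y - c) (x ξ) = x ((y ξ - ν) + (ν - c ξ)) - (x * y - y * x) ξ := by
    simp only [mul_apply_eq_comp, sub_apply, map_sub, map_add,
      pt_comm hAB hx.mem hc.mem]
    abel
  have e2 := (x.le_opNorm ((y ξ - ν) + (ν - c ξ))).trans (mul_le_mul_of_nonneg_left
    ((norm_add_le _ _).trans (add_le_add m1 n5)) (norm_nonneg _))
  have e3 := hS.comm x y hx hy
  rw [e1]
  refine (norm_sub_le _ _).trans ?_
  linarith

theorem part (hT : Tools.{u}) (h1 : TruncStmt.{u}) (h2 : KStmt.{u}) : PartStmt.{u} := by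
  refine ⟨76, by norm_num, ?_⟩
  intro H _ _ _ A B D ξ g r p δ κ γ hAB hTV hN hδ hκ hκ1 hγ hS y hy
  obtain ⟨c, k1, k2, k3⟩ := pt_half h1 hAB hTV hN hδ hκ hκ1 hγ hS hy
  obtain ⟨c₂, l1, -, l3⟩ := pt_half h1 hAB hTV hN hδ hκ hκ1 hγ hS (pt_star hS.proj hy)
  rw [norm_star] at l3
  have hr := hTV.2.proj
  have h0 : 0 ≤ 19 * γ * ‖y‖ := by positivity
  have hk := pt_sub (pt_star hr k1) l1
  have m1 : Sm A g ξ (-(y - c)) (19 * γ * ‖y‖) := fun a ha => by
    rw [neg_apply, norm_neg]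
    exact k3 a ha
  have m2 := h2 H A B ξ r (star c - c₂) (-(y - c)) (star y - c₂) _ hAB h0 hr hTV.2.mem hTV.2.fix hk
    (hT.smSwap hTV h0 m1) (hT.smSwap hTV h0 l3) fun b b' _ _ => by
      rw [← ContinuousLinearMap.adjoint_inner_right (-(y - c)), ← ContinuousLinearMap.star_eq_adjoint,
        ← inner_add_right, ← add_apply, star_neg, star_sub]
      congr 2
      abel
  have hκ0 : 0 ≤ κ * ‖y‖ := mul_nonneg (hδ.le.trans hκ) (norm_nonneg _)
  refine ⟨c, k1, by linarith, fun a ha => ?_, fun a ha => ?_⟩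
  · have := k3 a ha
    have := mul_nonneg h0 (norm_nonneg a)
    linarith
  · have e1 : star (y - c) (a ξ) = (star y - c₂) (a ξ) - a ((star c - c₂) ξ) := by
      rw [pt_comm hAB ha.mem hk.mem, ← sub_apply, star_sub]
      congr 1
      abel
    have e2 := (a.le_opNorm ((star c - c₂) ξ)).trans
      (mul_le_mul_of_nonneg_left m2 (norm_nonneg _))
    have e3 := l3 a ha
    rw [e1]
    refine (norm_sub_le _ _).trans ?_
    linarith

theorem trans : TransStmt.{u} := by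
  intro H _ _ _ A B N ξ g r q s γ α β hAB hTV hs hsr hγ hα hβ hC hP
  have hr := hTV.2.proj
  have hr1 := hr.norm_le _
  have hs1 : ‖s‖ ≤ 1 := by
    have h := CStarRing.norm_star_mul_self (x := s)
    rw [hsr] at h
    nlinarith [norm_nonneg s]
  have hσ := norm_nonneg (s - r)
  have key : ∀ n, Cor N q n → ∀ c, Cor B r c →
      ‖(s * n - n * s) (c ξ) - (r * n - n * r) (c ξ)‖ ≤ (β + ‖s - r‖ * α) * ‖n‖ * ‖c‖ := by
    intro n hn c hc
    obtain ⟨a, ha, h⟩ := hP n hn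
    obtain ⟨k1, k2⟩ := h c hc
    have e1 : (s * n - n * s) (c ξ) - (r * n - n * r) (c ξ) =
        (s - r) ((n - a) (c ξ)) - (n - a) ((s - r) (c ξ)) := by
      simp only [mul_apply_eq_comp, sub_apply, map_sub,
        pt_comm hAB ha hs, pt_comm hAB ha hTV.2.mem]
      abel
    have e2 := ((s - r).le_opNorm ((n - a) (c ξ))).trans (mul_le_mul_of_nonneg_left k1 hσ)
    rw [e1]
    refine (norm_sub_le _ _).trans ?_
    linarith
  have key2 : ∀ n, Cor N q n → ‖(s * n - n * s) ξ‖ ≤ (γ + β + ‖s - r‖ * α) * ‖n‖ := by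
    intro n hn
    have k1 := (key n hn r (pt_self hr hTV.2.mem)).trans
      (mul_le_of_le_one_right (by positivity) hr1)
    have k2 := (hC r n (pt_self hr hTV.2.mem) hn).trans
      (mul_le_mul_of_nonneg_right (mul_le_of_le_one_right hγ hr1) (norm_nonneg _))
    rw [hTV.2.fix] at k1
    have k3 := norm_le_norm_add_norm_sub' ((s * n - n * s) ξ) ((r * n - n * r) ξ)
    linarith
  refine ⟨fun x n hx hn => ?_, key2⟩
  have hc : Cor B r (star s * x * s) := ⟨mul_mem (mul_mem (star_mem hs) hx.mem) hs,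
    by rw [← hsr]; simp only [mul_assoc]; rw [← mul_assoc s, ← mul_assoc _ x, hx.left],
    by rw [← hsr]; simp only [mul_assoc]; rw [← mul_assoc s, ← mul_assoc x, hx.right]⟩
  have hc1 : ‖star s * x * s‖ ≤ ‖x‖ :=
    (pt_nr hs1 _).trans (pt_nl ((norm_star s).trans_le hs1) _)
  have hc2 : s * (star s * x * s) = x * s := by
    rw [← mul_assoc, ← mul_assoc, hx.left]
  generalize star s * x * s = c at hc hc1 hc2
  have hc3 : ∀ η, x (s η) = s (c η) := fun η => (pt_ap hc2 η).symm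
  have e1 : (x * n - n * x) (s ξ) = s ((c * n - n * c) ξ) - x ((s * n - n * s) ξ) +
      ((s * n - n * s) (c ξ) - (r * n - n * r) (c ξ)) + (1 - r) ((c * n - n * c) ξ) := by
    simp only [mul_apply_eq_comp, sub_apply, map_sub,
      one_apply_eq_self, hc3, pt_ap hc.left]
    abel
  have hn0 := norm_nonneg n
  have k1 := (hC c n hc hn).trans
    (mul_le_mul_of_nonneg_right (mul_le_mul_of_nonneg_left hc1 hγ) hn0)
  have k2 := pt_le1 hs1 ((c * n - n * c) ξ)
  have k3 := pt_le1 (hr.one_sub.norm_le _) ((c * n - n * c) ξ)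
  have k4 := (x.le_opNorm _).trans (mul_le_mul_of_nonneg_left (key2 n hn) (norm_nonneg _))
  have k5 := (key n hn c hc).trans (mul_le_mul_of_nonneg_left hc1 (by positivity))
  rw [e1]
  refine (norm_add_le _ _).trans ((add_le_add_left ((norm_add_le _ _).trans
    (add_le_add_left (norm_sub_le _ _) _)) _).trans ?_)
  linarith

end Vale.Agent.P096
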