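import Vale.Agent.P096.Defs

/-! One side of the iteration after cutting and conjugating. -/

set_option linter.unusedSectionVars false

namespace Vale.Agent.P096

universe u

section

variable {H : Type u} [NormedAddCommGroup H] [InnerProductSpace ℂ H] [CompleteSpace H]
  {A B D : Alg H} {ξ : H} {g r p : Op H}

theorem pre_sm_mono {Z : Op H} {t t' : ℝ} (h : Sm A g ξ Z t) (ht : t ≤ t') : Sm A g ξ Z t' :=
  fun a ha => (h a ha).trans (mul_le_mul_of_nonneg_right ht (norm_nonneg a))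

theorem pre_sm_add {Z Z' : Op H} {t t' : ℝ} (h : Sm A g ξ Z t) (h' : Sm A g ξ Z' t') :
    Sm A g ξ (Z + Z') (t + t') := fun a ha => by
  rw [add_mul]
  exact (norm_add_le (Z (a ξ)) (Z' (a ξ))).trans (add_le_add (h a ha) (h' a ha))

theorem pre_sm_sub {Z Z' : Op H} {t t' : ℝ} (h : Sm A g ξ Z t) (h' : Sm A g ξ Z' t') :
    Sm A g ξ (Z - Z') (t + t') := fun a ha => by
  rw [add_mul]
  exact (norm_sub_le (Z (a ξ)) (Z' (a ξ))).trans (add_le_add (h a ha) (h' a ha))

theorem pre_apply_le {Y : Op H} {v : H} {s t : ℝ} (hY : ‖Y‖ ≤ s) (hv : ‖v‖ ≤ t) :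
    ‖Y v‖ ≤ s * t :=
  (Y.le_opNorm v).trans (mul_le_mul hY hv (norm_nonneg _) ((norm_nonneg _).trans hY))

theorem pre_mul_le {Y Z : Op H} {s t : ℝ} (hY : ‖Y‖ ≤ s) (hZ : ‖Z‖ ≤ t) : ‖Y * Z‖ ≤ s * t :=
  (norm_mul_le Y Z).trans (mul_le_mul hY hZ (norm_nonneg _) ((norm_nonneg _).trans hY))

theorem pre_sm_left {Y Z : Op H} {s t : ℝ} (hY : ‖Y‖ ≤ s) (h : Sm A g ξ Z t) :
    Sm A g ξ (Y * Z) (s * t) := fun a ha => by
  rw [mul_assoc]
  exact pre_apply_le (Y := Y) hY (h a ha)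

theorem pre_cor_mul {a b : Op H} (ha : Cor A g a) (hb : Cor A g b) : Cor A g (a * b) :=
  ⟨mul_mem ha.mem hb.mem, by rw [← mul_assoc, ha.left], by rw [mul_assoc, hb.right]⟩

theorem pre_cor_sub {a b : Op H} (ha : Cor A g a) (hb : Cor A g b) : Cor A g (a - b) :=
  ⟨sub_mem ha.mem hb.mem, by rw [mul_sub, ha.left, hb.left], by rw [sub_mul, ha.right, hb.right]⟩

theorem pre_cor_trans {e a : Op H} (he : Cor A g e) (ha : Cor A e a) : Cor A g a :=
  ⟨ha.mem, by rw [← ha.left, ← mul_assoc, he.left], by rw [← ha.right, mul_assoc, he.right]⟩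

theorem pre_cor_self (hg : IsStarProjection g) (hm : g ∈ A) : Cor A g g :=
  ⟨hm, hg.isIdempotentElem, hg.isIdempotentElem⟩

theorem pre_sm_right (hAB : CP A B) (hTV : TV A B ξ g r) {Z c : Op H} {s t : ℝ}
    (h : Sm A g ξ Z t) (ht : 0 ≤ t) (hc : Cor B r c) (hs : ‖c‖ ≤ s) :
    Sm A g ξ (Z * c) (t * s) := fun a ha => by
  obtain ⟨b, hb, hn, e, -⟩ := hTV.2.part c hc
  have e1 : (Z * c) (a ξ) = Z ((a * b) ξ) := by
    change Z ((c * a) ξ) = Z (a (b ξ))
    rw [← (hAB.left a).1 ha.mem c hc.mem, e]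
    rfl
  rw [e1, mul_assoc, mul_comm s]
  exact (h _ (pre_cor_mul ha hb)).trans
    (mul_le_mul_of_nonneg_left (pre_mul_le le_rfl (hn.trans hs)) ht)

theorem pre_sm_proj {κ γ : ℝ} (hγ : 0 ≤ γ) (hs : Side A D ξ g r p κ γ) :
    Sm A g ξ (p - 1) (2 * γ) := fun a ha => by
  have e : (p - 1) (a ξ) = a (p ξ - ξ) - (a * p - p * a) ξ := by
    simp
  have h1 := hs.comm a p ha (pre_cor_self hs.proj hs.mem)
  have h2 : ‖a (p ξ - ξ)‖ ≤ ‖a‖ * γ := pre_apply_le le_rfl hs.supp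
  have h3 : γ * ‖a‖ * ‖p‖ ≤ γ * ‖a‖ := mul_le_of_le_one_right (by positivity) hs.proj.norm_le
  rw [e]
  linarith [norm_sub_le (a (p ξ - ξ)) ((a * p - p * a) ξ)]

/-- The data of the correcting unitary. -/
structure PreU (A : Alg H) (g : Op H) (ξ : H) (S w : Op H) (κ γ : ℝ) : Prop where
  κ0 : 0 ≤ κ
  κ1 : κ ≤ 1 / 1000
  γ0 : 0 ≤ γ
  l : star w * w = 1
  r : w * star w = 1
  smS : Sm A g ξ S γ
  near : ‖w - 1‖ ≤ κ
  sm1 : Sm A g ξ (w - 1 - S) (κ * γ)
  sm2 : Sm A g ξ (star w - 1 + S) (κ * γ)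

variable {S w : Op H} {κ γ : ℝ}

theorem PreU.norm (h : PreU A g ξ S w κ γ) : ‖w‖ ≤ 1 := by
  refine (sq_le_one_iff₀ (norm_nonneg w)).1 ?_
  rw [sq, ← CStarRing.norm_star_mul_self, h.l]
  exact ContinuousLinearMap.norm_id_le

theorem PreU.norm' (h : PreU A g ξ S w κ γ) : ‖star w‖ ≤ 1 := (norm_star w).trans_le h.norm

theorem PreU.near' (h : PreU A g ξ S w κ γ) : ‖star w - 1‖ ≤ κ := by
  rw [← norm_star, star_sub, star_star, star_one]
  exact h.near

theorem PreU.smw (h : PreU A g ξ S w κ γ) : Sm A g ξ (w - 1) (2 * γ) := by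
  have := pre_sm_add h.sm1 h.smS
  rw [sub_add_cancel] at this
  exact pre_sm_mono this (by nlinarith [h.κ1, h.γ0])

theorem PreU.smw' (h : PreU A g ξ S w κ γ) : Sm A g ξ (star w - 1) (2 * γ) := by
  have := pre_sm_sub h.sm2 h.smS
  rw [add_sub_cancel_right] at this
  exact pre_sm_mono this (by nlinarith [h.κ1, h.γ0])

theorem PreU.conj_sub (h : PreU A g ξ S w κ γ) {y : Op H} {Y : ℝ} (hy : ‖y‖ ≤ Y) :
    ‖star w * y * w - y‖ ≤ 2 * κ * Y := by
  have e : star w * y * w - y = star w * y * (w - 1) + (star w - 1) * y := by noncomm_ring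
  have h1 := pre_mul_le (pre_mul_le h.norm' hy) h.near
  have h2 := pre_mul_le h.near' hy
  rw [e]
  linarith [norm_add_le (star w * y * (w - 1)) ((star w - 1) * y)]

theorem PreU.partner (h : PreU A g ξ S w κ γ) (hAB : CP A B) (hTV : TV A B ξ g r) {y c : Op H}
    {Y : ℝ} (hy : ‖y‖ ≤ Y) (hc : Cor B r c) (h1 : ‖y - c‖ ≤ κ * Y)
    (h2 : Sm A g ξ (y - c) (γ * Y)) :
    ‖c‖ ≤ 2 * Y ∧ ‖star w * y * w - c‖ ≤ 3 * κ * Y ∧ Sm A g ξ (star w * y * w - c) (10 * γ * Y) := by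
  have hY : 0 ≤ Y := (norm_nonneg y).trans hy
  have hκ := h.κ1
  have hγ := h.γ0
  have hc2 : ‖c‖ ≤ 2 * Y := by
    have := norm_sub_le y (y - c)
    rw [sub_sub_cancel] at this
    nlinarith
  refine ⟨hc2, ?_, ?_⟩
  · have := norm_add_le (star w * y * w - y) (y - c)
    rw [sub_add_sub_cancel] at this
    linarith [h.conj_sub hy]
  · have e : star w * y * w - c = star w * (y - c) * (w - 1) + star w * (y - c) +
        star w * c * (w - 1) + (star w - 1) * c := by noncomm_ring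
    rw [e]
    refine pre_sm_mono (pre_sm_add (pre_sm_add (pre_sm_add
      (pre_sm_left (pre_mul_le h.norm' h1) h.smw) (pre_sm_left h.norm' h2))
      (pre_sm_left (pre_mul_le h.norm' hc2) h.smw))
      (pre_sm_right hAB hTV h.smw' (by positivity) hc hc2)) ?_
    nlinarith [mul_nonneg hγ hY]

theorem PreU.expand (h : PreU A g ξ S w κ γ) (hAB : CP A B) (hTV : TV A B ξ g r) {y c c₂ : Op H}
    {Y : ℝ} (hy : ‖y‖ ≤ Y) (hc : Cor B r c) (hc₂ : Cor B r c₂) (h1 : ‖y - c‖ ≤ κ * Y)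
    (h2 : Sm A g ξ (y - c) (γ * Y)) (h3 : ‖y - c₂‖ ≤ 133 * κ * Y) :
    Sm A g ξ (star w * y * w - y - (c₂ * S - S * c₂)) (272 * (κ * γ * Y)) := by
  have hγ := h.γ0
  have hκ := h.κ0
  have hc2 := (h.partner hAB hTV hy hc h1 h2).1
  have e : star w * y * w - y - (c₂ * S - S * c₂) = star w * y * (w - 1 - S) +
      ((star w - 1) * y + (y - c₂)) * S + (star w - 1) * (y - c) + (star w - 1 + S) * c -
      S * (c - c₂) := by noncomm_ring
  have h4 : ‖(star w - 1) * y + (y - c₂)‖ ≤ 134 * κ * Y := by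
    linarith [norm_add_le ((star w - 1) * y) (y - c₂), pre_mul_le h.near' hy]
  have h5 : ‖c - c₂‖ ≤ 134 * κ * Y := by
    have := norm_sub_le (y - c₂) (y - c)
    rw [sub_sub_sub_cancel_left] at this
    linarith
  rw [e]
  refine pre_sm_mono (pre_sm_sub (pre_sm_add (pre_sm_add (pre_sm_add
    (pre_sm_left (pre_mul_le h.norm' hy) h.sm1) (pre_sm_left h4 h.smS))
    (pre_sm_left h.near' h2)) (pre_sm_right hAB hTV h.sm2 (by positivity) hc hc2))
    (pre_sm_right hAB hTV h.smS hγ (pre_cor_sub hc hc₂) h5)) (le_of_eq ?_)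
  ring

theorem pre_dd {T e f x c : Op H} (hS : S * (e * f) = -T * (e * f)) (hef : e * f = f * e)
    (hxf : x * f = f * x) (hec : e * c = c * e) (hxc : x * c = c * x) (he : e * e = e)
    (hx : e * x = x) (hc : f * c = c) (h : e ξ = f ξ) :
    (x * (c * S - S * c) - (c * S - S * c) * x) (e ξ) = -dd T x c (e ξ) := by
  have k : ∀ v, e (f v) = v → S v = -T v := fun v hv => by
    have := congrArg (fun Z : Op H => Z v) hS
    simpa [hv] using this
  have a : ∀ {X Y X' Y' : Op H}, X * Y = X' * Y' → ∀ v, X (Y v) = X' (Y' v) := fun h v =>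
    congrArg (fun Z : Op H => Z v) h
  have b : ∀ {X Y : Op H}, X * Y = Y → ∀ v, X (Y v) = Y v := fun h v =>
    congrArg (fun Z : Op H => Z v) h
  have f0 : f (e ξ) = e ξ := by rw [← a hef, ← h, b he]
  have k1 := k (e ξ) (by rw [f0, b he])
  have k2 := k (c (e ξ)) (by rw [b hc, a hec, b he])
  have k3 := k (x (e ξ)) (by rw [← a hxf, f0, b hx])
  have k4 := k (x (c (e ξ))) (by rw [← a hxf, b hc, b hx])
  simp only [dd, sub_apply, mul_apply_eq_comp, map_sub]
  rw [← a hxc (e ξ), ← a hxc (T (e ξ)), k1, k2, k3, k4]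
  simp only [map_neg]
  abel

theorem pre_der {T e x y c : Op H} (hec : e * c = c * e) (hxc : x * c = c * x) (hx : x * e = x) :
    (x * y - y * x - dd T x c) * e =
      (x * y - y * x - dd T x c) - x * (e * y - y * e - dd T e c) := by
  have e1 : (x * y - y * x - dd T x c) * e + x * (e * y - y * e - dd T e c) =
      x * e * y - y * (x * e) - dd T (x * e) c + (T * x - x * T) * (e * c - c * e) +
        (x * c - c * x) * (T * e - e * T) := by
    simp only [dd]
    noncomm_ring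
  rw [hec, hxc, hx, sub_self, sub_self, mul_zero, zero_mul, add_zero, add_zero] at e1
  exact eq_sub_of_add_eq e1

theorem PreU.supp (h : PreU A g ξ S w κ γ) (hAB : CP A B) (hTV : TV A B ξ g r)
    (hs : Side A D ξ g r p κ γ) (hp : Part A B D ξ g r p κ γ) {e f p' : Op H} {μ : ℝ}
    (he : IsStarProjection e) (heA : Cor A g e) (hf : IsStarProjection f) (hfB : Cor B r f)
    (hef : e ξ = f ξ) (hμ : ‖ξ - e ξ‖ ≤ μ) (hp' : IsStarProjection p')
    (hm : w * p' * star w ∈ D) (hl : star w * p * w * p' = p') (hr : p' * (star w * p * w) = p')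
    (hn : ‖p' - f‖ ≤ 63 * κ) : ‖p' (e ξ) - e ξ‖ ≤ 100 * (γ + μ) := by
  have hγ := h.γ0
  have hκ := h.κ1
  have hμ0 : 0 ≤ μ := (norm_nonneg _).trans hμ
  have hpp : p * p = p := hs.proj.isIdempotentElem
  have hp1 : ‖p - 1‖ ≤ 1 := (norm_sub_rev _ _).trans_le hs.proj.one_sub.norm_le
  have cl : ∀ z, star w * (w * z) = z := fun z => by rw [← mul_assoc, h.l, one_mul]
  have cr : ∀ z, w * (star w * z) = z := fun z => by rw [← mul_assoc, h.r, one_mul]
  have s1 : Sm A g ξ (star w * p * w - 1) (4 * γ) := by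
    have e1 : star w * p * w - 1 = star w * (p - 1) * (w - 1) + star w * (p - 1) := by
      rw [← mul_add_one, sub_add_cancel, mul_sub, sub_mul, mul_one, h.l]
    rw [e1]
    exact pre_sm_mono (pre_sm_add (pre_sm_left (pre_mul_le h.norm' hp1) h.smw)
      (pre_sm_left h.norm' (pre_sm_proj hγ hs))) (by linarith)
  have hP : IsStarProjection (star w * p * w) :=
    ⟨by simp only [IsIdempotentElem, mul_assoc, cr, ← mul_assoc p p, hpp],
      hs.proj.isSelfAdjoint.conjugate' w⟩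
  have hq : IsStarProjection (star w * p * w - p') := hp'.sub_of_mul_eq_left hP hr
  have hy : Cor D p (p - w * p' * star w) := by
    refine ⟨sub_mem hs.mem hm, ?_, ?_⟩
    · rw [mul_sub, hpp]
      conv_rhs => rw [← hl]
      simp only [mul_assoc, cr]
    · rw [sub_mul, hpp]
      conv_rhs => rw [← hr]
      simp only [mul_assoc, h.r, mul_one]
  have e2 : star w * (p - w * p' * star w) * w = star w * p * w - p' := by
    simp only [mul_sub, sub_mul, mul_assoc, cl, h.l, mul_one]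
  have hy1 : ‖p - w * p' * star w‖ ≤ 1 := by
    have e3 : p - w * p' * star w = w * (star w * p * w - p') * star w := by
      simp only [mul_sub, sub_mul, mul_assoc, cr, h.r, mul_one]
    rw [e3]
    simpa using pre_mul_le (pre_mul_le h.norm hq.norm_le) h.norm'
  obtain ⟨d, hd, d1, d2, -⟩ := hp _ hy
  obtain ⟨d3, -, d4⟩ := h.partner hAB hTV hy1 hd
    (d1.trans (mul_le_mul_of_nonneg_left hy1 h.κ0))
    (pre_sm_mono d2 (mul_le_mul_of_nonneg_left hy1 hγ))
  rw [e2] at d4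
  have n1 : ‖star w * p * w - p' - (r - f)‖ ≤ 66 * κ := by
    have e3 : star w * p * w - p' - (r - f) = (star w * p * w - p) + (p - r) - (p' - f) := by abel
    rw [e3]
    linarith [norm_sub_le ((star w * p * w - p) + (p - r)) (p' - f),
      norm_add_le (star w * p * w - p) (p - r), h.conj_sub hs.proj.norm_le, hs.near]
  have n2 := s1 e heA
  have e4 : p' (e ξ) - e ξ = (star w * p * w - 1) (e ξ) - (star w * p * w - p') (e ξ) := by simp
  generalize star w * p * w - p' = q at hq d4 n1 e4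
  have hrf : IsStarProjection (r - f) := hf.sub_of_mul_eq_left hTV.2.proj hfB.right
  obtain ⟨b, hb, b1, b2, -⟩ := hTV.2.part d hd
  have e5 : (r - f) (d (e ξ)) = (e * b) (ξ - e ξ) := by
    have c1 := (hAB.left e).1 heA.mem d hd.mem
    have c2 := (hAB.left _).1 (mul_mem heA.mem hb.mem) _ (sub_mem hTV.2.mem hfB.mem)
    have c3 : (r - f) ξ = ξ - e ξ := by rw [sub_apply, hTV.2.fix, hef]
    rw [← c3]
    change (r - f) ((d * e) ξ) = (e * b * (r - f)) ξ
    rw [← c1, c2]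
    change (r - f) (e (d ξ)) = (r - f) (e (b ξ))
    rw [b2]
  have e6 : q (e ξ) = (q - (r - f)) (q (e ξ)) + (r - f) ((q - d) (e ξ)) + (r - f) (d (e ξ)) := by
    have : q (q (e ξ)) = q (e ξ) := congrArg (fun Z : Op H => Z (e ξ)) hq.isIdempotentElem
    simp only [sub_apply, map_sub, this]
    abel
  have m1 : ‖(q - (r - f)) (q (e ξ))‖ ≤ 66 * κ * ‖q (e ξ)‖ := pre_apply_le n1 le_rfl
  have m2 : ‖(r - f) ((q - d) (e ξ))‖ ≤ 1 * (10 * γ * 1 * ‖e‖) :=
    pre_apply_le hrf.norm_le (d4 e heA)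
  have m3 : ‖(r - f) (d (e ξ))‖ ≤ 1 * (2 * 1) * μ := by
    rw [e5]
    exact pre_apply_le (pre_mul_le he.norm_le (b1.trans d3)) hμ
  have m4 : γ * ‖e‖ ≤ γ := mul_le_of_le_one_right hγ he.norm_le
  have m5 := norm_add₃_le (a := (q - (r - f)) (q (e ξ))) (b := (r - f) ((q - d) (e ξ)))
    (c := (r - f) (d (e ξ)))
  rw [← e6] at m5
  have m6 : κ * ‖q (e ξ)‖ ≤ 1 / 1000 * ‖q (e ξ)‖ := mul_le_mul_of_nonneg_right hκ (norm_nonneg _)
  rw [e4]
  linarith [norm_sub_le ((star w * p * w - 1) (e ξ)) (q (e ξ))]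

theorem PreU.comm (h : PreU A g ξ S w κ γ) (hAB : CP A B) (hTV : TV A B ξ g r)
    {T e f p' x y c : Op H} {η C₀ Y : ℝ} (hη : 0 ≤ η) (hC : 1 ≤ C₀)
    (hcob : Cob A B D ξ g r p T η C₀ γ) (he : IsStarProjection e) (heA : Cor A g e)
    (hf : IsStarProjection f) (hfB : Cor B r f) (hef : e ξ = f ξ)
    (hS : S * (e * f) = -T * (e * f)) (hp' : IsStarProjection p') (hn : ‖p' - f‖ ≤ 63 * κ)
    (hx : Cor A e x) (hy : Cor D p y) (hY : ‖y‖ ≤ Y) (hc : Cor B r c) (h1 : ‖y - c‖ ≤ κ * Y)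
    (h2 : Sm A g ξ (y - c) (γ * Y)) (hl : p' * (star w * y * w) * p' = star w * y * w) :
    ‖(x * (star w * y * w) - star w * y * w * x) (e ξ)‖ ≤ 1000 * (η + C₀ * κ) * γ * ‖x‖ * Y := by
  have hγ := h.γ0
  have hκ := h.κ0
  have hY0 : 0 ≤ Y := (norm_nonneg y).trans hY
  obtain ⟨c1, c2, -⟩ := h.partner hAB hTV hY hc h1 h2
  have hc₂ : Cor B r (f * c * f) := pre_cor_mul (pre_cor_mul hfB hc) hfB
  have n0 : ‖star w * y * w‖ ≤ Y := by simpa using pre_mul_le (pre_mul_le h.norm' hY) h.norm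
  have n1 : ‖f * c * f‖ ≤ 2 * Y := by
    simpa using pre_mul_le (pre_mul_le hf.norm_le c1) hf.norm_le
  have n2 : ‖y - f * c * f‖ ≤ 133 * κ * Y := by
    have n3 := h.conj_sub hY
    generalize star w * y * w = z at hl c2 n0 n3
    have e1 : y - f * c * f = ((p' - f) * z * p' + f * z * (p' - f) + f * (z - c) * f) - (z - y) := by
      have : (p' - f) * z * p' + f * z * (p' - f) + f * (z - c) * f = p' * z * p' - f * c * f := by
        noncomm_ring
      rw [this, hl]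
      abel
    have a1 := pre_mul_le (pre_mul_le hn n0) hp'.norm_le
    have a2 := pre_mul_le (pre_mul_le hf.norm_le n0) hn
    have a3 := pre_mul_le (pre_mul_le hf.norm_le c2) hf.norm_le
    have a4 := norm_add₃_le (a := (p' - f) * z * p') (b := f * z * (p' - f)) (c := f * (z - c) * f)
    rw [e1]
    linarith [norm_sub_le ((p' - f) * z * p' + f * z * (p' - f) + f * (z - c) * f) (z - y),
      mul_nonneg hκ hY0]
  have hE := h.expand hAB hTV hY hc hc₂ h1 h2 n2
  have hxg := pre_cor_trans heA hx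
  have hxc := (hAB.left x).1 hx.mem _ hc₂.mem
  have hec := (hAB.left e).1 heA.mem _ hc₂.mem
  have e2 := pre_dd (ξ := ξ) hS ((hAB.left e).1 heA.mem f hfB.mem) ((hAB.left x).1 hx.mem f hfB.mem)
    hec hxc he.isIdempotentElem hx.left
    (by rw [← mul_assoc, ← mul_assoc, hf.isIdempotentElem.eq]) hef
  have e3 := congrArg (fun Z : Op H => Z ξ) (pre_der (T := T) (y := y) hec hxc hx.right)
  have b1 := hcob x y _ hxg hy hc₂
  have b2 := hcob e y _ heA hy hc₂
  have b3 := hE e heA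
  have b4 := hE _ (pre_cor_mul hxg heA)
  rw [hx.right] at b4
  generalize f * c * f = c₂ at *
  have e4 : (x * (star w * y * w) - star w * y * w * x) (e ξ) =
      ((x * y - y * x - dd T x c₂) ξ - x ((e * y - y * e - dd T e c₂) ξ)) +
        x ((star w * y * w - y - (c₂ * S - S * c₂)) (e ξ)) -
        (star w * y * w - y - (c₂ * S - S * c₂)) (x ξ) := by
    have e5 : x (e ξ) = x ξ := congrArg (fun Z : Op H => Z ξ) hx.right
    have e6 : (x * y - y * x - dd T x c₂) ξ - x ((e * y - y * e - dd T e c₂) ξ) =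
        (x * y - y * x) (e ξ) - dd T x c₂ (e ξ) := e3.symm
    rw [e6, sub_eq_add_neg _ (dd T x c₂ (e ξ)), ← e2, ← e5]
    simp only [sub_apply, mul_apply_eq_comp, map_sub]
    abel
  have k0 : η * ‖c₂‖ + C₀ * ‖y - c₂‖ ≤ (2 * η + 133 * (C₀ * κ)) * Y := by
    nlinarith [mul_le_mul_of_nonneg_left n1 hη, mul_le_mul_of_nonneg_left n2 (zero_le_one.trans hC)]
  have k1 := b1.trans (mul_le_mul_of_nonneg_left k0 (by positivity))
  have k2 : ‖x ((e * y - y * e - dd T e c₂) ξ)‖ ≤ ‖x‖ * (γ * 1 * ((2 * η + 133 * (C₀ * κ)) * Y)) :=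
    pre_apply_le le_rfl (b2.trans (mul_le_mul (mul_le_mul_of_nonneg_left he.norm_le hγ) k0
      (by positivity) (by positivity)))
  have k3 : ‖x ((star w * y * w - y - (c₂ * S - S * c₂)) (e ξ))‖ ≤ ‖x‖ * (272 * (κ * γ * Y) * 1) :=
    pre_apply_le le_rfl (b3.trans (mul_le_mul_of_nonneg_left he.norm_le (by positivity)))
  have k4 : κ * (γ * ‖x‖ * Y) ≤ C₀ * κ * (γ * ‖x‖ * Y) :=
    mul_le_mul_of_nonneg_right (le_mul_of_one_le_left hκ hC) (by positivity)
  have k5 : 0 ≤ η * (γ * ‖x‖ * Y) := by positivity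
  have k6 : 0 ≤ κ * (γ * ‖x‖ * Y) := by positivity
  rw [e4]
  refine (norm_sub_le _ _).trans ((add_le_add_left ((norm_add_le _ _).trans
    (add_le_add_left (norm_sub_le _ _) _)) _).trans ?_)
  nlinarith

end

theorem pre (hT : Tools.{u}) : PreStmt.{u} := by
  refine ⟨1000, by norm_num, ?_⟩
  intro H _ _ _ A B N D ξ g r p e f T S W κ γ η C₀ μ hAB hND hTV hκ0 hκ1 hγ hη hC hs hp hcob he heA
    hf hfB hef hμ hS _ hSm hW h1 h2 hnear
  have h : PreU A g ξ S W κ γ :=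
    ⟨hκ0, hκ1, hγ, W.2.1, W.2.2, hSm, hW, h1, h2⟩
  have hpp : p * p = p := hs.proj.isIdempotentElem
  have cl : ∀ z, star (W : Op H) * (W * z) = z := fun z => by rw [← mul_assoc, h.l, one_mul]
  have cr : ∀ z, (W : Op H) * (star (W : Op H) * z) = z := fun z => by
    rw [← mul_assoc, h.r, one_mul]
  have hP : IsStarProjection (star (W : Op H) * p * W) :=
    ⟨by simp only [IsIdempotentElem, mul_assoc, cr, ← mul_assoc p p, hpp],
      hs.proj.isSelfAdjoint.conjugate' _⟩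
  have hPm : star (W : Op H) * p * W ∈ cj W D := by
    rw [mem_cj]
    simpa only [mul_assoc, cr, h.r, mul_one] using hs.mem
  have hn : ‖(1 - star (W : Op H) * p * W) * f‖ ≤ 3 * κ := by
    have e1 : (1 - star (W : Op H) * p * W) * f = -((star (W : Op H) * p * W - p) + (p - r)) * f := by
      rw [sub_add_sub_cancel, neg_sub, sub_mul, sub_mul, one_mul, hfB.left]
    have n1 : ‖-((star (W : Op H) * p * W - p) + (p - r))‖ ≤ 3 * κ := by
      rw [norm_neg]
      linarith [norm_add_le (star (W : Op H) * p * W - p) (p - r), h.conj_sub hs.proj.norm_le,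
        hs.near]
    rw [e1]
    simpa using pre_mul_le n1 hf.norm_le
  obtain ⟨p', hp', hc', hn'⟩ := hT.nearA (hT.cjCP W hND) f _ κ (3 * κ) hf hfB.mem hP hPm hnear hκ0
    hn (by linarith)
  have hn'' : ‖p' - f‖ ≤ 63 * κ := by linarith
  have key : ∀ y', Cor (cj W D) p' y' → ∃ y c, y' = star (W : Op H) * y * W ∧ Cor D p y ∧
      ‖y‖ ≤ ‖y'‖ ∧ Cor B r c ∧ ‖y - c‖ ≤ κ * ‖y'‖ ∧ Sm A g ξ (y - c) (γ * ‖y'‖) := by
    intro y' hy'
    have hy := pre_cor_trans hc' hy'
    have hyD : Cor D p (W * y' * star (W : Op H)) := by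
      refine ⟨hy.mem, ?_, ?_⟩
      · conv_rhs => rw [← hy.left]
        simp only [mul_assoc, cr]
      · conv_rhs => rw [← hy.right]
        simp only [mul_assoc, h.r, mul_one]
    have hy1 : ‖W * y' * star (W : Op H)‖ ≤ ‖y'‖ := by
      simpa using pre_mul_le (pre_mul_le h.norm (le_refl ‖y'‖)) h.norm'
    obtain ⟨c, hc, c1, c2, -⟩ := hp _ hyD
    exact ⟨_, c, by simp only [mul_assoc, cl, h.l, mul_one], hyD, hy1, hc,
      c1.trans (mul_le_mul_of_nonneg_left hy1 hκ0),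
      pre_sm_mono c2 (mul_le_mul_of_nonneg_left hy1 hγ)⟩
  refine ⟨p', hp', hc', by linarith, ?_, fun x y' hx hy' => ?_, fun y' hy' => ?_⟩
  · have := h.supp hAB hTV hs hp he heA hf hfB hef hμ hp' hc'.mem hc'.left hc'.right hn''
    have hμ0 : 0 ≤ μ := (norm_nonneg _).trans hμ
    linarith
  · obtain ⟨y, c, e1, hy, y1, hc, c1, c2⟩ := key y' hy'
    have := h.comm hAB hTV hη hC hcob he heA hf hfB hef hS hp' hn'' hx hy y1 hc c1 c2
      (by rw [← e1, hy'.left, hy'.right])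
    rwa [← e1] at this
  · obtain ⟨y, c, e1, -, y1, hc, c1, c2⟩ := key y' hy'
    obtain ⟨-, a1, a2⟩ := h.partner hAB hTV y1 hc c1 c2
    rw [← e1] at a1 a2
    refine ⟨c, hc, a1.trans ?_, pre_sm_mono a2 ?_⟩
    · nlinarith [mul_nonneg hκ0 (norm_nonneg y')]
    · nlinarith [mul_nonneg hγ (norm_nonneg y')]

end Vale.Agent.P096
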