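import Vale.Agent.P096.Rel2

/-! P096: the limit of the iteration. -/

namespace Vale.Agent.P096

open Filter Topology
open scoped InnerProductSpace

universe u

section

variable {H : Type u} [NormedAddCommGroup H] [InnerProductSpace ℂ H] [CompleteSpace H]

theorem rel_conj_proj {v q : Op H} (hv : star v * v = 1) (hq : IsStarProjection q) :
    IsStarProjection (v * q * star v) := by
  refine ⟨?_, ?_⟩
  · change v * q * star v * (v * q * star v) = v * q * star v
    calc v * q * star v * (v * q * star v) = v * (q * (star v * v) * q) * star v := by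
          simp only [mul_assoc]
      _ = v * q * star v := by rw [hv, mul_one, hq.isIdempotentElem.eq]
  · change star (v * q * star v) = v * q * star v
    rw [star_mul, star_mul, star_star, hq.isSelfAdjoint.star_eq, mul_assoc]

theorem rel_geo {E : Type*} [NormedAddCommGroup E] [CompleteSpace E] (x : ℕ → E) {C σ : ℝ}
    (h : ∀ j, ‖x (j + 1) - x j‖ ≤ C * (σ / 2 ^ j)) :
    ∃ y, Tendsto x atTop (𝓝 y) ∧ ‖x 0 - y‖ ≤ 2 * C * σ := by
  have h1 : ∀ j, dist (x j) (x (j + 1)) ≤ 2 * C * σ / 2 / 2 ^ j := fun j => by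
    rw [dist_comm, dist_eq_norm]
    refine (h j).trans (le_of_eq ?_)
    ring
  obtain ⟨y, hy⟩ := cauchySeq_tendsto_of_complete (cauchySeq_of_le_geometric_two h1)
  exact ⟨y, hy, by rw [← dist_eq_norm]; exact dist_le_of_le_geometric_two_of_tendsto₀ h1 hy⟩

/-- The limit of the projections `q j`. -/
theorem rel_projs (hT : Tools.{u}) {N D : Alg H} (hND : CP N D) {U : ℕ → unitary (Op H)}
    {q : ℕ → Op H} {V : unitary (Op H)} (hV : Tendsto (fun j => (U j : Op H)) atTop (𝓝 V))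
    (h0 : U 0 = 1) (hq : ∀ j, IsStarProjection (q j)) (hqN : ∀ j, q j ∈ cj (U j) N)
    (hR : ∀ j, U j * q j * star (U j : Op H) * (U (j + 1) * q (j + 1)) = U (j + 1) * q (j + 1)) :
    ∃ Q, IsStarProjection Q ∧ Q ∈ cj V N ∧ (∀ η, Tendsto (fun j => q j η) atTop (𝓝 (Q η))) ∧
      (∀ j z, ‖q j * z‖ ≤ ‖q 0 * (U j * z)‖) ∧ ∀ n, Cor (cj V N) Q n → ∃ m : ℕ → Op H,
        Tendsto m atTop (𝓝 n) ∧ ∀ j, ‖m j‖ = ‖n‖ ∧ Cor (cj (U j) N) (q j) (m j) := by
  have c1 : ∀ (W : unitary (Op H)) (z : Op H), star (W : Op H) * (W * z) = z := fun W z => by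
    rw [← mul_assoc, Unitary.star_mul_self_of_mem W.2, one_mul]
  have c2 : ∀ (W : unitary (Op H)) (z : Op H), W * (star (W : Op H) * z) = z := fun W z => by
    rw [← mul_assoc, Unitary.mul_star_self_of_mem W.2, one_mul]
  have c3 : ∀ W : unitary (Op H), star (W : Op H) * W = 1 := fun W =>
    Unitary.star_mul_self_of_mem W.2
  have c4 : ∀ W : unitary (Op H), W * star (W : Op H) = 1 := fun W =>
    Unitary.mul_star_self_of_mem W.2
  set P : ℕ → Op H := fun j => U j * q j * star (U j : Op H) with hP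
  have hPp : ∀ j, IsStarProjection (P j) := fun j => rel_conj_proj (c3 _) (hq j)
  have hPd : ∀ j, P j * P (j + 1) = P (j + 1) := fun j => by
    simp only [hP]
    rw [← mul_assoc _ (_ * q (j + 1)), hR]
  obtain ⟨E, hEN, hE, hPE, hlim⟩ := hT.decr hND P hPp hqN hPd
  have hqP : ∀ j, q j = star (U j : Op H) * (P j * U j) := fun j => by
    simp only [hP, mul_assoc, c1, c3, mul_one]
  have hP0 : ∀ j, P j * q 0 = P j := by
    have h1 : ∀ j, P 0 * P j = P j := by
      intro j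
      induction j with
      | zero => exact (hPp 0).isIdempotentElem.eq
      | succ j ih => rw [← hPd j, ← mul_assoc, ih]
    intro j
    have h2 := congrArg star (h1 j)
    rw [star_mul, (hPp j).isSelfAdjoint.star_eq, (hPp 0).isSelfAdjoint.star_eq] at h2
    simpa [hP, h0] using h2
  have hEP : ∀ j, E * P j = E := fun j => by
    have h2 := congrArg star (hPE j)
    rwa [star_mul, (hPp j).isSelfAdjoint.star_eq, hE.isSelfAdjoint.star_eq] at h2
  refine ⟨star (V : Op H) * E * V, ?_, ?_, fun η => ?_, fun j z => ?_, fun n hn => ?_⟩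
  · simpa using rel_conj_proj (v := star (V : Op H)) (by rw [star_star, c4]) hE
  · rw [mem_cj]
    simpa only [mul_assoc, c2, c4, mul_one] using hEN
  · have e1 : Tendsto (fun j => (U j : Op H) η) atTop (𝓝 ((V : Op H) η)) :=
      ((ContinuousLinearMap.apply ℂ H η).continuous.tendsto _).comp hV
    have e2 := rel_move (fun j => (hPp j).norm_le) tendsto_const_nhds e1 (hlim _)
    have e3 := (continuous_fst.clm_apply continuous_snd).tendsto
      (star (V : Op H), E ((V : Op H) η)) |>.comp (hV.star.prodMk_nhds e2)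
    refine e3.congr fun j => ?_
    rw [hqP j]
    rfl
  · rw [hqP j, mul_assoc, CStarRing.norm_mem_unitary_mul _ (Unitary.star_mem (U j).2), ← hP0 j,
      mul_assoc, mul_assoc]
    exact (norm_mul_le _ _).trans (mul_le_of_le_one_left (norm_nonneg _) (hPp j).norm_le)
  · set m := (V : Op H) * n * star (V : Op H) with hm
    have hmN : m ∈ N := hn.mem
    have hEm : E * m = m := by
      have := congrArg (fun z => (V : Op H) * z * star (V : Op H)) hn.left
      simpa only [hm, mul_assoc, c2] using this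
    have hmE : m * E = m := by
      have := congrArg (fun z => (V : Op H) * z * star (V : Op H)) hn.right
      simpa only [hm, mul_assoc, c4, mul_one] using this
    refine ⟨fun j => star (U j : Op H) * (m * U j), ?_, fun j => ⟨?_, ?_, ?_, ?_⟩⟩
    · have := hV.star.mul ((tendsto_const_nhds (x := m)).mul hV)
      simpa only [hm, mul_assoc, c1, c3, mul_one] using this
    · rw [CStarRing.norm_mem_unitary_mul _ (Unitary.star_mem (U j).2),
        CStarRing.norm_mul_coe_unitary, hm,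
        CStarRing.norm_mul_mem_unitary _ (Unitary.star_mem V.2), CStarRing.norm_coe_unitary_mul]
    · rw [mem_cj]
      simpa only [mul_assoc, c2, c4, mul_one] using hmN
    · rw [hqP j]
      simp only [mul_assoc, c2]
      rw [← mul_assoc (P j), ← hEm, ← mul_assoc (P j), hPE]
    · rw [hqP j]
      simp only [mul_assoc, c2]
      rw [← mul_assoc m, ← hmE, mul_assoc m E, hEP]

theorem rel_main (hT : Tools.{u}) {A B N D : Alg H} (hAB : CP A B) (hND : CP N D) {Ω : H}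
    {e f : Op H} {δ σ C K κ : ℝ} (hc : Close A N δ) (hδ : 0 < δ) (hσ : 0 < σ)
    (hC : 0 ≤ C) (hK : 0 ≤ K) (hκ : κ = δ + 8 * C * σ) (hκ1 : κ ≤ 1 / 200)
    (hΩ : TV A B Ω e f) (hn : ‖Ω‖ = 1)
    (hp : ∀ (N : Alg H) (ξ : H) (g r q : Op H) (γ : ℝ), TV B A ξ r g → Near N A κ → 0 < γ →
      Side B N ξ r g q (12 * κ) γ → Part B A N ξ r g q (K * (12 * κ)) (K * γ))
    (x : ℕ → RelD H) (h0U : (x 0).U = 1) (h0ξ : (x 0).ξ = Ω) (h0g : (x 0).g = e)
    (hP : ∀ j, St A B (cj (x j).U N) (cj (x j).U D) (x j).ξ (x j).g (x j).r (x j).q (x j).p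
          κ ((σ / 2 ^ j) ^ 2) ∧ ‖((x j).U : Op H) - 1‖ ≤ 2 * C * (σ - σ / 2 ^ j) ∧
        ∃ w ∈ A, ∃ w' ∈ B, ‖w'‖ ≤ 1 ∧ w * e = w ∧ w * star w = (x j).g ∧ w Ω = w' (x j).ξ)
    (hR : ∀ j, ‖((x (j + 1)).U : Op H) - (x j).U‖ ≤ C * (σ / 2 ^ j) ∧
        ‖(x (j + 1)).ξ - (x j).ξ‖ ≤ C * (σ / 2 ^ j) ∧
        (x j).U * (x j).q * star ((x j).U : Op H) * ((x (j + 1)).U * (x (j + 1)).q) =
          (x (j + 1)).U * (x (j + 1)).q) :
    ∃ (U : unitary (Op H)) (g q : Op H) (ζ : H), ‖(U : Op H) - 1‖ ≤ κ ∧ IsStarProjection g ∧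
      g ∈ A ∧ g ≠ 0 ∧ ‖g * (1 - e)‖ ≤ 25 * κ ∧ IsStarProjection q ∧ q ∈ cj U N ∧
      ‖q - g‖ ≤ 62 * κ ∧ g ζ = ζ ∧ (∀ a, Cor A g a → a ζ = 0 → a = 0) ∧
      ∀ n, Cor (cj U N) q n → ∃ a, Cor A g a ∧ ‖n - a‖ ≤ (124 + 12 * K) * κ * ‖n‖ ∧
        ∀ b ∈ A, g * b = b → n (b ζ) = a (b ζ) ∧ star n (b ζ) = star a (b ζ) := by
  have hCσ : 0 ≤ C * σ := by positivity
  have hκ0 : 0 < κ := by rw [hκ]; positivity
  obtain ⟨V, hV, hV1⟩ := rel_geo (fun j => ((x j).U : Op H)) fun j => (hR j).1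
  obtain ⟨ζ, hζ, hζ1⟩ := rel_geo (fun j => (x j).ξ) fun j => (hR j).2.1
  have hVu : V ∈ unitary (Op H) :=
    isClosed_unitary.mem_of_tendsto hV (Eventually.of_forall fun j => (x j).U.2)
  rw [h0U, norm_sub_rev] at hV1
  rw [h0ξ] at hζ1
  have hU : ∀ j, 4 * ‖((x j).U : Op H) - 1‖ ≤ 8 * C * σ := fun j => by
    have h1 := (hP j).2.1
    have h2 : 0 ≤ C * (σ / 2 ^ j) := by positivity
    nlinarith
  have hg : ∀ j, IsStarProjection (x j).g := fun j => (hP j).1.tv.1.proj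
  have hqg : ∀ j, ‖(x j).q - (x j).g‖ ≤ 12 * κ := fun j => (hP j).1.left.near
  have he := hΩ.1.proj
  obtain ⟨Q, hQ, hQN, hQl, hQz, hQn⟩ := rel_projs hT hND (U := fun j => (x j).U)
    (q := fun j => (x j).q) (V := ⟨V, hVu⟩) hV h0U (fun j => (hP j).1.left.proj)
    (fun j => (hP j).1.left.mem) fun j => (hR j).2.2
  have hge : ∀ j, ‖(x j).g * (1 - e)‖ ≤ 25 * κ := by
    intro j
    have b1 : ∀ z : Op H, ‖z * (1 - e)‖ ≤ ‖z‖ := fun z =>
      (norm_mul_le _ _).trans (mul_le_of_le_one_right (norm_nonneg _) he.one_sub.norm_le)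
    have h1 := hQz j (1 - e)
    have h2 : (x 0).q * ((x j).U * (1 - e)) = (x 0).q * ((x j).U - 1) * (1 - e) +
        ((x 0).q - e) * (1 - e) := by
      rw [sub_mul _ e, he.mul_one_sub_self]; noncomm_ring
    have h3 := (norm_mul_le (x 0).q ((x j).U - 1)).trans
      (mul_le_of_le_one_left (norm_nonneg _) (hP 0).1.left.proj.norm_le)
    have h4 := hqg 0
    rw [h0g] at h4
    have h5 := norm_add_le ((x 0).q * ((x j).U - 1) * (1 - e)) (((x 0).q - e) * (1 - e))
    have h6 : (x j).g * (1 - e) = (x j).q * (1 - e) - ((x j).q - (x j).g) * (1 - e) := by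
      noncomm_ring
    have h7 := norm_sub_le ((x j).q * (1 - e)) (((x j).q - (x j).g) * (1 - e))
    rw [h2] at h1
    rw [h6]
    linarith [b1 ((x 0).q * ((x j).U - 1)), b1 ((x 0).q - e), b1 ((x j).q - (x j).g), hqg j, hU j]
  obtain ⟨G, hG, hGA, hGζ, hsep, hGe, h1, h2⟩ := rel_lim hT hAB hΩ (fun j => (x j).ξ)
    (fun j => (x j).g) hg (fun j => (hP j).1.tv.1.mem) (fun j => (hP j).1.tv.1.fix) hζ
    (fun j => (hP j).2.2) hge
  have hr := rel_rest hge hGe hg
  have hQG := rel_dist hr hqg hQl h1 h2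
  refine ⟨⟨V, hVu⟩, G, Q, ζ, hV1.trans (by linarith), hG, hGA, ?_, hGe, hQ, hQN, by linarith,
    hGζ, hsep, fun n hnQ => ?_⟩
  · rintro rfl
    have h3 : ζ = 0 := hGζ.symm
    rw [h3, sub_zero, hn] at hζ1
    linarith
  · obtain ⟨m, hm, hm'⟩ := hQn n hnQ
    have hpt := fun j => hp _ _ _ _ _ _ (hP j).1.tv.symm
      (rel_near_mono (hT.cjClose (x j).U δ hc hδ.le (by linarith)).2 (by linarith [hU j]))
      (by positivity) (hP j).1.left (m j) (hm' j).2
    choose a ha hma hS hS' using hpt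
    have ht0 : ∀ j : ℕ, 0 ≤ K * (σ / 2 ^ j) ^ 2 * ‖m j‖ := fun j => by positivity
    have ht : Tendsto (fun j : ℕ => K * (σ / 2 ^ j) ^ 2 * ‖m j‖) atTop (𝓝 0) := by
      have h3 : Tendsto (fun j : ℕ => σ / 2 ^ j) atTop (𝓝 0) :=
        tendsto_const_nhds.div_atTop (tendsto_pow_atTop_atTop_of_one_lt one_lt_two)
      simpa using ((h3.pow 2).const_mul K).mul hm.norm
    obtain ⟨c, hc1, hc2, hc3⟩ := rel_partner hT hAB hG hGA hg (fun j => (hP j).1.tv.1.mem)
      (fun j => (hP j).1.tv.1.fix) hζ h1 (fun v hv => rel_fix hG (by linarith) hr h1 h2 hv) hm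
      (fun j => (hm' j).1.le) ha (M := K * (12 * κ) * ‖n‖)
      (fun j => by rw [← (hm' j).1]; exact hma j) ht ht0
      (fun j => hT.smSwap (hP j).1.tv.symm (ht0 j) (hS j))
      (fun j => hT.smSwap (hP j).1.tv.symm (ht0 j) (hS' j))
    refine ⟨c, hc1, ?_, hc3⟩
    have h3 : n - c = (Q - G) * n + G * (n * (Q - G)) + (G * n * G - c) := by
      rw [sub_mul, mul_sub, hnQ.left, hnQ.right]; noncomm_ring
    have h4 := (norm_mul_le (Q - G) n).trans (mul_le_mul_of_nonneg_right hQG (norm_nonneg _))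
    have h5 := ((norm_mul_le G (n * (Q - G))).trans
      (mul_le_of_le_one_left (norm_nonneg _) hG.norm_le)).trans
      ((norm_mul_le n (Q - G)).trans (mul_le_mul_of_nonneg_left hQG (norm_nonneg _)))
    have h6 := norm_add₃_le (a := (Q - G) * n) (b := G * (n * (Q - G))) (c := G * n * G - c)
    rw [h3]
    linarith

end

theorem rel (hT : Tools.{u}) (h1 : StepStmt.{u}) (h2 : PartStmt.{u}) : RelStmt.{u} := by
  obtain ⟨C, δ₀, hC, hδ₀, hs⟩ := h1
  obtain ⟨K, hK, hp⟩ := h2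
  intro ε hε
  set η := min δ₀ (min (1 / 200) (ε / (124 + 12 * K))) with hη
  have hη0 : 0 < η := by positivity
  have hη1 : η ≤ δ₀ := min_le_left _ _
  have hη2 : η ≤ 1 / 200 := (min_le_right _ _).trans (min_le_left _ _)
  have hη3 : η * (124 + 12 * K) ≤ ε :=
    (le_div_iff₀ (by positivity)).1 ((min_le_right _ _).trans (min_le_right _ _))
  refine ⟨(η / (50 * C)) ^ 2, by positivity, ?_⟩
  intro H _ _ _ A B N D Ω e f δ hAB hND hc hc' hδ hδη hΩ hn
  have hs0 : 0 < √δ := Real.sqrt_pos.2 hδ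
  have hs1 : √δ * (50 * C) ≤ η :=
    (le_div_iff₀ (by positivity)).1 (Real.sqrt_le_iff.2 ⟨by positivity, hδη⟩)
  have hs2 : √δ ^ 2 = δ := Real.sq_sqrt hδ.le
  have hs3 : 50 * √δ ≤ η := by nlinarith
  have hs4 : δ ≤ √δ := by nlinarith
  have hκ : δ + 8 * C * (3 * √δ) ≤ η := by nlinarith
  have hκ0 : 0 < δ + 8 * C * (3 * √δ) := by positivity
  obtain ⟨x, h0U, h0ξ, h0g, hP, hR⟩ := rel_iter hT hAB hND (σ := 3 * √δ) (C := C) hc hc' hδ
    (by linarith) (by positivity) (by rw [mul_pow, hs2]; norm_num) (by linarith) hΩ hn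
    (fun N D ξ g r q p δ₁ γ a1 a2 a3 a4 a5 a6 a7 =>
      hs H A B N D ξ g r q p δ₁ _ γ hAB a1 a2 a3 a4 a5 a6 (hκ.trans hη1) a7)
  obtain ⟨U, g, q, ζ, b1, b2, b3, b4, b5, b6, b7, b8, b9, b10, b11⟩ :=
    rel_main hT hAB hND (K := K) hc hδ (by positivity) (by linarith) (by linarith) rfl
      (hκ.trans hη2) hΩ hn (fun N ξ g r q γ a1 a2 a3 a4 =>
        hp H B A N ξ r g q _ _ γ hAB.symm a1 a2 hκ0 (by linarith) (by linarith) a3 a4)
      x h0U h0ξ h0g hP hR
  have hηK : 0 ≤ η * K := by positivity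
  refine ⟨U, g, q, ζ, by nlinarith, b2, b3, b4, by linarith, b6, b7, by nlinarith, b9, b10,
    fun n hn => ?_⟩
  obtain ⟨a, a1, a2, a3⟩ := b11 n hn
  refine ⟨a, a1, a2.trans (mul_le_mul_of_nonneg_right ?_ (norm_nonneg _)), a3⟩
  exact ((mul_le_mul_of_nonneg_left hκ (by positivity)).trans (le_of_eq (mul_comm _ _))).trans hη3

end Vale.Agent.P096
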