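import Vale.Agent.P096.Step1

/-! One step of the iteration. -/

set_option linter.unusedSectionVars false

namespace Vale.Agent.P096

open Filter Topology
open scoped InnerProductSpace

universe u

theorem st_one_le {a b : ℝ} (ha : 1 ≤ a) (hb : 1 ≤ b) : 1 ≤ a * b := by nlinarith

theorem st_le_mul {a x : ℝ} (ha : 1 ≤ a) (hx : 0 ≤ x) : x ≤ a * x := by nlinarith

/-- The arithmetic of the contraction. -/
theorem st_arith {J R P A δ γ : ℝ} (hJ : 1 ≤ J) (hR : 1 ≤ R) (hP : 1 ≤ P) (hA : 1 ≤ A)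
    (hγ : 0 < γ) (h : δ ≤ 1 / (8 * (64 * J ^ 2 * R * P) * ((A + R) * (12 * P)))) :
    64 * J ^ 2 * (R * (1 / (8 * (64 * J ^ 2 * R * P)) + A * (P * (12 * δ))) * (P * γ) +
      R * (P * (12 * δ)) * (R * (P * γ))) ≤ γ / 4 := by
  set L := 64 * J ^ 2 * R * P with hL
  have L0 : 0 < L := by positivity
  have e : 64 * J ^ 2 * (R * (1 / (8 * L) + A * (P * (12 * δ))) * (P * γ) +
      R * (P * (12 * δ)) * (R * (P * γ))) =
      γ * (L * (1 / (8 * L)) + L * ((A + R) * (12 * P)) * δ) := by rw [hL]; ring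
  have h1 : L * (1 / (8 * L)) = 1 / 8 := by field_simp
  have h2 : L * ((A + R) * (12 * P)) * δ ≤ 1 / 8 := by
    rw [le_div_iff₀ (by positivity)] at h
    linarith
  rw [e, h1]
  nlinarith

theorem st_arith2 {J R P C U γ X s x y z : ℝ} (hJ : 1 ≤ J) (hR : 1 ≤ R) (hP : 1 ≤ P) (hU : 1 ≤ U)
    (hs : 0 ≤ s) (hγ : γ ≤ s) (X0 : 0 ≤ X) (hX : 64 * J ^ 2 * X ≤ γ / 4) (h1 : x ≤ y + z)
    (h2 : y ≤ 15 * J ^ 2 * (R * (P * γ + C * P * s) + X)) (h3 : z ≤ C * P * s) :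
    x ≤ (U + C * P + 15 * J ^ 2 * (R * P * (1 + C) + 1)) * s := by
  have J2 : 1 ≤ 64 * J ^ 2 := by nlinarith
  have a2 := (st_le_mul J2 X0).trans hX
  have a3 : R * (P * γ + C * P * s) + X ≤ (R * P * (1 + C) + 1) * s := by
    have : R * (P * γ) ≤ R * (P * s) := by gcongr
    linarith
  have a4 := mul_le_mul_of_nonneg_left a3 (show 0 ≤ 15 * J ^ 2 by positivity)
  have a5 : 0 ≤ U * s := by positivity
  linarith

theorem st_arith3 {U E δ₁ δ s : ℝ} (hU : 1 ≤ U) (hE : U ≤ E) (h0 : 0 ≤ δ₁) (hs : 0 < s)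
    (h : δ₁ + 4 * E * s ≤ δ) : δ₁ + 4 * (U * s) ≤ δ ∧ 4 * s ≤ δ ∧ δ₁ ≤ δ ∧ U * s ≤ E * s := by
  have a1 : U * s ≤ E * s := by gcongr
  have a2 := st_le_mul hU hs.le
  exact ⟨by linarith, by linarith, by linarith, a1⟩

theorem step (hT : Tools.{u}) (h1 : PartStmt.{u}) (h2 : ApplyStmt.{u}) (h3 : CutStmt.{u})
    (h4 : UniStmt.{u}) (h5 : PreStmt.{u}) (h6 : AdjStmt.{u}) (h7 : TransStmt.{u}) :
    StepStmt.{u} := by
  obtain ⟨cP, hcP, h1⟩ := h1
  obtain ⟨cA, hcA, h2⟩ := h2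
  obtain ⟨cC, hcC, h3⟩ := h3
  obtain ⟨cU, hcU, h4⟩ := h4
  obtain ⟨R, hR, h5⟩ := h5
  obtain ⟨J, hJ, h6⟩ := h6
  obtain ⟨P, hP⟩ : ∃ P, P = cU * (cA * cP) := ⟨_, rfl⟩
  have hAP : 1 ≤ cA * cP := st_one_le hcA hcP
  have P1 : 1 ≤ P := hP ▸ st_one_le hcU hAP
  have hP1 : cA * cP ≤ P := hP ▸ st_le_mul hcU (by positivity)
  have hP2 : cP ≤ P := (st_le_mul hcA (by positivity)).trans hP1
  obtain ⟨η, hη⟩ : ∃ η, η = 1 / (8 * (64 * J ^ 2 * R * P)) := ⟨_, rfl⟩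
  have η0 : 0 < η := by rw [hη]; positivity
  obtain ⟨κ₀, κ0, h2⟩ := h2 η η0
  have E0 : 0 ≤ 15 * J ^ 2 * (R * P * (1 + cC) + 1) := by positivity
  have E1 : 0 ≤ cC * P := by positivity
  refine ⟨cU + cC * P + 15 * J ^ 2 * (R * P * (1 + cC) + 1),
    min (min (κ₀ / (12 * P)) (1 / (12000 * R * P)))
      (1 / (8 * (64 * J ^ 2 * R * P) * ((cA + R) * (12 * P)))), by linarith, by positivity, ?_⟩
  intro H _ _ _ A B N D ξ g r q p δ₁ δ γ hAB hND hAN hBD δ0 γ0 hδ hδ₀ hS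
  have s0 : 0 < √γ := Real.sqrt_pos.2 γ0
  obtain ⟨hU4, hs1, hδ1, hUE⟩ := st_arith3 hcU (by linarith) δ0 s0 hδ
  have δp : 0 < δ := by linarith
  have d1 : P * (12 * δ) ≤ κ₀ := by
    have := hδ₀.trans ((min_le_left _ _).trans (min_le_left _ _))
    rw [le_div_iff₀ (by positivity)] at this
    linarith
  have d2 : R * (P * (12 * δ)) ≤ 1 / 1000 := by
    have := hδ₀.trans ((min_le_left _ _).trans (min_le_right _ _))
    rw [le_div_iff₀ (by positivity)] at this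
    linarith
  have d3 := st_arith hJ hR P1 hcA γ0 (hδ₀.trans (min_le_right _ _))
  rw [← hη] at d3
  have d4 : P * (12 * δ) ≤ 1 / 1000 := (st_le_mul hR (by positivity)).trans d2
  have d5 : 12 * δ ≤ P * (12 * δ) := st_le_mul P1 (by positivity)
  have gs : γ ≤ √γ := by
    have := mul_le_of_le_one_left s0.le (show √γ ≤ 1 by linarith)
    rwa [Real.mul_self_sqrt γ0.le] at this
  have k1 : cP * (12 * δ) ≤ P * (12 * δ) := by gcongr
  have k2 : cA * (cP * (12 * δ)) ≤ P * (12 * δ) := by rw [← mul_assoc]; gcongr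
  have k3 : cU * (cA * (cP * (12 * δ))) = P * (12 * δ) := by rw [hP]; ring
  have k4 : cU * (cA * (cP * γ)) = P * γ := by rw [hP]; ring
  have k5 : 12 * δ ≤ cP * (12 * δ) := st_le_mul hcP (by positivity)
  have k6 : γ ≤ cP * γ := st_le_mul hcP γ0.le
  have k7 : cP * γ ≤ P * γ := by gcongr
  have k8 : cA * (cP * γ) ≤ P * γ := by rw [← mul_assoc]; gcongr
  have k9 : cU * (cA * (cP * (12 * δ)) * (cA * (cP * γ))) ≤ P * (12 * δ) * (P * γ) := by
    rw [← mul_assoc, k3]; gcongr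
  have hv := hS.tv
  have pR := h1 H A B D ξ g r p δ (12 * δ) γ hAB hv (hBD.2.mono hδ1) δp (by linarith)
    (by linarith) γ0 hS.right
  have pL := h1 H B A N ξ r g q δ (12 * δ) γ hAB.symm hv.symm (hAN.2.mono hδ1) δp (by linarith)
    (by linarith) γ0 hS.left
  obtain ⟨T, T1, T2, T3, T4, T5⟩ := h2 H A B N D ξ g r q p _ _ hAB hND hv (by positivity)
    (k1.trans d1) (by positivity) (hAN.mono (by linarith)) (hBD.mono (by linarith))
    (hS.right.mono k5 k6) (hS.left.mono k5 k6) pR pL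
  obtain ⟨e, f, he, heg, hf, hfr, hef, hμ, hθ⟩ := h3 H A B ξ g r T _ (√γ) hAB hv (by positivity)
    s0 T3
  have hμ' : ‖ξ - e ξ‖ ≤ cC * P * √γ := by
    refine hμ.trans ?_
    rw [div_le_iff₀ s0, mul_assoc, Real.mul_self_sqrt γ0.le, mul_assoc]
    gcongr
  obtain ⟨S, W, S1, S2, S3, W1, W2, W3, W4⟩ := h4 H A B ξ g r e f T _ _ _ hAB hv he heg hf hfr T1
    T2 (by linarith) (by positivity) T3 hθ
  rw [k3] at S2 W1
  rw [k4] at S3
  have hcl : ∀ {X Y : Alg H}, Close X Y δ₁ → Close X (cj W Y) δ := fun h =>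
    (hT.cjClose W δ₁ h δ0 (by linarith)).mono (by linarith)
  have hND' := hT.cjCP W hND
  have hfe : f * e = e * f := hAB.symm.left f |>.1 hfr.mem e heg.mem
  obtain ⟨p', p1, p2, p3, p4, p5, p6⟩ := h5 H A B N D ξ g r p e f T S W (P * (12 * δ)) (P * γ) η cA
    _ hAB hND hv (by positivity) d4 (by positivity) η0.le hcA
    (hS.right.mono d5 (k6.trans k7)) (pR.mono k1 k7) (T4.mono η0.le (by positivity) k7)
    he heg hf hfr hef hμ' S1 S2 S3 W1 (W3.mono k9) (W4.mono k9)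
    ((hcl hBD).1.mono (by linarith))
  obtain ⟨q', q1, q2, q3, q4, q5, q6⟩ := h5 H B A D N ξ r g q f e T S W (P * (12 * δ)) (P * γ) η cA
    _ hAB.symm hND.symm hv.symm (by positivity) d4 (by positivity) η0.le hcA
    (hS.left.mono d5 (k6.trans k7)) (pL.mono k1 k7) (T5.mono η0.le (by positivity) k7)
    hf hfr he heg hef.symm (hef ▸ hμ') (hfe ▸ S1) S2 (hT.smSwap hv (by positivity) S3) W1
    (hT.smSwap hv (by positivity) (W3.mono k9)) (hT.smSwap hv (by positivity) (W4.mono k9))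
    ((hcl hAN).1.mono (by linarith))
  rw [← hef] at q4 q5
  have c0 : 0 < R * (η + cA * (P * (12 * δ))) * (P * γ) := by positivity
  have c1 : 0 ≤ R * (P * (12 * δ)) * (R * (P * γ)) := by positivity
  obtain ⟨s, hs, t, ht, s1, t1, o1, o2, o3, o4⟩ := step_two hJ (h6 H) h7 (a := R * (P * γ))
    (X := R * (η + cA * (P * (12 * δ))) * (P * γ) + R * (P * (12 * δ)) * (R * (P * γ)))
    hAB hv he heg hf hfr hef
    (hcl hBD).2 (hcl hAN).2 δp (by linarith [st_le_mul hR (show 0 ≤ P * (12 * δ) by positivity)])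
    (by linarith) (by positivity) c0 (by linarith) (by linarith) p1 p2.mem p3 p4 p5
    (by simpa only [mul_assoc] using p6) q1 q2.mem q3 q4 q5 (by simpa only [mul_assoc] using q6)
  obtain ⟨s2, s3⟩ := st_pi hf s1
  obtain ⟨t2, t3⟩ := st_pi he t1
  refine ⟨W, _, _, _, q', p', W2.trans hUE, ⟨o1, ?_, o2.mono le_rfl d3,
    o3.mono le_rfl d3⟩, q2.left, ?_, t, ht, star s, star_mem hs, by rwa [norm_star], ?_, rfl, ?_⟩
  · have a1 := t.le_of_opNorm_le t3 (s (e ξ))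
    have a2 := s.le_of_opNorm_le s3 (e ξ)
    have a3 := st_proj_le he ξ
    have a4 := hS.norm
    linarith
  · have a1 := norm_sub_le_norm_sub_add_norm_sub (t (s (e ξ))) (e ξ) ξ
    rw [norm_sub_rev (e ξ)] at a1
    exact st_arith2 hJ hR P1 hcU s0.le gs (add_nonneg c0.le c1) d3 a1 o4 hμ'
  · rw [← t2, mul_assoc, heg.right]
  · rw [← hAB.app ht (star_mem hs), ← mul_apply_eq_comp (star s), s1, hef,
      ← mul_apply_eq_comp f, hf.isIdempotentElem.eq, ← hef, ← mul_apply_eq_comp, t2]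

end Vale.Agent.P096
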