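import Vale.Agent.P096.TraceVec1

/-! Finite projections majorize corners with a faithful trace vector. -/

set_option linter.unusedSectionVars false

namespace Vale.Agent.P096

open Filter Topology Vale.Agent.P104
open scoped InnerProductSpace

universe u

variable {H : Type u} [NormedAddCommGroup H] [InnerProductSpace ℂ H] [CompleteSpace H]
  {M : Type u} [CStarAlgebra M] {ρ : M →⋆ₐ[ℂ] Op H}

theorem tv_notInf (h : IsWRep ρ) {q : M} (hq : IsStarProjection q)
    (hf : ∀ v, star v * v = q → q * v = v → v * star v = q) : ¬ InfSeq q := by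
  intro hi
  obtain ⟨a, b, pa, -, a0, a1, a2, a3, a4, a5, a6, a7, -⟩ := h.double hq hi
  have qs := hq.isSelfAdjoint.star_eq
  have qq := hq.isIdempotentElem.eq
  have hfp := pa.proj
  have qf : q * (star a * a) = star a * a := by rw [← mul_assoc, ws_flip' qs a6]
  have fq : star a * a * q = star a * a := by rw [mul_assoc, a6]
  have bb := a1.symm
  generalize star a * a = f at hfp qf fq bb a2 a3
  have fs := hfp.isSelfAdjoint.star_eq
  have ff := hfp.isIdempotentElem.eq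
  have b1 : star b * q = star b := ws_flip qs a7
  have b2 : star b * f = star b := ws_flip fs a3
  have c1 : star a * q = star a := ws_flip qs a5
  have c2 : star a * f = star a := ws_flip fs a2
  have e := hf (b + (q - f)) (by
      simp only [star_add, star_sub, qs, fs, add_mul, mul_add, sub_mul, mul_sub, bb, b1, b2, a7, a3,
        qq, ff, qf, fq]
      abel)
    (by rw [mul_add, mul_sub, a7, qq, qf])
  have e2 : star a * (b + (q - f)) = 0 := by rw [mul_add, mul_sub, a4, c1, c2, sub_self, add_zero]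
  rw [← e, ← mul_assoc, e2, zero_mul] at c1
  exact a0 (star_eq_zero.1 c1.symm)

theorem tv_approx (h : IsWRep ρ) {q : M} (hq : IsStarProjection q) (q0 : q ≠ 0)
    (hf : ¬ InfSeq q) : ∃ (ξ : H) (e : M), IsStarProjection e ∧ e ≠ 0 ∧ q * e = e ∧ ρ e ξ = ξ ∧
      (∀ x, e * x = x * e → ‖ρ x ξ‖ ^ 2 ≤ 2 * ‖ρ (star x) ξ‖ ^ 2) ∧
      ∀ x, x * e = x → ρ x ξ = 0 → x = 0 := by
  let _ := CStarAlgebra.spectralOrder M
  have _ := CStarAlgebra.spectralOrderedRing M
  obtain ⟨ξ, e, he, e0, qe, h1, h2⟩ := h.corner_PI hq q0 hf one_pos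
  have es := he.isSelfAdjoint.star_eq
  have ee := he.isIdempotentElem.eq
  refine ⟨ρ e ξ, e, he, e0, qe, by rw [← ws_mul_apply, ee], fun x hx => ?_, fun x hx h0 => ?_⟩
  · have h3 := h.rickart.corner (ρ := ρ) ξ (by norm_num) h2 (x := x * e) (by rw [mul_assoc, ee])
      (by rw [← mul_assoc, hx, mul_assoc, ee])
    have h4 : star (x * e) = star x * e := by rw [← hx, star_mul, es]
    have h5 := vf_star_mul (ρ := ρ) ξ (star (x * e))
    rw [star_star] at h5
    rw [vf_star_mul, h5, h4, ws_mul_apply, ws_mul_apply] at h3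
    linarith
  · by_contra hx0
    obtain ⟨t, ht, t0, -, a, ha⟩ := h.rickart.exists_PI hx0
    have h3 := h1 t ht t0 (by rw [ha, mul_assoc, hx])
    rw [← ws_mul_apply, hx] at h0
    rw [vf_star_mul, ha, ws_mul_apply, h0, map_zero, norm_zero] at h3
    norm_num at h3

theorem tv_gen (hT : Tools.{u}) (h : IsWRep ρ) {q : M} (hq : IsStarProjection q) (q0 : q ≠ 0)
    (hf : ¬ InfSeq q) : ∃ (e : M) (Ω : H), IsStarProjection e ∧ q * e = e ∧ ρ e Ω = Ω ∧ ‖Ω‖ = 1 ∧
      (∀ x, e * x = x * e → ‖ρ (star x) Ω‖ = ‖ρ x Ω‖) ∧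
      ∀ x, e * x = x → x * e = x → ρ x Ω = 0 → x = 0 := by
  obtain ⟨ξ, e, he, e0, qe, h1, h2, h3⟩ := tv_approx h hq q0 hf
  have es := he.isSelfAdjoint.star_eq
  have ee := he.isIdempotentElem.eq
  let D : StarSubalgebra ℂ M := StarSubalgebra.centralizer ℂ {e}
  have hD : ∀ x, x ∈ D ↔ e * x = x * e := fun x => by
    simp [D, StarSubalgebra.mem_centralizer_iff, es]
  have _ : IsClosed (D : Set M) := Set.isClosed_centralizer _
  let _ : CStarAlgebra D := StarSubalgebra.cstarAlgebra D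
  obtain ⟨Ω, k1, k2, k3⟩ := tv_main (ρ := ρ.comp D.subtype) (ξ := ξ) hT
    fun a => h2 a ((hD _).1 a.2)
  have k1' : ∀ x, e * x = x * e → ‖ρ (star x) Ω‖ = ‖ρ x Ω‖ := fun x hx => k1 ⟨x, (hD x).2 hx⟩
  have k2' : ∀ x, e * x = x * e → ‖ρ x ξ‖ ≤ 2 * ‖ρ x Ω‖ := fun x hx => k2 ⟨x, (hD x).2 hx⟩
  have k3' : ∀ x, e * x = x * e → ‖ρ x Ω‖ ≤ 2 * ‖ρ x ξ‖ := fun x hx => k3 ⟨x, (hD x).2 hx⟩
  have k4 : ∀ x, e * x = x → x * e = x → ρ x Ω = 0 → x = 0 := fun x a1 a2 h0 => by
    have := k2' x (a1.trans a2.symm)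
    rw [h0, norm_zero, mul_zero] at this
    exact h3 x a2 (norm_le_zero_iff.1 this)
  have k5 : ρ e Ω = Ω := by
    have := k3' (1 - e) (by rw [mul_sub, sub_mul, mul_one, one_mul])
    rw [map_sub, map_one, sub_apply, sub_apply, h1, one_apply_eq_self,
      one_apply_eq_self, sub_self, norm_zero, mul_zero, norm_le_zero_iff,
      sub_eq_zero] at this
    exact this.symm
  have k6 : Ω ≠ 0 := fun h0 => e0 (k4 e ee ee (by rw [h0, map_zero]))
  have k7 : ((‖Ω‖⁻¹ : ℝ) : ℂ) ≠ 0 := by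
    exact_mod_cast inv_ne_zero (norm_ne_zero_iff.2 k6)
  refine ⟨e, ((‖Ω‖⁻¹ : ℝ) : ℂ) • Ω, he, qe, by rw [map_smul, k5], ?_, fun x hx => ?_,
    fun x a1 a2 h0 => ?_⟩
  · rw [norm_smul, Complex.norm_real, norm_inv, norm_norm,
      inv_mul_cancel₀ (norm_ne_zero_iff.2 k6)]
  · rw [map_smul, map_smul, norm_smul, norm_smul, k1' x hx]
  · rw [map_smul, smul_eq_zero, or_iff_right k7] at h0
    exact k4 x a1 a2 h0

theorem traceVec (hT : Tools.{u}) : TraceStmt.{u} := by
  intro H _ _ _ A B q hAB hq hqA q0 hfin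
  have _ : IsClosed (A : Set (Op H)) := hT.closed hAB
  let _ : CStarAlgebra A := StarSubalgebra.cstarAlgebra A
  have h : IsWRep A.subtype := ⟨Subtype.val_injective, fun l R x hl _ hx => by
    refine ⟨⟨x, (hAB.left x).2 fun y hy => ContinuousLinearMap.ext fun ζ => ?_⟩, rfl⟩
    refine tendsto_nhds_unique (hx (y ζ)).1 ?_
    refine ((y.continuous.tendsto _).comp (hx ζ).1).congr fun a => ?_
    exact (congrArg (fun T : Op H => T ζ) ((hAB.left a).1 a.2 y hy)).symm⟩
  have hq' : IsStarProjection (⟨q, hqA⟩ : A) := isStarProjection_iff'.2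
    ⟨Subtype.ext hq.isIdempotentElem.eq, Subtype.ext hq.isSelfAdjoint.star_eq⟩
  obtain ⟨e, Ω, he, qe, h1, h2, h3, h4⟩ := tv_gen hT h hq' (fun h0 => q0 (congrArg Subtype.val h0))
    (tv_notInf h hq' fun v a1 a2 =>
      Subtype.ext (hfin v v.2 (congrArg Subtype.val a1) (congrArg Subtype.val a2)))
  have eq : e * ⟨q, hqA⟩ = e := by
    simpa only [he.isSelfAdjoint.star_eq] using ws_flip hq'.isSelfAdjoint.star_eq qe
  refine ⟨e, Ω, isStarProjection_iff'.2 ⟨congrArg Subtype.val he.isIdempotentElem.eq,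
    congrArg Subtype.val he.isSelfAdjoint.star_eq⟩,
    ⟨e.2, congrArg Subtype.val qe, congrArg Subtype.val eq⟩, h1, h2, fun a ha => ?_,
    fun a ha h0 => ?_⟩
  · exact h3 ⟨a, ha.mem⟩ (Subtype.ext (ha.left.trans ha.right.symm))
  · exact congrArg Subtype.val
      (h4 ⟨a, ha.mem⟩ (Subtype.ext ha.left) (Subtype.ext ha.right) h0)

end Vale.Agent.P096
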