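import Vale.Agent.P096.Main
import Vale.Agent.P096.Hyper
import Vale.Agent.P096.LemQ
import Vale.Agent.P096.LemQ3
import Vale.Agent.P096.Norm
import Vale.Agent.P096.LemB
import Vale.Agent.P096.Part
import Vale.Agent.P096.KLem
import Vale.Agent.P096.Cut
import Vale.Agent.P096.Apply
import Vale.Agent.P096.Adj
import Vale.Agent.P096.Pre
import Vale.Agent.P096.Step
import Vale.Agent.P096.Rel
import Vale.Agent.P096.Good
import Vale.Agent.P096.Init
import Vale.Agent.P096.TraceVec
import Vale.Agent.P096.Glue

/-! All the parts together. -/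

namespace Vale.Agent.P096

universe u

theorem main_all : MainStmt.{u} :=
  have hT : Tools.{u} := tools
  have hP : PartStmt.{u} := part hT (trunc hT) (klemma hT)
  main_of hT (comm_of hT hyper) (traceVec hT) (init hT)
    (rel hT (step hT hP (apply_of hT (lemB hT (lemQ3 lemQ) normalize coc)) (cut hT) (uni hT)
      (pre hT) (adj hT (trunc hT)) trans) hP) (good hT hyper) (glue hT hyper)

end Vale.Agent.P096
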