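import Mathlib

/-! Definitions used in the statement on perturbations of von Neumann algebras. -/

namespace Vale.Agent.P096

universe u

variable {H : Type u} [NormedAddCommGroup H] [InnerProductSpace ℂ H] [CompleteSpace H]

/-- The closed unit ball of a von Neumann algebra for the operator norm. -/
def unitBall (M : VonNeumannAlgebra H) : Set (H →L[ℂ] H) := {x | x ∈ M ∧ ‖x‖ ≤ 1}

/-- The Kadison-Kastler distance: the Hausdorff distance of the unit balls in operator norm. -/
noncomputable def kkDist (M N : VonNeumannAlgebra H) : ℝ :=
  Metric.hausdorffDist (unitBall M) (unitBall N)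

/-- `p` is a finite projection of `M`: a projection in `M` that is not equivalent in `M` to a
proper subprojection of itself. -/
def IsFiniteProj (M : VonNeumannAlgebra H) (p : H →L[ℂ] H) : Prop :=
  p ∈ M ∧ IsStarProjection p ∧ ∀ v ∈ M, star v * v = p → p * (v * star v) = v * star v →
    v * star v = p

/-- `M` is semifinite (it has no type III summand): every nonzero central projection of `M`
majorizes a nonzero finite projection of `M`. -/
def Semifinite (M : VonNeumannAlgebra H) : Prop :=
  ∀ z ∈ M, (∀ x ∈ M, z * x = x * z) → IsStarProjection z → z ≠ 0 →
    ∃ p, IsFiniteProj M p ∧ p ≠ 0 ∧ z * p = p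

end Vale.Agent.P096
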