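import Vale.Agent.P096.Step1
import Vale.Agent.P096.Stmt

/-! Assembly of the perturbation theorem from its parts. -/

set_option linter.unusedSectionVars false

namespace Vale.Agent.P096

open Filter Topology
open scoped InnerProductSpace

universe u

/-- The theorem for pairs of mutual commutants. -/
def MainStmt : Prop := ∀ ε : ℝ, 0 < ε → ∃ δ₀ : ℝ, 0 < δ₀ ∧ ∀ (H : Type u) [NormedAddCommGroup H]
  [InnerProductSpace ℂ H] [CompleteSpace H] (A B N D : Alg H), CP A B → CP N D → Close A N δ₀ →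
  (∀ z ∈ A, z ∈ B → IsStarProjection z → z ≠ 0 →
    ∃ p ∈ A, IsStarProjection p ∧ p ≠ 0 ∧ Fin' A p ∧ z * p = p) →
  ∃ u ∈ unitary (Op H), ‖u - 1‖ ≤ ε ∧ ∀ x, x ∈ A ↔ u * x * star u ∈ N

theorem main_of (hT : Tools.{u}) (hC : CommStmt.{u}) (hTr : TraceStmt.{u}) (hI : InitStmt.{u})
    (hR : RelStmt.{u}) (hG : GoodStmt.{u}) (hGl : GlueStmt.{u}) : MainStmt.{u} := by
  intro ε ε0
  obtain ⟨K, hK, hC⟩ := hC
  obtain ⟨a, a0, hGl⟩ := hGl ε ε0
  obtain ⟨b, b0, hG⟩ := hG (a / 2) (by positivity)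
  obtain ⟨c, c0, hR⟩ := hR (min (a / 2) (b / 8)) (by positivity)
  obtain ⟨d, hd⟩ : ∃ d, d = min (min a (b / 2)) (min c 1) := ⟨_, rfl⟩
  have d0 : 0 < d := by rw [hd]; positivity
  have d1 : d ≤ a := hd ▸ (min_le_left _ _).trans (min_le_left _ _)
  have d2 : d ≤ b / 2 := hd ▸ (min_le_left _ _).trans (min_le_right _ _)
  have d3 : d ≤ c := hd ▸ (min_le_right _ _).trans (min_le_left _ _)
  have d4 : d ≤ 1 := hd ▸ (min_le_right _ _).trans (min_le_right _ _)
  refine ⟨d / K, by positivity, fun H _ _ _ A B N D hAB hND hAN hs => ?_⟩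
  have hBD := hC H A B N D _ hAB hND (by positivity) hAN
  rw [mul_div_cancel₀ _ (by positivity)] at hBD
  have hAN' : Close A N d := hAN.mono (div_le_self d0.le hK)
  refine hGl H A B N D a hAB hND (hAN'.2.mono d1) (hBD.2.mono d1) a0.le le_rfl
    fun z hzA hzB hz z0 => ?_
  obtain ⟨p, hpA, hp, p0, hpf, hzp⟩ := hs z hzA hzB hz z0
  obtain ⟨e, Ω, he, hep, e1, e2, e3, e4⟩ := hTr H A B p hAB hp hpA p0 hpf
  obtain ⟨f, hv⟩ := hI H A B Ω e hAB he hep.mem e1 e3 e4
  obtain ⟨U, g, q, ζ, u1, g1, g2, g3, g4, q1, q2, q3, z1, z2, z3⟩ :=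
    hR H A B N D Ω e f d hAB hND hAN' hBD d0 d3 hv e2
  have m1 := min_le_left (a / 2) (b / 8)
  have m2 := min_le_right (a / 2) (b / 8)
  obtain ⟨u, -, -, -, v1, v2, v3⟩ := hG H A B (cj U N) (cj U D) g q ζ b hAB (hT.cjCP U hND)
    ((hT.cjClose U d hAN' d0.le d4).1.mono (by linarith)) b0.le le_rfl g1 g2 g3 q1 q2
    (by linarith) z1 z2 fun n hn => by
      obtain ⟨x, x1, x2, x3⟩ := z3 n hn
      exact ⟨x, x1, x2.trans (by gcongr; linarith), x3⟩
  refine ⟨g, U * u, ⟨g1, g2, g3, mul_mem U.2 v1, ?_, fun x hx => ?_⟩, ?_⟩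
  · have e : (U : Op H) * u - 1 = U * (u - 1) + (U - 1) := by noncomm_ring
    rw [e]
    refine (norm_add_le _ _).trans ?_
    rw [CStarRing.norm_coe_unitary_mul]
    linarith
  · have := mem_cj.1 (v3 x hx)
    simpa only [star_mul, mul_assoc] using this
  · have h1 : z * e = e := by rw [← hep.left, ← mul_assoc, hzp]
    have h2 : e * z = e := by
      have := congrArg star h1
      rwa [star_mul, hz.isSelfAdjoint.star_eq, he.isSelfAdjoint.star_eq] at this
    have h3 : g * (1 - z) = g * (1 - e) * (1 - z) := by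
      rw [mul_assoc, sub_mul, one_mul, mul_sub e, mul_one, h2, sub_self, sub_zero]
    rw [h3]
    exact (norm_mul_le _ _).trans
      ((mul_le_of_le_one_right (norm_nonneg _) hz.one_sub.norm_le).trans g4)

variable {H : Type u} [NormedAddCommGroup H] [InnerProductSpace ℂ H] [CompleteSpace H]

theorem cp_of (M : VonNeumannAlgebra H) : CP M.toStarSubalgebra M.commutant.toStarSubalgebra := by
  refine ⟨fun x => ?_, fun y => ?_⟩
  · show x ∈ M ↔ ∀ y ∈ M.commutant, x * y = y * x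
    conv_lhs => rw [← M.commutant_commutant, VonNeumannAlgebra.mem_commutant_iff]
    exact forall₂_congr fun _ _ => eq_comm
  · show y ∈ M.commutant ↔ ∀ x ∈ M, y * x = x * y
    rw [VonNeumannAlgebra.mem_commutant_iff]
    exact forall₂_congr fun _ _ => eq_comm

theorem near_of {M N : VonNeumannAlgebra H} {δ : ℝ} (h : kkDist M N < δ) :
    Near M.toStarSubalgebra N.toStarSubalgebra δ := by
  intro x hx
  have hb : ∀ L : VonNeumannAlgebra H, Bornology.IsBounded (unitBall L) := fun L =>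
    (Metric.isBounded_closedBall (x := 0) (r := 1)).subset fun y hy => by simpa using hy.2
  have h0 : ∀ L : VonNeumannAlgebra H, (unitBall L).Nonempty := fun L =>
    ⟨0, zero_mem L, by simp⟩
  rcases eq_or_ne x 0 with rfl | x0
  · exact ⟨0, zero_mem _, by simp⟩
  have n0 : 0 < ‖x‖ := norm_pos_iff.2 x0
  have hm : ((‖x‖⁻¹ : ℝ) : ℂ) • x ∈ unitBall M := by
    refine ⟨M.toStarSubalgebra.smul_mem hx _, ?_⟩
    rw [norm_smul, Complex.norm_real, norm_inv, norm_norm, inv_mul_cancel₀ n0.ne']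
  obtain ⟨y, hy, hd⟩ := Metric.exists_dist_lt_of_hausdorffDist_lt hm h
    (Metric.hausdorffEDist_ne_top_of_nonempty_of_bounded (h0 M) (h0 N) (hb M) (hb N))
  refine ⟨((‖x‖ : ℝ) : ℂ) • y, N.toStarSubalgebra.smul_mem hy.1 _, ?_⟩
  have e : x - ((‖x‖ : ℝ) : ℂ) • y = ((‖x‖ : ℝ) : ℂ) • (((‖x‖⁻¹ : ℝ) : ℂ) • x - y) := by
    rw [smul_sub, smul_smul, ← Complex.ofReal_mul, mul_inv_cancel₀ n0.ne', Complex.ofReal_one,
      one_smul]
  rw [e, norm_smul, Complex.norm_real, norm_norm, mul_comm, ← dist_eq_norm]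
  gcongr

theorem final_of (h : MainStmt.{u}) : ∀ ε : ℝ, 0 < ε → ∃ δ : ℝ, 0 < δ ∧
    ∀ (H : Type u) [NormedAddCommGroup H] [InnerProductSpace ℂ H] [CompleteSpace H]
      (M N : VonNeumannAlgebra H), Semifinite M → kkDist M N < δ →
      ∃ u ∈ unitary (H →L[ℂ] H), (fun x => u * x * star u) '' (M : Set (H →L[ℂ] H)) = N ∧
        ‖u - 1‖ < ε := by
  intro ε ε0
  obtain ⟨δ, δ0, h⟩ := h (ε / 2) (by positivity)
  refine ⟨δ, δ0, fun H _ _ _ M N hM hd => ?_⟩
  have hd' : kkDist N M < δ := by rwa [kkDist, Metric.hausdorffDist_comm]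
  obtain ⟨u, hu, u1, u2⟩ := h H _ _ _ _ (cp_of M) (cp_of N) ⟨near_of hd, near_of hd'⟩
    fun z hz hz' h1 h2 => by
      obtain ⟨p, ⟨p1, p2, p3⟩, p4, p5⟩ := hM z hz (((cp_of M).right z).1 hz') h1 h2
      exact ⟨p, p1, p2, p4, fun v hv v1 v2 => p3 v hv v1 (by rw [← mul_assoc, v2]), p5⟩
  refine ⟨u, hu, ?_, by linarith⟩
  ext y
  refine ⟨?_, fun hy => ⟨star u * y * u, ?_, ?_⟩⟩
  · rintro ⟨x, hx, rfl⟩
    exact (u2 x).1 hx
  · refine (u2 _).2 ?_
    have e : u * (star u * y * u) * star u = (u * star u) * y * (u * star u) := by noncomm_ring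
    rw [e, hu.2, one_mul, mul_one]
    exact hy
  · have e : u * (star u * y * u) * star u = (u * star u) * y * (u * star u) := by noncomm_ring
    show u * (star u * y * u) * star u = y
    rw [e, hu.2, one_mul, mul_one]

end Vale.Agent.P096
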