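import Vale.Agent.P096.Defs

/-! Averages and the seminorm calculus used for the normalization. -/

namespace Vale.Agent.P096.NormAux

section Av

variable {V : Type*} [AddCommGroup V] [Module ℝ V] {ι J : Type*} [Fintype ι] [Fintype J]

/-- Probability weights. -/
def Prob (q : ι → ℝ) : Prop := (∀ i, 0 ≤ q i) ∧ ∑ i, q i = 1

/-- Averages. -/
def av (q : ι → ℝ) (f : ι → V) : V := ∑ i, q i • f i

theorem av_le {q : ι → ℝ} (hq : Prob q) (σ : Seminorm ℝ V) {f : ι → V} {M : ℝ}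
    (h : ∀ i, σ (f i) ≤ M) : σ (av q f) ≤ M := by
  refine (Finset.le_sum_of_subadditive σ (map_zero σ).le (map_add_le_add σ) _ _).trans ?_
  calc _ ≤ ∑ i, q i * M := Finset.sum_le_sum fun i _ => by
        rw [map_smul_eq_mul, Real.norm_of_nonneg (hq.1 i)]
        exact mul_le_mul_of_nonneg_left (h i) (hq.1 i)
    _ = M := by rw [← Finset.sum_mul, hq.2, one_mul]

theorem av_const {q : ι → ℝ} (hq : Prob q) (z : V) : av q (fun _ => z) = z := by
  rw [av, ← Finset.sum_smul, hq.2, one_smul]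

theorem av_add (q : ι → ℝ) (f g : ι → V) : av q (fun i => f i + g i) = av q f + av q g := by
  simp only [av, smul_add, Finset.sum_add_distrib]

theorem av_sub (q : ι → ℝ) (f g : ι → V) : av q (fun i => f i - g i) = av q f - av q g := by
  simp only [av, smul_sub, Finset.sum_sub_distrib]

theorem av_comm (q : ι → ℝ) (w : J → ℝ) (f : ι → J → V) :
    av q (fun i => av w (f i)) = av w fun j => av q fun i => f i j := by
  simp only [av, Finset.smul_sum]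
  exact Finset.sum_comm.trans
    (Finset.sum_congr rfl fun _ _ => Finset.sum_congr rfl fun _ _ => smul_comm _ _ _)

theorem lc_eq {G : Type*} (f : G → V) (p : G →₀ ℝ) :
    av (fun g : p.support => p g) (fun g => f g) = Finsupp.linearCombination ℝ f p :=
  Finset.sum_coe_sort p.support fun g => p g • f g

/-- The convolution powers. -/
noncomputable def law {G : Type*} [Monoid G] (q : ι → ℝ) (v : ι → G) : ℕ → G →₀ ℝ
  | 0 => Finsupp.single 1 1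
  | k + 1 => ∑ i, q i • (law q v k).mapDomain (v i * ·)

theorem law_succ {G : Type*} [Monoid G] (q : ι → ℝ) (v : ι → G) (f : G → V) (k : ℕ) :
    av q (fun i => Finsupp.linearCombination ℝ (fun g => f (v i * g)) (law q v k)) =
      Finsupp.linearCombination ℝ f (law q v (k + 1)) := by
  simp only [law, map_sum, map_smul, av, Finsupp.linearCombination_mapDomain]
  rfl

theorem prob_of {G : Type*} {p : G →₀ ℝ} (h0 : 0 ≤ p)
    (h1 : Finsupp.linearCombination ℝ (fun _ => (1 : ℝ)) p = 1) :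
    Prob fun g : p.support => p g :=
  ⟨fun g => h0 g, by simpa [av] using (lc_eq (fun _ => (1 : ℝ)) p).trans h1⟩

theorem law_prob {G : Type*} [Monoid G] {q : ι → ℝ} (hq : Prob q) (v : ι → G) (k : ℕ) :
    0 ≤ law q v k ∧ Finsupp.linearCombination ℝ (fun _ => (1 : ℝ)) (law q v k) = 1 := by
  induction k with
  | zero => simp [law]
  | succ k ih =>
    refine ⟨Finset.sum_nonneg fun i _ => smul_nonneg (hq.1 i) (Finsupp.mapDomain_nonneg ih.1), ?_⟩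
    rw [← law_succ, ih.2, av_const hq]

theorem cesaro {G : Type*} [Monoid G] {q : ι → ℝ} (hq : Prob q) (v : ι → G) {K : ℕ} (hK : 0 < K) :
    ∃ (s : Finset G) (w : s → ℝ), Prob w ∧ ∀ (σ : Seminorm ℝ V) (f : G → V) (M : ℝ),
      (∀ g, σ (f g) ≤ M) →
      σ (av q (fun i => av w fun g => f (v i * g)) - av w fun g => f g) ≤ 2 * M / K := by
  have hK' : (0 : ℝ) < K := Nat.cast_pos.2 hK
  refine ⟨_, _, prob_of (p := (K : ℝ)⁻¹ • ∑ k ∈ Finset.range K, law q v k)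
    (smul_nonneg (by positivity) (Finset.sum_nonneg fun k _ => (law_prob hq v k).1)) ?_,
    fun σ f M hM => ?_⟩
  · simp [map_sum, (law_prob hq v _).2, hK'.ne']
  have h1 : ∀ k, σ (Finsupp.linearCombination ℝ f (law q v k)) ≤ M := fun k =>
    lc_eq f (law q v k) ▸ av_le (prob_of (law_prob hq v k).1 (law_prob hq v k).2) σ fun g => hM g
  have h2 := fun i => lc_eq (fun g => f (v i * g)) ((K : ℝ)⁻¹ • ∑ k ∈ Finset.range K, law q v k)
  have h3 : av q (fun i => Finsupp.linearCombination ℝ (fun g => f (v i * g))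
      ((K : ℝ)⁻¹ • ∑ k ∈ Finset.range K, law q v k)) =
      (K : ℝ)⁻¹ • ∑ k ∈ Finset.range K, Finsupp.linearCombination ℝ f (law q v (k + 1)) := by
    simp only [← law_succ, av, map_smul, map_sum, Finset.smul_sum]
    exact Finset.sum_comm.trans
      (Finset.sum_congr rfl fun _ _ => Finset.sum_congr rfl fun _ _ => smul_comm _ _ _)
  rw [funext h2, lc_eq, h3, map_smul, map_sum, ← smul_sub, ← Finset.sum_sub_distrib,
    Finset.sum_range_sub fun k => Finsupp.linearCombination ℝ f (law q v k), map_smul_eq_mul,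
    Real.norm_of_nonneg (inv_pos.2 hK').le, inv_mul_eq_div]
  exact div_le_div_of_nonneg_right ((map_sub_le_add σ _ _).trans (by linarith [h1 K, h1 0])) hK'.le

end Av

section Ring

variable {R : Type*} [CStarAlgebra R] {ι : Type*} [Fintype ι]

theorem av_mul (q : ι → ℝ) (f : ι → R) (z : R) : av q f * z = av q fun i => f i * z := by
  simp only [av, Finset.sum_mul, smul_mul_assoc]

theorem mul_av (q : ι → ℝ) (f : ι → R) (z : R) : z * av q f = av q fun i => z * f i := by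
  simp only [av, Finset.mul_sum, mul_smul_comm]

theorem star_av (q : ι → ℝ) (f : ι → R) : star (av q f) = av q fun i => star (f i) := by
  simp only [av, star_sum, star_smul, star_trivial]

theorem av_norm {q : ι → ℝ} (hq : Prob q) {f : ι → R} {M : ℝ} (h : ∀ i, ‖f i‖ ≤ M) :
    ‖av q f‖ ≤ M := av_le hq (normSeminorm ℝ R) h

/-- The commutator. -/
def cm (a b : R) : R := a * b - b * a

theorem av_cm (q : ι → ℝ) (f : ι → R) (z : R) : cm (av q f) z = av q fun i => cm (f i) z := by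
  simp only [cm, av_mul, mul_av, av_sub]

theorem cm_av (q : ι → ℝ) (f : ι → R) (z : R) : cm z (av q f) = av q fun i => cm z (f i) := by
  simp only [cm, av_mul, mul_av, av_sub]

/-- The set `M` approximates the algebra `D` and commutes with `L`. -/
structure Sd (σ : Seminorm ℝ R) (L M : Set R) (D : StarSubalgebra ℂ R) (κ γ : ℝ) : Prop where
  left : ∀ a z, σ (a * z) ≤ ‖a‖ * σ z
  tameL : ∀ a ∈ L, ∀ z, σ (z * a) ≤ σ z * ‖a‖
  tameM : ∀ a ∈ M, ∀ z, σ (z * a) ≤ σ z * ‖a‖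
  comm : ∀ a ∈ L, ∀ c ∈ M, a * c = c * a
  sub : ∀ c ∈ M, ∀ c' ∈ M, c - c' ∈ M
  star : ∀ c ∈ M, star c ∈ M
  two : ∀ y ∈ D, ∃ c ∈ M, ‖y - c‖ ≤ κ * ‖y‖ ∧ σ (y - c) ≤ γ * ‖y‖ ∧ σ (Star.star (y - c)) ≤ γ * ‖y‖
  k0 : 0 ≤ κ
  k1 : κ ≤ 1
  g0 : 0 ≤ γ

variable {σ : Seminorm ℝ R} {L M : Set R} {N D : StarSubalgebra ℂ R} {κ γ : ℝ}

theorem s_add {x y : R} {s t : ℝ} (hx : σ x ≤ s) (hy : σ y ≤ t) : σ (x + y) ≤ s + t :=
  (map_add_le_add σ x y).trans (add_le_add hx hy)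

theorem s_sub {x y : R} {s t : ℝ} (hx : σ x ≤ s) (hy : σ y ≤ t) : σ (x - y) ≤ s + t :=
  (map_sub_le_add σ x y).trans (add_le_add hx hy)

theorem n0 {a : R} {α : ℝ} (h : ‖a‖ ≤ α) : 0 ≤ α := (norm_nonneg a).trans h

theorem ns {a : R} {α : ℝ} (h : ‖a‖ ≤ α) : ‖star a‖ ≤ α := (norm_star a).trans_le h

theorem n2 {y c : R} {β : ℝ} (hk : κ ≤ 1) (hc : ‖c‖ ≤ β) (h : ‖y - c‖ ≤ κ * β) : ‖y‖ ≤ 2 * β := by
  have h1 := norm_add_le_of_le h hc
  have h2 := mul_le_of_le_one_left (n0 hc) hk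
  rw [sub_add_cancel] at h1
  linarith

namespace Sd

theorem ml (h : Sd σ L M D κ γ) {a z : R} {α t : ℝ} (ha : ‖a‖ ≤ α) (hz : σ z ≤ t) :
    σ (a * z) ≤ α * t :=
  (h.left a z).trans (mul_le_mul ha hz (apply_nonneg σ z) (n0 ha))

theorem ml1 (h : Sd σ L M D κ γ) {a z : R} {t : ℝ} (ha : ‖a‖ ≤ 1) (hz : σ z ≤ t) :
    σ (a * z) ≤ t := (h.ml ha hz).trans_eq (one_mul t)

theorem mL (h : Sd σ L M D κ γ) {a z : R} {α t : ℝ} (hL : a ∈ L) (hz : σ z ≤ t) (ha : ‖a‖ ≤ α) :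
    σ (z * a) ≤ t * α :=
  (h.tameL a hL z).trans (mul_le_mul hz ha (norm_nonneg a) ((apply_nonneg σ z).trans hz))

theorem mM (h : Sd σ L M D κ γ) {a z : R} {α t : ℝ} (hM : a ∈ M) (hz : σ z ≤ t) (ha : ‖a‖ ≤ α) :
    σ (z * a) ≤ t * α :=
  (h.tameM a hM z).trans (mul_le_mul hz ha (norm_nonneg a) ((apply_nonneg σ z).trans hz))

theorem cL (h : Sd σ L M D κ γ) {a z : R} {α t : ℝ} (hL : a ∈ L) (hz : σ z ≤ t) (ha : ‖a‖ ≤ α) :
    σ (cm z a) ≤ 2 * t * α :=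
  (s_sub (h.mL hL hz ha) (h.ml ha hz)).trans_eq (by ring)

theorem cM (h : Sd σ L M D κ γ) {a z : R} {α t : ℝ} (hM : a ∈ M) (hz : σ z ≤ t) (ha : ‖a‖ ≤ α) :
    σ (cm z a) ≤ 2 * t * α :=
  (s_sub (h.mM hM hz ha) (h.ml ha hz)).trans_eq (by ring)

theorem two' (h : Sd σ L M D κ γ) {y : R} {μ : ℝ} (hy : y ∈ D) (hμ : ‖y‖ ≤ μ) :
    ∃ c ∈ M, ‖y - c‖ ≤ κ * μ ∧ σ (y - c) ≤ γ * μ ∧ σ (Star.star (y - c)) ≤ γ * μ := by
  obtain ⟨c, hc, h1, h2, h3⟩ := h.two y hy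
  have h4 := mul_le_mul_of_nonneg_left hμ h.g0
  exact ⟨c, hc, h1.trans (mul_le_mul_of_nonneg_left hμ h.k0), h2.trans h4, h3.trans h4⟩

theorem cm_sub (h : Sd σ L M D κ γ) {a c : R} (ha : a ∈ L) (hc : c ∈ M) (y : R) :
    cm (y - c) a = cm y a := by
  rw [cm, cm, mul_sub, sub_mul, h.comm a ha c hc]
  abel

theorem f1 (h : Sd σ L M D κ γ) {a m : R} {α μ : ℝ} (hL : a ∈ L) (hm : m ∈ D) (ha : ‖a‖ ≤ α)
    (hμ : ‖m‖ ≤ μ) : σ (cm m a) ≤ 2 * (γ * μ) * α := by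
  obtain ⟨c, hc, -, h1, -⟩ := h.two' hm hμ
  exact h.cm_sub hL hc m ▸ h.cL hL h1 ha

theorem f1n (h : Sd σ L M D κ γ) {a y c : R} {α β : ℝ} (hL : a ∈ L) (hc : c ∈ M) (ha : ‖a‖ ≤ α)
    (hy : ‖y - c‖ ≤ β) : ‖cm y a‖ ≤ 2 * β * α :=
  h.cm_sub hL hc y ▸
    (norm_sub_le_of_le (norm_mul_le_of_le hy ha) (norm_mul_le_of_le ha hy)).trans_eq (by ring)

theorem f2a (h : Sd σ L M D κ γ) {y c Z : R} {ζ t : ℝ} (hy : y ∈ D) (hc : c ∈ M)
    (h1 : ‖c‖ ≤ 1) (h2 : ‖y - c‖ ≤ κ) (hζ : ‖Z‖ ≤ ζ) (ht : σ Z ≤ t) :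
    σ (Z * (y - c)) ≤ 2 * ζ * γ + 3 * t * κ := by
  obtain ⟨c', hc', h3, h4, -⟩ := h.two' hy (n2 h.k1 h1 (h2.trans_eq (mul_one κ).symm))
  have h5 : c' - c = y - c - (y - c') := by abel
  have h6 : Z * (y - c) = Z * (y - c') + Z * (c' - c) := by noncomm_ring
  rw [h6]
  refine (s_add (h.ml hζ h4) (h.mM (h.sub _ hc' _ hc) ht
    (h5 ▸ norm_sub_le_of_le h2 h3))).trans_eq (by ring)

theorem f3 (h : Sd σ L M D κ γ) {u y c a : R} {α : ℝ} (hu : u ∈ M) (hu1 : ‖u‖ ≤ 1)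
    (hu2 : Star.star u * u = 1) (hy : y ∈ D) (hyu : ‖y - u‖ ≤ κ) (hc : c ∈ M) (hL : a ∈ L)
    (ha : ‖a‖ ≤ α) :
    σ (cm (Star.star u * (y - c) + Star.star (y - c) * u) a) ≤ 26 * (κ * γ) * α := by
  have y2 := n2 h.k1 hu1 (hyu.trans_eq (mul_one κ).symm)
  have e1 : cm (Star.star u * (y - c) + Star.star (y - c) * u) a =
      cm (Star.star y * y - 1) a - Star.star (y - u) * cm y a - cm (Star.star y) a * (y - u) := by
    have h1 := h.cm_sub hL hc y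
    have h2 := h.cm_sub hL (h.star _ hc) (Star.star y)
    have h3 : cm (Star.star u * (y - c) + Star.star (y - c) * u) a =
        Star.star u * cm (y - c) a + cm (Star.star y - Star.star c) a * u +
        (Star.star u * a - a * Star.star u) * (y - c) +
        (Star.star y - Star.star c) * (u * a - a * u) := by
      simp only [cm, star_sub]
      noncomm_ring
    rw [h3, h1, h2, h.comm a hL u hu, h.comm a hL _ (h.star u hu), star_sub]
    simp only [cm]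
    noncomm_ring
  have e2 : ‖Star.star y * y - 1‖ ≤ 3 * κ := by
    have h1 : Star.star y * y - 1 = Star.star (y - u) * y + Star.star u * (y - u) := by
      rw [← hu2, star_sub]
      noncomm_ring
    rw [h1]
    exact (norm_add_le_of_le (norm_mul_le_of_le (ns hyu) y2)
      (norm_mul_le_of_le (ns hu1) hyu)).trans_eq (by ring)
  rw [e1]
  exact (s_sub (s_sub (h.f1 hL (sub_mem (mul_mem (star_mem hy) hy) (one_mem D)) ha e2)
    (h.ml (ns hyu) (h.f1 hL hy ha y2))) (h.f2a hy hu hu1 hyu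
    (h.f1n hL (h.star u hu) ha (star_sub y u ▸ ns hyu))
    (h.f1 hL (star_mem hy) ha (ns y2)))).trans_eq (by ring)

theorem f4 (h : Sd σ L M D κ γ) {u u' y y' y'' a : R} {α : ℝ} (hu : u ∈ M) (hu1 : ‖u‖ ≤ 1)
    (hu' : u' ∈ M) (hu1' : ‖u'‖ ≤ 1) (hy : y ∈ D) (hy' : y' ∈ D) (hy'' : y'' ∈ D)
    (h1 : ‖y - u‖ ≤ κ) (h2 : ‖y' - u'‖ ≤ κ) (h3 : ‖y'' - u * u'‖ ≤ κ) (hL : a ∈ L)
    (ha : ‖a‖ ≤ α) : σ (cm y'' a - u * cm y' a - cm y a * u') ≤ 28 * (κ * γ) * α := by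
  have y2 := n2 h.k1 hu1 (h1.trans_eq (mul_one κ).symm)
  have y2' := n2 h.k1 hu1' (h2.trans_eq (mul_one κ).symm)
  have e1 : cm y'' a - u * cm y' a - cm y a * u' =
      cm (y'' - y * y') a + (y - u) * cm y' a + cm y a * (y' - u') := by
    simp only [cm]
    noncomm_ring
  have e2 : ‖y'' - y * y'‖ ≤ 4 * κ := by
    have h4 : y'' - y * y' = y'' - u * u' - (y - u) * y' - u * (y' - u') := by noncomm_ring
    rw [h4]
    exact (norm_sub_le_of_le (norm_sub_le_of_le h3 (norm_mul_le_of_le h1 y2'))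
      (norm_mul_le_of_le hu1 h2)).trans_eq (by ring)
  rw [e1]
  exact (s_add (s_add (h.f1 hL (sub_mem hy'' (mul_mem hy hy')) ha e2) (h.ml h1 (h.f1 hL hy' ha y2')))
    (h.f2a hy' hu' hu1' h2 (h.f1n hL hu ha h1) (h.f1 hL hy ha y2))).trans_eq (by ring)

theorem f2 (h : Sd σ L M D κ γ) (h' : Sd σ M L N κ γ) {c y a n : R} {β : ℝ} (hc : c ∈ M)
    (hy : y ∈ D) (hβ : ‖c‖ ≤ β) (h1 : ‖y - c‖ ≤ κ * β) (ha : a ∈ L) (hn : n ∈ N) (ha1 : ‖a‖ ≤ 1)
    (h2 : ‖n - a‖ ≤ κ) : σ (cm (y - c) (n - a)) ≤ 24 * (κ * γ) * β := by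
  obtain ⟨c', hc', h3, h4, -⟩ := h.two' hy (n2 h.k1 hβ h1)
  obtain ⟨a', ha', -, h6, -⟩ := h'.two' hn (n2 h.k1 ha1 (h2.trans_eq (mul_one κ).symm))
  have h5 : c' - c = y - c - (y - c') := by abel
  have h7 : ‖c' - c‖ ≤ κ * β + κ * (2 * β) := h5 ▸ norm_sub_le_of_le h1 h3
  have e1 : cm (y - c) (n - a) =
      (y - c') * (n - a) - (n - a) * (y - c') - cm (n - a') (c' - c) := by
    rw [h'.cm_sub (h.sub _ hc' _ hc) ha', ← h'.cm_sub (h.sub _ hc' _ hc) ha]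
    simp only [cm]
    noncomm_ring
  rw [e1]
  exact (s_sub (s_sub (h'.f2a hn ha ha1 h2 h3 h4) (h.ml h2 h4))
    (h.cM (h.sub _ hc' _ hc) h6 h7)).trans_eq (by ring)

end Sd

end Ring

end Vale.Agent.P096.NormAux
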