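import Vale.Agent.P096.Norm1

/-! The normalization in an abstract algebra with a seminorm. -/

namespace Vale.Agent.P096.NormAux

variable {R : Type*} [CStarAlgebra R] {ι J J' G : Type*} [Fintype ι] [Fintype J] [Fintype J']
variable {σ : Seminorm ℝ R} {L M : Set R} {N D : StarSubalgebra ℂ R} {κ γ θ : ℝ}

/-- The corrected commutator. -/
def Ph (T y a c : R) : R := cm y a + cm (cm T a) c

theorem jac {a c : R} (h : a * c = c * a) (T : R) : cm (cm T a) c = cm (cm T c) a := by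
  have h1 : cm (cm T a) c = cm (cm T c) a + T * (a * c - c * a) - (a * c - c * a) * T := by
    simp only [cm]
    noncomm_ring
  rw [h1, h, sub_self, mul_zero, zero_mul, add_zero, sub_zero]

theorem cm_left {u a : R} (h : a * u = u * a) (z : R) : cm (u * z) a = u * cm z a := by
  rw [cm, cm, ← mul_assoc, h]
  noncomm_ring

theorem cm_right {u a : R} (h : a * u = u * a) (z : R) : cm (z * u) a = cm z a * u := by
  rw [cm, cm, mul_assoc, ← h]
  noncomm_ring

theorem cm_add (x y a : R) : cm (x + y) a = cm x a + cm y a := by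
  simp only [cm]
  noncomm_ring

theorem Ph_mul {a a' c : R} (h : a * c = c * a) (h' : a' * c = c * a') (T y : R) :
    Ph T y (a * a') c = a * Ph T y a' c + Ph T y a c * a' := by
  have h1 : ∀ z, cm z (a * a') = a * cm z a' + cm z a * a' := fun z => by
    simp only [cm]
    noncomm_ring
  rw [Ph, Ph, Ph, h1, h1, cm_add, cm_left h.symm, cm_right h'.symm]
  noncomm_ring

/-- Families of unitaries in `L` approximated by elements of `N`. -/
structure Fam (L : Set R) (N : StarSubalgebra ℂ R) (κ : ℝ) (l n : G → R) : Prop where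
  mem : ∀ g, l g ∈ L
  norm : ∀ g, ‖l g‖ ≤ 1
  iso : ∀ g, star (l g) * l g = 1
  iso' : ∀ g, l g * star (l g) = 1
  memN : ∀ g, n g ∈ N
  near : ∀ g, ‖n g - l g‖ ≤ κ

theorem stepX [Mul G] (h : Sd σ L M D κ γ) {r y : G → R} (hr : Fam M D κ r y)
    (rm : ∀ g g', r (g * g') = r g' * r g) {q : ι → ℝ} (hq : Prob q) (v : ι → G) {w : J → ℝ}
    (hw : Prob w) (e : J → G) (inv : ∀ (f : G → R) (t : ℝ), (∀ g, σ (f g) ≤ t) →
      σ (av q (fun i => av w fun j => f (v i * e j)) - av w fun j => f (e j)) ≤ θ * t) :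
    ∃ X : R, ‖X‖ ≤ 2 * κ ∧ σ X ≤ 2 * γ ∧ σ (star X) ≤ 2 * γ ∧ ∀ a ∈ L, ∀ α, ‖a‖ ≤ α →
      σ (cm (X + star X) a) ≤ 26 * (κ * γ) * α ∧
      σ (av q fun i => star (r (v i)) * Ph X (y (v i)) a (r (v i))) ≤
        (28 * (κ * γ) + 4 * (θ * γ)) * α := by
  have y2 := fun g => n2 h.k1 (hr.norm g) ((hr.near g).trans_eq (mul_one κ).symm)
  choose c c1 c2 c3 c4 using fun g => h.two' (hr.memN g) (y2 g)
  refine ⟨av w fun j => star (r (e j)) * (y (e j) - c (e j)), av_norm hw fun j =>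
    (norm_mul_le_of_le (ns (hr.norm _)) (c2 _)).trans_eq (by ring), av_le hw σ fun j =>
    (h.ml (ns (hr.norm _)) (c3 _)).trans_eq (by ring), ?_, fun a ha α hα => ⟨?_, ?_⟩⟩
  · rw [star_av]
    refine av_le hw σ fun j => ?_
    rw [star_mul, star_star]
    exact (h.mM (hr.mem _) (c4 _) (hr.norm _)).trans_eq (by ring)
  · rw [star_av, ← av_add, av_cm]
    refine av_le hw σ fun j => ?_
    rw [star_mul, star_star]
    exact h.f3 (hr.mem _) (hr.norm _) (hr.iso _) (hr.memN _) (hr.near _) (c1 _) ha hα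
  obtain ⟨f, hf⟩ : ∃ f : G → R, ∀ g, f g = star (r g) * cm (y g) a := ⟨_, fun _ => rfl⟩
  have e1 : cm (av w fun j => star (r (e j)) * (y (e j) - c (e j))) a = av w fun j => f (e j) := by
    rw [av_cm]
    exact congrArg _ (funext fun j => by
      rw [hf, cm_left (h.comm a ha _ (h.star _ (hr.mem _))), h.cm_sub ha (c1 _)])
  have e2 : ∀ g, star (r g) * Ph (av w fun j => star (r (e j)) * (y (e j) - c (e j))) (y g) a (r g) =
      (av w fun j => f (g * e j)) - (av w fun j => f (e j)) - av w fun j => star (r (g * e j)) *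
        (cm (y (g * e j)) a - r (e j) * cm (y g) a - cm (y (e j)) a * r g) := fun g => by
    rw [Ph, e1, av_cm, ← av_const hw (cm (y g) a), ← av_add, mul_av, ← av_sub, ← av_sub,
      av_const hw]
    refine congrArg _ (funext fun j => ?_)
    have h1 : ∀ g z, star (r g) * (r g * z) = z := fun g z => by
      rw [← mul_assoc, hr.iso, one_mul]
    simp only [hf, rm, star_mul, mul_add, mul_sub, mul_assoc, h1, cm.eq_1 _ (r g)]
    abel
  simp only [e2, av_sub, av_const hq]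
  refine (s_sub (inv f _ fun g => hf g ▸ h.ml1 (ns (hr.norm g)) (h.f1 ha (hr.memN g) hα (y2 g)))
    (av_le hq σ fun i => av_le hw σ fun j => h.ml1 (ns (hr.norm _))
      (h.f4 (hr.mem _) (hr.norm _) (hr.mem _) (hr.norm _) (hr.memN _) (hr.memN _) (hr.memN _)
        (hr.near _) (hr.near _) (rm (v i) (e j) ▸ hr.near _) ha hα))).trans_eq (by ring)

theorem core [Mul G] (h : Sd σ L M D κ γ) (h' : Sd σ M L N κ γ) {l n r y : G → R}
    (hl : Fam L N κ l n) (hr : Fam M D κ r y) (hL : ∀ a ∈ L, ∀ a' ∈ L, a * a' ∈ L)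
    (hND : ∀ n ∈ N, ∀ d ∈ D, n * d = d * n)
    (lm : ∀ g g', l (g * g') = l g * l g') (rm : ∀ g g', r (g * g') = r g' * r g) {q : ι → ℝ}
    (hq : Prob q) (v : ι → G) {w : J → ℝ} (hw : Prob w) (e : J → G)
    (inv : ∀ (f : G → R) (t : ℝ), (∀ g, σ (f g) ≤ t) →
      σ (av q (fun i => av w fun j => f (v i * e j)) - av w fun j => f (e j)) ≤ θ * t)
    {w' : J' → ℝ} (hw' : Prob w') (e' : J' → G)
    (inv' : ∀ (f : G → R) (t : ℝ), (∀ g, σ (f g) ≤ t) →
      σ (av q (fun i => av w' fun j => f (e' j * v i)) - av w' fun j => f (e' j)) ≤ θ * t) :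
    ∃ T : R, star T = -T ∧ ‖T‖ ≤ 4 * κ ∧ σ T ≤ 4 * γ ∧
      (∀ c ∈ M, ∀ z ∈ D, ∀ β, ‖c‖ ≤ β → ‖z - c‖ ≤ κ * β →
        σ (av q fun i => star (l (v i)) * Ph T z (l (v i)) c) ≤
          (100 * (κ * γ) + 12 * (θ * γ)) * β) ∧
      ∀ a ∈ L, ∀ α, ‖a‖ ≤ α → σ (av q fun i => star (r (v i)) * Ph T (y (v i)) a (r (v i))) ≤
        (184 * (κ * γ) + 12 * (θ * γ)) * α := by
  obtain ⟨X, x1, x2, x3, x4⟩ := stepX h hr rm hq v hw e inv
  have y2 := fun g => n2 h.k1 (hl.norm g) ((hl.near g).trans_eq (mul_one κ).symm)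
  choose b b1 b2 b3 b4 using fun g => h'.two' (hl.memN g) (y2 g)
  have sl := fun g => h'.star _ (hl.mem g)
  have i1 : ∀ g z, star (l g) * (l g * z) = z := fun g z => by rw [← mul_assoc, hl.iso, one_mul]
  obtain ⟨S, hS⟩ : ∃ S, S = av w' fun j => star (l (e' j)) * (X * l (e' j) + (n (e' j) - b (e' j))) :=
    ⟨_, rfl⟩
  have hS' : star S = av w' fun j =>
      (star (l (e' j)) * star X + star (n (e' j) - b (e' j))) * l (e' j) := by
    simp only [hS, star_av, star_mul, star_add, star_star]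
  have s1 : ‖S‖ ≤ 4 * κ := hS ▸ av_norm hw' fun j => (norm_mul_le_of_le (ns (hl.norm _))
    (norm_add_le_of_le (norm_mul_le_of_le x1 (hl.norm _)) (b2 _))).trans_eq (by ring)
  have s2 : σ S ≤ 4 * γ := hS ▸ av_le hw' σ fun j => (h.ml1 (ns (hl.norm _))
    (s_add (h.mL (hl.mem _) x2 (hl.norm _)) (b3 _))).trans_eq (by ring)
  have s3 : σ (star S) ≤ 4 * γ := hS' ▸ av_le hw' σ fun j => (h.mL (hl.mem _)
    (s_add (h.ml1 (ns (hl.norm _)) x3) (b4 _)) (hl.norm _)).trans_eq (by ring)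
  have s4 : ∀ a ∈ L, ∀ c ∈ M, ∀ α β, ‖a‖ ≤ α → ‖c‖ ≤ β →
      σ (cm (cm (S + star S) a) c) ≤ 104 * (κ * γ) * α * β := fun a ha c hc α β hα hβ => by
    rw [hS', hS, ← av_add, av_cm, av_cm]
    refine av_le hw' σ fun j => ?_
    obtain ⟨g, hg⟩ : ∃ g, e' j = g := ⟨_, rfl⟩
    have e1 : star (l g) * (X * l g + (n g - b g)) + (star (l g) * star X + star (n g - b g)) * l g =
        star (l g) * (X + star X) * l g + (star (l g) * (n g - b g) + star (n g - b g) * l g) := by
      noncomm_ring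
    have e2 : cm (star (l g) * (X + star X) * l g) a =
        star (l g) * cm (X + star X) (l g * a * star (l g)) * l g := by
      simp only [cm, mul_sub, sub_mul, mul_assoc, i1, hl.iso, mul_one]
    rw [hg, e1, cm_add, cm_add, e2, jac (h.comm a ha c hc) (_ + _)]
    exact (s_add (h.cM hc (h.mL (hl.mem g) (h.ml1 (ns (hl.norm g)) (x4 _
      (hL _ (hL _ (hl.mem g) a ha) _ (sl g)) _ (norm_mul_le_of_le (norm_mul_le_of_le (hl.norm g) hα)
        (ns (hl.norm g)))).1) (hl.norm g)) hβ) (h.cL ha (h'.f3 (hl.mem g) (hl.norm g) (hl.iso g)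
      (hl.memN g) (hl.near g) (b1 g) hc hβ) hα)).trans_eq (by ring)
  have s5 : ∀ a ∈ L, ∀ c ∈ M, ∀ z ∈ D, Ph S z a c = Ph X z a c +
      cm (av w' fun j => star (l (e' j)) * Ph X z (l (e' j)) c) a +
      cm (av w' fun j => star (l (e' j)) * cm (z - c) (n (e' j) - l (e' j))) a :=
    fun a ha c hc z hz => by
      have e1 : cm S c = cm X c + (av w' fun j => star (l (e' j)) * Ph X z (l (e' j)) c) +
          av w' fun j => star (l (e' j)) * cm (z - c) (n (e' j) - l (e' j)) := by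
        rw [hS, av_cm, ← av_const hw' (cm X c), ← av_add, ← av_add]
        refine congrArg _ (funext fun j => ?_)
        obtain ⟨g, hg⟩ : ∃ g, e' j = g := ⟨_, rfl⟩
        have e2 : cm (z - c) (n g - l g) = cm (n g) c - cm z (l g) -
            (n g * z - z * n g) - (l g * c - c * l g) := by
          simp only [cm]
          noncomm_ring
        rw [hg, cm_left (h'.comm c hc _ (sl g)), cm_add, h'.cm_sub hc (b1 g),
          cm_right (h'.comm c hc _ (hl.mem g)), Ph, jac (h.comm _ (hl.mem g) c hc), e2,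
          hND _ (hl.memN g) z hz, h.comm _ (hl.mem g) c hc, cm.eq_1 (cm X c)]
        simp only [mul_add, mul_sub, i1, sub_self, sub_zero]
        abel
      rw [Ph, Ph, jac (h.comm a ha c hc), e1, cm_add, cm_add, jac (h.comm a ha c hc)]
      abel
  have s6 : ∀ c ∈ M, ∀ z ∈ D, ∀ β, ‖c‖ ≤ β → ‖z - c‖ ≤ κ * β →
      σ (av w' fun j => star (l (e' j)) * cm (z - c) (n (e' j) - l (e' j))) ≤ 24 * (κ * γ) * β :=
    fun c hc z hz β hβ hzc => av_le hw' σ fun j => h.ml1 (ns (hl.norm _))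
      (h.f2 h' hc hz hβ hzc (hl.mem _) (hl.memN _) (hl.norm _) (hl.near _))
  have s7 : ∀ z a c, Ph ((2⁻¹ : ℝ) • (S - star S)) z a c =
      Ph S z a c - (2⁻¹ : ℝ) • cm (cm (S + star S) a) c := fun z a c => by
    simp only [Ph, cm, smul_mul_assoc, mul_smul_comm, mul_sub, sub_mul, mul_add, add_mul, smul_sub,
      smul_add]
    module
  have s8 : ∀ {z : R} {t : ℝ}, σ z ≤ t → σ ((2⁻¹ : ℝ) • z) ≤ 2⁻¹ * t := fun hz => by
    rw [map_smul_eq_mul, Real.norm_of_nonneg (by norm_num)]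
    exact mul_le_mul_of_nonneg_left hz (by norm_num)
  refine ⟨(2⁻¹ : ℝ) • (S - star S), by rw [star_smul, star_sub, star_star, star_trivial,
    ← smul_neg, neg_sub], ?_, (s8 (s_sub s2 s3)).trans_eq (by ring),
    fun c hc z hz β hβ hzc => ?_, fun a ha α hα => ?_⟩
  · rw [norm_smul, Real.norm_of_nonneg (by norm_num)]
    linarith [norm_sub_le_of_le s1 (ns s1)]
  · obtain ⟨f, hf⟩ : ∃ f : G → R, ∀ g, f g = star (l g) * Ph X z (l g) c := ⟨_, fun _ => rfl⟩
    have e1 : ∀ g, star (l g) * (Ph X z (l g) c + cm (av w' fun j => f (e' j)) (l g)) =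
        (av w' fun j => f (e' j * g)) - av w' fun j => f (e' j) := fun g => by
      rw [av_cm, ← av_const hw' (Ph X z (l g) c), ← av_add, mul_av, ← av_sub]
      refine congrArg _ (funext fun j => ?_)
      rw [hf (_ * _), lm, Ph_mul (h.comm _ (hl.mem _) c hc) (h.comm _ (hl.mem _) c hc), hf]
      simp only [star_mul, mul_add, mul_sub, mul_assoc, i1, cm.eq_1 _ (l g)]
      abel
    simp only [s7, s5 _ (hl.mem _) c hc z hz, ← hf, mul_sub, mul_add _ (_ + _), e1, av_sub, av_add,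
      av_const hq]
    exact (s_sub (s_add (inv' f _ fun g => hf g ▸ h.ml1 (ns (hl.norm g))
      (s_add (h.f1 (hl.mem g) hz (hl.norm g) (n2 h.k1 hβ hzc))
        (h.cM hc (h.cL (hl.mem g) x2 (hl.norm g)) hβ)))
      (av_le hq σ fun i => h.ml1 (ns (hl.norm _)) (h.cL (hl.mem _) (s6 c hc z hz β hβ hzc)
        (hl.norm _)))) (av_le hq σ fun i => h.ml1 (ns (hl.norm _))
      (s8 (s4 _ (hl.mem _) c hc _ β (hl.norm _) hβ)))).trans_eq (by ring)
  · have sr := fun g => h.comm a ha _ (h.star _ (hr.mem g))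
    have e1 : (av q fun i => star (r (v i)) *
        cm (av w' fun j => star (l (e' j)) * Ph X (y (v i)) (l (e' j)) (r (v i))) a) =
        cm (av w' fun j => star (l (e' j)) *
          av q fun i => star (r (v i)) * Ph X (y (v i)) (l (e' j)) (r (v i))) a := by
      simp only [← cm_left (sr _), ← av_cm, mul_av]
      rw [av_comm]
      simp only [← mul_assoc, h.comm _ (sl _) _ (h.star _ (hr.mem _))]
    simp only [s7, s5 a ha _ (hr.mem _) _ (hr.memN _), mul_sub, mul_add, av_sub, av_add, e1]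
    exact (s_sub (s_add (s_add (x4 a ha α hα).2 (h.cL ha (av_le hw' σ fun j =>
      h.ml1 (ns (hl.norm _)) (x4 _ (hl.mem _) _ (hl.norm _)).2) hα))
      (av_le hq σ fun i => h.ml1 (ns (hr.norm _)) (h.cL ha (s6 _ (hr.mem _) _ (hr.memN _) 1
        (hr.norm _) ((hr.near _).trans_eq (mul_one κ).symm)) hα)))
      (av_le hq σ fun i => h.ml1 (ns (hr.norm _))
      (s8 (s4 a ha _ (hr.mem _) α _ hα (hr.norm _))))).trans_eq (by ring)

end Vale.Agent.P096.NormAux
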