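import Vale.Agent.P096.Defs

/-! P096: convergence lemmas for the limit of the iteration. -/

namespace Vale.Agent.P096

open Filter Topology
open scoped InnerProductSpace

universe u

variable {H : Type u} [NormedAddCommGroup H] [InnerProductSpace ℂ H] [CompleteSpace H]

omit [CompleteSpace H] in
theorem rel_zero {T : ℕ → Op H} {M : ℝ} (hM : ∀ j, ‖T j‖ ≤ M) {v : ℕ → H}
    (hv : Tendsto v atTop (𝓝 0)) : Tendsto (fun j => T j (v j)) atTop (𝓝 0) := by
  refine squeeze_zero_norm (a := fun j => M * ‖v j‖) (fun j => ?_) ?_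
  · exact ((T j).le_opNorm _).trans (mul_le_mul_of_nonneg_right (hM j) (norm_nonneg _))
  · simpa using hv.norm.const_mul M

omit [CompleteSpace H] in
theorem rel_move {T : ℕ → Op H} {M : ℝ} (hM : ∀ j, ‖T j‖ ≤ M) {v w : ℕ → H} {x y : H}
    (hv : Tendsto v atTop (𝓝 x)) (hw : Tendsto w atTop (𝓝 x))
    (h : Tendsto (fun j => T j (v j)) atTop (𝓝 y)) : Tendsto (fun j => T j (w j)) atTop (𝓝 y) := by
  have h1 : Tendsto (fun j => w j - v j) atTop (𝓝 0) := by simpa using hw.sub hv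
  have h2 := (rel_zero hM h1).add h
  simpa using h2

omit [CompleteSpace H] in
theorem rel_closure {T : ℕ → Op H} {M : ℝ} (hM : ∀ j, ‖T j‖ ≤ M) {X : Set H}
    (hX : ∀ η ∈ X, Tendsto (fun j => T j η) atTop (𝓝 0)) {η : H} (hη : η ∈ closure X) :
    Tendsto (fun j => T j η) atTop (𝓝 0) := by
  have hM0 : 0 ≤ M := (norm_nonneg _).trans (hM 0)
  rw [Metric.tendsto_atTop]
  intro ε hε
  obtain ⟨x, hx, hd⟩ := Metric.mem_closure_iff.1 hη (ε / 2 / (M + 1)) (by positivity)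
  obtain ⟨K, hK⟩ := Metric.tendsto_atTop.1 (hX x hx) (ε / 2) (by positivity)
  refine ⟨K, fun j hj => ?_⟩
  have h1 := hK j hj
  rw [dist_zero_right] at h1 ⊢
  rw [dist_eq_norm, lt_div_iff₀ (by positivity)] at hd
  have h2 : ‖T j (η - x)‖ ≤ M * ‖η - x‖ :=
    ((T j).le_opNorm _).trans (mul_le_mul_of_nonneg_right (hM j) (norm_nonneg _))
  have h3 : T j η = T j (η - x) + T j x := by simp
  have h4 := norm_add_le (T j (η - x)) (T j x)
  rw [h3]
  nlinarith [norm_nonneg (η - x)]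

omit [CompleteSpace H] in
theorem rel_span {T : ℕ → Op H} {X : Set H}
    (hX : ∀ η ∈ X, Tendsto (fun j => T j η) atTop (𝓝 0)) :
    ∀ η ∈ (Submodule.span ℂ X : Set H), Tendsto (fun j => T j η) atTop (𝓝 0) := by
  intro η hη
  induction hη using Submodule.span_induction with
  | mem x hx => exact hX x hx
  | zero => simp
  | add x y _ _ hx hy => simpa using hx.add hy
  | smul c x _ hx => simpa using hx.const_smul c

section Weak

variable {l : Filter ℕ} [l.NeBot] {T : ℕ → Op H} {S : Op H}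

omit [CompleteSpace H] in
theorem rel_weak_eq (hS : ∀ ξ η, Tendsto (fun a => ⟪η, T a ξ⟫_ℂ) l (𝓝 ⟪η, S ξ⟫_ℂ)) {ξ v : H}
    (h : Tendsto (fun a => T a ξ) l (𝓝 v)) : S ξ = v :=
  ext_inner_left ℂ fun η => tendsto_nhds_unique (hS ξ η) (tendsto_const_nhds.inner h)

omit [l.NeBot] in
theorem rel_weak_star (hS : ∀ ξ η, Tendsto (fun a => ⟪η, T a ξ⟫_ℂ) l (𝓝 ⟪η, S ξ⟫_ℂ)) (ξ η : H) :
    Tendsto (fun a => ⟪η, star (T a) ξ⟫_ℂ) l (𝓝 ⟪η, star S ξ⟫_ℂ) := by
  have h := (Complex.continuous_conj.tendsto _).comp (hS η ξ)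
  simp only [ContinuousLinearMap.star_eq_adjoint, ContinuousLinearMap.adjoint_inner_right]
  simpa [Function.comp_def] using h

theorem rel_weak_mem {A B : Alg H} (hAB : CP A B) (hT : ∀ a, T a ∈ A)
    (hS : ∀ ξ η, Tendsto (fun a => ⟪η, T a ξ⟫_ℂ) l (𝓝 ⟪η, S ξ⟫_ℂ)) : S ∈ A := by
  refine (hAB.left S).2 fun y hy => ?_
  ext ξ
  refine ext_inner_left ℂ fun η => ?_
  have h1 := hS (y ξ) η
  have h2 := hS ξ (star y η)
  simp only [ContinuousLinearMap.star_eq_adjoint, ContinuousLinearMap.adjoint_inner_left] at h2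
  refine tendsto_nhds_unique h1 (h2.congr fun a => ?_)
  rw [← mul_apply_eq_comp, ← (hAB.left _).1 (hT a) y hy,
    mul_apply_eq_comp]

omit [CompleteSpace H] in
theorem rel_weak_norm (hS : ∀ ξ η, Tendsto (fun a => ⟪η, T a ξ⟫_ℂ) l (𝓝 ⟪η, S ξ⟫_ℂ))
    {n : Op H} {m : ℕ → ℝ} {M : ℝ} (hm : ∀ a, ‖n - T a‖ ≤ m a) (hM : Tendsto m l (𝓝 M)) :
    ‖n - S‖ ≤ M := by
  have hM0 : 0 ≤ M := ge_of_tendsto' hM fun a => (norm_nonneg _).trans (hm a)
  refine ContinuousLinearMap.opNorm_le_bound _ hM0 fun ξ => ?_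
  set η := (n - S) ξ with hη
  have h1 : Tendsto (fun a => ‖⟪η, (n - T a) ξ⟫_ℂ‖) l (𝓝 ‖⟪η, η⟫_ℂ‖) := by
    refine Tendsto.norm ?_
    have := (tendsto_const_nhds (x := ⟪η, n ξ⟫_ℂ)).sub (hS ξ η)
    rw [← inner_sub_right] at this
    refine this.congr fun a => ?_
    rw [← inner_sub_right]; rfl
  have h2 : ‖⟪η, η⟫_ℂ‖ ≤ ‖η‖ * (M * ‖ξ‖) := by
    refine le_of_tendsto_of_tendsto' h1 ((hM.mul_const ‖ξ‖).const_mul ‖η‖) fun a => ?_
    refine (norm_inner_le_norm _ _).trans (mul_le_mul_of_nonneg_left ?_ (norm_nonneg _))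
    exact ((n - T a).le_opNorm _).trans (mul_le_mul_of_nonneg_right (hm a) (norm_nonneg _))
  rw [inner_self_eq_norm_sq_to_K, norm_pow, RCLike.norm_ofReal, abs_norm] at h2
  rcases (norm_nonneg η).eq_or_lt with h0 | h0
  · rw [← h0]; positivity
  · nlinarith

end Weak

/-- The support projection of the limit vector. -/
theorem rel_lim (hT : Tools.{u}) {A B : Alg H} (hAB : CP A B) {Ω ζ : H} {e f : Op H}
    (hΩ : TV A B Ω e f) (ξ : ℕ → H) (g : ℕ → Op H) {κ : ℝ}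
    (hg : ∀ j, IsStarProjection (g j)) (hgA : ∀ j, g j ∈ A) (hfix : ∀ j, g j (ξ j) = ξ j)
    (hξ : Tendsto ξ atTop (𝓝 ζ))
    (hw : ∀ j, ∃ w ∈ A, ∃ w' ∈ B, ‖w'‖ ≤ 1 ∧ w * e = w ∧ w * star w = g j ∧ w Ω = w' (ξ j))
    (hge : ∀ j, ‖g j * (1 - e)‖ ≤ κ) :
    ∃ G : Op H, IsStarProjection G ∧ G ∈ A ∧ G ζ = ζ ∧ (∀ a, Cor A G a → a ζ = 0 → a = 0) ∧
      ‖G * (1 - e)‖ ≤ κ ∧ (∀ η, Tendsto (fun j => g j (G η)) atTop (𝓝 (G η))) ∧
      ∀ η, Tendsto (fun j => g j ((1 - G) (e η))) atTop (𝓝 0) := by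
  obtain ⟨G, hG, hG1, hG2, hG3⟩ := hT.supp {η : H | ∃ c ∈ B, η = c ζ}
  have he := hΩ.1.proj
  have hGA : G ∈ A := (hAB.left G).2 fun c hc => (hG3 c
    (by rintro _ ⟨d, hd, rfl⟩; exact ⟨c * d, mul_mem hc hd, rfl⟩)
    (by rintro _ ⟨d, hd, rfl⟩; exact ⟨star c * d, mul_mem (star_mem hc) hd, rfl⟩)).symm
  have hGζ : G ζ = ζ := hG1 ζ ⟨1, one_mem _, rfl⟩
  have cm : ∀ a ∈ A, ∀ c ∈ B, ∀ η, a (c η) = c (a η) := fun a ha c hc η => by
    rw [← mul_apply_eq_comp, (hAB.left a).1 ha c hc, mul_apply_eq_comp]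
  have hκ : 0 ≤ κ := (norm_nonneg _).trans (hge 0)
  have h1 : ∀ η, Tendsto (fun j => g j (G η)) atTop (𝓝 (G η)) := by
    intro η
    have hζ : Tendsto (fun j => (1 - g j) ζ) atTop (𝓝 0) :=
      rel_move (fun j => (hg j).one_sub.norm_le) hξ tendsto_const_nhds (by simp [hfix])
    have := rel_closure (T := fun j => 1 - g j) (fun j => (hg j).one_sub.norm_le)
      (rel_span (by
        rintro _ ⟨c, hc, rfl⟩
        have := (c.continuous.tendsto 0).comp hζ
        rw [map_zero] at this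
        exact this.congr fun j => (cm _ (sub_mem (one_mem _) (hgA j)) c hc ζ).symm)) (hG2 η)
    simpa using (tendsto_const_nhds (x := G η)).sub this
  refine ⟨G, hG, hGA, hGζ, fun a ha h0 => ?_, ?_, h1, fun η => ?_⟩
  · ext η
    have := rel_closure (T := fun _ => a) (fun _ => le_rfl)
      (rel_span (by
        rintro _ ⟨c, hc, rfl⟩
        simp [cm a ha.mem c hc, h0])) (hG2 η)
    have h2 := tendsto_nhds_unique tendsto_const_nhds this
    rw [← mul_apply_eq_comp, ha.right] at h2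
    exact h2
  · rw [← norm_star, star_mul, he.one_sub.isSelfAdjoint.star_eq, hG.isSelfAdjoint.star_eq]
    refine ContinuousLinearMap.opNorm_le_bound _ hκ fun η => ?_
    refine le_of_tendsto' (((1 - e).continuous.tendsto _).comp (h1 η)).norm fun j => ?_
    have h2 : ‖(1 - e) * g j‖ ≤ κ := by
      rw [← norm_star, star_mul, he.one_sub.isSelfAdjoint.star_eq, (hg j).isSelfAdjoint.star_eq]
      exact hge j
    have h3 : ‖G η‖ ≤ ‖η‖ := (G.le_opNorm _).trans (mul_le_of_le_one_left (norm_nonneg _)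
      hG.norm_le)
    exact (((1 - e) * g j).le_opNorm (G η)).trans (mul_le_mul h2 h3 (norm_nonneg _) hκ)
  · have hΩ' : Tendsto (fun j => (g j * (1 - G) * e) Ω) atTop (𝓝 0) := by
      have h2 : Tendsto (fun j => ‖(1 - G) (ξ j)‖) atTop (𝓝 0) := by
        simpa [hGζ] using (((1 - G).continuous.tendsto _).comp hξ).norm
      refine squeeze_zero_norm (fun j => ?_) h2
      obtain ⟨w, hwA, w', hw', hn, hwe, hwg, hwΩ⟩ := hw j
      have hA : e * (1 - G) * w ∈ A := mul_mem (mul_mem hΩ.1.mem (sub_mem (one_mem _) hGA)) hwA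
      have h3 := hT.trace hAB hΩ (e * (1 - G) * w) ⟨hA,
        by rw [← mul_assoc, ← mul_assoc, he.isIdempotentElem.eq], by rw [mul_assoc, hwe]⟩
      rw [star_mul, star_mul, he.isSelfAdjoint.star_eq, hG.one_sub.isSelfAdjoint.star_eq] at h3
      have hw1 : ‖w‖ ≤ 1 := by
        have h4 := (hg j).norm_le
        rw [← hwg, CStarRing.norm_self_mul_star] at h4
        nlinarith [norm_nonneg w]
      have h5 : (g j * (1 - G) * e) Ω = w ((star w * ((1 - G) * e)) Ω) := by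
        rw [← hwg, ← mul_apply_eq_comp]; simp only [mul_assoc]
      have h6 : (e * (1 - G) * w) Ω = w' (e ((1 - G) (ξ j))) := by
        rw [mul_apply_eq_comp, hwΩ,
          cm _ (mul_mem hΩ.1.mem (sub_mem (one_mem _) hGA)) w' hw']
        rfl
      rw [h5]
      refine (w.le_opNorm _).trans ((mul_le_of_le_one_left (norm_nonneg _) hw1).trans ?_)
      rw [h3, h6]
      refine (w'.le_opNorm _).trans ((mul_le_of_le_one_left (norm_nonneg _) hn).trans ?_)
      exact (e.le_opNorm _).trans (mul_le_of_le_one_left (norm_nonneg _) he.norm_le)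
    have hb : ∀ j, ‖g j * (1 - G) * e‖ ≤ 1 := fun j =>
      (norm_mul_le _ _).trans (mul_le_one₀ ((norm_mul_le _ _).trans (mul_le_one₀ (hg j).norm_le
        (norm_nonneg _) hG.one_sub.norm_le)) (norm_nonneg _) he.norm_le)
    have := rel_closure hb (by
      rintro _ ⟨c, hc, rfl⟩
      have := (c.continuous.tendsto 0).comp hΩ'
      rw [map_zero] at this
      exact this.congr fun j => (cm _ (mul_mem (mul_mem (hgA j) (sub_mem (one_mem _) hGA))
        hΩ.1.mem) c hc Ω).symm) (hΩ.1.cyc η)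
    refine this.congr fun j => ?_
    rw [← mul_apply_eq_comp, mul_assoc, he.isIdempotentElem.eq]
    rfl

section After

variable {g : ℕ → Op H} {G e : Op H} {κ : ℝ}

theorem rel_rest (hge : ∀ j, ‖g j * (1 - e)‖ ≤ κ) (hGe : ‖G * (1 - e)‖ ≤ κ) (hg : ∀ j, IsStarProjection (g j))
    (j : ℕ) : ‖g j * (1 - G) * (1 - e)‖ ≤ 2 * κ := by
  have h1 : g j * (1 - G) * (1 - e) = g j * (1 - e) - g j * (G * (1 - e)) := by noncomm_ring
  have h2 := (norm_mul_le (g j) (G * (1 - e))).trans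
    (mul_le_of_le_one_left (norm_nonneg _) (hg j).norm_le)
  have h3 := norm_sub_le (g j * (1 - e)) (g j * (G * (1 - e)))
  rw [h1]
  linarith [hge j]

omit [CompleteSpace H] in
theorem rel_dist {q : ℕ → Op H} {Q : Op H} {κ' : ℝ}
    (hr : ∀ j, ‖g j * (1 - G) * (1 - e)‖ ≤ κ) (hq : ∀ j, ‖q j - g j‖ ≤ κ')
    (hQ : ∀ η, Tendsto (fun j => q j η) atTop (𝓝 (Q η)))
    (h1 : ∀ η, Tendsto (fun j => g j (G η)) atTop (𝓝 (G η)))
    (h2 : ∀ η, Tendsto (fun j => g j ((1 - G) (e η))) atTop (𝓝 0)) : ‖Q - G‖ ≤ κ' + κ := by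
  have h0 : 0 ≤ κ' + κ := add_nonneg ((norm_nonneg _).trans (hq 0)) ((norm_nonneg _).trans (hr 0))
  refine ContinuousLinearMap.opNorm_le_bound _ h0 fun η => ?_
  have h3 := (((hQ η).sub (h1 η)).sub (h2 η)).norm
  rw [sub_zero] at h3
  refine le_of_tendsto' h3 fun j => ?_
  have h4 : q j η - g j (G η) - g j ((1 - G) (e η)) =
      (q j - g j + g j * (1 - G) * (1 - e)) η := by
    simp only [add_apply, sub_apply,
      mul_apply_eq_comp, one_apply_eq_self, map_sub]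
    abel
  rw [h4]
  refine (ContinuousLinearMap.le_opNorm _ _).trans (mul_le_mul_of_nonneg_right ?_ (norm_nonneg _))
  exact (norm_add_le _ _).trans (add_le_add (hq j) (hr j))

theorem rel_fix (hG : IsStarProjection G) (hκ : κ < 1)
    (hr : ∀ j, ‖g j * (1 - G) * (1 - e)‖ ≤ κ)
    (h1 : ∀ η, Tendsto (fun j => g j (G η)) atTop (𝓝 (G η)))
    (h2 : ∀ η, Tendsto (fun j => g j ((1 - G) (e η))) atTop (𝓝 0)) {v : H}
    (hv : Tendsto (fun j => g j v) atTop (𝓝 v)) : G v = v := by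
  set η := (1 - G) v with hη
  have hη' : (1 - G) η = η := by
    rw [hη, ← mul_apply_eq_comp, hG.one_sub.isIdempotentElem.eq]
  have h3 := ((hv.sub (h1 v)).sub (h2 η)).norm
  rw [sub_zero] at h3
  have h5 : ‖η‖ ≤ κ * ‖η‖ := by
    refine le_of_tendsto' h3 fun j => ?_
    have h4 : g j v - g j (G v) - g j ((1 - G) (e η)) = (g j * (1 - G) * (1 - e)) η := by
      rw [mul_apply_eq_comp, mul_apply_eq_comp,
        sub_apply 1 e, map_sub (1 - G), map_sub (g j),
        one_apply_eq_self, hη', ← map_sub (g j) v]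
      rfl
    rw [h4]
    exact (ContinuousLinearMap.le_opNorm _ _).trans
      (mul_le_mul_of_nonneg_right (hr j) (norm_nonneg _))
  have h6 : η = 0 := by
    rw [← norm_eq_zero]
    nlinarith [norm_nonneg η]
  exact (sub_eq_zero.1 h6).symm

end After

end Vale.Agent.P096
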