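import Vale.Agent.P096.Rel1

/-! P096: partners in the limit, and the iteration. -/

namespace Vale.Agent.P096

open Filter Topology
open scoped InnerProductSpace

universe u

variable {H : Type u} [NormedAddCommGroup H] [InnerProductSpace ℂ H] [CompleteSpace H]

theorem rel_conv {A : Alg H} {g : ℕ → Op H} {G : Op H} {ξ : ℕ → H} {ζ : H}
    (hg : ∀ j, IsStarProjection (g j)) (hgA : ∀ j, g j ∈ A) (hfix : ∀ j, g j (ξ j) = ξ j)
    (hξ : Tendsto ξ atTop (𝓝 ζ)) (h1 : ∀ η, Tendsto (fun j => g j (G η)) atTop (𝓝 (G η)))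
    {n : Op H} {m a : ℕ → Op H} {t : ℕ → ℝ} {M : ℝ} (hm : Tendsto m atTop (𝓝 n))
    (ha : ∀ j, g j * a j = a j) (hM : ∀ j, ‖a j‖ ≤ M) (ht : Tendsto t atTop (𝓝 0))
    (hS : ∀ j, Sm A (g j) (ξ j) (m j - a j) (t j)) (ht0 : ∀ j, 0 ≤ t j) {b : Op H} (hb : b ∈ A)
    (hGb : G * b = b) : Tendsto (fun j => a j (b ζ)) atTop (𝓝 (n (b ζ))) ∧
      Tendsto (fun j => g j (n (b ζ))) atTop (𝓝 (n (b ζ))) := by
  have e1 : Tendsto (fun j => g j (b (ξ j))) atTop (𝓝 (b ζ)) := by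
    have h2 := h1 (b ζ)
    rw [← mul_apply_eq_comp, hGb] at h2
    exact rel_move (fun j => (hg j).norm_le) tendsto_const_nhds
      ((b.continuous.tendsto _).comp hξ) h2
  have e2 : Tendsto (fun j => (m j - a j) (g j (b (ξ j)))) atTop (𝓝 0) := by
    refine squeeze_zero_norm (a := fun j => t j * ‖b‖) (fun j => ?_) (by simpa using ht.mul_const _)
    have h2 := hS j (g j * b * g j) ⟨mul_mem (mul_mem (hgA j) hb) (hgA j),
      by rw [← mul_assoc, ← mul_assoc, (hg j).isIdempotentElem.eq],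
      by rw [mul_assoc, (hg j).isIdempotentElem.eq]⟩
    rw [mul_apply_eq_comp, hfix, mul_apply_eq_comp] at h2
    refine h2.trans (mul_le_mul_of_nonneg_left ?_ (ht0 j))
    refine (norm_mul_le _ _).trans ((mul_le_of_le_one_right (norm_nonneg _) (hg j).norm_le).trans ?_)
    exact (norm_mul_le _ _).trans (mul_le_of_le_one_left (norm_nonneg _) (hg j).norm_le)
  have e3 : Tendsto (fun j => m j (g j (b (ξ j)))) atTop (𝓝 (n (b ζ))) :=
    (continuous_fst.clm_apply continuous_snd).tendsto (n, b ζ) |>.comp (hm.prodMk_nhds e1)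
  have e4 : Tendsto (fun j => a j (g j (b (ξ j)))) atTop (𝓝 (n (b ζ))) := by
    simpa using e3.sub e2
  have e5 := rel_move hM e1 tendsto_const_nhds e4
  refine ⟨e5, rel_move (fun j => (hg j).norm_le) e5 tendsto_const_nhds (e5.congr fun j => ?_)⟩
  rw [← mul_apply_eq_comp (g j), ha]

/-- The partner of `n` in the limit. -/
theorem rel_partner (hT : Tools.{u}) {A B : Alg H} (hAB : CP A B) {g : ℕ → Op H} {G : Op H}
    {ξ : ℕ → H} {ζ : H} (hG : IsStarProjection G) (hGA : G ∈ A)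
    (hg : ∀ j, IsStarProjection (g j)) (hgA : ∀ j, g j ∈ A) (hfix : ∀ j, g j (ξ j) = ξ j)
    (hξ : Tendsto ξ atTop (𝓝 ζ)) (h1 : ∀ η, Tendsto (fun j => g j (G η)) atTop (𝓝 (G η)))
    (h2 : ∀ v, Tendsto (fun j => g j v) atTop (𝓝 v) → G v = v)
    {n : Op H} {m a : ℕ → Op H} {t : ℕ → ℝ} {M : ℝ} (hm : Tendsto m atTop (𝓝 n))
    (hmn : ∀ j, ‖m j‖ ≤ ‖n‖) (ha : ∀ j, Cor A (g j) (a j)) (hM : ∀ j, ‖m j - a j‖ ≤ M)
    (ht : Tendsto t atTop (𝓝 0)) (ht0 : ∀ j, 0 ≤ t j)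
    (hS : ∀ j, Sm A (g j) (ξ j) (m j - a j) (t j))
    (hS' : ∀ j, Sm A (g j) (ξ j) (star (m j - a j)) (t j)) :
    ∃ c, Cor A G c ∧ ‖G * n * G - c‖ ≤ M ∧
      ∀ b ∈ A, G * b = b → n (b ζ) = c (b ζ) ∧ star n (b ζ) = star c (b ζ) := by
  have hb : ∀ j, ‖a j‖ ≤ ‖n‖ + M := fun j => by
    have := norm_sub_le (m j) (m j - a j)
    rw [sub_sub_cancel] at this
    linarith [hmn j, hM j]
  obtain ⟨S, hS0⟩ := hT.ulimN (hyperfilter ℕ) a _ hb
  have hl : (hyperfilter ℕ : Filter ℕ) ≤ atTop := Nat.hyperfilter_le_atTop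
  have hSA : S ∈ A := rel_weak_mem hAB (fun j => (ha j).mem) hS0
  have hn : ‖n - S‖ ≤ M := by
    refine rel_weak_norm hS0 (m := fun j => ‖n - m j‖ + M) (fun j => ?_) ?_
    · have := norm_add_le (n - m j) (m j - a j)
      rw [sub_add_sub_cancel] at this
      linarith [hM j]
    · have := ((tendsto_const_nhds (x := n)).sub hm).norm.add_const M
      simpa using this.mono_left hl
  refine ⟨G * S * G, ⟨mul_mem (mul_mem hGA hSA) hGA,
    by rw [← mul_assoc, ← mul_assoc, hG.isIdempotentElem.eq],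
    by rw [mul_assoc, hG.isIdempotentElem.eq]⟩, ?_, fun b hbA hGb => ?_⟩
  · rw [← sub_mul, ← mul_sub]
    refine (norm_mul_le _ _).trans ((mul_le_of_le_one_right (norm_nonneg _) hG.norm_le).trans ?_)
    exact (norm_mul_le _ _).trans ((mul_le_of_le_one_left (norm_nonneg _) hG.norm_le).trans hn)
  · obtain ⟨e1, e2⟩ := rel_conv hg hgA hfix hξ h1 hm (fun j => (ha j).left) hb ht hS ht0 hbA hGb
    obtain ⟨e3, e4⟩ := rel_conv (a := fun j => star (a j)) hg hgA hfix hξ h1 hm.star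
      (fun j => by rw [← (hg j).isSelfAdjoint.star_eq, ← star_mul, (ha j).right])
      (fun j => by rw [norm_star]; exact hb j) ht
      (fun j => by simpa only [star_sub] using hS' j) ht0 hbA hGb
    have hGb' : G (b ζ) = b ζ := by rw [← mul_apply_eq_comp, hGb]
    constructor
    · rw [mul_apply_eq_comp, mul_apply_eq_comp, hGb', rel_weak_eq hS0 (e1.mono_left hl), h2 _ e2]
    · rw [star_mul, star_mul, hG.isSelfAdjoint.star_eq, mul_apply_eq_comp, mul_apply_eq_comp,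
        ← mul_apply_eq_comp (star S), ← mul_apply_eq_comp (star S * G), mul_assoc, hGb,
        mul_apply_eq_comp, rel_weak_eq (rel_weak_star hS0) (e3.mono_left hl), h2 _ e4]

theorem rel_seq {X : Type*} (P : ℕ → X → Prop) (R : ℕ → X → X → Prop) (x₀ : X) (h0 : P 0 x₀)
    (h : ∀ n x, P n x → ∃ y, P (n + 1) y ∧ R n x y) :
    ∃ f : ℕ → X, f 0 = x₀ ∧ (∀ n, P n (f n)) ∧ ∀ n, R n (f n) (f (n + 1)) := by
  choose F hF1 hF2 using h
  let f : ∀ n : ℕ, {x // P n x} := fun n =>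
    Nat.rec (motive := fun n => {x // P n x}) ⟨x₀, h0⟩ (fun n x => ⟨F n x.1 x.2, hF1 n x.1 x.2⟩) n
  exact ⟨fun n => (f n).1, rfl, fun n => (f n).2, fun n => hF2 n (f n).1 (f n).2⟩

theorem rel_cj_cj (U W : unitary (Op H)) (N : Alg H) : cj W (cj U N) = cj (U * W) N := by
  ext y
  rw [mem_cj, mem_cj, mem_cj, Submonoid.coe_mul, star_mul]
  simp only [mul_assoc]

theorem rel_cj_one (N : Alg H) : cj 1 N = N := by
  ext y
  rw [mem_cj]
  simp

theorem rel_near_mono {A B : Alg H} {δ δ' : ℝ} (h : Near A B δ) (hδ : δ ≤ δ') : Near A B δ' :=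
  fun x hx => let ⟨y, hy, h1⟩ := h x hx
    ⟨y, hy, h1.trans (mul_le_mul_of_nonneg_right hδ (norm_nonneg _))⟩

/-- The initial side. -/
theorem rel_side (hT : Tools.{u}) {A B N D : Alg H} (hAB : CP A B) (hND : CP N D) {Ω : H}
    {e f : Op H} {δ δ' : ℝ} (hc : Close B D δ) (hδ : 0 < δ) (hδ1 : δ ≤ 1 / 10) (hδ' : δ ≤ δ')
    (hΩ : TV A B Ω e f) (hn : ‖Ω‖ = 1) : ∃ p, Side A D Ω e f p (12 * δ') (9 * δ) := by
  obtain ⟨p, hp, hpD, hpf⟩ := hT.nearA hND f 1 δ 0 hΩ.2.proj hΩ.2.mem (IsStarProjection.one _)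
    (one_mem _) hc.1 hδ.le (by simp) (by linarith)
  refine ⟨p, hp, hpD.mem, by linarith, ?_, fun x y hx hy => ?_⟩
  · have h1 := (p - f).le_opNorm Ω
    rw [sub_apply, hΩ.2.fix, hn] at h1
    linarith
  · obtain ⟨c, hc, hyc⟩ := hc.2 y hy.mem
    have h1 : x * y - y * x = x * (y - c) - (y - c) * x := by
      rw [mul_sub, sub_mul, (hAB.left x).1 hx.mem c hc]; abel
    have h2 := (x * y - y * x).le_opNorm Ω
    have h3 := norm_sub_le (x * (y - c)) ((y - c) * x)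
    have h4 := norm_mul_le x (y - c)
    have h5 := norm_mul_le (y - c) x
    have h6 := mul_le_mul_of_nonneg_left hyc (norm_nonneg x)
    have h7 : 0 ≤ δ * ‖x‖ * ‖y‖ := by positivity
    rw [hn, mul_one] at h2
    rw [← h1] at h3
    nlinarith

/-- The data of one stage. -/
structure RelD (H : Type u) [NormedAddCommGroup H] [InnerProductSpace ℂ H] [CompleteSpace H] where
  U : unitary (Op H)
  ξ : H
  g : Op H
  r : Op H
  q : Op H
  p : Op H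

theorem rel_iter (hT : Tools.{u}) {A B N D : Alg H} (hAB : CP A B) (hND : CP N D) {Ω : H}
    {e f : Op H} {δ σ C : ℝ} (hc : Close A N δ) (hc' : Close B D δ) (hδ : 0 < δ)
    (hδ1 : δ ≤ 1 / 10) (hσ : 0 < σ) (hσδ : σ ^ 2 = 9 * δ) (hC : 0 ≤ C)
    (hΩ : TV A B Ω e f) (hn : ‖Ω‖ = 1)
    (hs : ∀ (N D : Alg H) (ξ : H) (g r q p : Op H) (δ₁ γ : ℝ), CP N D → Close A N δ₁ →
      Close B D δ₁ → 0 ≤ δ₁ → 0 < γ → δ₁ + 4 * C * √γ ≤ δ + 8 * C * σ →
      St A B N D ξ g r q p (δ + 8 * C * σ) γ →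
      ∃ (W : unitary (Op H)) (ξ' : H) (g' r' q' p' : Op H), ‖(W : Op H) - 1‖ ≤ C * √γ ∧
        St A B (cj W N) (cj W D) ξ' g' r' q' p' (δ + 8 * C * σ) (γ / 4) ∧
        star (W : Op H) * q * W * q' = q' ∧ ‖ξ' - ξ‖ ≤ C * √γ ∧
        ∃ t ∈ A, ∃ s ∈ B, ‖s‖ ≤ 1 ∧ t * g = t ∧ t * star t = g' ∧ s ξ' = t ξ) :
    ∃ x : ℕ → RelD H, (x 0).U = 1 ∧ (x 0).ξ = Ω ∧ (x 0).g = e ∧
      (∀ j, St A B (cj (x j).U N) (cj (x j).U D) (x j).ξ (x j).g (x j).r (x j).q (x j).p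
          (δ + 8 * C * σ) ((σ / 2 ^ j) ^ 2) ∧ ‖((x j).U : Op H) - 1‖ ≤ 2 * C * (σ - σ / 2 ^ j) ∧
        ∃ w ∈ A, ∃ w' ∈ B, ‖w'‖ ≤ 1 ∧ w * e = w ∧ w * star w = (x j).g ∧ w Ω = w' (x j).ξ) ∧
      ∀ j, ‖((x (j + 1)).U : Op H) - (x j).U‖ ≤ C * (σ / 2 ^ j) ∧
        ‖(x (j + 1)).ξ - (x j).ξ‖ ≤ C * (σ / 2 ^ j) ∧
        (x j).U * (x j).q * star ((x j).U : Op H) * ((x (j + 1)).U * (x (j + 1)).q) =
          (x (j + 1)).U * (x (j + 1)).q := by
  have hd : δ ≤ δ + 8 * C * σ := le_add_of_nonneg_right (by positivity)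
  obtain ⟨p₀, hp₀⟩ := rel_side hT hAB hND hc' hδ hδ1 hd hΩ hn
  obtain ⟨q₀, hq₀⟩ := rel_side hT hAB.symm hND.symm hc hδ hδ1 hd hΩ.symm hn
  obtain ⟨x, hx0, hP, hR⟩ := rel_seq
    (fun j (y : RelD H) => St A B (cj y.U N) (cj y.U D) y.ξ y.g y.r y.q y.p
          (δ + 8 * C * σ) ((σ / 2 ^ j) ^ 2) ∧ ‖(y.U : Op H) - 1‖ ≤ 2 * C * (σ - σ / 2 ^ j) ∧
        ∃ w ∈ A, ∃ w' ∈ B, ‖w'‖ ≤ 1 ∧ w * e = w ∧ w * star w = y.g ∧ w Ω = w' y.ξ)
    (fun j y z => ‖(z.U : Op H) - y.U‖ ≤ C * (σ / 2 ^ j) ∧ ‖z.ξ - y.ξ‖ ≤ C * (σ / 2 ^ j) ∧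
        y.U * y.q * star (y.U : Op H) * (z.U * z.q) = z.U * z.q)
    ⟨1, Ω, e, f, q₀, p₀⟩
    (by
      have he := hΩ.1.proj
      refine ⟨?_, by simp, e, hΩ.1.mem, f, hΩ.2.mem, hΩ.2.proj.norm_le, he.isIdempotentElem.eq,
        by rw [he.isSelfAdjoint.star_eq, he.isIdempotentElem.eq], by rw [hΩ.1.fix, hΩ.2.fix]⟩
      simp only [rel_cj_one, pow_zero, div_one, hσδ]
      exact ⟨hΩ, hn.le, hp₀, hq₀⟩)
    (by
      rintro j y ⟨hSt, hU, w, hwA, w', hw', hw1, hwe, hwg, hwΩ⟩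
      have hρ : 0 < σ / 2 ^ j := by positivity
      have hsq : √((σ / 2 ^ j) ^ 2) = σ / 2 ^ j := Real.sqrt_sq hρ.le
      have hρ' : σ / 2 ^ (j + 1) = σ / 2 ^ j / 2 := by rw [pow_succ, div_div]
      have hCρ : 0 ≤ C * (σ / 2 ^ j) := by positivity
      obtain ⟨W, ξ', g', r', q', p', hW, hSt', hq', hξ', t, htA, s, hsB, hs1, htg, htt, hst⟩ :=
        hs _ _ _ _ _ _ _ (δ + 4 * ‖(y.U : Op H) - 1‖) _ (hT.cjCP y.U hND)
          (hT.cjClose y.U δ hc hδ.le (by linarith)) (hT.cjClose y.U δ hc' hδ.le (by linarith))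
          (by positivity) (by positivity) (by rw [hsq]; nlinarith) hSt
      rw [hsq] at hW hξ'
      have hUW : ‖((y.U * W : unitary (Op H)) : Op H) - y.U‖ ≤ C * (σ / 2 ^ j) := by
        rw [Submonoid.coe_mul, ← mul_sub_one, CStarRing.norm_coe_unitary_mul]
        exact hW
      refine ⟨⟨y.U * W, ξ', g', r', q', p'⟩, ⟨?_, ?_, t * w, mul_mem htA hwA, w' * s,
        mul_mem hw' hsB, (norm_mul_le _ _).trans (mul_le_one₀ hw1 (norm_nonneg _) hs1),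
        by rw [mul_assoc, hwe], ?_, ?_⟩, hUW, hξ', ?_⟩
      · rw [rel_cj_cj, rel_cj_cj] at hSt'
        have h1 : (σ / 2 ^ (j + 1)) ^ 2 = (σ / 2 ^ j) ^ 2 / 4 := by rw [hρ']; ring
        rw [h1]
        exact hSt'
      · have h1 := norm_add_le (((y.U * W : unitary (Op H)) : Op H) - y.U) ((y.U : Op H) - 1)
        rw [sub_add_sub_cancel] at h1
        rw [hρ']
        nlinarith
      · rw [star_mul, mul_assoc, ← mul_assoc w, hwg, ← mul_assoc, htg, htt]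
      · rw [mul_apply_eq_comp, hwΩ, mul_apply_eq_comp, hst, ← mul_apply_eq_comp,
          (hAB.left t).1 htA w' hw', mul_apply_eq_comp]
      · have h1 : (W : Op H) * q' = y.q * W * q' := by
          conv_lhs => rw [← hq']
          rw [← mul_assoc, ← mul_assoc, ← mul_assoc, Unitary.mul_star_self_of_mem W.2, one_mul]
        have h2 : ∀ z : Op H, star (y.U : Op H) * (y.U * z) = z := fun z => by
          rw [← mul_assoc, Unitary.star_mul_self_of_mem y.U.2, one_mul]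
        simp only [Submonoid.coe_mul, mul_assoc, h2]
        rw [← mul_assoc y.q, ← h1])
  exact ⟨x, by rw [hx0], by rw [hx0], by rw [hx0], hP, hR⟩

end Vale.Agent.P096
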