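import Vale.Agent.P096.Tools

/-! The two adjustments in one step of the iteration. -/

set_option linter.unusedSectionVars false

namespace Vale.Agent.P096

open Filter Topology
open scoped InnerProductSpace

universe u

variable {H : Type u} [NormedAddCommGroup H] [InnerProductSpace ℂ H] [CompleteSpace H]
variable {A B D : Alg H} {ξ : H} {g r p : Op H}

theorem Cm.mono {γ γ' : ℝ} (h : Cm A D ξ g p γ) (h1 : γ ≤ γ') : Cm A D ξ g p γ' :=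
  fun x y hx hy => (h x y hx hy).trans (by gcongr)

theorem Side.mono {κ κ' γ γ' : ℝ} (h : Side A D ξ g r p κ γ) (h0 : κ ≤ κ') (h1 : γ ≤ γ') :
    Side A D ξ g r p κ' γ' :=
  ⟨h.proj, h.mem, h.near.trans h0, h.supp.trans h1, h.comm.mono h1⟩

theorem Sm.mono {Z : Op H} {γ γ' : ℝ} (h : Sm A g ξ Z γ) (h1 : γ ≤ γ') : Sm A g ξ Z γ' :=
  fun x hx => (h x hx).trans (by gcongr)

theorem Near.mono {δ δ' : ℝ} (h : Near A B δ) (h1 : δ ≤ δ') : Near A B δ' := fun x hx => by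
  obtain ⟨y, hy, h2⟩ := h x hx
  exact ⟨y, hy, h2.trans (by gcongr)⟩

theorem Close.mono {δ δ' : ℝ} (h : Close A B δ) (h1 : δ ≤ δ') : Close A B δ' :=
  ⟨h.1.mono h1, h.2.mono h1⟩

theorem Part.mono {κ κ' γ γ' : ℝ} (h : Part A B D ξ g r p κ γ) (h0 : κ ≤ κ') (h1 : γ ≤ γ') :
    Part A B D ξ g r p κ' γ' := fun y hy => by
  obtain ⟨c, k1, k2, k3, k4⟩ := h y hy
  exact ⟨c, k1, k2.trans (by gcongr), k3.mono (by gcongr), k4.mono (by gcongr)⟩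

theorem Cob.mono {T : Op H} {η C γ γ' : ℝ} (h : Cob A B D ξ g r p T η C γ) (h0 : 0 ≤ η)
    (h1 : 0 ≤ C) (h2 : γ ≤ γ') : Cob A B D ξ g r p T η C γ' :=
  fun x y c hx hy hc => (h x y c hx hy hc).trans (by gcongr)

theorem Cor.self (hp : IsStarProjection p) (h : p ∈ D) : Cor D p p :=
  ⟨h, hp.isIdempotentElem.eq, hp.isIdempotentElem.eq⟩

theorem st_proj_le (hp : IsStarProjection p) (η : H) : ‖p η‖ ≤ ‖η‖ := by
  simpa using p.le_of_opNorm_le hp.norm_le η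

theorem st_split {Z w : Op H} {a k : ℝ} {η : H} (h : Sm A g ξ Z a) (h1 : ‖Z‖ ≤ k)
    (hw : Cor A g w) : ‖Z η‖ ≤ a * ‖w‖ + k * ‖η - w ξ‖ := by
  have e : Z η = Z (w ξ) + Z (η - w ξ) := by rw [← map_add, add_sub_cancel]
  rw [e]
  exact (norm_add_le _ _).trans (add_le_add (h w hw) (Z.le_of_opNorm_le h1 _))

theorem st_out (h : CP A B) (hr : IsStarProjection r) (hrB : r ∈ B) {b c : Op H} (hb : b ∈ A)
    (hb2 : ‖b‖ ≤ 2) (hc : r * c = c) (η ζ : H) :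
    ‖η - r η‖ ≤ ‖η - b (p ζ)‖ + 2 * ‖(p - c) ζ‖ := by
  have e1 : (1 - r) (c ζ) = 0 := by
    rw [← mul_apply_eq_comp, sub_mul, one_mul, hc, sub_self]; rfl
  have e : η - r η = (1 - r) (η - b (p ζ)) + b ((1 - r) ((p - c) ζ)) := by
    rw [sub_apply p, map_sub (1 - r) (p ζ), e1, sub_zero, h.app hb (sub_mem (one_mem _) hrB),
      ← map_add, sub_add_cancel]
    rfl
  rw [e]
  exact (norm_add_le _ _).trans (add_le_add (st_proj_le hr.one_sub _)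
    ((b.le_of_opNorm_le hb2 _).trans (mul_le_mul_of_nonneg_left (st_proj_le hr.one_sub _) zero_le_two)))

theorem st_pi {s : Op H} (hr : IsStarProjection r) (h : star s * s = r) :
    s * r = s ∧ ‖s‖ ≤ 1 := by
  have hpi : P104.PI s := P104.PI.of_proj hr h
  exact ⟨by rw [← h]; exact hpi, hpi.norm_le⟩

theorem st_T1 {N : Alg H} {e f q s : Op H} {κ a J : ℝ} (hAB : CP A B) (hv : TV A B ξ g r)
    (v2 : TV A B (e ξ) e f) (hfr : Cor B r f) (hef : e ξ = f ξ) (hs : s ∈ B)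
    (s2 : ‖s - f‖ ≤ J * κ) (κ0 : 0 ≤ κ) (ha : 0 ≤ a)
    (q6 : ∀ y, Cor N q y → ∃ c, Cor A g c ∧ ‖y - c‖ ≤ κ * ‖y‖ ∧ Sm B r ξ (y - c) (a * ‖y‖))
    (n : Op H) (hn : Cor N q n) : ∃ x ∈ A, ∀ c, Cor B f c → ‖(n - x) (c (e ξ))‖ ≤ a * ‖n‖ * ‖c‖ ∧
      ‖(n - x) ((s - f) (c (e ξ)))‖ ≤ (J * (κ * a) + κ * ‖s (e ξ) - r (s (e ξ))‖) * ‖n‖ * ‖c‖ := by
  have hr := hv.2.proj
  obtain ⟨x, k1, k2, k3⟩ := q6 n hn
  refine ⟨x, k1.mem, fun d hd => ?_⟩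
  have k4 : d (e ξ) = d ξ := by rw [hef, ← mul_apply_eq_comp, hd.right]
  refine ⟨by rw [k4]; exact k3 d (hfr.trans hd), ?_⟩
  obtain ⟨z, z1, z2, z3, -⟩ := v2.2.part d hd
  have k5 : Cor B r (r * (s - f) * d) :=
    ⟨mul_mem (mul_mem hv.2.mem (sub_mem hs hfr.mem)) hd.mem, by
      rw [← mul_assoc, ← mul_assoc, hr.isIdempotentElem.eq], by
      rw [mul_assoc, (hfr.trans hd).right]⟩
  have k6 : (s - f) (d (e ξ)) - (r * (s - f) * d) ξ = z (s (e ξ) - r (s (e ξ))) := by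
    have e1 : r (f (d ξ)) = f (d ξ) := by rw [← mul_apply_eq_comp, hfr.left]
    rw [map_sub z, hAB.app z1.mem hv.2.mem, hAB.app z1.mem hs, z3, k4]
    simp only [mul_apply_eq_comp, sub_apply, map_sub, e1]
    abel
  have k7 : ‖r * (s - f) * d‖ ≤ J * κ * ‖d‖ := (norm_mul_le _ _).trans
    (mul_le_mul_of_nonneg_right ((norm_mul_le _ _).trans
      ((mul_le_of_le_one_left (norm_nonneg _) hr.norm_le).trans s2)) (norm_nonneg _))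
  refine (st_split k3 k2 k5).trans ?_
  rw [k6]
  have k8 := z.le_of_opNorm_le z2 (s (e ξ) - r (s (e ξ)))
  calc _ ≤ a * ‖n‖ * (J * κ * ‖d‖) + κ * ‖n‖ * (‖d‖ * ‖s (e ξ) - r (s (e ξ))‖) := by gcongr
    _ = _ := by ring

theorem st_T2 {e p t w r' : Op H} {ζ : H} {κ a J α : ℝ} (hAB : CP A B) (hv : TV A B ξ g r)
    (v3 : TV A B ζ e r') (heg : Cor A g e) (ht : t ∈ A) (t2 : ‖t - e‖ ≤ J * κ) (κ0 : 0 ≤ κ)
    (ha : 0 ≤ a) (w1 : Cor A g w) (wn : ‖w‖ ≤ 1) (w3 : w ξ = r ζ) (hα : a + κ * ‖ζ - r ζ‖ ≤ α)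
    (p6 : ∀ y, Cor D p y → ∃ c, Cor B r c ∧ ‖y - c‖ ≤ κ * ‖y‖ ∧ Sm A g ξ (y - c) (a * ‖y‖))
    (n : Op H) (hn : Cor D p n) : ∃ x ∈ B, ∀ c, Cor A e c → ‖(n - x) (c ζ)‖ ≤ α * ‖n‖ * ‖c‖ ∧
      ‖(n - x) ((t - e) (c ζ))‖ ≤ (α * (J * κ) + κ * ‖t ζ - g (t ζ)‖) * ‖n‖ * ‖c‖ := by
  have hg := hv.1.proj
  have α0 : 0 ≤ α := le_trans (by positivity) hα
  obtain ⟨x, k1, k2, k3⟩ := p6 n hn
  refine ⟨x, k1.mem, fun d hd => ?_⟩
  have key : ∀ y ∈ A, g * y = y → ‖(n - x) (y ζ)‖ ≤ α * ‖n‖ * ‖y‖ := by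
    intro y hy hy1
    have k4 : Cor A g (y * w) :=
      ⟨mul_mem hy w1.mem, by rw [← mul_assoc, hy1], by rw [mul_assoc, w1.right]⟩
    have k5 := st_split (η := y ζ) k3 k2 k4
    rw [mul_apply_eq_comp, w3, ← map_sub] at k5
    have k6 := y.le_opNorm (ζ - r ζ)
    have k7 : ‖y * w‖ ≤ ‖y‖ :=
      (norm_mul_le _ _).trans (mul_le_of_le_one_right (norm_nonneg _) wn)
    calc _ ≤ _ := k5
      _ ≤ a * ‖n‖ * ‖y‖ + κ * ‖n‖ * (‖y‖ * ‖ζ - r ζ‖) := by gcongr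
      _ = (a + κ * ‖ζ - r ζ‖) * ‖n‖ * ‖y‖ := by ring
      _ ≤ _ := by gcongr
  refine ⟨key d hd.mem (heg.trans hd).left, ?_⟩
  obtain ⟨z, z1, z2, z3, -⟩ := v3.1.part d hd
  have k5 := key (g * (t - e) * d) (mul_mem (mul_mem hv.1.mem (sub_mem ht heg.mem)) hd.mem)
    (by rw [← mul_assoc, ← mul_assoc, hg.isIdempotentElem.eq])
  have k6 : (t - e) (d ζ) = (g * (t - e) * d) ζ + z (t ζ - g (t ζ)) := by
    have e1 : g (e (d ζ)) = e (d ζ) := by rw [← mul_apply_eq_comp, heg.left]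
    rw [map_sub z, ← hAB.app hv.1.mem z1.mem, ← hAB.app ht z1.mem, z3]
    simp only [mul_apply_eq_comp, sub_apply, map_sub, e1]
    abel
  have k7 : ‖g * (t - e) * d‖ ≤ J * κ * ‖d‖ := (norm_mul_le _ _).trans
    (mul_le_mul_of_nonneg_right ((norm_mul_le _ _).trans
      ((mul_le_of_le_one_left (norm_nonneg _) hg.norm_le).trans t2)) (norm_nonneg _))
  have k8 := z.le_of_opNorm_le z2 (t ζ - g (t ζ))
  have k9 := (n - x).le_of_opNorm_le k2 (z (t ζ - g (t ζ)))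
  rw [k6, map_add]
  calc _ ≤ _ := norm_add_le _ _
    _ ≤ α * ‖n‖ * (J * κ * ‖d‖) + κ * ‖n‖ * (‖d‖ * ‖t ζ - g (t ζ)‖) := by
      refine add_le_add (k5.trans ?_) (k9.trans ?_) <;> gcongr
    _ = _ := by ring

theorem st_weak {N : Alg H} {q Y : Op H} {ζ : H} {α β β' : ℝ} (h0 : β ≤ β')
    (h : ∀ n, Cor N q n → ∃ x ∈ A, ∀ c, Cor B r c → ‖(n - x) (c ζ)‖ ≤ α * ‖n‖ * ‖c‖ ∧
      ‖(n - x) (Y (c ζ))‖ ≤ β * ‖n‖ * ‖c‖) (n : Op H) (hn : Cor N q n) :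
    ∃ x ∈ A, ∀ c, Cor B r c → ‖(n - x) (c ζ)‖ ≤ α * ‖n‖ * ‖c‖ ∧
      ‖(n - x) (Y (c ζ))‖ ≤ β' * ‖n‖ * ‖c‖ := by
  obtain ⟨x, hx, h1⟩ := h n hn
  exact ⟨x, hx, fun c hc => ⟨(h1 c hc).1, (h1 c hc).2.trans (by gcongr)⟩⟩

theorem st_move {q t : Op H} {ζ η : H} {J m X : ℝ} (hJ : 1 ≤ J) (m0 : 0 ≤ m) (X0 : 0 ≤ X)
    (q1 : IsStarProjection q) (q4 : ‖q η - η‖ ≤ m) (k1 : ‖ζ - η‖ ≤ J * (m + X))
    (t4 : ‖t ζ - ζ‖ ≤ J * (‖q ζ - ζ‖ + 13 * J * X)) : ‖t ζ - η‖ ≤ 15 * J ^ 2 * (m + X) := by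
  have k2 : q ζ - ζ = (q η - η) - (1 - q) (ζ - η) := by
    simp only [sub_apply, map_sub, one_apply_eq_self]; abel
  have k3 : ‖q ζ - ζ‖ ≤ m + J * (m + X) := by
    rw [k2]
    exact (norm_sub_le _ _).trans (add_le_add q4 ((st_proj_le q1.one_sub _).trans k1))
  have k4 : ‖t ζ - ζ‖ ≤ J * (m + J * (m + X) + 13 * J * X) := t4.trans (by gcongr)
  have k5 := norm_add_le (t ζ - ζ) (ζ - η)
  rw [sub_add_sub_cancel] at k5
  have k6 : J * m ≤ J ^ 2 * m := by rw [sq, mul_assoc]; exact le_mul_of_one_le_left (by positivity) hJ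
  have k7 : J * X ≤ J ^ 2 * X := by rw [sq, mul_assoc]; exact le_mul_of_one_le_left (by positivity) hJ
  have k8 : 0 ≤ J ^ 2 * m := by positivity
  linarith

theorem step_two {J : ℝ} (hJ : 1 ≤ J)
    (h6 : ∀ (A B D : Alg H) (ξ : H) (g r p : Op H) (δ κ γ : ℝ),
      CP A B → TV A B ξ g r → Near D B δ → 0 < δ → δ ≤ κ → κ ≤ 1 / 100 → 0 < γ →
      IsStarProjection p → p ∈ D → ‖p - r‖ ≤ κ → Cm A D ξ g p γ →
      ∃ s ∈ B, star s * s = r ∧ ‖s - r‖ ≤ J * κ ∧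
        Side A D (s ξ) g (s * star s) p (12 * δ) (J * γ) ∧
        ‖s ξ - ξ‖ ≤ J * (‖p ξ - ξ‖ + γ) ∧ ∃ b, Cor A g b ∧ ‖b‖ ≤ 2 ∧ ‖s ξ - b (p ξ)‖ ≤ J * γ)
    (h7 : TransStmt.{u}) {N : Alg H} {e f q : Op H} {δ κ a c m X : ℝ} (hAB : CP A B)
    (hv : TV A B ξ g r) (he : IsStarProjection e) (heg : Cor A g e) (hf : IsStarProjection f)
    (hfr : Cor B r f) (hef : e ξ = f ξ) (hD : Near D B δ) (hN : Near N A δ) (hδ : 0 < δ)
    (hδκ : δ ≤ κ) (hκ : κ ≤ 1 / 100) (ha : 0 ≤ a) (hc : 0 < c) (X1 : c ≤ X) (X2 : κ * a ≤ X)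
    (p1 : IsStarProjection p) (p2 : p ∈ D) (p3 : ‖p - f‖ ≤ κ) (p4 : ‖p (e ξ) - e ξ‖ ≤ m)
    (p5 : Cm A D (e ξ) e p c)
    (p6 : ∀ y, Cor D p y → ∃ c, Cor B r c ∧ ‖y - c‖ ≤ κ * ‖y‖ ∧ Sm A g ξ (y - c) (a * ‖y‖))
    (q1 : IsStarProjection q) (q2 : q ∈ N) (q3 : ‖q - e‖ ≤ κ) (q4 : ‖q (e ξ) - e ξ‖ ≤ m)
    (q5 : Cm B N (e ξ) f q c)
    (q6 : ∀ y, Cor N q y → ∃ c, Cor A g c ∧ ‖y - c‖ ≤ κ * ‖y‖ ∧ Sm B r ξ (y - c) (a * ‖y‖)) :
    ∃ s ∈ B, ∃ t ∈ A, star s * s = f ∧ star t * t = e ∧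
      TV A B (t (s (e ξ))) (t * star t) (s * star s) ∧
      Side A D (t (s (e ξ))) (t * star t) (s * star s) p (12 * δ) (64 * J ^ 2 * X) ∧
      Side B N (t (s (e ξ))) (s * star s) (t * star t) q (12 * δ) (64 * J ^ 2 * X) ∧
      ‖t (s (e ξ)) - e ξ‖ ≤ 15 * J ^ 2 * (m + X) := by
  have κ0 : 0 ≤ κ := hδ.le.trans hδκ
  have κ1 : κ ≤ 1 := by linarith
  have m0 : 0 ≤ m := (norm_nonneg _).trans p4
  have X0 : 0 < X := hc.trans_le X1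
  have J0 : 0 < J := one_pos.trans_le hJ
  have J1 : J * c ≤ J * X := by gcongr
  have J2 : X ≤ J * X := le_mul_of_one_le_left X0.le hJ
  have J3 : J * X ≤ J ^ 2 * X := by rw [sq, mul_assoc]; exact le_mul_of_one_le_left (by linarith) hJ
  have J4 : J * (κ * a) ≤ J * X := by gcongr
  have J5 : κ * (J ^ 2 * X) ≤ J ^ 2 * X := mul_le_of_le_one_left (by positivity) κ1
  have J6 : κ * (J * X) ≤ J * X := mul_le_of_le_one_left (by positivity) κ1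
  have J7 : κ * (J * c) ≤ J * c := mul_le_of_le_one_left (by positivity) κ1
  have v2 := tools.tvCut hAB hv e f he heg hf hfr hef
  obtain ⟨s, hs, s1, s2, s3, s4, b, b1, b2, b3⟩ :=
    h6 A B D (e ξ) e f p δ κ c hAB v2 hD hδ hδκ hκ hc p1 p2 p3 p5
  have v3 := tools.tvMove hAB v2 s hs s1
  obtain ⟨sf, sn⟩ := st_pi hf s1
  have hr := hv.2.proj
  have hg := hv.1.proj
  have E1 : ‖s (e ξ) - r (s (e ξ))‖ ≤ J * c + 2 * a := by
    obtain ⟨c', k1, -, k3⟩ := p6 p (Cor.self p1 p2)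
    have k4 := st_out (p := p) hAB hr hv.2.mem b1.mem b2 k1.left (s (e ξ)) (e ξ)
    have k5 : ‖(p - c') (e ξ)‖ ≤ a := (k3 e heg).trans
      ((mul_le_of_le_one_right (by positivity) he.norm_le).trans
        (mul_le_of_le_one_right ha p1.norm_le))
    linarith
  have E1' : κ * ‖s (e ξ) - r (s (e ξ))‖ ≤ 3 * J * X := by
    have := mul_le_mul_of_nonneg_left E1 κ0
    linarith
  obtain ⟨T1, -⟩ := h7 H A B N (e ξ) e f q s c a (4 * J * X) hAB v2 hs s1 hc.le ha (by positivity)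
    q5 (st_weak (by linarith) (st_T1 hAB hv v2 hfr hef hs s2 κ0 ha q6))
  have T1' : Cm B N (s (e ξ)) (s * star s) q (13 * J * X) := T1.mono (by
    have : ‖s - f‖ * a ≤ J * κ * a := by gcongr
    linarith)
  have rs : Cor B r (r * s * f) :=
    ⟨mul_mem (mul_mem hv.2.mem hs) hfr.mem, by
      rw [← mul_assoc, ← mul_assoc, hr.isIdempotentElem.eq], by rw [mul_assoc, hfr.right]⟩
  have rsn : ‖r * s * f‖ ≤ 1 := (tl_norm3 hr.norm_le hf.norm_le).trans sn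
  have rsx : (r * s * f) ξ = r (s (e ξ)) := by rw [hef]; rfl
  have k1 : ‖s (e ξ) - e ξ‖ ≤ J * (m + X) := s4.trans (by gcongr)
  generalize hζ : s (e ξ) = ζ at *
  obtain ⟨t, ht, t1, t2, t3, t4, b', b1', b2', b3'⟩ :=
    h6 B A N ζ (s * star s) e q δ κ _ hAB.symm v3.symm hN hδ hδκ hκ (by positivity) q1 q2 q3 T1'
  have v4 := (tools.tvMove hAB.symm v3.symm t ht t1).symm
  obtain ⟨te, tn⟩ := st_pi he t1
  have E2 : ‖t ζ - g (t ζ)‖ ≤ J * (13 * J * X) + 2 * (a + 3 * J * X) := by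
    obtain ⟨c', k1, k2, k3⟩ := q6 q (Cor.self q1 q2)
    have k4 := st_out (p := q) hAB.symm hg hv.1.mem b1'.mem b2' k1.left (t ζ) ζ
    have k5 := st_split (η := ζ) k3 k2 rs
    rw [rsx] at k5
    have k6 : a * ‖q‖ * ‖r * s * f‖ ≤ a :=
      (mul_le_of_le_one_right (by positivity) rsn).trans (mul_le_of_le_one_right ha q1.norm_le)
    have k7 : κ * ‖q‖ * ‖ζ - r ζ‖ ≤ κ * ‖ζ - r ζ‖ :=
      mul_le_mul_of_nonneg_right (mul_le_of_le_one_right κ0 q1.norm_le) (norm_nonneg _)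
    linarith
  have E2' : κ * ‖t ζ - g (t ζ)‖ ≤ 21 * J ^ 2 * X := by
    have := mul_le_mul_of_nonneg_left E2 κ0
    linarith
  obtain ⟨w, w1, w2, w3, -⟩ := hv.2.part _ rs
  obtain ⟨T2, T3⟩ := h7 H B A D ζ (s * star s) e p t (J * c) (a + 3 * J * X) (25 * J ^ 2 * X)
    hAB.symm v3.symm ht t1 (by positivity) (by positivity) (by positivity) s3.comm
    (st_weak (by linarith) (st_T2 hAB hv v3 heg ht t2 κ0 ha w1 (w2.trans rsn) (w3.trans rsx)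
      (by linarith) p6))
  have F1 : ‖t - e‖ * (a + 3 * J * X) ≤ 4 * J ^ 2 * X := by
    have : ‖t - e‖ * (a + 3 * J * X) ≤ J * κ * (a + 3 * J * X) := by gcongr
    linarith
  refine ⟨s, hs, t, ht, s1, t1, ?_⟩
  rw [hζ]
  refine ⟨v4, ⟨p1, p2, s3.near, ?_, T2.mono (by linarith)⟩,
    t3.mono le_rfl (by linarith), st_move hJ m0 X0.le q1 q4 k1 t4⟩
  have k1 := T3 p (Cor.self p1 p2)
  have k2 : p (t ζ) - t ζ = t (p ζ - ζ) - (t * p - p * t) ζ := by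
    simp only [mul_apply_eq_comp, sub_apply, map_sub]; abel
  have k3 := t.le_of_opNorm_le tn (p ζ - ζ)
  have k4 := s3.supp
  have k5 := mul_le_of_le_one_right (a := J * c + 25 * J ^ 2 * X + ‖t - e‖ * (a + 3 * J * X))
    (by positivity) p1.norm_le
  rw [k2]
  refine (norm_sub_le _ _).trans ?_
  linarith

end Vale.Agent.P096
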