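import Vale.Agent.P096.Tools1
import Vale.Agent.P104.WStar2

/-! Limits, commutants and trace vector tools. -/

set_option linter.unusedSectionVars false

namespace Vale.Agent.P096

open Filter Topology
open scoped InnerProductSpace

universe u

variable {H : Type u} [NormedAddCommGroup H] [InnerProductSpace ℂ H] [CompleteSpace H]

theorem tl_ulim {α : Type*} (l : Ultrafilter α) (T : α → Op H) (C : ℝ) (h : ∀ a, ‖T a‖ ≤ C) :
    ∃ S : Op H, ∀ ξ η, Tendsto (fun a => ⟪η, T a ξ⟫_ℂ) l (𝓝 ⟪η, S ξ⟫_ℂ) := by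
  have hb : ∀ ξ η a, ‖⟪T a ξ, η⟫_ℂ‖ ≤ C * ‖ξ‖ * ‖η‖ := fun ξ η a =>
    (norm_inner_le_norm _ _).trans
      (mul_le_mul_of_nonneg_right ((T a).le_of_opNorm_le (h a) ξ) (norm_nonneg _))
  choose f hf using fun ξ η => P104.exists_ulim l (f := fun a => ⟪T a ξ, η⟫_ℂ) (hb ξ η)
  let B2 : H →ₛₗ[starRingEnd ℂ] H →ₗ[ℂ] ℂ :=
    LinearMap.mk₂'ₛₗ (starRingEnd ℂ) (RingHom.id ℂ) f
      (fun x y z => tendsto_nhds_unique (hf _ _) (by simpa [inner_add_left] using (hf x z).add (hf y z)))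
      (fun c x y => tendsto_nhds_unique (hf _ _) (by
        simpa [inner_smul_left, mul_comm] using (hf x y).const_mul (starRingEnd ℂ c)))
      (fun x y z => tendsto_nhds_unique (hf _ _) (by simpa [inner_add_right] using (hf x y).add (hf x z)))
      (fun c x y => tendsto_nhds_unique (hf _ _) (by
        simpa [inner_smul_right] using (hf x y).const_mul c))
  have cs : ∀ x y, ‖B2 x y‖ ≤ C * ‖x‖ * ‖y‖ := fun x y =>
    le_of_tendsto' (hf x y).norm fun a => hb x y a
  refine ⟨InnerProductSpace.continuousLinearMapOfBilin (B2.mkContinuous₂ C cs), fun ξ η => ?_⟩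
  have e : ⟪InnerProductSpace.continuousLinearMapOfBilin (B2.mkContinuous₂ C cs) ξ, η⟫_ℂ = f ξ η := by
    rw [InnerProductSpace.continuousLinearMapOfBilin_apply]; rfl
  rw [← inner_conj_symm, e]
  exact ((Complex.continuous_conj.tendsto _).comp (hf ξ η)).congr fun a => inner_conj_symm _ _

theorem tl_closed {A B : Alg H} (h : CP A B) : IsClosed (A : Set (Op H)) := by
  have : (A : Set (Op H)) = ⋂ y ∈ B, {x | x * y = y * x} := by
    ext x
    simpa using h.left x
  rw [this]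
  exact isClosed_biInter fun y _ => isClosed_eq (by fun_prop) (by fun_prop)

theorem tl_strong {A B : Alg H} (h : CP A B) {ι : Type*} {l : Filter ι} [l.NeBot] {a : ι → Op H}
    {x : Op H} (ha : ∀ i, a i ∈ A) (hx : ∀ η, Tendsto (fun i => a i η) l (𝓝 (x η))) : x ∈ A := by
  refine (h.left x).2 fun y hy => ContinuousLinearMap.ext fun η => ?_
  refine tendsto_nhds_unique (hx (y η)) (((y.continuous.tendsto _).comp (hx η)).congr fun i => ?_)
  exact (congrArg (fun T : Op H => T η) ((h.left _).1 (ha i) y hy)).symm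

theorem tl_decr {A B : Alg H} (h : CP A B) (p : ℕ → Op H) (hp : ∀ n, IsStarProjection (p n))
    (hA : ∀ n, p n ∈ A) (hd : ∀ n, p n * p (n + 1) = p (n + 1)) : ∃ e ∈ A, IsStarProjection e ∧
      (∀ n, p n * e = e) ∧ ∀ η, Tendsto (fun n => p n η) atTop (𝓝 (e η)) := by
  have hc : IsClosed (A : Set (Op H)) := tl_closed h
  have hW : P104.IsWRep A.subtype := ⟨Subtype.val_injective, fun l R x hl _ hx =>
    ⟨⟨x, tl_strong h (fun i : A => i.2) fun η => (hx η).1⟩, rfl⟩⟩
  have hm : ∀ n m, n ≤ m → p n * p m = p m := fun n m hnm => by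
    induction hnm with
    | refl => exact (hp n).isIdempotentElem.eq
    | step _ ih => rw [← hd, ← mul_assoc, ih]
  have hm' : ∀ n m, n ≤ m → p m * p n = p m := fun n m hnm => by
    simpa [(hp m).isSelfAdjoint.star_eq] using tl_flip (hp n) (hm n m hnm)
  let v : ℕ → A := fun n => ⟨1 - p n, sub_mem (one_mem _) (hA n)⟩
  have hv : ∀ n, IsStarProjection (v n) := fun n => isStarProjection_iff'.2
    ⟨Subtype.ext (hp n).one_sub.isIdempotentElem.eq,
      Subtype.ext (hp n).one_sub.isSelfAdjoint.star_eq⟩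
  obtain ⟨w, h1, -, -⟩ := hW.lim_PI (v := v) (fun n => P104.PI.ofProj (hv n)) fun n m hnm => by
    rw [P104.PLe, (hv n).isSelfAdjoint.star_eq, (hv n).isIdempotentElem.eq]
    constructor <;> apply Subtype.ext
    · change (1 - p n) * (1 - p m) = 1 - p n
      rw [mul_sub, mul_one, sub_mul, one_mul, hm n m hnm, sub_self, sub_zero]
    · change (1 - p m) * (1 - p n) = 1 - p n
      rw [sub_mul, one_mul, mul_sub, mul_one, hm' n m hnm, sub_self, sub_zero]
  have hl : ∀ η, Tendsto (fun n => p n η) atTop (𝓝 ((1 - (w : Op H)) η)) := fun η => by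
    have := (h1.lim η).const_sub η
    simpa [v] using this
  have k1 : ∀ n, p n * (1 - (w : Op H)) = 1 - w := fun n => ContinuousLinearMap.ext fun η => by
    refine tendsto_nhds_unique (((p n).continuous.tendsto _).comp (hl η)) ((hl η).congr' ?_)
    filter_upwards [eventually_ge_atTop n] with m hm1
    exact (congrArg (fun T : Op H => T η) (hm n m hm1)).symm
  have hs : star w = w := h1.star.eq hW h1 (.of_forall fun n => (hv n).isSelfAdjoint.star_eq)
  have hi : w * w = w := (h1.mul h1).eq hW h1 (.of_forall fun n => (hv n).isIdempotentElem.eq)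
  have hw : IsStarProjection (w : Op H) :=
    isStarProjection_iff'.2 ⟨congrArg Subtype.val hi, congrArg Subtype.val hs⟩
  exact ⟨1 - w, sub_mem (one_mem _) w.2, hw.one_sub, k1, hl⟩

theorem tl_pi {A B : Alg H} (h : CP A B) (x : Op H) (hx : x ∈ A) (x0 : x ≠ 0) : ∃ w ∈ A, w ≠ 0 ∧
    w * star w * w = w ∧ (∃ a, w = x * a) ∧ ∃ a, w = a * x := by
  have hc : IsClosed (A : Set (Op H)) := tl_closed h
  have hW : P104.IsWRep A.subtype := ⟨Subtype.val_injective, fun l R x hl _ hx =>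
    ⟨⟨x, tl_strong h (fun i : A => i.2) fun η => (hx η).1⟩, rfl⟩⟩
  obtain ⟨t, h1, h2, ⟨a, h3⟩, ⟨b, h4⟩⟩ := hW.rickart.exists_PI (x := (⟨x, hx⟩ : A))
    fun h0 => x0 (congrArg Subtype.val h0)
  exact ⟨t, t.2, fun h0 => h2 (Subtype.ext h0), congrArg Subtype.val h1.left,
    ⟨a, congrArg Subtype.val h3⟩, ⟨b, congrArg Subtype.val h4⟩⟩

theorem tl_eqc {E : Type u} [NormedAddCommGroup E] [NormedSpace ℂ E] (S T : Submodule ℂ E) (t : ℝ)
    (hS : IsClosed (S : Set E)) (hST : S ≤ T) (ht : t < 1)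
    (h : ∀ b ∈ T, ∃ a ∈ S, ‖b - a‖ ≤ t * ‖b‖) : T ≤ S := by
  intro b hb
  by_contra hn
  have hd : 0 < Metric.infDist b S := (hS.notMem_iff_infDist_pos ⟨0, S.zero_mem⟩).1 hn
  set s := max t (1 / 2) with hs
  have s0 : 0 < s := lt_max_of_lt_right one_half_pos
  have s1 : s < 1 := max_lt ht (by norm_num)
  obtain ⟨a, ha, h1⟩ := (Metric.infDist_lt_iff ⟨0, S.zero_mem⟩).1
    (show Metric.infDist b S < Metric.infDist b S / s by rw [lt_div_iff₀ s0]; nlinarith)
  obtain ⟨a', ha', h2⟩ := h (b - a) (T.sub_mem hb (hST ha))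
  have h3 := Metric.infDist_le_dist_of_mem (x := b) (S.add_mem ha ha')
  rw [dist_eq_norm, lt_div_iff₀ s0] at h1
  rw [dist_eq_norm, ← sub_sub] at h3
  nlinarith [mul_le_mul_of_nonneg_right (le_max_left t (1 / 2)) (norm_nonneg (b - a))]

theorem tl_cj1 {A B : Alg H} (U : unitary (Op H)) (h : ∀ x, x ∈ A ↔ ∀ y ∈ B, x * y = y * x)
    (x : Op H) : x ∈ cj U A ↔ ∀ y ∈ cj U B, x * y = y * x := by
  let e := Unitary.conjStarAlgAut ℂ (Op H) U
  change e x ∈ A ↔ ∀ y, e y ∈ B → x * y = y * x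
  rw [h]
  refine ⟨fun k y hy => e.injective (by rw [map_mul, map_mul]; exact k _ hy), fun k y hy => ?_⟩
  obtain ⟨y, rfl⟩ : ∃ z, e z = y := e.surjective y
  rw [← map_mul, ← map_mul, k y hy]

theorem tl_conj (U : Op H) (hU : U ∈ unitary (Op H)) (y : Op H) :
    ‖U * y * star U - y‖ ≤ 2 * ‖U - 1‖ * ‖y‖ := by
  have e : U * y * star U - y = (U - 1) * y * star U + y * star (U - 1) := by
    rw [star_sub, star_one]; noncomm_ring
  have n1 : ‖(U - 1) * y * star U‖ ≤ ‖U - 1‖ * ‖y‖ := by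
    rw [CStarRing.norm_mul_mem_unitary _ (Unitary.star_mem hU)]
    exact norm_mul_le _ _
  have n2 := norm_mul_le y (star (U - 1))
  rw [norm_star] at n2
  rw [e]
  refine (norm_add_le _ _).trans ?_
  linarith

theorem tl_cjClose {A N : Alg H} (U : unitary (Op H)) (δ : ℝ) (h : Close A N δ) (_ : 0 ≤ δ)
    (h1 : δ ≤ 1) : Close A (cj U N) (δ + 4 * ‖(U : Op H) - 1‖) := by
  have u1 : (U : Op H) * star (U : Op H) = 1 := U.2.2
  have n0 := norm_nonneg ((U : Op H) - 1)
  constructor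
  · intro x hx
    obtain ⟨y, hy, h2⟩ := h.1 x hx
    refine ⟨star (U : Op H) * y * U, mem_cj.2 ?_, ?_⟩
    · rwa [← mul_assoc, ← mul_assoc, u1, one_mul, mul_assoc, u1, mul_one]
    · have k1 := tl_conj _ (Unitary.star_mem U.2) y
      rw [star_star, ← star_one (Op H), ← star_sub, norm_star] at k1
      have k2 : ‖y‖ ≤ 2 * ‖x‖ := by
        have := norm_sub_norm_le y x
        rw [norm_sub_rev] at this
        nlinarith [norm_nonneg x]
      have k3 := norm_sub_le (x - y) (star (U : Op H) * y * U - y)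
      rw [sub_sub_sub_cancel_right] at k3
      nlinarith
  · intro y hy
    obtain ⟨x, hx, h2⟩ := h.2 _ (mem_cj.1 hy)
    refine ⟨x, hx, ?_⟩
    rw [CStarRing.norm_mul_mem_unitary _ (Unitary.star_mem U.2), CStarRing.norm_mem_unitary_mul _ U.2] at h2
    have k1 := tl_conj _ U.2 y
    have k3 := norm_sub_le ((U : Op H) * y * star (U : Op H) - x) (U * y * star (U : Op H) - y)
    rw [sub_sub_sub_cancel_left] at k3
    nlinarith [norm_nonneg y]

variable {A B : Alg H} {ξ : H} {g r : Op H}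

theorem CP.app (h : CP A B) {a c : Op H} (ha : a ∈ A) (hc : c ∈ B) (η : H) : a (c η) = c (a η) :=
  congrArg (fun T : Op H => T η) ((h.left a).1 ha c hc)

theorem Cor.star {a : Op H} (h : Cor A g a) (hg : IsStarProjection g) : Cor A g (star a) :=
  ⟨star_mem h.mem, by simpa [hg.isSelfAdjoint.star_eq] using congrArg Star.star h.right,
    tl_flip hg h.left⟩

theorem Cor.trans {e a : Op H} (h : Cor A g e) (ha : Cor A e a) : Cor A g a :=
  ⟨ha.mem, by rw [← ha.left, ← mul_assoc, h.left], by rw [← ha.right, mul_assoc, h.right]⟩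

theorem tl_trace (h : CP A B) (hv : TV A B ξ g r) (a : Op H) (ha : Cor A g a) :
    ‖star a ξ‖ = ‖a ξ‖ := by
  obtain ⟨c, h1, -, h2, h3⟩ := hv.1.part a ha
  have : ⟪star a ξ, star a ξ⟫_ℂ = ⟪a ξ, a ξ⟫_ℂ := by
    calc _ = ⟪ξ, a (star c ξ)⟫_ℂ := by rw [tl_inner', h3]
      _ = _ := by rw [h.app ha.mem (star_mem h1.mem), ← tl_inner, h2]
  rw [inner_self_eq_norm_sq_to_K, inner_self_eq_norm_sq_to_K] at this
  exact (pow_left_inj₀ (norm_nonneg _) (norm_nonneg _) two_ne_zero).1 (by exact_mod_cast this)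

theorem tl_sep (h : CP A B) (hv : TV A B ξ g r) (a : Op H) (ha : a ∈ A) (h0 : a ξ = 0) :
    a * g = 0 := by
  ext η
  have : closure {ζ | ∃ c ∈ B, ζ = c ξ} ⊆ {ζ | a ζ = 0} := by
    refine closure_minimal ?_ (isClosed_eq a.continuous continuous_const)
    rintro _ ⟨c, hc, rfl⟩
    change a (c ξ) = 0
    rw [h.app ha hc, h0, map_zero]
  exact this (hv.1.cyc η)

theorem tl_partP (h : CP A B) (hv : TV A B ξ g r) (e : Op H) (he : IsStarProjection e)
    (h1 : Cor A g e) : ∃ f, IsStarProjection f ∧ Cor B r f ∧ f ξ = e ξ := by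
  obtain ⟨f, k1, -, k2, k3⟩ := hv.1.part e h1
  refine ⟨f, isStarProjection_iff'.2 ⟨?_, ?_⟩, k1, k2⟩
  · have := tl_sep h.symm hv.symm (f * f - f) (sub_mem (mul_mem k1.mem k1.mem) k1.mem) (by
      rw [sub_apply, mul_apply_eq_comp, k2, ← h.app h1.mem k1.mem, k2, ← mul_apply_eq_comp,
        he.isIdempotentElem.eq, sub_self])
    rwa [sub_mul, mul_assoc, k1.right, sub_eq_zero] at this
  · have := tl_sep h.symm hv.symm (star f - f) (sub_mem (star_mem k1.mem) k1.mem) (by
      rw [sub_apply, k3, k2, he.isSelfAdjoint.star_eq, sub_self])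
    rwa [sub_mul, k1.right, (k1.star hv.2.proj).right, sub_eq_zero] at this

theorem tl_map_closure (s : Op H) {X Y : Set H} (h : ∀ ζ ∈ X, s ζ ∈ Y) {η : H}
    (hη : η ∈ closure X) : s η ∈ closure Y :=
  map_mem_closure s.continuous hη h

theorem tl_norm3 {a b c : Op H} (ha : ‖a‖ ≤ 1) (hc : ‖c‖ ≤ 1) : ‖a * b * c‖ ≤ ‖b‖ :=
  (norm_mul_le _ _).trans ((mul_le_of_le_one_right (norm_nonneg _) hc).trans
    ((norm_mul_le _ _).trans (mul_le_of_le_one_left (norm_nonneg _) ha)))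

theorem tl_halfCut (h : CP A B) (hv : Half A B ξ g r) (e f : Op H) (he : IsStarProjection e)
    (h1 : Cor A g e) (hf : IsStarProjection f) (h2 : Cor B r f) (h3 : e ξ = f ξ) :
    Half A B (e ξ) e f := by
  have ee := he.isIdempotentElem.eq
  have ff := hf.isIdempotentElem.eq
  have key : ∀ a c, Cor A e a → c ∈ B → c ξ = a ξ → (f * c * f) (e ξ) = a (e ξ) := by
    intro a c ha hc k
    rw [mul_apply_eq_comp, mul_apply_eq_comp, h3, ← mul_apply_eq_comp f f, ff, ← h3,
      ← h.app h1.mem hc, k, ← mul_apply_eq_comp e a, ha.left, ← h.app ha.mem h2.mem, h3]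
  refine ⟨he, h1.mem, by rw [← mul_apply_eq_comp, ee], fun η => ?_, fun a ha => ?_⟩
  · rw [show e η = e (g η) by rw [← mul_apply_eq_comp, h1.right]]
    refine tl_map_closure e ?_ (hv.cyc η)
    rintro _ ⟨c, hc, rfl⟩
    exact ⟨c, hc, h.app h1.mem hc ξ⟩
  · obtain ⟨c, k1, k2, k3, k4⟩ := hv.part a (h1.trans ha)
    refine ⟨f * c * f, ⟨mul_mem (mul_mem h2.mem k1.mem) h2.mem, by
      rw [← mul_assoc, ← mul_assoc, ff], by rw [mul_assoc, ff]⟩,
      (tl_norm3 hf.norm_le hf.norm_le).trans k2, key a c ha k1.mem k3, ?_⟩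
    rw [star_mul, star_mul, hf.isSelfAdjoint.star_eq, ← mul_assoc]
    exact key _ _ (ha.star he) (star_mem k1.mem) k4

theorem tl_tvMove (h : CP A B) (hv : TV A B ξ g r) (s : Op H) (hs : s ∈ B) (h1 : star s * s = r) :
    TV A B (s ξ) g (s * star s) := by
  have hpi : P104.PI s := P104.PI.of_proj hv.2.proj h1
  have sr : s * r = s := by rw [← h1]; exact hpi
  have rs : r * star s = star s := by simpa [hv.2.proj.isSelfAdjoint.star_eq] using congrArg star sr
  have n1 : ‖s‖ ≤ 1 := hpi.norm_le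
  have n2 : ‖star s‖ ≤ 1 := by rwa [norm_star]
  have fx : star s (s ξ) = ξ := by rw [← mul_apply_eq_comp, h1, hv.2.fix]
  constructor
  · refine ⟨hv.1.proj, hv.1.mem, by rw [h.app hv.1.mem hs, hv.1.fix], fun η => ?_, fun a ha => ?_⟩
    · refine closure_mono ?_ (hv.1.cyc η)
      rintro _ ⟨c, hc, rfl⟩
      exact ⟨c * star s, mul_mem hc (star_mem hs), by rw [mul_apply_eq_comp, fx]⟩
    · obtain ⟨c, k1, k2, k3, k4⟩ := hv.1.part a ha
      refine ⟨s * c * star s, ⟨mul_mem (mul_mem hs k1.mem) (star_mem hs), ?_, ?_⟩,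
        (tl_norm3 n1 n2).trans k2, ?_, ?_⟩
      · rw [← mul_assoc, ← mul_assoc, hpi.left]
      · rw [mul_assoc, ← mul_assoc (star s), h1, rs]
      · rw [mul_apply_eq_comp, fx, mul_apply_eq_comp, k3, h.app ha.mem hs]
      · rw [star_mul, star_mul, star_star, mul_apply_eq_comp, mul_apply_eq_comp, fx, k4,
          h.app (star_mem ha.mem) hs]
  · refine ⟨hpi.proj', mul_mem hs (star_mem hs), by rw [mul_apply_eq_comp, fx], fun η => ?_,
      fun c hc => ?_⟩
    · rw [← rs, mul_apply_eq_comp, mul_apply_eq_comp]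
      refine tl_map_closure s ?_ (hv.2.cyc _)
      rintro _ ⟨a, ha, rfl⟩
      exact ⟨a, ha, (h.app ha hs ξ).symm⟩
    · obtain ⟨a, k1, k2, k3, k4⟩ := hv.2.part (star s * c * s)
        ⟨mul_mem (mul_mem (star_mem hs) hc.mem) hs, by rw [← mul_assoc, ← mul_assoc, rs],
          by rw [mul_assoc, sr]⟩
      refine ⟨a, k1, k2.trans (tl_norm3 n2 n1), ?_, ?_⟩
      · rw [h.app k1.mem hs, k3, ← mul_apply_eq_comp, ← mul_assoc, ← mul_assoc, hc.left,
          mul_apply_eq_comp]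
      · rw [h.app (star_mem k1.mem) hs, k4, star_mul, star_mul, star_star, ← mul_apply_eq_comp,
          ← mul_assoc, ← mul_assoc, (hc.star hpi.proj').left, mul_apply_eq_comp]

theorem tools : Tools.{u} where
  spec := tl_spec
  nearP := tl_nearP
  nearA := tl_nearA
  sqrt := tl_sqrt
  polar := tl_polar
  ulim := tl_ulim
  ulimN := tl_ulim
  supp := tl_supp
  decr := tl_decr
  pi := tl_pi
  eqc := tl_eqc
  closed := tl_closed
  cjCP U h := ⟨tl_cj1 U h.left, tl_cj1 U h.right⟩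
  cjClose := tl_cjClose
  trace := tl_trace
  sep := tl_sep
  smSwap hv ht h c hc := by
    obtain ⟨a, k1, k2, k3, -⟩ := hv.2.part c hc
    rw [← k3]
    exact (h a k1).trans (mul_le_mul_of_nonneg_left k2 ht)
  partP := tl_partP
  tvCut h hv e f he h1 hf h2 h3 :=
    ⟨tl_halfCut h hv.1 e f he h1 hf h2 h3, h3 ▸ tl_halfCut h.symm hv.2 f e hf h2 he h1 h3.symm⟩
  tvMove := tl_tvMove

end Vale.Agent.P096
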