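import Vale.Agent.P096.Defs

/-! Projections and functional calculus tools. -/

set_option linter.unusedSectionVars false

namespace Vale.Agent.P096

open Filter Topology
open scoped InnerProductSpace

universe u

variable {H : Type u} [NormedAddCommGroup H] [InnerProductSpace ℂ H] [CompleteSpace H]

theorem tl_inner (a : Op H) (ξ η : H) : ⟪a ξ, η⟫_ℂ = ⟪ξ, star a η⟫_ℂ := by
  rw [ContinuousLinearMap.star_eq_adjoint, ContinuousLinearMap.adjoint_inner_right]

theorem tl_inner' (a : Op H) (ξ η : H) : ⟪star a ξ, η⟫_ℂ = ⟪ξ, a η⟫_ℂ := by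
  rw [tl_inner, star_star]

theorem tl_norm_sq (a : Op H) (ξ : H) : ‖a ξ‖ ^ 2 = (⟪ξ, (star a * a) ξ⟫_ℂ).re := by
  rw [mul_apply_eq_comp, ← tl_inner, inner_self_eq_norm_sq_to_K]
  norm_cast

theorem tl_flip {a p : Op H} (hp : IsStarProjection p) (h : p * a = a) : star a * p = star a := by
  simpa [hp.isSelfAdjoint.star_eq] using congrArg star h

theorem tl_pyth {p : Op H} (hp : IsStarProjection p) (ξ η : H) (h1 : p ξ = ξ) (h2 : p η = 0) :
    ‖ξ + η‖ ^ 2 = ‖ξ‖ ^ 2 + ‖η‖ ^ 2 := by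
  have : ⟪ξ, η⟫_ℂ = 0 := by
    rw [← h1, tl_inner, hp.isSelfAdjoint.star_eq, h2, inner_zero_right]
  rw [sq, sq, sq]
  exact norm_add_sq_eq_norm_sq_add_norm_sq_of_inner_eq_zero _ _ this

theorem tl_supp (X : Set H) : ∃ e : Op H, IsStarProjection e ∧ (∀ η ∈ X, e η = η) ∧
    (∀ η, e η ∈ closure (Submodule.span ℂ X : Set H)) ∧
    ∀ c : Op H, (∀ η ∈ X, c η ∈ X) → (∀ η ∈ X, star c η ∈ X) → c * e = e * c := by
  let K : Submodule ℂ H := (Submodule.span ℂ X).topologicalClosure
  have hK : ∀ η ∈ X, η ∈ K := fun η h =>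
    Submodule.le_topologicalClosure _ (Submodule.subset_span h)
  have hp : IsStarProjection K.starProjection := isStarProjection_starProjection
  have inv : ∀ c : Op H, (∀ η ∈ X, c η ∈ X) →
      K.starProjection * (c * K.starProjection) = c * K.starProjection := fun c hc => by
    ext η
    have h1 : K ≤ K.comap (c : H →ₗ[ℂ] H) := by
      refine Submodule.topologicalClosure_minimal _ (Submodule.span_le.2 fun ζ hζ => hK _ (hc ζ hζ)) ?_
      exact (Submodule.isClosed_topologicalClosure _).preimage c.continuous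
    exact Submodule.starProjection_eq_self_iff.2 (h1 (K.starProjection_apply_mem η))
  refine ⟨K.starProjection, hp, fun η h => Submodule.starProjection_eq_self_iff.2 (hK η h),
    fun η => K.starProjection_apply_mem η, fun c h1 h2 => ?_⟩
  have e1 := tl_flip hp (inv _ h2)
  rw [star_mul, star_star, hp.isSelfAdjoint.star_eq] at e1
  rw [← inv c h1, ← mul_assoc, e1]

theorem tl_spec (z : Op H) (t : ℝ) (ht : 0 < t) : ∃ e : Op H, IsStarProjection e ∧
    (∀ y, y * (star z * z) = star z * z * y → y * e = e * y) ∧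
    (∀ y, z * y = 0 → e * y = 0) ∧ (∀ η, t * ‖e η‖ ≤ ‖z (e η)‖) ∧ ‖z * (1 - e)‖ ≤ t := by
  set h : Op H := star z * z - (t ^ 2) • (1 : Op H) with hh
  have hk : IsSelfAdjoint h :=
    (IsSelfAdjoint.star_mul_self z).sub ((IsSelfAdjoint.all _).smul (IsSelfAdjoint.one _))
  have hq : ∀ η, (⟪η, h η⟫_ℂ).re = ‖z η‖ ^ 2 - t ^ 2 * ‖η‖ ^ 2 := fun η => by
    rw [hh, sub_apply, inner_sub_right, Complex.sub_re, ← tl_norm_sq,
      smul_apply, one_apply_eq_self, ← Complex.coe_smul,
      inner_smul_right, Complex.re_ofReal_mul, inner_self_eq_norm_sq_to_K]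
    norm_cast
  have hP : (0 : Op H) ≤ h⁺ := CFC.posPart_nonneg h
  have hN : (0 : Op H) ≤ h⁻ := CFC.negPart_nonneg h
  have e0 : h⁺ - h⁻ = h := CFC.posPart_sub_negPart h hk
  have NP : h⁻ * h⁺ = 0 := CFC.negPart_mul_posPart h
  have hc : ∀ y : Op H, Commute h y → Commute h⁺ y := fun y hy => hy.cfcₙ_real _
  generalize h⁺ = P at *
  generalize h⁻ = N at *
  have pos : ∀ Q : Op H, 0 ≤ Q → ∀ η, 0 ≤ (⟪η, Q η⟫_ℂ).re := fun Q hQ η =>
    ((ContinuousLinearMap.nonneg_iff_isPositive Q).1 hQ).re_inner_nonneg_right η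
  obtain ⟨e, he, h1, h2, h3⟩ := tl_supp (Set.range P)
  have eP : e * P = P := ContinuousLinearMap.ext fun η => h1 _ ⟨η, rfl⟩
  have Pe : P * e = P := by simpa [hP.isSelfAdjoint.star_eq] using tl_flip he eP
  have Ne : ∀ η, N (e η) = 0 := fun η => by
    have : closure (Submodule.span ℂ (Set.range P) : Set H) ⊆ (LinearMap.ker (N : H →ₗ[ℂ] H)) := by
      refine closure_minimal (Submodule.span_le.2 ?_) N.isClosed_ker
      rintro _ ⟨ζ, rfl⟩
      exact congrArg (fun T : Op H => T ζ) NP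
    exact this (h2 η)
  have c1 : ∀ y, y * (star z * z) = star z * z * y → y * e = e * y := fun y hy => by
    have k1 : Commute h y := by
      rw [hh]
      exact (Commute.sub_left hy.symm ((Commute.one_left y).smul_left _))
    have k2 : Commute h (star y) := by
      have := k1.star_star
      rwa [hk.star_eq] at this
    refine h3 y ?_ ?_
    · rintro _ ⟨ζ, rfl⟩
      exact ⟨y ζ, congrArg (fun T : Op H => T ζ) (hc y k1).eq⟩
    · rintro _ ⟨ζ, rfl⟩
      exact ⟨star y ζ, congrArg (fun T : Op H => T ζ) (hc _ k2).eq⟩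
  have c3 : ∀ η, t * ‖e η‖ ≤ ‖z (e η)‖ := fun η => by
    have k1 := hq (e η)
    rw [← e0, sub_apply, Ne, sub_zero] at k1
    have k2 := pos P hP (e η)
    exact abs_le_of_sq_le_sq' (by rw [mul_pow]; linarith) (norm_nonneg _) |>.2
  refine ⟨e, he, c1, fun y hy => ?_, c3, ?_⟩
  · ext η
    have k1 : (star z * z) (e (y η)) = 0 := by
      rw [← mul_apply_eq_comp, c1 _ rfl, ← mul_apply_eq_comp, mul_assoc,
        mul_assoc, hy]
      simp
    have k2 := tl_norm_sq z (e (y η))
    rw [k1, inner_zero_right, Complex.zero_re, pow_eq_zero_iff two_ne_zero] at k2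
    have k3 := c3 (y η)
    rw [k2] at k3
    exact norm_le_zero_iff.1 (le_of_mul_le_mul_left (by simpa using k3) ht)
  · refine ContinuousLinearMap.opNorm_le_bound _ ht.le fun η => ?_
    have k0 : P ((1 - e) η) = 0 := by
      rw [← mul_apply_eq_comp, mul_sub, mul_one, Pe, sub_self]; rfl
    have k1 := hq ((1 - e) η)
    rw [← e0, sub_apply P, k0, zero_sub, inner_neg_right, Complex.neg_re] at k1
    have k2 := pos N hN ((1 - e) η)
    have k3 : ‖(1 - e) η‖ ≤ ‖η‖ := by
      simpa using (1 - e).le_of_opNorm_le he.one_sub.norm_le η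
    have k4 : ‖z ((1 - e) η)‖ ≤ t * ‖(1 - e) η‖ :=
      abs_le_of_sq_le_sq' (by rw [mul_pow]; linarith) (by positivity) |>.2
    exact k4.trans (mul_le_mul_of_nonneg_left k3 ht.le)

theorem tl_nearP (h q : Op H) (t : ℝ) (hh : star h = h) (hq : IsStarProjection q)
    (h1 : ‖h - q‖ ≤ t) (h2 : t ≤ 1 / 10) : ∃ p : Op H, IsStarProjection p ∧ ‖p - q‖ ≤ 9 * t ∧
      (∀ y, y * h = h * y → y * p = p * y) ∧ ∀ y, h * y = 0 → p * y = 0 := by
  obtain ⟨e, he, c1, c2, c3, c4⟩ := tl_spec h (1 / 2) one_half_pos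
  have t0 : 0 ≤ t := (norm_nonneg _).trans h1
  have c5 : ∀ y, y * h = h * y → y * e = e * y := fun y hy => c1 y (by
    rw [hh, ← mul_assoc, hy, mul_assoc, hy, mul_assoc])
  have he1 := c5 h rfl
  have ee := he.isIdempotentElem.eq
  refine ⟨e, he, ?_, c5, c2⟩
  have k1 : ‖h * h - h‖ ≤ 4 * t := by
    have e1 : h * h - h = q * (h - q) + (h - q) * q - (h - q) + (h - q) * (h - q) := by
      have := hq.isIdempotentElem.eq
      noncomm_ring [this]
    have n1 := norm_mul_le q (h - q)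
    have n2 := norm_mul_le (h - q) q
    have n3 := norm_mul_le (h - q) (h - q)
    have n4 := hq.norm_le
    have n5 := norm_nonneg (h - q)
    rw [e1]
    refine (norm_add_le _ _).trans ((add_le_add_left ((norm_sub_le _ _).trans
      (add_le_add_left (norm_add_le _ _) _)) _).trans ?_)
    nlinarith
  have k2 : ∀ η, ‖η‖ ≤ 2 * ‖(h - (1 - e)) η‖ := fun η => by
    have a1 : (h - (1 - e)) η = h (e η) + (h - 1) ((1 - e) η) := by
      have : h - (1 - e) = h * e + (h - 1) * (1 - e) := by noncomm_ring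
      rw [this]; rfl
    have a2 : η = e η + (1 - e) η := by simp
    have a3 : e (e η) = e η := by rw [← mul_apply_eq_comp, ee]
    have a4 : e ((1 - e) η) = 0 := by simp [a3]
    have a5 := tl_pyth he (h (e η)) ((h - 1) ((1 - e) η))
      (by rw [← mul_apply_eq_comp, ← he1, mul_apply_eq_comp, a3])
      (by
        rw [← mul_apply_eq_comp, mul_sub, ← he1, mul_one,
          sub_apply, mul_apply_eq_comp, a4]
        simp)
    have a6 := tl_pyth he _ _ a3 a4
    have a7 := c3 η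
    have a8 : ‖h ((1 - e) η)‖ ≤ 1 / 2 * ‖(1 - e) η‖ := by
      have := (h * (1 - e)).le_of_opNorm_le c4 ((1 - e) η)
      rwa [mul_apply_eq_comp, ← mul_apply_eq_comp (1 - e),
        he.one_sub.isIdempotentElem.eq] at this
    have a9 : ‖(1 - e) η‖ ≤ ‖(h - 1) ((1 - e) η)‖ + ‖h ((1 - e) η)‖ := by
      have := norm_sub_le ((h - 1) ((1 - e) η)) (h ((1 - e) η))
      rwa [sub_apply h, one_apply_eq_self, sub_sub_cancel_left, norm_neg] at this
    rw [← a2] at a6
    rw [← a1] at a5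
    refine abs_le_of_sq_le_sq' ?_ (by positivity) |>.2
    have b1 : ‖e η‖ ^ 2 ≤ (2 * ‖h (e η)‖) ^ 2 := pow_le_pow_left₀ (norm_nonneg _) (by linarith) 2
    have b2 : ‖(1 - e) η‖ ^ 2 ≤ (2 * ‖(h - 1) ((1 - e) η)‖) ^ 2 :=
      pow_le_pow_left₀ (norm_nonneg _) (by linarith) 2
    nlinarith
  have k3 : ‖h - e‖ ≤ 8 * t := by
    refine ContinuousLinearMap.opNorm_le_bound _ (by positivity) fun η => (k2 _).trans ?_
    have e1 : (h - (1 - e)) * (h - e) = h * h - h := by
      noncomm_ring [he1, ee]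
    rw [← mul_apply_eq_comp, e1]
    have := (h * h - h).le_of_opNorm_le k1 η
    linarith
  have := norm_sub_le (h - q) (h - e)
  rw [sub_sub_sub_cancel_left] at this
  linarith

theorem tl_nearA {B N D : Alg H} (hND : CP N D) (q p : Op H) (δ t : ℝ) (hq : IsStarProjection q)
    (hqB : q ∈ B) (hp : IsStarProjection p) (hpD : p ∈ D) (hn : Near B D δ) (hδ : 0 ≤ δ)
    (h1 : ‖(1 - p) * q‖ ≤ t) (h2 : δ + 2 * t ≤ 1 / 10) :
    ∃ p', IsStarProjection p' ∧ Cor D p p' ∧ ‖p' - q‖ ≤ 9 * (δ + 2 * t) := by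
  obtain ⟨y, hy, hy1⟩ := hn q hqB
  have hy2 : ‖y - q‖ ≤ δ := by
    rw [norm_sub_rev]
    exact hy1.trans (mul_le_of_le_one_right hδ hq.norm_le)
  have ps := hp.isSelfAdjoint.star_eq
  have qs := hq.isSelfAdjoint.star_eq
  have pp := hp.isIdempotentElem.eq
  set k : Op H := (1 / 2 : ℂ) • (y + star y) with hk
  have k1 : k ∈ D := D.smul_mem (add_mem hy (star_mem hy)) _
  have k2 : star k = k := by simp [hk, add_comm]
  have k3 : ‖k - q‖ ≤ δ := by
    have : k - q = (1 / 2 : ℂ) • ((y - q) + star (y - q)) := by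
      rw [hk, star_sub, qs]; module
    rw [this, norm_smul]
    have := norm_add_le (y - q) (star (y - q))
    rw [norm_star] at this
    simp only [one_div, norm_inv, Complex.norm_ofNat]
    linarith
  have k4 : ‖p * k * p - q‖ ≤ δ + 2 * t := by
    have e1 : p * k * p - q = p * (k - q) * p - (1 - p) * q - p * star ((1 - p) * q) := by
      rw [star_mul, star_sub, star_one, ps, qs]; noncomm_ring
    have n1 : ‖p * (k - q) * p‖ ≤ δ :=
      (norm_mul_le _ _).trans ((mul_le_of_le_one_right (norm_nonneg _) hp.norm_le).trans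
        ((norm_mul_le _ _).trans ((mul_le_of_le_one_left (norm_nonneg _) hp.norm_le).trans k3)))
    have n2 : ‖p * star ((1 - p) * q)‖ ≤ t :=
      (norm_mul_le _ _).trans ((mul_le_of_le_one_left (norm_nonneg _) hp.norm_le).trans
        (by rwa [norm_star]))
    rw [e1]
    refine (norm_sub_le _ _).trans ((add_le_add_left (norm_sub_le _ _) _).trans ?_)
    linarith
  obtain ⟨p', a1, a2, a3, a4⟩ := tl_nearP (p * k * p) q _
    (by rw [star_mul, star_mul, ps, k2, mul_assoc]) hq k4 h2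
  have b1 : p' * p = p' := by
    have := a4 (1 - p) (by rw [mul_assoc, mul_sub, mul_one, pp, sub_self, mul_zero])
    rw [mul_sub, mul_one, sub_eq_zero] at this
    exact this.symm
  refine ⟨p', a1, ⟨(hND.right _).2 fun x hx => (a3 x ?_).symm, ?_, b1⟩, a2⟩
  · exact (hND.left x).1 hx _ (mul_mem (mul_mem hpD k1) hpD)
  · simpa [ps, a1.isSelfAdjoint.star_eq] using congrArg star b1

theorem tl_sqrt (h : Op H) (hh : star h = h) (h1 : ‖h - 1‖ ≤ 1 / 2) : ∃ b k : Op H, star b = b ∧
    b * h * b = 1 ∧ ‖b‖ ≤ 2 ∧ ‖k‖ ≤ 2 ∧ b - 1 = k * (1 - h) ∧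
    ∀ y, y * h = h * y → y * b = b * y ∧ y * k = k * y := by
  have hs : IsSelfAdjoint h := hh
  have sp : ∀ t ∈ spectrum ℝ h, 1 / 2 ≤ t := fun t ht => by
    rcases subsingleton_or_nontrivial (Op H) with hH | hH
    · simp [spectrum.of_subsingleton] at ht
    have h2 : t - 1 ∈ spectrum ℝ (h - 1) := by
      have := spectrum.sub_singleton_eq h (1 : ℝ)
      rw [map_one] at this
      rw [← this]
      exact ⟨t, ht, 1, rfl, rfl⟩
    have h3 := (spectrum.norm_le_norm_of_mem h2).trans h1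
    rw [Real.norm_eq_abs, abs_le] at h3
    linarith
  have sq : ∀ t ∈ spectrum ℝ h, 1 / 2 ≤ √t := fun t ht =>
    Real.le_sqrt_of_sq_le (by linarith [sp t ht])
  have c1 : ContinuousOn (fun t : ℝ => (√t)⁻¹) (spectrum ℝ h) :=
    Real.continuous_sqrt.continuousOn.inv₀ fun t ht => by linarith [sq t ht]
  have c2 : ContinuousOn (fun t : ℝ => (√t * (1 + √t))⁻¹) (spectrum ℝ h) :=
    (by fun_prop : Continuous fun t : ℝ => √t * (1 + √t)).continuousOn.inv₀ fun t ht => by
      have := sq t ht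
      positivity
  refine ⟨cfc (fun t : ℝ => (√t)⁻¹) h, cfc (fun t : ℝ => (√t * (1 + √t))⁻¹) h,
    IsSelfAdjoint.cfc.star_eq, ?_, norm_cfc_le zero_le_two fun t ht => ?_,
    norm_cfc_le zero_le_two fun t ht => ?_, ?_, fun y hy => ⟨?_, ?_⟩⟩
  · conv_lhs => enter [1, 2]; rw [← cfc_id' ℝ h]
    rw [← cfc_mul _ _ h c1, ← cfc_mul (fun t : ℝ => (√t)⁻¹ * t) _ h (c1.mul continuousOn_id) c1,
      ← cfc_one ℝ h]
    refine cfc_congr fun t ht => ?_
    have := sq t ht
    have h3 := Real.mul_self_sqrt (show 0 ≤ t by linarith [sp t ht])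
    simp only [Pi.one_apply]
    field_simp
    linarith
  · have := sq t ht
    rw [Real.norm_of_nonneg (by positivity), inv_le_comm₀ (by positivity) two_pos]
    linarith
  · have := sq t ht
    rw [Real.norm_of_nonneg (by positivity), inv_le_comm₀ (by positivity) two_pos]
    nlinarith
  · conv_rhs => enter [2, 2]; rw [← cfc_id' ℝ h]
    rw [← cfc_one ℝ h, ← cfc_sub _ _ h c1, ← cfc_sub _ _ h, ← cfc_mul _ _ h c2]
    refine cfc_congr fun t ht => ?_
    have := sq t ht
    have h3 := Real.mul_self_sqrt (show 0 ≤ t by linarith [sp t ht])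
    simp only [Pi.one_apply]
    field_simp
    linarith
  · exact (Commute.cfc_real (show Commute h y from hy.symm) _).eq.symm
  · exact (Commute.cfc_real (show Commute h y from hy.symm) _).eq.symm

theorem tl_polar (X : Op H) (t : ℝ) (h1 : ‖X - 1‖ ≤ t) (h2 : t ≤ 1 / 10) : ∃ b : Op H,
    b * X ∈ unitary (Op H) ∧ star b = b ∧ ‖b * X - 1‖ ≤ 8 * t ∧
    ∀ y, y * (X * star X) = X * star X * y → y * b = b * y := by
  have t0 : 0 ≤ t := (norm_nonneg _).trans h1
  have n1 : ‖(1 : Op H)‖ ≤ 1 := (IsStarProjection.one _).norm_le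
  have hX : ‖X‖ ≤ 11 / 10 := by
    have := norm_add_le (X - 1) 1
    rw [sub_add_cancel] at this
    linarith
  have k1 : ‖X * star X - 1‖ ≤ 21 / 10 * t := by
    have e1 : X * star X - 1 = X * star (X - 1) + (X - 1) := by
      rw [star_sub, star_one]; noncomm_ring
    have := norm_mul_le X (star (X - 1))
    rw [norm_star] at this
    rw [e1]
    refine (norm_add_le _ _).trans ?_
    nlinarith [norm_nonneg (X - 1)]
  obtain ⟨b, k, a1, a2, -, a4, a5, a6⟩ := tl_sqrt (X * star X) (by simp) (by linarith)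
  have k2 : ‖b - 1‖ ≤ 21 / 5 * t := by
    rw [a5]
    refine (norm_mul_le _ _).trans ?_
    rw [norm_sub_rev]
    nlinarith [norm_nonneg (X * star X - 1)]
  have k3 : ‖b * X - 1‖ ≤ 8 * t := by
    have e1 : b * X - 1 = (b - 1) * X + (X - 1) := by noncomm_ring
    have := norm_mul_le (b - 1) X
    rw [e1]
    refine (norm_add_le _ _).trans ?_
    nlinarith [norm_nonneg (b - 1)]
  have k4 : b * X * star (b * X) = 1 := by
    rw [star_mul, a1, ← a2]; simp only [mul_assoc]
  refine ⟨b, ⟨?_, k4⟩, a1, k3, fun y hy => (a6 y hy).1⟩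
  have hu : IsUnit (b * X) := by
    have := (Units.oneSub (1 - b * X) (by rw [norm_sub_rev]; linarith)).isUnit
    simpa using this
  obtain ⟨w, hw⟩ := hu
  rw [← hw] at k4 ⊢
  rw [← w.inv_eq_of_mul_eq_one_right k4, Units.inv_mul]

end Vale.Agent.P096
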