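import Vale.Agent.P096.Defs
import Vale.Agent.P104.WStar

/-! From an approximate trace vector to a trace vector. -/

set_option linter.unusedSectionVars false

namespace Vale.Agent.P096

open Filter Topology Vale.Agent.P104
open scoped InnerProductSpace

universe u

variable {H : Type u} [NormedAddCommGroup H] [InnerProductSpace ℂ H] [CompleteSpace H]

theorem tv_ap (S T : Op H) (x : H) : (S * T) x = S (T x) := rfl

theorem tv_mid (x y : H) :
    ‖(1 / 2 : ℝ) • x + (1 / 2 : ℝ) • y‖ ^ 2 = (‖x‖ ^ 2 + ‖y‖ ^ 2) / 2 - ‖x - y‖ ^ 2 / 4 := by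
  have h := parallelogram_law_with_norm ℂ x y
  rw [← smul_add, norm_smul, Real.norm_eq_abs, abs_of_pos (by norm_num : (0 : ℝ) < 1 / 2)]
  nlinarith

/-- A uniformly bounded representation has a fixed point in each invariant closed convex set. -/
theorem tv_fix {G : Type*} [Group G] (W : G → Op H) (hm : ∀ u v, W u * W v = W (u * v))
    (hb : ∀ u, ‖W u‖ ≤ 2) {S : Set H} (hS : IsClosed S) (hc : Convex ℝ S) {ξ : H}
    (hξ : ∀ u, W u ξ ∈ S) : ∃ η ∈ S, ∀ u, W u η = η := by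
  have hap : ∀ u v η, W u (W v η) = W (u * v) η := fun u v η => by rw [← hm]; rfl
  have hle : ∀ u η, ‖W u η‖ ≤ 2 * ‖η‖ := fun u η => (W u).le_of_opNorm_le (hb u) η
  have hlin : ∀ u (s t : ℝ) (a b : H), W u (s • a + t • b) = s • W u a + t • W u b :=
    fun u s t a b => by
      rw [map_add, ContinuousLinearMap.map_smul_of_tower, ContinuousLinearMap.map_smul_of_tower]
  let C : Set H := {η | W 1 η = η ∧ ∀ u, W u η ∈ S}
  have hCinv : ∀ η ∈ C, ∀ v, W v η ∈ C := fun η hη v =>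
    ⟨by rw [hap, one_mul], fun u => by rw [hap]; exact hη.2 _⟩
  have hCc : IsClosed C := by
    refine IsClosed.and (isClosed_eq (W 1).continuous continuous_id) ?_
    rw [Set.ofPred_forall]
    exact isClosed_iInter fun u => hS.preimage (W u).continuous
  have hCm : ∀ a ∈ C, ∀ b ∈ C, (1 / 2 : ℝ) • a + (1 / 2 : ℝ) • b ∈ C := fun a ha b hb' =>
    ⟨by rw [hlin, ha.1, hb'.1], fun u => by
      rw [hlin]; exact hc (ha.2 u) (hb'.2 u) (by norm_num) (by norm_num) (by norm_num)⟩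
  let N : H → ℝ := fun η => ⨆ u, ‖W u η‖ ^ 2
  have hN1 : ∀ u η, ‖W u η‖ ^ 2 ≤ N η := fun u η => le_ciSup (f := fun u => ‖W u η‖ ^ 2)
    ⟨(2 * ‖η‖) ^ 2, by
      rintro _ ⟨v, rfl⟩
      exact pow_le_pow_left₀ (norm_nonneg _) (hle v η) 2⟩ u
  have hN2 : ∀ η c, (∀ u, ‖W u η‖ ^ 2 ≤ c) → N η ≤ c := fun η c h => ciSup_le h
  have hNinv : ∀ v η, N (W v η) ≤ N η := fun v η => hN2 _ _ fun u => by rw [hap]; exact hN1 _ _
  have hmid : ∀ a ∈ C, ∀ b ∈ C,
      N ((1 / 2 : ℝ) • a + (1 / 2 : ℝ) • b) ≤ (N a + N b) / 2 - ‖a - b‖ ^ 2 / 16 := by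
    intro a ha b hb'
    refine hN2 _ _ fun u => ?_
    have h1 : ‖a - b‖ ≤ 2 * ‖W u a - W u b‖ := by
      have := hle u⁻¹ (W u a - W u b)
      rwa [map_sub, hap, hap, inv_mul_cancel, ha.1, hb'.1] at this
    have h2 := pow_le_pow_left₀ (norm_nonneg _) h1 2
    rw [hlin, tv_mid]
    nlinarith [hN1 u a, hN1 u b]
  have h0 : W 1 ξ ∈ C := ⟨by rw [hap, one_mul], fun u => by rw [hap]; exact hξ _⟩
  have hbd : BddBelow (N '' C) := ⟨0, by
    rintro _ ⟨η, -, rfl⟩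
    exact (sq_nonneg _).trans (hN1 1 η)⟩
  have hmin : ∀ η ∈ C, sInf (N '' C) ≤ N η := fun η hη => csInf_le hbd ⟨η, hη, rfl⟩
  obtain ⟨r, -, hr, hrC⟩ := exists_seq_tendsto_sInf (Set.Nonempty.image N ⟨_, h0⟩) hbd
  choose a ha har using hrC
  set m := sInf (N '' C) with hmd
  have hcs : CauchySeq a := by
    rw [Metric.cauchySeq_iff']
    intro ε hε
    obtain ⟨n, hn⟩ := eventually_atTop.1 (hr.eventually (gt_mem_nhds
      (show m < m + ε ^ 2 / 16 from lt_add_of_pos_right _ (by positivity))))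
    refine ⟨n, fun k hk => ?_⟩
    have h1 := (hmin _ (hCm _ (ha k) _ (ha n))).trans (hmid _ (ha k) _ (ha n))
    rw [har, har] at h1
    rw [dist_eq_norm]
    refine lt_of_pow_lt_pow_left₀ 2 hε.le ?_
    linarith [hn k hk, hn n le_rfl]
  obtain ⟨η, hη⟩ := cauchySeq_tendsto_of_complete hcs
  have hηC : η ∈ C := hCc.mem_of_tendsto hη (.of_forall ha)
  have hηN : N η ≤ m := hN2 _ _ fun u =>
    le_of_tendsto_of_tendsto' ((((W u).continuous.tendsto η).comp hη).norm.pow 2) hr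
      fun n => (hN1 u (a n)).trans (har n).le
  refine ⟨η, hηC.1 ▸ hηC.2 1, fun u => ?_⟩
  have h1 := (hmin _ (hCm _ (hCinv η hηC u) _ hηC)).trans (hmid _ (hCinv η hηC u) _ hηC)
  have h2 : ‖W u η - η‖ ^ 2 ≤ 0 := by linarith [hNinv u η]
  exact sub_eq_zero.1 (norm_eq_zero.1 (pow_eq_zero_iff two_ne_zero |>.1
    (le_antisymm h2 (sq_nonneg _))))

variable {D : Type u} [CStarAlgebra D] {ρ : D →⋆ₐ[ℂ] Op H} {ξ : H} {P : Op H}

variable (ρ) in
/-- the orbit map -/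
noncomputable def tvEv (ξ : H) : D →ₗ[ℂ] H where
  toFun a := ρ a ξ
  map_add' a b := by simp
  map_smul' c a := by simp

variable (ρ) in
/-- the projection onto the cyclic subspace -/
structure TvP (ξ : H) (P : Op H) : Prop where
  proj : IsStarProjection P
  fix : ∀ a, P (ρ a ξ) = ρ a ξ
  comm : ∀ a, ρ a * P = P * ρ a
  ind : ∀ S : Set H, IsClosed S → (∀ a, ρ a ξ ∈ S) → ∀ η, P η ∈ S
  ext : ∀ (η : H) (c : ℝ), 0 ≤ c → (∀ a, ‖ρ a η‖ ≤ c * ‖ρ a ξ‖) →
    ∃ T : Op H, (∀ a, T (ρ a ξ) = ρ a η) ∧ ‖T‖ ≤ c ∧ T * P = T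

theorem tv_proj (hT : Tools.{u}) (ξ : H) : ∃ P, TvP ρ ξ P := by
  obtain ⟨P, h1, h2, h3, h4⟩ := hT.supp (Set.range fun a => ρ a ξ)
  have e : Submodule.span ℂ (Set.range fun a => ρ a ξ) = LinearMap.range (tvEv ρ ξ) :=
    Submodule.span_eq (LinearMap.range (tvEv ρ ξ))
  rw [e] at h3
  have hP : ∀ η, P (P η) = P η := fun η => congrArg (fun T : Op H => T η) h1.isIdempotentElem.eq
  refine ⟨P, h1, fun a => h2 _ ⟨a, rfl⟩, fun a => h4 _ ?_ ?_, fun S hS h η => ?_,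
    fun η c hc h => ?_⟩
  · rintro _ ⟨b, rfl⟩
    exact ⟨a * b, ws_mul_apply a b ξ⟩
  · rintro _ ⟨b, rfl⟩
    exact ⟨star a * b, by rw [← map_star]; exact ws_mul_apply _ b ξ⟩
  · refine closure_minimal ?_ hS (h3 η)
    rintro _ ⟨a, rfl⟩
    exact h a
  · let K := (LinearMap.range (tvEv ρ ξ)).topologicalClosure
    let ev : D →ₗ[ℂ] K := (tvEv ρ ξ).codRestrict K fun a =>
      Submodule.le_topologicalClosure _ (LinearMap.mem_range_self _ a)
    have hd : DenseRange ev := by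
      intro x
      rw [closure_subtype]
      refine closure_mono ?_ x.2
      rintro _ ⟨a, rfl⟩
      exact ⟨ev a, ⟨a, rfl⟩, rfl⟩
    have hn : ∀ a, ‖tvEv ρ η a‖ ≤ c * ‖ev a‖ := h
    let Q : H →L[ℂ] K := P.codRestrict K h3
    refine ⟨(tvEv ρ η).extendOfNorm ev ∘L Q, fun a => ?_, ?_, ?_⟩
    · have : Q (ρ a ξ) = ev a := Subtype.ext (h2 _ ⟨a, rfl⟩)
      rw [ContinuousLinearMap.comp_apply, this]
      exact LinearMap.extendOfNorm_eq hd ⟨c, hn⟩ a
    · refine ContinuousLinearMap.opNorm_le_bound _ hc fun ζ => ?_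
      refine (LinearMap.norm_extendOfNorm_apply_le hd c hn _).trans ?_
      refine mul_le_mul_of_nonneg_left ?_ hc
      exact (P.le_of_opNorm_le h1.norm_le ζ).trans (one_mul _).le
    · refine ContinuousLinearMap.ext fun ζ => ?_
      have : Q (P ζ) = Q ζ := Subtype.ext (hP ζ)
      rw [tv_ap, ContinuousLinearMap.comp_apply, this]
      rfl

theorem TvP.uniq (h : TvP ρ ξ P) {S T : Op H} (hS : S * P = S) (hT : T * P = T)
    (e : ∀ a, S (ρ a ξ) = T (ρ a ξ)) : S = T := by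
  rw [← hS, ← hT]
  exact ContinuousLinearMap.ext fun η =>
    h.ind {ζ | S ζ = T ζ} (isClosed_eq S.continuous T.continuous) e η

theorem TvP.commT (h : TvP ρ ξ P) {T : Op H} {η : H} (h1 : ∀ a, T (ρ a ξ) = ρ a η)
    (h2 : T * P = T) (b : D) : T * ρ b = ρ b * T := by
  refine h.uniq (by rw [mul_assoc, h.comm, ← mul_assoc, h2]) (by rw [mul_assoc, h2]) fun a => ?_
  rw [tv_ap, tv_ap, ← ws_mul_apply, h1, h1,
    ws_mul_apply]

theorem TvP.leftT (h : TvP ρ ξ P) {T : Op H} {η : H} (h1 : ∀ a, T (ρ a ξ) = ρ a η)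
    (h2 : T * P = T) (h3 : P η = η) : P * T = T := by
  refine h.uniq (by rw [mul_assoc, h2]) h2 fun a => ?_
  rw [tv_ap, h1, ← tv_ap, ← h.comm,
    tv_ap, h3]

theorem tv_adj (T : Op H) (x y : H) : ⟪x, star T y⟫_ℂ = ⟪T x, y⟫_ℂ := by
  rw [ContinuousLinearMap.star_eq_adjoint, ContinuousLinearMap.adjoint_inner_right]

theorem tv_unit (hK : ∀ a, ‖ρ a ξ‖ ^ 2 ≤ 2 * ‖ρ (star a) ξ‖ ^ 2) (a : D) (u : unitary D) :
    ‖ρ (a * u) ξ‖ ≤ 2 * ‖ρ a ξ‖ := by
  have h1 := hK (a * u)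
  have h2 := hK (star a)
  have h3 := ws_norm_le (ρ := ρ) (star (u : D)) (ρ (star a) ξ)
  have h4 : ‖star (u : D)‖ ≤ 1 := by
    rw [norm_star]
    exact (PI.of_proj (IsStarProjection.one D) (Unitary.star_mul_self_of_mem u.2)).norm_le
  rw [star_mul, ws_mul_apply (star (u : D))] at h1
  rw [star_star] at h2
  have h5 := pow_le_pow_left₀ (norm_nonneg _)
    (h3.trans (mul_le_of_le_one_left (norm_nonneg _) h4)) 2
  exact le_of_sq_le_sq (by rw [mul_pow]; linarith) (by positivity)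

theorem tv_inv (h : TvP ρ ξ P) (hK : ∀ a, ‖ρ a ξ‖ ^ 2 ≤ 2 * ‖ρ (star a) ξ‖ ^ 2) :
    ∃ η, P η = η ∧ (∀ a, ‖ρ a η‖ ≤ 4 * ‖ρ a ξ‖ ∧ ‖ρ a ξ‖ ^ 2 / 4 ≤ (⟪ρ a ξ, ρ a η⟫_ℂ).re ∧
      (⟪ρ a ξ, ρ a η⟫_ℂ).im = 0) ∧
      ∀ (u : unitary D) (x : D), ⟪ξ, ρ x η⟫_ℂ = ⟪ξ, ρ (star (u : D) * x * u) η⟫_ℂ := by
  have hex := fun u : unitary D => h.ext (ρ u ξ) 2 zero_le_two fun a => by
    rw [← ws_mul_apply]; exact tv_unit hK a u
  choose R R1 R2 R3 using hex
  have R4 : ∀ u b, R u * ρ b = ρ b * R u := fun u b => h.commT (R1 u) (R3 u) b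
  have R5 : ∀ u b, star (R u) * ρ b = ρ b * star (R u) := fun u b => by
    have := congrArg star (R4 u (star b))
    rw [star_mul, star_mul, ← map_star, star_star] at this
    exact this.symm
  have R6 : ∀ u v, R v * R u = R (u * v) := fun u v =>
    h.uniq (by rw [mul_assoc, R3]) (R3 _) fun a => by
      rw [tv_ap, R1, R1, ← ws_mul_apply, R1, ← ws_mul_apply,
        ← ws_mul_apply, mul_assoc]
      rfl
  have R7 : R 1 = P := h.uniq (R3 1) h.proj.isIdempotentElem.eq fun a => by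
    rw [R1, h.fix, ← ws_mul_apply]
    exact congrArg (fun b => ρ b ξ) (mul_one a)
  have hu1 : ∀ u : unitary D, ‖(u : D)‖ ≤ 1 := fun u =>
    (PI.of_proj (IsStarProjection.one D) (Unitary.star_mul_self_of_mem u.2)).norm_le
  have hkey : ∀ (u : unitary D) a, ρ a ((star (R u) * ρ u) ξ) = star (R u) (ρ (a * u) ξ) :=
    fun u a => by
      rw [← tv_ap, ← mul_assoc, ← R5, mul_assoc, ← map_mul]
      rfl
  obtain ⟨η, hη, hfix⟩ := tv_fix (fun u : unitary D => star (R u) * ρ u)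
    (fun u v => by
      rw [← R6, star_mul, mul_assoc, ← mul_assoc (ρ u), ← R5, mul_assoc, ← map_mul, ← mul_assoc]
      rfl)
    (fun u => (norm_mul_le _ _).trans (by
      rw [norm_star]
      have := (NonUnitalStarAlgHom.norm_apply_le ρ (u : D)).trans (hu1 u)
      nlinarith [R2 u, norm_nonneg (R u), norm_nonneg (ρ u)]))
    (S := ⋂ a, {η | ‖ρ a η‖ ≤ 4 * ‖ρ a ξ‖ ∧ ‖ρ a ξ‖ ^ 2 / 4 ≤ (⟪ρ a ξ, ρ a η⟫_ℂ).re ∧
      (⟪ρ a ξ, ρ a η⟫_ℂ).im = 0})
    (isClosed_iInter fun a => IsClosed.and (isClosed_le (by fun_prop) continuous_const)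
      (IsClosed.and (isClosed_le continuous_const (by fun_prop))
        (isClosed_eq (by fun_prop) continuous_const)))
    (convex_iInter fun a x hx y hy s t hs ht hst => by
      have e : ρ a (s • x + t • y) = (s : ℂ) • ρ a x + (t : ℂ) • ρ a y := by
        rw [map_add, ContinuousLinearMap.map_smul_of_tower, ContinuousLinearMap.map_smul_of_tower]
        rfl
      refine ⟨?_, ?_, ?_⟩
      · rw [e]
        refine (norm_add_le _ _).trans ?_
        rw [norm_smul, norm_smul, Complex.norm_real, Complex.norm_real, Real.norm_of_nonneg hs,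
          Real.norm_of_nonneg ht]
        have h1 := mul_le_mul_of_nonneg_left hx.1 hs
        have h2 := mul_le_mul_of_nonneg_left hy.1 ht
        have h3 : s * (4 * ‖ρ a ξ‖) + t * (4 * ‖ρ a ξ‖) = 4 * ‖ρ a ξ‖ := by
          rw [← add_mul, hst, one_mul]
        linarith
      · rw [e, inner_add_right, inner_smul_right, inner_smul_right, Complex.add_re,
          Complex.re_ofReal_mul, Complex.re_ofReal_mul]
        have h1 := mul_le_mul_of_nonneg_left hx.2.1 hs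
        have h2 := mul_le_mul_of_nonneg_left hy.2.1 ht
        have h3 : s * (‖ρ a ξ‖ ^ 2 / 4) + t * (‖ρ a ξ‖ ^ 2 / 4) = ‖ρ a ξ‖ ^ 2 / 4 := by
          rw [← add_mul, hst, one_mul]
        linarith
      · rw [e, inner_add_right, inner_smul_right, inner_smul_right, Complex.add_im,
          Complex.im_ofReal_mul, Complex.im_ofReal_mul, hx.2.2, hy.2.2]
        ring)
    (ξ := ξ) (fun u => Set.mem_iInter.2 fun a => by
      have h1 := tv_unit hK a u
      have h2 := tv_unit hK (a * u) (star u)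
      rw [mul_assoc, Unitary.coe_star, Unitary.mul_star_self_of_mem u.2, mul_one] at h2
      have h3 : ⟪ρ a ξ, star (R u) (ρ (a * u) ξ)⟫_ℂ = ((‖ρ (a * u) ξ‖ ^ 2 : ℝ) : ℂ) := by
        rw [tv_adj, R1, ← ws_mul_apply, inner_self_eq_norm_sq_to_K]
        norm_cast
      refine ⟨?_, ?_, ?_⟩
      · rw [hkey]
        have := (star (R u)).le_of_opNorm_le ((norm_star _).trans_le (R2 u)) (ρ (a * u) ξ)
        linarith
      · rw [hkey, h3, Complex.ofReal_re]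
        nlinarith [pow_le_pow_left₀ (norm_nonneg _) h2 2]
      · rw [hkey, h3, Complex.ofReal_im])
  refine ⟨η, ?_, Set.mem_iInter.1 hη, fun u x => ?_⟩
  · have := hfix 1
    rw [R7, h.proj.isSelfAdjoint.star_eq] at this
    simpa using this
  · conv_lhs => rw [← hfix u, ← star_star x, ← ws_inner, tv_ap, tv_adj,
      R1, ← ws_mul_apply, ws_inner, ← ws_mul_apply, star_mul, star_star]

theorem tv_main (hT : Tools.{u}) (hK : ∀ a, ‖ρ a ξ‖ ^ 2 ≤ 2 * ‖ρ (star a) ξ‖ ^ 2) :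
    ∃ Ω, (∀ a, ‖ρ (star a) Ω‖ = ‖ρ a Ω‖) ∧ (∀ a, ‖ρ a ξ‖ ≤ 2 * ‖ρ a Ω‖) ∧
      ∀ a, ‖ρ a Ω‖ ≤ 2 * ‖ρ a ξ‖ := by
  obtain ⟨P, h⟩ := tv_proj (ρ := ρ) hT ξ
  obtain ⟨η, h1, h2, h3⟩ := tv_inv h hK
  obtain ⟨T, T1, -, T3⟩ := h.ext η 4 (by norm_num) fun a => (h2 a).1
  have T4 := h.commT T1 T3
  have T5 := h.leftT T1 T3 h1
  have T0 : 0 ≤ T := by
    rw [ContinuousLinearMap.nonneg_iff_isPositive, ContinuousLinearMap.isPositive_iff_complex]
    intro ζ
    have h4 := h.ind {ζ | 0 ≤ (⟪ζ, T ζ⟫_ℂ).re ∧ (⟪ζ, T ζ⟫_ℂ).im = 0}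
      (IsClosed.and (isClosed_le continuous_const (by fun_prop))
        (isClosed_eq (by fun_prop) continuous_const))
      (fun a => by
        rw [Set.mem_ofPred_eq, T1]
        exact ⟨le_trans (by positivity) (h2 a).2.1, (h2 a).2.2⟩) ζ
    rw [Set.mem_ofPred_eq, ← tv_adj, h.proj.isSelfAdjoint.star_eq, ← tv_ap,
      ← tv_ap, T5, T3, ← inner_conj_symm, Complex.conj_re,
      Complex.conj_im, neg_eq_zero] at h4
    exact ⟨Complex.ext rfl h4.2.symm, h4.1⟩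
  have hc : ∀ b, CFC.sqrt T * ρ b = ρ b * CFC.sqrt T := fun b =>
    (Commute.cfcₙ_nnreal (show Commute T (ρ b) from T4 b) _).eq
  have hn : ∀ a, ‖ρ a (CFC.sqrt T ξ)‖ ^ 2 = (⟪ρ a ξ, ρ a η⟫_ℂ).re := fun a => by
    rw [← tv_ap, ← hc, tv_ap,
      @norm_sq_eq_re_inner ℂ, ← tv_adj, (CFC.sqrt_nonneg T).isSelfAdjoint.star_eq,
      ← tv_ap (CFC.sqrt T), CFC.sqrt_mul_sqrt_self T T0, T1]
    rfl
  have htr : ∀ a y, ⟪ξ, ρ (a * y) η⟫_ℂ = ⟪ξ, ρ (y * a) η⟫_ℂ := fun a y => by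
    obtain ⟨u, c, rfl, -⟩ := CStarAlgebra.exists_sum_four_unitary a
    simp only [Finset.sum_mul, Finset.mul_sum, smul_mul_assoc, mul_smul_comm, map_sum, map_smul,
      sum_apply, smul_apply, inner_sum, inner_smul_right]
    refine Finset.sum_congr rfl fun i _ => ?_
    rw [h3 (u i), ← mul_assoc, Unitary.star_mul_self_of_mem (u i).2, one_mul]
  refine ⟨CFC.sqrt T ξ, fun a => ?_, fun a => ?_, fun a => ?_⟩
  · refine (pow_left_inj₀ (norm_nonneg _) (norm_nonneg _) two_ne_zero).1 ?_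
    rw [hn, hn, ws_inner, ws_inner, ← ws_mul_apply, ← ws_mul_apply, star_star, htr]
  · refine le_of_sq_le_sq ?_ (by positivity)
    rw [mul_pow, hn]
    linarith [(h2 a).2.1]
  · refine le_of_sq_le_sq ?_ (by positivity)
    rw [mul_pow, hn]
    have h4 := (Complex.re_le_norm _).trans (norm_inner_le_norm (𝕜 := ℂ) (ρ a ξ) (ρ a η))
    nlinarith [mul_le_mul_of_nonneg_left (h2 a).1 (norm_nonneg (ρ a ξ))]

end Vale.Agent.P096
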